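import Vale.Agent.P046.Sh.StepDefs

/-! # P046 Sh, module BETA: real analysis of `be` -/

namespace Vale.Agent.P046.Sh.BETA

open Finset Vale.Agent.P046 Vale.Agent.P046.Sh

theorem aux1 {L L' : ℝ} (h' : L' ≠ 0) (_h : L ≠ 0) (h1 : L - 1 / 2 ≠ 0) :
    (L' - 1 / 2) / L' / ((L - 1 / 2) / L) - 1 = (L' - L) / (2 * L' * (L - 1 / 2)) := by
  obtain ⟨z, hz⟩ : ∃ z, z = L - 1 / 2 := ⟨_, rfl⟩
  have hL : L = z + 1 / 2 := by rw [hz]; ring
  rw [← hz] at h1 ⊢
  rw [div_div_eq_mul_div, div_sub_one h1, div_eq_div_iff h1 (by positivity)]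
  field_simp
  rw [hL]
  ring

theorem aux2 {L L' : ℝ} (h' : L' ≠ 0) (h1 : L - 1 / 2 ≠ 0) :
    (6 * L') * (L' - 1 / 2) / (6 * L' * (L - 1 / 2)) = 1 + (L' - L) / (L - 1 / 2) := by
  obtain ⟨z, hz⟩ : ∃ z, z = L - 1 / 2 := ⟨_, rfl⟩
  have hL : L = z + 1 / 2 := by rw [hz]; ring
  rw [← hz] at h1 ⊢
  field_simp
  rw [hL]
  ring

/-- the algebra of one step -/
theorem key {L L' : ℝ} (hL : 1 / 2 < L) (hLL : L ≤ L') (x : ℝ) (hx0 : 0 ≤ x)
    (hx : (L' - L) * x ≤ 6 * L') :
    0 < be L ∧ be L' ≤ be L ∧ (be L - be L') * (x * (L' - 1 / 2) / 3) ≤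
      1 + (L' - L) / (L - 1 / 2) := by
  have hL0 : 0 < L := by linarith
  have hL'0 : 0 < L' := by linarith
  have h1 : 0 < L - 1 / 2 := by linarith
  have h2 : 0 < L' - 1 / 2 := by linarith
  have e1 : th L = (L - 1 / 2) / L := by
    unfold th
    field_simp
  have e2 : th L' = (L' - 1 / 2) / L' := by
    unfold th
    field_simp
  have ht : 0 < th L := by rw [e1]; positivity
  have ht' : 0 < th L' := by rw [e2]; positivity
  have hlt : th L < 1 := by
    unfold th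
    have : 0 < 1 / (2 * L) := by positivity
    linarith
  have hle : th L ≤ th L' := by
    unfold th
    have : 1 / (2 * L') ≤ 1 / (2 * L) := one_div_le_one_div_of_le (by linarith) (by linarith)
    linarith
  refine ⟨?_, ?_, ?_⟩
  · unfold be
    have := Real.log_neg ht hlt
    linarith
  · unfold be
    have := Real.log_le_log ht hle
    linarith
  · have h3 : be L - be L' ≤ (L' - L) / (2 * L' * (L - 1 / 2)) := by
      have h4 : be L - be L' = Real.log (th L' / th L) := by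
        unfold be
        rw [Real.log_div ht'.ne' ht.ne']
        ring
      have h5 : th L' / th L - 1 = (L' - L) / (2 * L' * (L - 1 / 2)) := by
        rw [e1, e2]
        exact aux1 hL'0.ne' hL0.ne' h1.ne'
      rw [h4, ← h5]
      exact Real.log_le_sub_one_of_pos (by positivity)
    have h6 : 0 ≤ x * (L' - 1 / 2) / 3 := by positivity
    calc (be L - be L') * (x * (L' - 1 / 2) / 3)
        ≤ (L' - L) / (2 * L' * (L - 1 / 2)) * (x * (L' - 1 / 2) / 3) :=
          mul_le_mul_of_nonneg_right h3 h6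
      _ = ((L' - L) * x) * (L' - 1 / 2) / (6 * L' * (L - 1 / 2)) := by
          field_simp
          ring
      _ ≤ (6 * L') * (L' - 1 / 2) / (6 * L' * (L - 1 / 2)) := by
          gcongr
      _ = 1 + (L' - L) / (L - 1 / 2) := aux2 hL'0.ne' h1.ne'

theorem thm : StmtBETA := by
  intro l0 Lmax eps hl0 heps
  set A : ℝ := |Lmax| + 1 with hA
  have hA1 : 0 < A := by positivity
  set eta : ℝ := eps * (l0 - 1 / 2) with heta
  have heta0 : 0 < eta := mul_pos heps (by linarith)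
  obtain ⟨n0, hn0⟩ := exists_nat_gt ((144 * A / eta + 36) / (eta / 2))
  refine ⟨n0 + 1, fun n m hn hL hLm => ?_⟩
  have hn1 : (1 : ℝ) ≤ n := by exact_mod_cast (show 1 ≤ n by omega)
  have hnn : (n0 : ℝ) ≤ n := by exact_mod_cast (show n0 ≤ n by omega)
  have hn3 : (0 : ℝ) < (n : ℝ) ^ 3 := by positivity
  have hn3' : (n : ℝ) ≤ (n : ℝ) ^ 3 := le_self_pow₀ hn1 (by norm_num)
  have hm0 : (0 : ℝ) ≤ m := Nat.cast_nonneg m
  have hdiff : lam n (m + 3 : ℕ) - lam n m = (24 * m + 36) / (n : ℝ) ^ 3 := by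
    unfold lam
    push_cast
    field_simp
    ring
  have hLL : lam n m ≤ lam n (m + 3 : ℕ) := by
    have : 0 ≤ (24 * (m : ℝ) + 36) / (n : ℝ) ^ 3 := by positivity
    linarith
  have hx : (lam n (m + 3 : ℕ) - lam n m) * ((m + 3 : ℕ) : ℝ) ≤ 6 * lam n (m + 3 : ℕ) := by
    rw [hdiff]
    unfold lam
    push_cast
    rw [div_mul_eq_mul_div, ← mul_div_assoc, div_le_div_iff_of_pos_right hn3]
    nlinarith
  obtain ⟨k1, k2, k3⟩ := key (by linarith) hLL ((m + 3 : ℕ) : ℝ) (by positivity) hx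
  refine ⟨k1, k2, k3.trans ?_⟩
  have hsm : lam n (m + 3 : ℕ) - lam n m ≤ eta := by
    rw [hdiff]
    have hLA : lam n m ≤ A := by
      have := le_abs_self Lmax
      linarith
    have hm2 : 4 * (m : ℝ) ^ 2 ≤ A * (n : ℝ) ^ 3 := by
      unfold lam at hLA
      rwa [div_le_iff₀ hn3] at hLA
    -- 24 m <= (eta / 2) n^3 + 144 A / eta... via AM-GM
    have h1 : 24 * (m : ℝ) ≤ (2 * eta / A) * (m : ℝ) ^ 2 + 144 * A / eta := by
      have h2 : 0 ≤ (2 * eta / A) * ((m : ℝ) - 6 * A / eta) ^ 2 := by positivity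
      have h3 : (2 * eta / A) * ((m : ℝ) - 6 * A / eta) ^ 2 =
          (2 * eta / A) * (m : ℝ) ^ 2 - 24 * m + 72 * A / eta := by
        field_simp
        ring
      have h4 : 0 ≤ 72 * A / eta := by positivity
      have h5 : 144 * A / eta = 72 * A / eta + 72 * A / eta := by ring
      linarith
    have h6 : (2 * eta / A) * (m : ℝ) ^ 2 ≤ (eta / 2) * (n : ℝ) ^ 3 := by
      have h7 : (2 * eta / A) * (m : ℝ) ^ 2 = (eta / (2 * A)) * (4 * (m : ℝ) ^ 2) := by
        field_simp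
        ring
      have h8 : (eta / (2 * A)) * (A * (n : ℝ) ^ 3) = (eta / 2) * (n : ℝ) ^ 3 := by
        field_simp
      rw [h7, ← h8]
      gcongr
    have h9 : 144 * A / eta + 36 ≤ (eta / 2) * (n : ℝ) ^ 3 := by
      have h10 := (div_lt_iff₀ (by positivity : (0 : ℝ) < eta / 2)).1 hn0
      have h11 : (n0 : ℝ) ≤ (n : ℝ) ^ 3 := hnn.trans hn3'
      nlinarith
    rw [div_le_iff₀ hn3]
    linarith
  have h1 : 0 < lam n m - 1 / 2 := by linarith
  have h2 : (lam n (m + 3 : ℕ) - lam n m) / (lam n m - 1 / 2) ≤ eps := by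
    rw [div_le_iff₀ h1]
    refine hsm.trans ?_
    rw [heta]
    exact mul_le_mul_of_nonneg_left (by linarith) heps.le
  linarith

end Vale.Agent.P046.Sh.BETA
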