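import Vale.Agent.P046.Sh.Defs

/-! # P046 Sh, module CELL: splitting into finitely many cells -/

namespace Vale.Agent.P046.Sh.CELL

open Finset Vale.Agent.P046 Vale.Agent.P046.Sh

variable {n : ℕ}

/-- entropy of a probability vector -/
theorem entr {ι : Type*} (I : Finset ι) (p : ι → ℝ) (h0 : ∀ i, 0 ≤ p i)
    (h1 : ∑ i ∈ I, p i = 1) (hI : I.Nonempty) :
    - Real.log I.card ≤ ∑ i ∈ I, p i * Real.log (p i) := by
  have hc : (0 : ℝ) < I.card := by exact_mod_cast hI.card_pos
  have key : ∀ i ∈ I, p i - 1 / (I.card : ℝ) ≤ p i * Real.log (p i) + p i * Real.log I.card := by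
    intro i _
    rcases eq_or_lt_of_le (h0 i) with h | h
    · rw [← h]
      have : 0 < 1 / (I.card : ℝ) := by positivity
      simp
    · have e1 : Real.log (1 / (p i * I.card)) ≤ 1 / (p i * I.card) - 1 :=
        Real.log_le_sub_one_of_pos (by positivity)
      rw [one_div, Real.log_inv, Real.log_mul h.ne' hc.ne'] at e1
      have e2 := mul_le_mul_of_nonneg_left e1 h.le
      have e3 : p i * ((p i * (I.card : ℝ))⁻¹ - 1) = 1 / (I.card : ℝ) - p i := by
        field_simp
      rw [e3] at e2
      linarith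
  have hs := sum_le_sum key
  rw [sum_sub_distrib, h1, sum_const, nsmul_eq_mul, mul_one_div_cancel hc.ne', sum_add_distrib,
    ← sum_mul, h1] at hs
  linarith

/-- mass of a cell -/
noncomputable def pc (mu : Finset (Finset (Fin n)) → ℝ) {ι : Type}
    (f : Finset (Finset (Fin n)) → ι) (i : ι) : ℝ := by
  classical exact ∑ G ∈ (pairs n).powerset, if f G = i then mu G else 0

/-- normalised cell -/
noncomputable def nc (mu : Finset (Finset (Fin n)) → ℝ) {ι : Type}
    (f : Finset (Finset (Fin n)) → ι) (i : ι) (G : Finset (Finset (Fin n))) : ℝ := by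
  classical exact (if f G = i then mu G else 0) / pc mu f i

theorem pc_nonneg {mu : Finset (Finset (Fin n)) → ℝ} (h : ∀ G, 0 ≤ mu G) {ι : Type}
    (f : Finset (Finset (Fin n)) → ι) (i : ι) : 0 ≤ pc mu f i := by
  classical
  unfold pc
  refine sum_nonneg (fun G _ => ?_)
  split_ifs
  · exact h G
  · exact le_rfl

theorem mul_nc {mu : Finset (Finset (Fin n)) → ℝ} (h : ∀ G, 0 ≤ mu G) {ι : Type}
    (f : Finset (Finset (Fin n)) → ι) (i : ι) (G : Finset (Finset (Fin n)))
    (hG : G ⊆ pairs n) : by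
      classical exact pc mu f i * nc mu f i G = if f G = i then mu G else 0 := by
  classical
  unfold nc
  by_cases hp : pc mu f i = 0
  · rw [hp, zero_mul]
    have h1 : ∀ G ∈ (pairs n).powerset, 0 ≤ (if f G = i then mu G else 0) := by
      intro G _
      split_ifs
      · exact h G
      · exact le_rfl
    unfold pc at hp
    exact ((sum_eq_zero_iff_of_nonneg h1).1 hp G (mem_powerset.2 hG)).symm
  · rw [mul_div_cancel₀ _ hp]

theorem sum_ind {mu : Finset (Finset (Fin n)) → ℝ} {ι : Type} (I : Finset ι)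
    (f : Finset (Finset (Fin n)) → ι) (hf : ∀ G, mu G ≠ 0 → f G ∈ I)
    (G : Finset (Finset (Fin n))) : by
      classical exact ∑ i ∈ I, (if f G = i then mu G else 0) = mu G := by
  classical
  by_cases h : mu G = 0
  · rw [h]
    exact sum_eq_zero (fun i _ => by split_ifs <;> rfl)
  · rw [sum_ite_eq, if_pos (hf G h)]

theorem EX_split {mu : Finset (Finset (Fin n)) → ℝ} (h : ∀ G, 0 ≤ mu G) {ι : Type}
    (I : Finset ι) (f : Finset (Finset (Fin n)) → ι) (hf : ∀ G, mu G ≠ 0 → f G ∈ I)
    (F : Finset (Finset (Fin n)) → ℝ) :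
    EX mu F = ∑ i ∈ I, pc mu f i * EX (nc mu f i) F := by
  classical
  unfold EX
  simp only [mul_sum]
  rw [sum_comm]
  refine sum_congr rfl (fun G hG => ?_)
  have h1 : ∀ i ∈ I, pc mu f i * (nc mu f i G * F G) = (if f G = i then mu G else 0) * F G := by
    intro i _
    rw [← mul_assoc, mul_nc h f i G (mem_powerset.1 hG)]
  rw [sum_congr rfl h1, ← sum_mul, sum_ind I f hf G]

theorem nc_prb {mu : Finset (Finset (Fin n)) → ℝ} {m : ℕ} (hmu : Prb mu m) {ι : Type}
    (f : Finset (Finset (Fin n)) → ι) (i : ι) (hp : 0 < pc mu f i) :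
    Prb (nc mu f i) m ∧ (∀ G, nc mu f i G ≠ 0 → mu G ≠ 0 ∧ f G = i) := by
  classical
  have h2 : ∀ G, nc mu f i G ≠ 0 → mu G ≠ 0 ∧ f G = i := by
    intro G hG
    unfold nc at hG
    by_cases h : f G = i
    · rw [if_pos h] at hG
      refine ⟨fun h0 => hG ?_, h⟩
      rw [h0, zero_div]
    · rw [if_neg h, zero_div] at hG
      exact absurd rfl hG
  refine ⟨⟨fun G => ?_, fun G hG => hmu.2.1 G (h2 G hG).1, ?_⟩, h2⟩
  · unfold nc
    refine div_nonneg ?_ hp.le
    split_ifs
    · exact hmu.1 G
    · exact le_rfl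
  · unfold EX nc
    simp only [mul_one]
    rw [← sum_div]
    have : ∑ G ∈ (pairs n).powerset, (if f G = i then mu G else 0) = pc mu f i := by
      unfold pc
      rfl
    rw [this, div_self hp.ne']

theorem prb_sum {nu : Finset (Finset (Fin n)) → ℝ} {m : ℕ} (h : Prb nu m) :
    ∑ G ∈ (pairs n).powersetCard m, nu G = 1 := by
  classical
  rw [← h.2.2]
  unfold EX
  simp only [mul_one]
  refine sum_subset (fun G hG => ?_) (fun G hG hG' => ?_)
  · exact mem_powerset.2 (mem_powersetCard.1 hG).1
  · by_contra h0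
    exact hG' (mem_powersetCard.2 (h.2.1 G h0))

theorem DD_split {mu : Finset (Finset (Fin n)) → ℝ} {m : ℕ} (hmu : Prb mu m) {ι : Type}
    (I : Finset ι) (f : Finset (Finset (Fin n)) → ι) (hf : ∀ G, mu G ≠ 0 → f G ∈ I) :
    DD mu m = ∑ i ∈ I, (pc mu f i * DD (nc mu f i) m + pc mu f i * Real.log (pc mu f i)) := by
  classical
  have h0 := hmu.1
  have key : ∀ i ∈ I, pc mu f i * DD (nc mu f i) m + pc mu f i * Real.log (pc mu f i) =
      ∑ G ∈ (pairs n).powersetCard m, (if f G = i then mu G else 0) *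
        Real.log (mu G * ((pairs n).card.choose m : ℝ)) := by
    intro i _
    rcases eq_or_lt_of_le (pc_nonneg h0 f i) with hp | hp
    · rw [← hp, zero_mul, zero_mul, add_zero]
      symm
      refine sum_eq_zero (fun G hG => ?_)
      rw [← mul_nc h0 f i G (mem_powersetCard.1 hG).1, ← hp, zero_mul, zero_mul]
    · obtain ⟨h1, h2⟩ := nc_prb hmu f i hp
      have e1 : pc mu f i * Real.log (pc mu f i) = ∑ G ∈ (pairs n).powersetCard m,
          pc mu f i * (nc mu f i G * Real.log (pc mu f i)) := by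
        rw [← mul_sum, ← sum_mul, prb_sum h1, one_mul]
      rw [e1]
      unfold DD
      rw [mul_sum, ← sum_add_distrib]
      refine sum_congr rfl (fun G hG => ?_)
      rw [← mul_nc h0 f i G (mem_powersetCard.1 hG).1]
      by_cases hz : nc mu f i G = 0
      · rw [hz]
        ring
      · have hmG : mu G = pc mu f i * nc mu f i G := by
          rw [mul_nc h0 f i G (mem_powersetCard.1 hG).1, if_pos (h2 G hz).2]
        have hC : ((pairs n).card.choose m : ℝ) ≠ 0 := by
          have hm : m ≤ (pairs n).card := by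
            rw [← (mem_powersetCard.1 hG).2]
            exact card_le_card (mem_powersetCard.1 hG).1
          exact_mod_cast (Nat.choose_pos hm).ne'
        rw [show mu G * ((pairs n).card.choose m : ℝ) = pc mu f i *
          (nc mu f i G * ((pairs n).card.choose m : ℝ)) by rw [hmG]; ring,
          Real.log_mul hp.ne' (mul_ne_zero hz hC)]
        ring
  rw [sum_congr rfl key, sum_comm]
  unfold DD
  refine sum_congr rfl (fun G hG => ?_)
  rw [← sum_mul, sum_ind I f hf G]

/-- module CELL -/
theorem thm : StmtCELL := by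
  classical
  intro n m mu ι I f hmu hI hf
  have h0 := hmu.1
  have hsum : ∑ i ∈ I, pc mu f i = 1 := by
    have h1 := EX_split h0 I f hf (fun _ => 1)
    rw [hmu.2.2] at h1
    rw [h1]
    refine sum_congr rfl (fun i _ => ?_)
    rcases eq_or_lt_of_le (pc_nonneg h0 f i) with hp | hp
    · rw [← hp, zero_mul]
    · rw [(nc_prb hmu f i hp).1.2.2, mul_one]
  refine ⟨pc mu f, nc mu f, pc_nonneg h0 f, hsum, fun i _ hp => nc_prb hmu f i hp,
    EX_split h0 I f hf, fun i hi G => ?_, ?_⟩
  · unfold nc
    rw [hi, div_zero]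
  · rw [DD_split hmu I f hf, sum_add_distrib]
    have := entr I (pc mu f) (pc_nonneg h0 f) hsum hI
    linarith

end Vale.Agent.P046.Sh.CELL
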