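import Vale.Agent.P046.Sh.Defs

/-! # P046 Sh, module CHJ: one-edge chain rule and Donsker-Varadhan -/

namespace Vale.Agent.P046.Sh.CHJ

open Finset Vale.Agent.P046 Vale.Agent.P046.Sh

variable {n : ℕ}

/-- Gibbs inequality with weights -/
theorem gibbs {ι : Type*} (s : Finset ι) (w psi : ι → ℝ) (hw : ∀ e ∈ s, 0 ≤ w e)
    (M C0 : ℝ) (hM : 0 < M) (hC : 0 < C0) :
    ∑ e ∈ s, w e * psi e - (∑ e ∈ s, w e) * Real.log ((∑ e ∈ s, Real.exp (psi e)) / M)
      ≤ ∑ e ∈ s, w e * Real.log (w e * (M * C0)) - (∑ e ∈ s, w e) *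
        Real.log ((∑ e ∈ s, w e) * C0) := by
  set A := ∑ e ∈ s, w e with hA
  set S := ∑ e ∈ s, Real.exp (psi e) with hS
  have hA0 : 0 ≤ A := sum_nonneg hw
  rcases eq_or_lt_of_le hA0 with h0 | hApos
  · have hz : ∀ e ∈ s, w e = 0 := (sum_eq_zero_iff_of_nonneg hw).1 h0.symm
    rw [← h0, sum_congr rfl (fun e he => by rw [hz e he, zero_mul]),
      sum_congr rfl (fun e he => by
        rw [hz e he, zero_mul] : ∀ e ∈ s, w e * Real.log (w e * (M * C0)) = 0)]
    simp
  · have hne : s.Nonempty := by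
      rw [nonempty_iff_ne_empty]
      intro h
      rw [hA, h, sum_empty] at hApos
      exact lt_irrefl _ hApos
    have hSpos : 0 < S := sum_pos (fun e _ => Real.exp_pos _) hne
    have key : ∀ e ∈ s, w e * psi e - w e * Real.log (S / M) -
        w e * Real.log (w e * (M * C0)) + w e * Real.log (A * C0)
        ≤ Real.exp (psi e) * (A / S) - w e := by
      intro e he
      rcases eq_or_lt_of_le (hw e he) with h1 | h1
      · rw [← h1]
        have : 0 ≤ Real.exp (psi e) * (A / S) := by positivity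
        simpa using this
      · have e1 : psi e - Real.log (S / M) - Real.log (w e * (M * C0)) + Real.log (A * C0)
            = Real.log (Real.exp (psi e) * (A / S) / w e) := by
          rw [Real.log_div (by positivity) h1.ne', Real.log_mul (Real.exp_pos _).ne'
            (by positivity), Real.log_exp, Real.log_div hApos.ne' hSpos.ne',
            Real.log_div hSpos.ne' hM.ne', Real.log_mul h1.ne' (by positivity),
            Real.log_mul hM.ne' hC.ne', Real.log_mul hApos.ne' hC.ne']
          ring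
        have e2 : Real.log (Real.exp (psi e) * (A / S) / w e)
            ≤ Real.exp (psi e) * (A / S) / w e - 1 :=
          Real.log_le_sub_one_of_pos (by positivity)
        calc _ = w e * (psi e - Real.log (S / M) - Real.log (w e * (M * C0))
              + Real.log (A * C0)) := by ring
          _ ≤ w e * (Real.exp (psi e) * (A / S) / w e - 1) := by
              rw [e1]
              exact mul_le_mul_of_nonneg_left e2 h1.le
          _ = _ := by
              field_simp
    have hsum := sum_le_sum key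
    have e3 : ∑ e ∈ s, (Real.exp (psi e) * (A / S) - w e) = 0 := by
      rw [sum_sub_distrib, ← sum_mul, ← hS, ← hA]
      field_simp
      ring
    rw [e3] at hsum
    simp only [sum_add_distrib, sum_sub_distrib, ← sum_mul] at hsum
    linarith

/-- the bijection `(G, e) ↔ (G - e, e)` -/
theorem bij (f : Finset (Finset (Fin n)) → Finset (Fin n) → ℝ) :
    ∑ G ∈ (pairs n).powerset, ∑ e ∈ G, f G e =
      ∑ H ∈ (pairs n).powerset, ∑ e ∈ pairs n \ H, f (insert e H) e := by
  rw [sum_sigma', sum_sigma']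
  refine sum_bij' (fun x _ => ⟨x.1.erase x.2, x.2⟩) (fun x _ => ⟨insert x.2 x.1, x.2⟩)
    ?_ ?_ ?_ ?_ ?_
  · rintro ⟨G, e⟩ hx
    simp only [mem_sigma, mem_powerset, mem_sdiff] at hx ⊢
    exact ⟨(erase_subset _ _).trans hx.1, hx.1 hx.2, notMem_erase _ _⟩
  · rintro ⟨H, e⟩ hx
    simp only [mem_sigma, mem_powerset, mem_sdiff] at hx ⊢
    exact ⟨insert_subset hx.2.1 hx.1, mem_insert_self _ _⟩
  · rintro ⟨G, e⟩ hx
    simp only [mem_sigma] at hx
    simp [insert_erase hx.2]
  · rintro ⟨H, e⟩ hx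
    simp only [mem_sigma, mem_sdiff] at hx
    simp [erase_insert hx.2.2]
  · rintro ⟨G, e⟩ hx
    simp only [mem_sigma] at hx
    simp [insert_erase hx.2]

/-- for supported weight vectors the entropy is a sum over all graphs -/
theorem DD_eq (mu : Finset (Finset (Fin n)) → ℝ) (m : ℕ)
    (h : ∀ G, mu G ≠ 0 → G ⊆ pairs n ∧ G.card = m) :
    DD mu m = ∑ G ∈ (pairs n).powerset,
      mu G * Real.log (mu G * ((pairs n).card.choose m : ℝ)) := by
  unfold DD
  apply sum_subset
  · intro G hG
    rw [mem_powersetCard] at hG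
    exact mem_powerset.2 hG.1
  · intro G _ hG
    have : mu G = 0 := by
      by_contra hne
      exact hG (mem_powersetCard.2 (h G hne))
    rw [this, zero_mul]

/-- support of `mi` -/
theorem mi_supp {nu : Finset (Finset (Fin n)) → ℝ} {j : ℕ} (h : Prb nu (j + 1))
    (H : Finset (Finset (Fin n))) (hH : mi nu j H ≠ 0) : H ⊆ pairs n ∧ H.card = j := by
  unfold mi at hH
  have h1 : ∑ e ∈ pairs n \ H, nu (insert e H) ≠ 0 := by
    intro h0
    rw [h0, zero_div] at hH
    exact hH rfl
  obtain ⟨e, he, hne⟩ := exists_ne_zero_of_sum_ne_zero h1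
  rw [mem_sdiff] at he
  have h2 := h.2.1 _ hne
  refine ⟨(subset_insert _ _).trans h2.1, ?_⟩
  have := h2.2
  rw [card_insert_of_notMem he.2] at this
  omega

theorem thm : StmtCHJ := by
  intro n j nu psi hnu hj
  have hj1 : (0 : ℝ) < (j : ℝ) + 1 := by positivity
  have hMpos : (0 : ℝ) < ((pairs n).card : ℝ) - j := by
    have : ((j + 1 : ℕ) : ℝ) ≤ ((pairs n).card : ℝ) := by exact_mod_cast hj
    push_cast at this
    linarith
  have hC0 : (0 : ℝ) < ((pairs n).card.choose j : ℝ) := by
    exact_mod_cast Nat.choose_pos (by omega)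
  have hch : ((j : ℝ) + 1) * ((pairs n).card.choose (j + 1) : ℝ) =
      (((pairs n).card : ℝ) - j) * ((pairs n).card.choose j : ℝ) := by
    have h1 := Nat.choose_succ_right_eq (pairs n).card j
    have h2 : (((pairs n).card - j : ℕ) : ℝ) = ((pairs n).card : ℝ) - j := by
      rw [Nat.cast_sub (by omega)]
    rw [← h2]
    have h3 : (((pairs n).card.choose (j + 1) * (j + 1) : ℕ) : ℝ) =
      (((pairs n).card.choose j * ((pairs n).card - j) : ℕ) : ℝ) := by rw [h1]
    push_cast [h2] at h3
    rw [h2]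
    linarith
  -- weights
  have hmi : ∀ H : Finset (Finset (Fin n)),
      mi nu j H = ∑ e ∈ pairs n \ H, nu (insert e H) / ((j : ℝ) + 1) := by
    intro H
    unfold mi
    rw [sum_div]
  have hsplit : ∀ F : Finset (Finset (Fin n)) → ℝ, ∀ G : Finset (Finset (Fin n)),
      nu G * F G = ∑ e ∈ G, nu G / ((j : ℝ) + 1) * F G := by
    intro F G
    by_cases h0 : nu G = 0
    · rw [h0]; simp
    · have hc := (hnu.2.1 G h0).2
      rw [sum_const, hc, nsmul_eq_mul]
      push_cast
      field_simp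
  have hA1 : EX nu (fun G => (∑ e ∈ G, psi (G.erase e) e) / ((j : ℝ) + 1)) =
      ∑ H ∈ (pairs n).powerset, ∑ e ∈ pairs n \ H, nu (insert e H) / ((j : ℝ) + 1) * psi H e := by
    unfold EX
    have : ∀ G ∈ (pairs n).powerset,
        nu G * ((∑ e ∈ G, psi (G.erase e) e) / ((j : ℝ) + 1)) =
        ∑ e ∈ G, nu G / ((j : ℝ) + 1) * psi (G.erase e) e := by
      intro G _
      rw [← mul_sum]
      ring
    rw [sum_congr rfl this, bij (fun G e => nu G / ((j : ℝ) + 1) * psi (G.erase e) e)]
    refine sum_congr rfl fun H _ => sum_congr rfl fun e he => ?_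
    rw [erase_insert (mem_sdiff.1 he).2]
  have hA2 : EX (mi nu j) (fun H => Real.log ((∑ e ∈ pairs n \ H, Real.exp (psi H e))
        / (((pairs n).card : ℝ) - j))) =
      ∑ H ∈ (pairs n).powerset, (∑ e ∈ pairs n \ H, nu (insert e H) / ((j : ℝ) + 1)) *
        Real.log ((∑ e ∈ pairs n \ H, Real.exp (psi H e)) / (((pairs n).card : ℝ) - j)) := by
    unfold EX
    refine sum_congr rfl fun H _ => ?_
    rw [hmi]
  have hA3 : DD nu (j + 1) = ∑ H ∈ (pairs n).powerset, ∑ e ∈ pairs n \ H,
      nu (insert e H) / ((j : ℝ) + 1) * Real.log (nu (insert e H) / ((j : ℝ) + 1) *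
        ((((pairs n).card : ℝ) - j) * ((pairs n).card.choose j : ℝ))) := by
    rw [DD_eq nu (j + 1) hnu.2.1]
    rw [sum_congr rfl (fun G _ => hsplit (fun G => Real.log (nu G *
      ((pairs n).card.choose (j + 1) : ℝ))) G)]
    rw [bij (fun G _ => nu G / ((j : ℝ) + 1) * Real.log (nu G *
      ((pairs n).card.choose (j + 1) : ℝ)))]
    refine sum_congr rfl fun H _ => sum_congr rfl fun e he => ?_
    congr 2
    rw [← hch]
    field_simp
  have hA4 : DD (mi nu j) j = ∑ H ∈ (pairs n).powerset,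
      (∑ e ∈ pairs n \ H, nu (insert e H) / ((j : ℝ) + 1)) *
        Real.log ((∑ e ∈ pairs n \ H, nu (insert e H) / ((j : ℝ) + 1)) *
          ((pairs n).card.choose j : ℝ)) := by
    rw [DD_eq (mi nu j) j (fun H hH => mi_supp hnu H hH)]
    refine sum_congr rfl fun H _ => ?_
    rw [hmi]
  rw [hA1, hA2, hA3, hA4, ← sum_sub_distrib, ← sum_sub_distrib]
  refine sum_le_sum fun H _ => ?_
  exact gibbs (pairs n \ H) (fun e => nu (insert e H) / ((j : ℝ) + 1)) (psi H)
    (fun e _ => div_nonneg (hnu.1 _) hj1.le) _ _ hMpos hC0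

end Vale.Agent.P046.Sh.CHJ
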