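import Vale.Agent.P046.Sh.StepDefs

/-!
P046 sharp, module DET: the partition function of one reverse step.
-/

namespace Vale.Agent.P046.Sh.DET

open Finset

variable {n : ℕ}

theorem choose_step (N k m : ℕ) (hk : m ≤ k) (hk2 : k ≤ m + 2) (hN : m + 3 ≤ N) :
    (N.choose k : ℝ) * ((N : ℝ) - m - 2) ≤ (N.choose (k + 1) : ℝ) * ((m : ℝ) + 3) := by
  have h := Nat.choose_succ_right_eq N k
  have h2 : ((N.choose (k + 1) * (k + 1) : ℕ) : ℝ) = ((N.choose k * (N - k) : ℕ) : ℝ) := by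
    rw [h]
  rw [Nat.cast_mul, Nat.cast_mul, Nat.cast_sub (by omega : k ≤ N)] at h2
  push_cast at h2
  have h3 : (k : ℝ) ≤ (m : ℝ) + 2 := by exact_mod_cast hk2
  have c0 : (0 : ℝ) ≤ (N.choose k : ℝ) := by positivity
  have c1 : (0 : ℝ) ≤ (N.choose (k + 1) : ℝ) := by positivity
  calc (N.choose k : ℝ) * ((N : ℝ) - m - 2) ≤ (N.choose k : ℝ) * ((N : ℝ) - k) :=
        mul_le_mul_of_nonneg_left (by linarith) c0
    _ = (N.choose (k + 1) : ℝ) * ((k : ℝ) + 1) := h2.symm
    _ ≤ _ := mul_le_mul_of_nonneg_left (by linarith) c1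

theorem rat_le (N m : ℕ) (hN : m + 3 ≤ N) :
    (N.choose m : ℝ) / (N.choose (m + 3) : ℝ) ≤ (((m : ℝ) + 3) / ((N : ℝ) - m - 2)) ^ 3 := by
  have hD : (0 : ℝ) < (N : ℝ) - m - 2 := by
    have : ((m + 3 : ℕ) : ℝ) ≤ (N : ℝ) := by exact_mod_cast hN
    push_cast at this
    linarith
  have hM : (0 : ℝ) < (m : ℝ) + 3 := by positivity
  have hc : (0 : ℝ) < (N.choose (m + 3) : ℝ) := by
    exact_mod_cast Nat.choose_pos hN
  have s0 := choose_step N m m le_rfl (by omega) hN
  have s1 := choose_step N (m + 1) m (by omega) (by omega) hN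
  have s2 := choose_step N (m + 2) m (by omega) (by omega) hN
  rw [div_pow, div_le_div_iff₀ hc (by positivity)]
  set D := (N : ℝ) - m - 2
  set M := (m : ℝ) + 3
  calc (N.choose m : ℝ) * D ^ 3 = ((N.choose m : ℝ) * D) * D ^ 2 := by ring
    _ ≤ ((N.choose (m + 1) : ℝ) * M) * D ^ 2 := mul_le_mul_of_nonneg_right s0 (by positivity)
    _ = ((N.choose (m + 1) : ℝ) * D) * (M * D) := by ring
    _ ≤ ((N.choose (m + 1 + 1) : ℝ) * M) * (M * D) :=
        mul_le_mul_of_nonneg_right s1 (by positivity)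
    _ = ((N.choose (m + 2) : ℝ) * D) * (M ^ 2) := by ring
    _ ≤ ((N.choose (m + 2 + 1) : ℝ) * M) * M ^ 2 :=
        mul_le_mul_of_nonneg_right s2 (by positivity)
    _ = _ := by ring

/-- the bracket is at most `exp eps` -/
theorem bracket (n m : ℕ) (L eta : ℝ) (h0 : 0 < eta) (h1 : eta ≤ 1) (hn3 : 3 ≤ n)
    (hL : L = 4 * (m : ℝ) ^ 2 / (n : ℝ) ^ 3) (hL0 : 1 / 2 < L)
    (hn1 : 72 / eta ^ 2 ≤ n) (hn2 : 16 * L / eta ^ 2 ≤ n) (hn4 : 20 / eta ≤ n) :
    m + 3 ≤ (pairs n).card ∧ 0 < m ∧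
    rat n m * ((n.choose 3 : ℕ) : ℝ) * (3 / (m * L)) ≤ Real.exp (6 * eta) := by
  have hnr : (3 : ℝ) ≤ n := by exact_mod_cast hn3
  have hn0 : (0 : ℝ) < n := by linarith
  have hcard : ((pairs n).card : ℝ) = (n : ℝ) * (n - 1) / 2 := by
    unfold pairs
    rw [card_powersetCard, card_univ, Fintype.card_fin]
    exact Nat.cast_choose_two ℝ n
  have hLn : L * (n : ℝ) ^ 3 = 4 * (m : ℝ) ^ 2 := by
    rw [hL]
    field_simp
  have hmnn : (0 : ℝ) ≤ m := Nat.cast_nonneg m
  have he2 : 0 < eta ^ 2 := by positivity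
  rw [div_le_iff₀ he2] at hn1 hn2
  rw [div_le_iff₀ h0] at hn4
  -- upper bound of m
  have hm_up : 2 * (m : ℝ) ≤ eta * (n : ℝ) ^ 2 / 4 := by
    have h3 : (2 * (m : ℝ)) ^ 2 ≤ (eta * (n : ℝ) ^ 2 / 4) ^ 2 := by
      have : (2 * (m : ℝ)) ^ 2 = L * (n : ℝ) ^ 3 := by
        rw [hLn]
        ring
      rw [this]
      have h5 : 16 * L * (n : ℝ) ^ 3 ≤ n * eta ^ 2 * (n : ℝ) ^ 3 :=
        mul_le_mul_of_nonneg_right hn2 (by positivity)
      nlinarith
    exact le_of_sq_le_sq h3 (by positivity)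
  -- lower bound of m
  have hm_lo : 3 ≤ eta * m := by
    have h3 : (3 : ℝ) ^ 2 ≤ (eta * m) ^ 2 := by
      have h5 : (n : ℝ) ≤ (n : ℝ) ^ 3 := by nlinarith [mul_self_nonneg ((n : ℝ) - 1)]
      have h6 : (n : ℝ) ^ 3 / 2 ≤ L * (n : ℝ) ^ 3 := by
        have := mul_le_mul_of_nonneg_right hL0.le (by positivity : (0 : ℝ) ≤ (n : ℝ) ^ 3)
        linarith
      have h7 : (n : ℝ) / 8 ≤ (m : ℝ) ^ 2 := by nlinarith
      have h8 : (n : ℝ) / 8 * eta ^ 2 ≤ (m : ℝ) ^ 2 * eta ^ 2 :=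
        mul_le_mul_of_nonneg_right h7 he2.le
      nlinarith
    exact le_of_sq_le_sq h3 (by positivity)
  have hm0 : (0 : ℝ) < m := by
    by_contra hc
    have : (m : ℝ) = 0 := le_antisymm (not_lt.1 hc) hmnn
    rw [this] at hm_lo
    linarith
  have hn5 : (n : ℝ) + 4 ≤ eta * (n : ℝ) ^ 2 / 4 := by nlinarith
  -- the key inequality
  have hkey : (n : ℝ) ^ 2 / 2 ≤ (1 + eta) * (((pairs n).card : ℝ) - m - 2) := by
    rw [hcard]
    nlinarith
  have hDpos : (0 : ℝ) < ((pairs n).card : ℝ) - m - 2 := by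
    by_contra hc
    push Not at hc
    have : (1 + eta) * (((pairs n).card : ℝ) - m - 2) ≤ 0 :=
      mul_nonpos_of_nonneg_of_nonpos (by linarith) hc
    have : (0 : ℝ) < (n : ℝ) ^ 2 / 2 := by positivity
    linarith
  have hN : m + 3 ≤ (pairs n).card := by
    have h3 : ((m + 2 : ℕ) : ℝ) < ((pairs n).card : ℝ) := by
      push_cast
      linarith
    have h4 : m + 2 < (pairs n).card := by exact_mod_cast h3
    omega
  refine ⟨hN, by exact_mod_cast hm0, ?_⟩
  have hr := rat_le (pairs n).card m hN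
  have hc3 : ((n.choose 3 : ℕ) : ℝ) ≤ (n : ℝ) ^ 3 / 6 := by
    have := Nat.choose_le_pow_div (α := ℝ) 3 n
    norm_num [Nat.factorial] at this
    exact this
  set D := ((pairs n).card : ℝ) - m - 2 with hD
  have hr0 : 0 ≤ rat n m := by
    unfold rat
    positivity
  have hL00 : 0 < L := by linarith
  have hmL : (m : ℝ) * L = 4 * (m : ℝ) ^ 3 / (n : ℝ) ^ 3 := by
    rw [hL]
    ring
  have e1 : rat n m * ((n.choose 3 : ℕ) : ℝ) * (3 / (m * L))
      ≤ (((m : ℝ) + 3) / D) ^ 3 * ((n : ℝ) ^ 3 / 6) * (3 / (m * L)) := by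
    refine mul_le_mul_of_nonneg_right ?_ (by positivity)
    refine mul_le_mul hr hc3 (by positivity) (by positivity)
  have e2 : (((m : ℝ) + 3) / D) ^ 3 * ((n : ℝ) ^ 3 / 6) * (3 / (m * L))
      = ((1 + 3 / (m : ℝ)) * ((n : ℝ) ^ 2 / 2 / D)) ^ 3 := by
    rw [hmL]
    field_simp
    ring
  have f1 : 1 + 3 / (m : ℝ) ≤ Real.exp eta := by
    have : 3 / (m : ℝ) ≤ eta := by
      rw [div_le_iff₀ hm0]
      exact hm_lo
    have := Real.add_one_le_exp eta
    linarith
  have f2 : (n : ℝ) ^ 2 / 2 / D ≤ Real.exp eta := by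
    have : (n : ℝ) ^ 2 / 2 / D ≤ 1 + eta := by
      rw [div_le_iff₀ hDpos]
      exact hkey
    have := Real.add_one_le_exp eta
    linarith
  have f3 : (1 + 3 / (m : ℝ)) * ((n : ℝ) ^ 2 / 2 / D) ≤ Real.exp eta * Real.exp eta :=
    mul_le_mul f1 f2 (by positivity) (Real.exp_pos _).le
  calc _ ≤ _ := e1
    _ = ((1 + 3 / (m : ℝ)) * ((n : ℝ) ^ 2 / 2 / D)) ^ 3 := e2
    _ ≤ (Real.exp eta * Real.exp eta) ^ 3 := pow_le_pow_left₀ (by positivity) f3 3
    _ = Real.exp (6 * eta) := by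
        rw [← Real.exp_add, ← Real.exp_nat_mul]
        congr 1
        push_cast
        ring

theorem Q_nonneg (G : Finset (Finset (Fin n))) : 0 ≤ Q G := by
  unfold Q
  positivity

/-- one term -/
theorem term (hCN : StmtCNADD) (H : Finset (Finset (Fin n))) (hH : H ⊆ pairs n)
    (T : Finset (Fin n)) (hT : T ∈ anti H) (L : ℝ) (hL : 1 / 2 < L) (hQ : 0 < Q H) :
    Real.exp (- (be L * (Q (add H T) - Q H))) / Q (add H T)
      ≤ th L * (∏ e ∈ eds T, (th L) ^ (cn H e)) / Q H := by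
  obtain ⟨_, _, _, _, _, hq⟩ := hCN n H T hH hT
  have hth : 0 < th L := by
    unfold th
    have : 1 / (2 * L) < 1 := by
      rw [div_lt_one (by linarith)]
      linarith
    linarith
  have hs : 0 ≤ ∑ e ∈ eds T, (cn H e : ℝ) := sum_nonneg fun e _ => Nat.cast_nonneg _
  have hQ2 : Q H ≤ Q (add H T) := by
    rw [hq]
    linarith
  have e1 : Real.exp (- (be L * (Q (add H T) - Q H)))
      = th L * ∏ e ∈ eds T, (th L) ^ (cn H e) := by
    rw [hq]
    have : -(be L * (Q H + 1 + ∑ e ∈ eds T, (cn H e : ℝ) - Q H))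
        = Real.log (th L) + ∑ e ∈ eds T, (cn H e : ℝ) * Real.log (th L) := by
      unfold be
      rw [← sum_mul]
      ring
    rw [this, Real.exp_add, Real.exp_log hth, Real.exp_sum]
    congr 1
    refine prod_congr rfl fun e _ => ?_
    rw [Real.exp_nat_mul, Real.exp_log hth]
  rw [e1]
  have hp : 0 ≤ th L * ∏ e ∈ eds T, (th L) ^ (cn H e) :=
    mul_nonneg hth.le (prod_nonneg fun e _ => by positivity)
  exact div_le_div_of_nonneg_left hp hQ hQ2

theorem thm (hCN : StmtCNADD) : StmtDET := by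
  intro l0 Lmax eps hl0 heps
  set eta : ℝ := min (eps / 6) 1 with heta
  have h0 : 0 < eta := lt_min (by linarith) one_pos
  have h1 : eta ≤ 1 := min_le_right _ _
  have h6 : 6 * eta ≤ eps := by
    have := min_le_left (eps / 6) 1
    linarith
  obtain ⟨n0, hn0⟩ := exists_nat_ge (72 / eta ^ 2 + 16 * |Lmax| / eta ^ 2 + 20 / eta + 3)
  refine ⟨n0, ?_⟩
  intro n H hn hH hL1 hL2 hx hS
  have hnr : (n0 : ℝ) ≤ n := by exact_mod_cast hn
  have p1 : 0 ≤ 72 / eta ^ 2 := by positivity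
  have p2 : 0 ≤ 16 * |Lmax| / eta ^ 2 := by positivity
  have p3 : 0 ≤ 20 / eta := by positivity
  have hn3 : 3 ≤ n := by
    have : (3 : ℝ) ≤ n := by linarith
    exact_mod_cast this
  set L := lam n H.card with hLdef
  have hLhalf : 1 / 2 < L := lt_of_lt_of_le hl0 hL1
  have hLle : 16 * L / eta ^ 2 ≤ n := by
    have : 16 * L / eta ^ 2 ≤ 16 * |Lmax| / eta ^ 2 := by
      apply div_le_div_of_nonneg_right _ (by positivity)
      have := le_abs_self Lmax
      linarith
    linarith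
  obtain ⟨hN, hm, hB⟩ := bracket n H.card L eta h0 h1 hn3 (by rw [hLdef]; rfl) hLhalf
    (by linarith) hLle (by linarith)
  have hmr : (0 : ℝ) < H.card := by exact_mod_cast hm
  have hxpos : 0 < xr H := by
    have := (abs_le.1 hx).1
    linarith
  have hden : 0 < (H.card : ℝ) * (L - 1 / 2) := mul_pos hmr (by linarith)
  have hxr : xr H = 3 * Q H / ((H.card : ℝ) * (L - 1 / 2)) := rfl
  have hQ : 0 < Q H := by
    by_contra hc
    have : Q H = 0 := le_antisymm (not_lt.1 hc) (Q_nonneg H)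
    rw [hxr, this] at hxpos
    simp at hxpos
  have hth : 0 < th L := by
    unfold th
    have : 1 / (2 * L) < 1 := by
      rw [div_lt_one (by linarith)]
      linarith
    linarith
  have hc3 : (0 : ℝ) < ((n.choose 3 : ℕ) : ℝ) := by
    exact_mod_cast Nat.choose_pos hn3
  set S := ∑ T ∈ anti H, Real.exp (- (be L * (Q (add H T) - Q H))) / Q (add H T) with hSdef
  have hSle : S ≤ th L * (t3 H * ((n.choose 3 : ℕ) : ℝ)) / Q H := by
    have e1 : t3 H * ((n.choose 3 : ℕ) : ℝ)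
        = ∑ T ∈ (univ : Finset (Fin n)).powersetCard 3, ∏ e ∈ eds T, (th L) ^ (cn H e) := by
      unfold t3
      rw [div_mul_cancel₀ _ hc3.ne']
    rw [e1, mul_sum, sum_div]
    calc S ≤ ∑ T ∈ anti H, th L * (∏ e ∈ eds T, (th L) ^ (cn H e)) / Q H :=
          sum_le_sum fun T hT => term hCN H hH T hT L hLhalf hQ
      _ ≤ _ := by
          refine sum_le_sum_of_subset_of_nonneg ?_ ?_
          · unfold anti
            exact filter_subset _ _
          · intro T _ _
            exact div_nonneg (mul_nonneg hth.le (prod_nonneg fun e _ => by positivity)) hQ.le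
  have ht3 : 0 < t3 H := by
    by_contra hc
    have : th L * (t3 H * ((n.choose 3 : ℕ) : ℝ)) / Q H ≤ 0 := by
      apply div_nonpos_of_nonpos_of_nonneg _ hQ.le
      exact mul_nonpos_of_nonneg_of_nonpos hth.le
        (mul_nonpos_of_nonpos_of_nonneg (not_lt.1 hc) hc3.le)
    linarith
  have hrat : 0 < rat n H.card := by
    unfold rat
    have a1 : (0 : ℝ) < ((pairs n).card.choose H.card : ℝ) := by
      exact_mod_cast Nat.choose_pos (by omega)
    have a2 : (0 : ℝ) < ((pairs n).card.choose (H.card + 3) : ℝ) := by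
      exact_mod_cast Nat.choose_pos hN
    positivity
  have hmain : rat n H.card * S ≤ Real.exp eps * (t3 H / xr H) := by
    have e2 : rat n H.card * (th L * (t3 H * ((n.choose 3 : ℕ) : ℝ)) / Q H)
        = (rat n H.card * ((n.choose 3 : ℕ) : ℝ) * (3 / (H.card * L))) * (t3 H / xr H) := by
      rw [hxr]
      have hL0 : L ≠ 0 := by linarith
      have hL2' : L - 1 / 2 ≠ 0 := by
        have : 0 < L - 1 / 2 := by linarith
        exact this.ne'
      have hthL : th L = (L - 1 / 2) / L := by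
        unfold th
        field_simp
      rw [hthL]
      have hL3 : (2 * L - 1) ≠ 0 := by
        have : 0 < 2 * L - 1 := by linarith
        exact this.ne'
      field_simp
    calc rat n H.card * S ≤ rat n H.card * (th L * (t3 H * ((n.choose 3 : ℕ) : ℝ)) / Q H) :=
          mul_le_mul_of_nonneg_left hSle hrat.le
      _ = _ := e2
      _ ≤ Real.exp (6 * eta) * (t3 H / xr H) := mul_le_mul_of_nonneg_right hB (by positivity)
      _ ≤ _ := mul_le_mul_of_nonneg_right (Real.exp_le_exp.2 h6) (by positivity)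
  have hlog : Real.log (rat n H.card * S) ≤ Real.log (Real.exp eps * (t3 H / xr H)) :=
    Real.log_le_log (mul_pos hrat hS) hmain
  rw [Real.log_mul (Real.exp_pos _).ne' (by positivity), Real.log_exp,
    Real.log_div ht3.ne' hxpos.ne'] at hlog
  have hlt : Real.log (t3 H) ≤ lt3 H := by
    unfold lt3
    exact Real.log_le_log ht3 (by
      have : (0 : ℝ) ≤ 1 / Real.sqrt n := by positivity
      linarith)
  linarith

end Vale.Agent.P046.Sh.DET
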