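import Vale.Agent.P046.Sh.DynDefs

/-! # P046 sharp, module DYN: assembly of the dynamic part -/

namespace Vale.Agent.P046.Sh.DYN

open Finset

theorem pairs_card (n : ℕ) : ((pairs n).card : ℝ) = (n : ℝ) * ((n : ℝ) - 1) / 2 := by
  unfold pairs
  rw [card_powersetCard, card_univ, Fintype.card_fin, Nat.cast_choose_two]

theorem big (A : ℝ) : ∃ n1 : ℕ, ∀ n : ℕ, n1 ≤ n → A ≤ (n : ℝ) ^ ((3 : ℝ) / 2) ∧
    A * (n : ℝ) ^ ((3 : ℝ) / 2) ≤ (n : ℝ) * ((n : ℝ) - 1) / 2 ∧ A ≤ (n : ℝ) ^ 2 ∧ 2 ≤ n := by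
  set B : ℝ := max A 1 with hB
  have hB1 : 1 ≤ B := le_max_right _ _
  have hAB : A ≤ B := le_max_left _ _
  refine ⟨⌈16 * B ^ 2 + 2⌉₊, fun n hn => ?_⟩
  have hn' : 16 * B ^ 2 + 2 ≤ (n : ℝ) := (Nat.le_ceil _).trans (by exact_mod_cast hn)
  have hn0 : (0 : ℝ) < n := by nlinarith
  have hn2 : (2 : ℝ) ≤ n := by nlinarith
  have h32 : (n : ℝ) ^ ((3 : ℝ) / 2) = n * Real.sqrt n := by
    rw [Real.sqrt_eq_rpow, show (3 : ℝ) / 2 = 1 + 1 / 2 by norm_num, Real.rpow_add hn0,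
      Real.rpow_one]
  have hs : 4 * B ≤ Real.sqrt n := by
    apply Real.le_sqrt_of_sq_le
    nlinarith
  have hss : Real.sqrt n * Real.sqrt n = n := Real.mul_self_sqrt hn0.le
  have hs0 : 0 ≤ Real.sqrt n := Real.sqrt_nonneg _
  rw [h32]
  refine ⟨?_, ?_, ?_, by exact_mod_cast hn2⟩
  · have h1 : (1 : ℝ) * Real.sqrt n ≤ n * Real.sqrt n :=
      mul_le_mul_of_nonneg_right (by linarith) hs0
    linarith
  · have h1 : A * (n * Real.sqrt n) ≤ B * (n * Real.sqrt n) :=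
      mul_le_mul_of_nonneg_right hAB (by positivity)
    have h2 : B * (n * Real.sqrt n) ≤ (Real.sqrt n / 4) * (n * Real.sqrt n) :=
      mul_le_mul_of_nonneg_right (by linarith) (by positivity)
    have h3 : (Real.sqrt n / 4) * (n * Real.sqrt n) = n * n / 4 := by
      rw [show (Real.sqrt n / 4) * (n * Real.sqrt n) = n * (Real.sqrt n * Real.sqrt n) / 4 by ring, hss]
    nlinarith
  · nlinarith

/-- index selection -/
theorem idx (M : ℕ) (a : ℝ) (ha : 0 ≤ a) (haM : a ≤ M) : ∃ i : ℕ, 3 * i ≤ M ∧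
    a ≤ (M : ℝ) - 3 * i ∧ (M : ℝ) - 3 * i ≤ a + 3 := by
  set x : ℝ := ((M : ℝ) - a) / 3 with hx
  have hx0 : 0 ≤ x := by rw [hx]; linarith
  have h1 := Nat.floor_le hx0
  have h2 := Nat.lt_floor_add_one x
  refine ⟨⌊x⌋₊, ?_, ?_, ?_⟩
  · have : (3 : ℝ) * (⌊x⌋₊ : ℝ) ≤ M := by linarith
    exact_mod_cast this
  · linarith
  · linarith

theorem kc_facts : 1 / 3 ≤ kc ∧ kc ≤ 36 / 100 ∧ 4 * kc ^ 2 = 1 / 2 ∧ 1 ≤ 4 * kc ∧ 0 < kc := by
  have h2 : (0 : ℝ) ≤ Real.sqrt 2 := Real.sqrt_nonneg 2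
  have hs : Real.sqrt 2 * Real.sqrt 2 = 2 := Real.mul_self_sqrt (by norm_num)
  have hlo : 14 / 10 ≤ Real.sqrt 2 := Real.le_sqrt_of_sq_le (by norm_num)
  have hhi : Real.sqrt 2 ≤ 3 / 2 := Real.sqrt_le_iff.mpr ⟨by norm_num, by norm_num⟩
  have hpos : 0 < Real.sqrt 2 := by linarith
  unfold kc
  have hkc : 1 / (2 * Real.sqrt 2) = Real.sqrt 2 / 4 := by
    rw [div_eq_div_iff (by positivity) (by norm_num)]
    nlinarith
  rw [hkc]
  refine ⟨by linarith, by nlinarith, by nlinarith, by linarith, by linarith⟩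

theorem lam_eq (n : ℕ) (m : ℝ) : lam n m = 4 * m ^ 2 / (n : ℝ) ^ 3 := rfl

theorem r_sq (n : ℕ) (hn : 0 < n) : ((n : ℝ) ^ ((3 : ℝ) / 2)) ^ 2 = (n : ℝ) ^ 3 := by
  have hn0 : (0 : ℝ) < n := by exact_mod_cast hn
  rw [← Real.rpow_natCast, ← Real.rpow_mul hn0.le, ← Real.rpow_natCast]
  norm_num

theorem lam_ge (n : ℕ) (hn : 0 < n) (m a : ℝ) (ha : 0 ≤ a) (h : a * (n : ℝ) ^ ((3 : ℝ) / 2) ≤ m) :
    4 * a ^ 2 ≤ lam n m := by
  have hn0 : (0 : ℝ) < n := by exact_mod_cast hn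
  have hr : 0 < (n : ℝ) ^ ((3 : ℝ) / 2) := by positivity
  rw [lam_eq, le_div_iff₀ (by positivity), ← r_sq n hn]
  have : (a * (n : ℝ) ^ ((3 : ℝ) / 2)) ^ 2 ≤ m ^ 2 := pow_le_pow_left₀ (by positivity) h 2
  nlinarith

theorem lam_le (n : ℕ) (hn : 0 < n) (m a : ℝ) (hm : 0 ≤ m) (h : m ≤ a * (n : ℝ) ^ ((3 : ℝ) / 2)) :
    lam n m ≤ 4 * a ^ 2 := by
  have hn0 : (0 : ℝ) < n := by exact_mod_cast hn
  rw [lam_eq, div_le_iff₀ (by positivity), ← r_sq n hn]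
  have : m ^ 2 ≤ (a * (n : ℝ) ^ ((3 : ℝ) / 2)) ^ 2 := pow_le_pow_left₀ hm h 2
  nlinarith

variable {n : ℕ}

open Classical in
/-- the combined good sets -/
noncomputable def gd (i0 : ℕ) (gs : ℕ → Finset (Finset (Fin n)) → Prop)
    (reg : Finset (Finset (Fin n)) → Prop) (j : ℕ) : Finset (Finset (Fin n)) → Prop :=
  if j < i0 then gs j else reg

theorem gd_lt {i0 : ℕ} {gs : ℕ → Finset (Finset (Fin n)) → Prop}
    {reg : Finset (Finset (Fin n)) → Prop} {j : ℕ} (h : j < i0) : gd i0 gs reg j = gs j := by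
  unfold gd; rw [if_pos h]

theorem gd_ge {i0 : ℕ} {gs : ℕ → Finset (Finset (Fin n)) → Prop}
    {reg : Finset (Finset (Fin n)) → Prop} {j : ℕ} (h : i0 ≤ j) : gd i0 gs reg j = reg := by
  unfold gd; rw [if_neg (by omega)]

theorem law_eq {i0 : ℕ} {gs : ℕ → Finset (Finset (Fin n)) → Prop}
    {reg : Finset (Finset (Fin n)) → Prop} (i : ℕ) (h : i ≤ i0) :
    law n (gd i0 gs reg) i = law n gs i := by
  induction i with
  | zero => rfl
  | succ k ih =>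
    have h1 : law n (gd i0 gs reg) (k + 1) = push (gd i0 gs reg k) (law n (gd i0 gs reg) k) := rfl
    have h2 : law n gs (k + 1) = push (gs k) (law n gs k) := rfl
    rw [h1, h2, ih (by omega), gd_lt (by omega)]

theorem law_succ {i0 : ℕ} {gs : ℕ → Finset (Finset (Fin n)) → Prop}
    {reg : Finset (Finset (Fin n)) → Prop} (i : ℕ) (h : i0 ≤ i) :
    law n (gd i0 gs reg) (i + 1) = push reg (law n (gd i0 gs reg) i) := by
  have h1 : law n (gd i0 gs reg) (i + 1) = push (gd i0 gs reg i) (law n (gd i0 gs reg) i) := rfl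
  rw [h1, gd_ge h]

theorem xr_pos {G : Finset (Finset (Fin n))} (h : |xr G - 1| ≤ 1 / 100) : 0 < Q G := by
  have h1 := (abs_le.mp h).1
  have h2 : (0 : ℝ) ≤ Q G := by unfold Q; positivity
  rcases h2.lt_or_eq with h3 | h3
  · exact h3
  · exfalso
    unfold xr at h1
    rw [← h3] at h1
    norm_num at h1

open Classical in
/-- mass killed at step `j` -/
noncomputable def kq (mu : Finset (Finset (Fin n)) → ℝ) (reg : Finset (Finset (Fin n)) → Prop) : ℝ :=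
  EX mu (fun G => if reg G then 0 else 1)

theorem kq_nonneg {mu : Finset (Finset (Fin n)) → ℝ} {reg : Finset (Finset (Fin n)) → Prop}
    (h : ∀ G, 0 ≤ mu G) : 0 ≤ kq mu reg := by
  classical
  unfold kq EX
  apply sum_nonneg
  intro G _
  apply mul_nonneg (h G)
  show (0 : ℝ) ≤ if reg G then 0 else 1
  split_ifs <;> norm_num

/-- splitting the expectation of the error -/
theorem er_split {mu : Finset (Finset (Fin n)) → ℝ} {reg : Finset (Finset (Fin n)) → Prop}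
    (h : ∀ G, 0 ≤ mu G) (h3 : ∀ G, mu G ≠ 0 → er G ≤ 3) :
    EX mu er ≤ EX (rst reg mu) er + 3 * kq mu reg := by
  classical
  unfold kq EX
  rw [mul_sum, ← sum_add_distrib]
  apply sum_le_sum
  intro G _
  unfold rst
  by_cases hr : reg G
  · simp only [if_pos hr]; simp
  · simp only [if_neg hr]
    by_cases hm : mu G = 0
    · rw [hm]; simp
    · have := mul_le_mul_of_nonneg_left (h3 G hm) (h G)
      linarith

/-- `Sub` for the law -/
theorem sub_law (hLAW : StmtLAW) (good : ℕ → Finset (Finset (Fin n)) → Prop)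
    (hg : ∀ i G, good i G → 0 < Q G) (i : ℕ) (hi : 3 * i ≤ (pairs n).card) :
    Sub (law n good i) ((pairs n).card - 3 * i) := by
  have h := hLAW n good hg i
  refine ⟨h.1, fun G hG => ⟨(h.2.1 G hG).1, by have := (h.2.1 G hG).2; omega⟩, ?_⟩
  have h3 := h.2.2.1
  have h4 : 0 ≤ ∑ j ∈ range i, EX (law n good j) (fun G => by
      classical exact if good j G then 0 else 1) := by
    apply sum_nonneg
    intro j _
    exact kq_nonneg (reg := good j) (hLAW n good hg j).1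
  linarith

/-- the recursion step -/
theorem step (h1 : StmtSTEP2) (l0 Lmax eps : ℝ) (hl0 : 1 / 2 < l0) (heps : 0 < eps) :
    ∃ n0 : ℕ, ∀ (n m : ℕ) (reg : Finset (Finset (Fin n)) → Prop)
      (mu : Finset (Finset (Fin n)) → ℝ) (c1 C2 e : ℝ), n0 ≤ n → l0 ≤ lam n m → lam n m ≤ Lmax →
      (∀ G, reg G → |xr G - 1| ≤ 1 / 100) → Sub mu (m + 3) → m + 3 ≤ (pairs n).card →
      Sub (push reg mu) m →
      (Gam (rst reg (push reg mu)) m ≤ Gam (push reg mu) m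
        - c1 * m * kq (push reg mu) reg + 1 / (n : ℝ) ^ 2) →
      (EX (rst reg (push reg mu)) er ≤ ra C2 (lam n m) * ((Gam (rst reg (push reg mu)) m + 1) / m)
        + e) → 6 ≤ c1 * m → 1 / (n : ℝ) ^ 2 ≤ eps → e ≤ eps →
      Gam (rst reg (push reg mu)) m ≤ Gam (rst reg mu) (m + 3)
        + ra C2 (lam n m) * ((Gam (rst reg (push reg mu)) m + 1) / m) + 3 * eps
        - c1 / 2 * m * kq (push reg mu) reg := by
  obtain ⟨n0, hn0⟩ := h1 l0 Lmax eps hl0 heps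
  refine ⟨n0, ?_⟩
  intro n m reg mu c1 C2 e hn hl hL hreg hsub hmN hsub2 hk he hc hn2 hee
  have hstep : StepHyp n m reg mu :=
    ⟨fun G hG => xr_pos (hreg G hG), hsub.1, hsub.2.1, hmN⟩
  obtain ⟨ha, hb⟩ := hn0 n m reg mu hn hl hL hstep hsub.2.2 hreg
  have hs := er_split (reg := reg) hsub2.1 hb
  have hq : 0 ≤ kq (push reg mu) reg := kq_nonneg hsub2.1
  have h6 : 3 * kq (push reg mu) reg ≤ c1 / 2 * m * kq (push reg mu) reg :=
    mul_le_mul_of_nonneg_right (by linarith) hq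
  linarith

open Classical in
/-- splitting the weighted killed mass -/
theorem sumsplit (hLAW : StmtLAW) (M i0 i1 : ℕ) (gs : ℕ → Finset (Finset (Fin n)) → Prop)
    (reg : Finset (Finset (Fin n)) → Prop) (hg : ∀ i G, gd i0 gs reg i G → 0 < Q G)
    (h01 : i0 ≤ i1) (hM : 3 * i1 ≤ M) :
    ∑ j ∈ range i1, ((M : ℝ) - 3 * j) *
      EX (law n (gd i0 gs reg) j) (fun G => if gd i0 gs reg j G then 0 else 1) ≤
    ∑ j ∈ range i0, ((M : ℝ) - 3 * j) * EX (law n gs j) (fun G => if gs j G then 0 else 1)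
      + ((M : ℝ) - 3 * i0) * kq (law n (gd i0 gs reg) i0) reg
      + ∑ j ∈ Ioc i0 i1, ((M : ℝ) - 3 * j) * kq (law n (gd i0 gs reg) j) reg := by
  have hMR : (3 : ℝ) * i1 ≤ M := by exact_mod_cast hM
  rw [← Finset.sum_range_add_sum_Ico _ h01]
  have e1 : ∑ j ∈ range i0, ((M : ℝ) - 3 * j) *
      EX (law n (gd i0 gs reg) j) (fun G => if gd i0 gs reg j G then 0 else 1) =
      ∑ j ∈ range i0, ((M : ℝ) - 3 * j) * EX (law n gs j) (fun G => if gs j G then 0 else 1) := by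
    apply sum_congr rfl
    intro j hj
    have hj' := mem_range.mp hj
    rw [law_eq j hj'.le, gd_lt hj']
  have e2 : ∑ j ∈ Ico i0 i1, ((M : ℝ) - 3 * j) *
      EX (law n (gd i0 gs reg) j) (fun G => if gd i0 gs reg j G then 0 else 1) =
      ∑ j ∈ Ico i0 i1, ((M : ℝ) - 3 * j) * kq (law n (gd i0 gs reg) j) reg := by
    apply sum_congr rfl
    intro j hj
    have hj' := (mem_Ico.mp hj).1
    unfold kq
    rw [gd_ge (gs := gs) (reg := reg) hj']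
  have e3 : ∑ j ∈ Ico i0 i1, ((M : ℝ) - 3 * j) * kq (law n (gd i0 gs reg) j) reg ≤
      ∑ j ∈ insert i0 (Ioc i0 i1), ((M : ℝ) - 3 * j) * kq (law n (gd i0 gs reg) j) reg := by
    apply sum_le_sum_of_subset_of_nonneg
    · intro j hj
      have := mem_Ico.mp hj
      simp only [mem_insert, mem_Ioc]
      omega
    · intro j hj _
      have hj1 : j ≤ i1 := by
        simp only [mem_insert, mem_Ioc] at hj
        omega
      have hjR : (j : ℝ) ≤ i1 := by exact_mod_cast hj1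
      exact mul_nonneg (by linarith) (kq_nonneg (hLAW n _ hg j).1)
  rw [e1, e2]
  rw [sum_insert (by simp)] at e3
  linarith

open Classical in
/-- survivors -/
theorem surv (d : ℝ) (hd : 0 < d) (hd1 : d ≤ 1) (hn : 0 < n) (m : ℕ)
    (reg : Finset (Finset (Fin n)) → Prop) (hreg : ∀ G, reg G → |xr G - 1| ≤ 1 / 100)
    (mu : Finset (Finset (Fin n)) → ℝ) (hsub : Sub mu m)
    (hl : 1 / 2 < lam n m) (hm0 : 0 < m) (hm : (m : ℝ) ≤ (kc + d) * (n : ℝ) ^ ((3 : ℝ) / 2)) :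
    EX mu (fun G => if 4 * d * (n : ℝ) ^ ((3 : ℝ) / 2) < Q G then 1 else 0) ≤ kq mu reg := by
  obtain ⟨k1, k2, k3, k4, k5⟩ := kc_facts
  have hn0 : (0 : ℝ) < n := by exact_mod_cast hn
  have hr : 0 < (n : ℝ) ^ ((3 : ℝ) / 2) := by positivity
  set r : ℝ := (n : ℝ) ^ ((3 : ℝ) / 2) with hrdef
  have hm0' : (0 : ℝ) < m := by exact_mod_cast hm0
  have hL : lam n m ≤ 4 * (kc + d) ^ 2 := lam_le n hn m (kc + d) (by positivity) hm
  have hL2 : lam n m - 1 / 2 ≤ 69 / 10 * d := by nlinarith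
  unfold kq EX
  apply sum_le_sum
  intro G _
  by_cases hG : mu G = 0
  · rw [hG]; simp
  · have hcard := (hsub.2.1 G hG).2
    by_cases hrg : reg G
    · have hx := (abs_le.mp (hreg G hrg)).2
      have hQ : Q G ≤ 4 * d * r := by
        unfold xr at hx
        rw [hcard] at hx
        have hden : 0 < (m : ℝ) * (lam n m - 1 / 2) := mul_pos hm0' (by linarith)
        have hx2 : 3 * Q G / ((m : ℝ) * (lam n m - 1 / 2)) ≤ 101 / 100 := by linarith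
        rw [div_le_iff₀ hden] at hx2
        have h5 : (m : ℝ) * (lam n m - 1 / 2) ≤ ((kc + d) * r) * (69 / 10 * d) :=
          mul_le_mul hm hL2 (by linarith) (by positivity)
        have h6 : ((kc + d) * r) * (69 / 10 * d) ≤ (136 / 100 * r) * (69 / 10 * d) := by
          apply mul_le_mul_of_nonneg_right _ (by positivity)
          apply mul_le_mul_of_nonneg_right _ hr.le
          linarith
        nlinarith [mul_pos hr hd]
      simp only [if_neg (not_lt.mpr hQ), if_pos hrg]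
      exact le_refl _
    · simp only [if_neg hrg]
      apply mul_le_mul_of_nonneg_left _ (hsub.1 G)
      split_ifs <;> norm_num

/-- choice of `K` -/
theorem chooseK (C C' c1 d K1 : ℝ) (hc1 : 0 < c1) (hd : 0 < d) :
    ∃ K : ℝ, K1 ≤ K ∧ 4 ≤ K ∧ C * K ^ (-(1 : ℝ) / 4) ≤ d / 8 ∧
      C' * K ^ ((29 : ℝ) / 30) * (C / K) ≤ d / 16 ∧ C / K / c1 ≤ d / 16 := by
  have t1 : Filter.Tendsto (fun K : ℝ => C * K ^ (-((1 : ℝ) / 4))) Filter.atTop (nhds 0) := by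
    have := (tendsto_rpow_neg_atTop (show (0 : ℝ) < 1 / 4 by norm_num)).const_mul C
    simpa using this
  have t2 : Filter.Tendsto (fun K : ℝ => (C' * C) * K ^ (-((1 : ℝ) / 30))) Filter.atTop
      (nhds 0) := by
    have := (tendsto_rpow_neg_atTop (show (0 : ℝ) < 1 / 30 by norm_num)).const_mul (C' * C)
    simpa using this
  have t3 : Filter.Tendsto (fun K : ℝ => (C / c1) * K ^ (-((1 : ℝ)))) Filter.atTop
      (nhds 0) := by
    have := (tendsto_rpow_neg_atTop (show (0 : ℝ) < 1 by norm_num)).const_mul (C / c1)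
    simpa using this
  have e1 := t1.eventually (eventually_le_nhds (show (0 : ℝ) < d / 8 by linarith))
  have e2 := t2.eventually (eventually_le_nhds (show (0 : ℝ) < d / 16 by linarith))
  have e3 := t3.eventually (eventually_le_nhds (show (0 : ℝ) < d / 16 by linarith))
  obtain ⟨K, ⟨⟨⟨⟨h1, h2⟩, h3⟩, h4⟩, h5⟩⟩ :=
    (((((e1.and e2).and e3).and (Filter.eventually_ge_atTop K1))).and
      (Filter.eventually_ge_atTop (4 : ℝ))).exists
  have hK0 : 0 < K := by linarith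
  refine ⟨K, h4, h5, ?_, ?_, ?_⟩
  · rw [show (-(1 : ℝ) / 4) = -((1 : ℝ) / 4) by norm_num]
    exact h1
  · have : C' * K ^ ((29 : ℝ) / 30) * (C / K) = (C' * C) * K ^ (-((1 : ℝ) / 30)) := by
      have h6 : K ^ (-((1 : ℝ) / 30)) = K ^ ((29 : ℝ) / 30) / K := by
        rw [show (-((1 : ℝ) / 30)) = (29 : ℝ) / 30 - 1 by norm_num, Real.rpow_sub hK0,
          Real.rpow_one]
      rw [h6]
      ring
    rw [this]
    exact h2
  · have : C / K / c1 = (C / c1) * K ^ (-((1 : ℝ))) := by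
      rw [Real.rpow_neg_one]
      ring
    rw [this]
    exact h3

/-- choice of `eps` -/
theorem chooseE (A c1 d K : ℝ) (hA : 0 < A) (hc1 : 0 < c1) (hd : 0 < d) (hK : 0 < K) :
    ∃ eps : ℝ, 0 < eps ∧ 3 * eps ≤ 1 ∧ A * (3 * eps * K) ≤ d / 16 ∧ eps * K / c1 ≤ d / 16 := by
  refine ⟨min (1 / 3) (min (d / 16 / (A * (3 * K))) (d / 16 * c1 / K)), ?_, ?_, ?_, ?_⟩
  · apply lt_min (by norm_num)
    apply lt_min <;> positivity
  · have := min_le_left (1 / 3) (min (d / 16 / (A * (3 * K))) (d / 16 * c1 / K))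
    linarith
  · have h1 : min (1 / 3) (min (d / 16 / (A * (3 * K))) (d / 16 * c1 / K)) ≤
        d / 16 / (A * (3 * K)) := (min_le_right _ _).trans (min_le_left _ _)
    rw [le_div_iff₀ (by positivity)] at h1
    linarith
  · have h1 : min (1 / 3) (min (d / 16 / (A * (3 * K))) (d / 16 * c1 / K)) ≤
        d / 16 * c1 / K := (min_le_right _ _).trans (min_le_right _ _)
    rw [le_div_iff₀ hK] at h1
    rw [div_le_iff₀ hc1]
    linarith

/-- the final numerical bookkeeping -/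
theorem finish (d R S0 T0 U0 C K C' c1 eps P m0 m1 q0 q1 : ℝ) (hd : 0 < d) (hR : 0 < R)
    (hc1 : 0 < c1) (hP : 0 < P)
    (hKa : S0 ≤ d / 8 * R) (hKb : P * (C / K) ≤ d / 16) (hKc : C / K / c1 ≤ d / 16)
    (hea : P * (3 * eps * K) ≤ d / 16) (heb : eps * K / c1 ≤ d / 16)
    (hT0 : c1 * m0 * q0 ≤ C / K * R + eps * (K * R) + 2) (hTT : T0 = m0 * q0)
    (hU0 : U0 ≤ P * (C / K * R + 1 + 3 * eps * K * R))
    (hA1 : P ≤ d / 16 * R) (hA2 : 2 / c1 ≤ d / 16 * R) (hm1 : R / 3 ≤ m1) (hq1 : 0 ≤ q1)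
    (hU1 : m1 * q1 ≤ U0) :
    S0 + T0 + U0 ≤ d * R ∧ q1 ≤ d := by
  have h1 : U0 ≤ 3 * d / 16 * R := by
    have e1 := mul_le_mul_of_nonneg_right hKb hR.le
    have e2 := mul_le_mul_of_nonneg_right hea hR.le
    nlinarith
  have h2 : T0 ≤ 3 * d / 16 * R := by
    have e0 : m0 * q0 ≤ (C / K * R + eps * (K * R) + 2) / c1 := by
      rw [le_div_iff₀ hc1]; linarith
    have e3 : (C / K * R + eps * (K * R) + 2) / c1 = C / K / c1 * R + eps * K / c1 * R + 2 / c1 := by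
      field_simp
    have e1 := mul_le_mul_of_nonneg_right hKc hR.le
    have e2 := mul_le_mul_of_nonneg_right heb hR.le
    rw [hTT]
    linarith
  refine ⟨by nlinarith [mul_pos hd hR], ?_⟩
  by_contra hcon
  push Not at hcon
  have h3 : R / 3 * d < m1 * q1 := by
    have e1 : R / 3 * d < R / 3 * q1 := mul_lt_mul_of_pos_left hcon (by linarith)
    have e2 : R / 3 * q1 ≤ m1 * q1 := mul_le_mul_of_nonneg_right hm1 hq1
    linarith
  nlinarith [mul_pos hd hR]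

/-- index selection, output -/
def IdxOK (n M i0 i1 : ℕ) (R K d l0 Lmax : ℝ) : Prop :=
  i0 < i1 ∧ 3 * i1 ≤ M ∧ K * R / 2 ≤ (M : ℝ) - 3 * i0 ∧ (M : ℝ) - 3 * i0 ≤ K * R ∧
  kc * R ≤ (M : ℝ) - 3 * i1 ∧ (M : ℝ) - 3 * i1 ≤ (kc + d) * R ∧
  (∀ i : ℕ, i ≤ i1 → R / 3 ≤ (M : ℝ) - 3 * i ∧ l0 ≤ lam n ((M : ℝ) - 3 * i)) ∧
  (∀ i : ℕ, i0 ≤ i → i ≤ i1 → lam n ((M : ℝ) - 3 * i) ≤ Lmax)

theorem pick (n M : ℕ) (R K d l0 Lmax : ℝ) (hn : 0 < n) (hR : R = (n : ℝ) ^ ((3 : ℝ) / 2))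
    (hR6 : 6 ≤ R) (hdR : 6 ≤ d * R) (hd : 0 < d) (hd1 : d ≤ 1) (hK4 : 4 ≤ K)
    (hM : K * R ≤ M) (hl0 : l0 = 1 / 2 + d) (hLmax : Lmax = 4 * K ^ 2 + 2) :
    ∃ i0 i1 : ℕ, IdxOK n M i0 i1 R K d l0 Lmax := by
  obtain ⟨k1, k2, k3, k4, k5⟩ := kc_facts
  have hR0 : 0 < R := by linarith
  have hKR : 4 * R ≤ K * R := mul_le_mul_of_nonneg_right hK4 hR0.le
  obtain ⟨i0, hi0a, hi0b, hi0c⟩ := idx M (K * R / 2) (by positivity) (by linarith)
  have hkdR : (kc + d / 2) * R ≤ 86 / 100 * R :=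
    mul_le_mul_of_nonneg_right (by linarith) hR0.le
  have hkd0 : 0 ≤ (kc + d / 2) * R := by positivity
  obtain ⟨i1, hi1a, hi1b, hi1c⟩ := idx M ((kc + d / 2) * R) hkd0 (by linarith)
  have h01R : (i0 : ℝ) < i1 := by linarith
  have h01 : i0 < i1 := by exact_mod_cast h01R
  have hlo : ∀ i : ℕ, i ≤ i1 → (kc + d / 2) * R ≤ (M : ℝ) - 3 * i := by
    intro i hi
    have : (i : ℝ) ≤ i1 := by exact_mod_cast hi
    linarith
  have hhi : ∀ i : ℕ, i0 ≤ i → (M : ℝ) - 3 * i ≤ K * R := by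
    intro i hi
    have : (i0 : ℝ) ≤ i := by exact_mod_cast hi
    linarith
  have h13 : R / 3 ≤ (kc + d / 2) * R := by
    have : 1 / 3 * R ≤ (kc + d / 2) * R := mul_le_mul_of_nonneg_right (by linarith) hR0.le
    linarith
  have h4l : l0 ≤ 4 * (kc + d / 2) ^ 2 := by
    rw [hl0]
    have e1 : 4 * (kc + d / 2) ^ 2 = 4 * kc ^ 2 + 4 * kc * d + d ^ 2 := by ring
    have e2 : 1 * d ≤ 4 * kc * d := mul_le_mul_of_nonneg_right k4 hd.le
    have e3 : 0 ≤ d ^ 2 := sq_nonneg d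
    linarith
  refine ⟨i0, i1, h01, hi1a, hi0b, by linarith, ?_, ?_, ?_, ?_⟩
  · have e1 : kc * R ≤ (kc + d / 2) * R := mul_le_mul_of_nonneg_right (by linarith) hR0.le
    linarith
  · have e1 : (kc + d) * R = (kc + d / 2) * R + d * R / 2 := by ring
    linarith
  · intro i hi
    have h5 := hlo i hi
    refine ⟨by linarith, ?_⟩
    rw [hR] at h5
    have := lam_ge n hn _ (kc + d / 2) (by linarith) h5
    linarith
  · intro i hi hi'
    have h5 := hlo i hi'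
    have h6 := hhi i hi
    rw [hR] at h6
    have := lam_le n hn _ K (by linarith) h6
    rw [hLmax]
    linarith

/-- static input, fixed `n` -/
def StOK (n : ℕ) (reg : Finset (Finset (Fin n)) → Prop) (l0 Lmax c1 C2 eps : ℝ) : Prop :=
  ∀ m : ℕ, l0 ≤ lam n m → lam n m ≤ Lmax →
      ∀ mu : Finset (Finset (Fin n)) → ℝ, Sub mu m →
      Gam (rst reg mu) m ≤ Gam mu m - c1 * m * kq mu reg + 1 / (n : ℝ) ^ 2 ∧
      EX (rst reg mu) er ≤ ra C2 (lam n m) * ((Gam (rst reg mu) m + 1) / m) + eps ∧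
      - (eps * m) - 1 ≤ Gam (rst reg mu) m

/-- step input, fixed `n` -/
def StepOK (n : ℕ) (l0 Lmax eps : ℝ) : Prop :=
  ∀ (m : ℕ) (reg : Finset (Finset (Fin n)) → Prop)
      (mu : Finset (Finset (Fin n)) → ℝ) (c1 C2 e : ℝ), l0 ≤ lam n m → lam n m ≤ Lmax →
      (∀ G, reg G → |xr G - 1| ≤ 1 / 100) → Sub mu (m + 3) → m + 3 ≤ (pairs n).card →
      Sub (push reg mu) m →
      (Gam (rst reg (push reg mu)) m ≤ Gam (push reg mu) m
        - c1 * m * kq (push reg mu) reg + 1 / (n : ℝ) ^ 2) →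
      (EX (rst reg (push reg mu)) er ≤ ra C2 (lam n m) * ((Gam (rst reg (push reg mu)) m + 1) / m)
        + e) → 6 ≤ c1 * m → 1 / (n : ℝ) ^ 2 ≤ eps → e ≤ eps →
      Gam (rst reg (push reg mu)) m ≤ Gam (rst reg mu) (m + 3)
        + ra C2 (lam n m) * ((Gam (rst reg (push reg mu)) m + 1) / m) + 3 * eps
        - c1 / 2 * m * kq (push reg mu) reg

theorem statics (hLAW : StmtLAW) (M i0 i1 : ℕ) (R K d l0 Lmax c1 C2 eps : ℝ)
    (hM : M = (pairs n).card) (hI : IdxOK n M i0 i1 R K d l0 Lmax)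
    (reg : Finset (Finset (Fin n)) → Prop) (hst : StOK n reg l0 Lmax c1 C2 eps)
    (good : ℕ → Finset (Finset (Fin n)) → Prop) (hg : ∀ i G, good i G → 0 < Q G)
    (i : ℕ) (hi : i0 ≤ i) (hi' : i ≤ i1) :
    ((M - 3 * i : ℕ) : ℝ) = (M : ℝ) - 3 * i ∧ Sub (law n good i) (M - 3 * i) ∧
    Gam (rst reg (law n good i)) (M - 3 * i) ≤ Gam (law n good i) (M - 3 * i)
        - c1 * ((M : ℝ) - 3 * i) * kq (law n good i) reg + 1 / (n : ℝ) ^ 2 ∧
      EX (rst reg (law n good i)) er ≤ ra C2 (lam n ((M : ℝ) - 3 * i)) *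
        ((Gam (rst reg (law n good i)) (M - 3 * i) + 1) / ((M : ℝ) - 3 * i)) + eps ∧
      - (eps * ((M : ℝ) - 3 * i)) - 1 ≤ Gam (rst reg (law n good i)) (M - 3 * i) := by
  obtain ⟨h01, h3, _, _, _, _, hlo, hhi⟩ := hI
  have hcast : ((M - 3 * i : ℕ) : ℝ) = (M : ℝ) - 3 * i := by
    rw [Nat.cast_sub (by omega)]
    push_cast
    ring
  have hsub : Sub (law n good i) (M - 3 * i) := by
    rw [hM]
    exact sub_law hLAW good hg i (by omega)
  have h5 := hst (M - 3 * i) (by rw [hcast]; exact (hlo i hi').2)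
    (by rw [hcast]; exact hhi i hi hi') (law n good i) hsub
  rw [hcast] at h5
  exact ⟨hcast, hsub, h5⟩

theorem recur (hLAW : StmtLAW) (M i0 i1 : ℕ) (R K d l0 Lmax c1 C2 eps : ℝ)
    (hM : M = (pairs n).card) (hI : IdxOK n M i0 i1 R K d l0 Lmax) (hc1 : 0 < c1)
    (hb1 : 18 / c1 ≤ R) (hb4 : 1 / (n : ℝ) ^ 2 ≤ eps)
    (reg : Finset (Finset (Fin n)) → Prop) (hreg : ∀ G, reg G → |xr G - 1| ≤ 1 / 100)
    (hst : StOK n reg l0 Lmax c1 C2 eps)
    (hstep : StepOK n l0 Lmax eps) (gs : ℕ → Finset (Finset (Fin n)) → Prop)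
    (hg : ∀ i G, gd i0 gs reg i G → 0 < Q G)
    (i : ℕ) (hi : i0 ≤ i) (hi' : i < i1) :
    Gam (rst reg (law n (gd i0 gs reg) (i + 1))) (M - 3 * (i + 1)) ≤
      Gam (rst reg (law n (gd i0 gs reg) i)) (M - 3 * i)
        + ra C2 (lam n ((M : ℝ) - 3 * (i + 1))) *
          ((Gam (rst reg (law n (gd i0 gs reg) (i + 1))) (M - 3 * (i + 1)) + 1)
            / ((M : ℝ) - 3 * (i + 1)))
        + (3 * eps) - (c1 / 2) * ((M : ℝ) - 3 * (i + 1)) *
          kq (law n (gd i0 gs reg) (i + 1)) reg := by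
  obtain ⟨hcast', hsub', -⟩ := statics hLAW M i0 i1 R K d l0 Lmax c1 C2 eps hM hI reg hst
    (gd i0 gs reg) hg i hi hi'.le
  obtain ⟨hcast, hsub, hS1, hS2, hS3⟩ := statics hLAW M i0 i1 R K d l0 Lmax c1 C2 eps hM hI reg hst
    (gd i0 gs reg) hg (i + 1) (by omega) hi'
  obtain ⟨h01, h3, _, _, _, _, hlo, hhi⟩ := hI
  obtain ⟨l3, l1⟩ := hlo (i + 1) hi'
  have l2 := hhi (i + 1) (by omega) hi'
  have e3 : M - 3 * (i + 1) + 3 = M - 3 * i := by omega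
  push_cast at l1 l2 l3 hS1 hS2 hcast
  rw [law_succ i hi] at hsub hS1 hS2 ⊢
  have hc6 : 6 ≤ c1 * ((M : ℝ) - 3 * ((i : ℝ) + 1)) := by
    rw [div_le_iff₀ hc1] at hb1
    have := mul_le_mul_of_nonneg_left l3 hc1.le
    linarith
  have := hstep (M - 3 * (i + 1)) reg (law n (gd i0 gs reg) i) c1 C2 eps
      (by rw [hcast]; exact l1) (by rw [hcast]; exact l2) hreg (by rw [e3]; exact hsub')
      (by omega) hsub (by rw [hcast]; exact hS1) (by rw [hcast]; exact hS2)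
      (by rw [hcast]; exact hc6) hb4 le_rfl
  rw [hcast, e3] at this
  exact this

/-- SEQ, fixed `n` -/
def SeqOK (n : ℕ) (K eps c1 C2 l0 C' : ℝ) : Prop :=
  ∀ (M i0 i1 : ℕ) (g q : ℕ → ℝ) (G0 : ℝ), i0 ≤ i1 → 0 ≤ G0 →
      3 * i1 ≤ M → l0 ≤ lam n ((M : ℝ) - 3 * i1) →
      (M : ℝ) - 3 * i0 ≤ K * (n : ℝ) ^ ((3 : ℝ) / 2) →
      (∀ i, 0 ≤ q i) → g i0 ≤ G0 → - (eps * ((M : ℝ) - 3 * i1)) - 1 ≤ g i1 →
      (∀ i, i0 ≤ i → i < i1 → g (i + 1) ≤ g i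
        + ra C2 (lam n ((M : ℝ) - 3 * (i + 1))) * ((g (i + 1) + 1) / ((M : ℝ) - 3 * (i + 1)))
        + eps - c1 * ((M : ℝ) - 3 * (i + 1)) * q (i + 1)) →
      ∑ j ∈ Ioc i0 i1, ((M : ℝ) - 3 * j) * q j ≤
      C' * K ^ ((29 : ℝ) / 30) * (G0 + eps * K * (n : ℝ) ^ ((3 : ℝ) / 2))

/-- start input, fixed `n` -/
def StartOK (n : ℕ) (K C : ℝ) (gs : ℕ → Finset (Finset (Fin n)) → Prop) : Prop :=
  ∀ i : ℕ, K * (n : ℝ) ^ ((3 : ℝ) / 2) / 2 ≤ ((pairs n).card : ℝ) - 3 * i →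
      ((pairs n).card : ℝ) - 3 * i ≤ K * (n : ℝ) ^ ((3 : ℝ) / 2) →
      ∑ j ∈ range i, (((pairs n).card : ℝ) - 3 * j) * kq (law n gs j) (gs j)
        ≤ C * K ^ (-(1 : ℝ) / 4) * (n : ℝ) ^ ((3 : ℝ) / 2) ∧
      Gam (law n gs i) ((pairs n).card - 3 * i) ≤ C / K * (n : ℝ) ^ ((3 : ℝ) / 2)

open Classical in
/-- core: fixed `n`, all constants chosen -/
theorem core (hLAW : StmtLAW) (d l0 Lmax eps K C c1 C2 C' : ℝ)
    (hd : 0 < d) (hd1 : d ≤ 1) (hl0 : l0 = 1 / 2 + d) (hLmax : Lmax = 4 * K ^ 2 + 2)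
    (heps : 0 < eps) (hK4 : 4 ≤ K) (hC : 0 < C) (hc1 : 0 < c1) (hC' : 0 < C')
    (hKa : C * K ^ (-(1 : ℝ) / 4) ≤ d / 8) (hKb : C' * K ^ ((29 : ℝ) / 30) * (C / K) ≤ d / 16)
    (hKc : C / K / c1 ≤ d / 16)
    (hea : C' * K ^ ((29 : ℝ) / 30) * (3 * eps * K) ≤ d / 16) (heb : eps * K / c1 ≤ d / 16)
    (n : ℕ) (hn2 : 2 ≤ n) (hSEQ : SeqOK n K (3 * eps) (c1 / 2) C2 l0 C')
    (hstep : StepOK n l0 Lmax eps)
    (hb1 : 18 / c1 ≤ (n : ℝ) ^ ((3 : ℝ) / 2)) (hb2 : 6 / d ≤ (n : ℝ) ^ ((3 : ℝ) / 2))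
    (hb3 : K * (n : ℝ) ^ ((3 : ℝ) / 2) ≤ (n : ℝ) * ((n : ℝ) - 1) / 2)
    (hb4 : 1 / (n : ℝ) ^ 2 ≤ eps)
    (hb5 : C' * K ^ ((29 : ℝ) / 30) ≤ d / 16 * (n : ℝ) ^ ((3 : ℝ) / 2))
    (hb6 : 2 / c1 ≤ d / 16 * (n : ℝ) ^ ((3 : ℝ) / 2))
    (reg : Finset (Finset (Fin n)) → Prop) (hreg : ∀ G, reg G → |xr G - 1| ≤ 1 / 100)
    (hst : StOK n reg l0 Lmax c1 C2 eps)
    (gs : ℕ → Finset (Finset (Fin n)) → Prop) (hgs : ∀ i G, gs i G → 0 < Q G)
    (hstart : StartOK n K C gs) :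
    ∃ good : ℕ → Finset (Finset (Fin n)) → Prop, (∀ i G, good i G → 0 < Q G) ∧
    ∃ i : ℕ, kc * (n : ℝ) ^ ((3 : ℝ) / 2) ≤ ((pairs n).card : ℝ) - 3 * i ∧
      ((pairs n).card : ℝ) - 3 * i ≤ (kc + d) * (n : ℝ) ^ ((3 : ℝ) / 2) ∧
      ∑ j ∈ range i, (((pairs n).card : ℝ) - 3 * j) * kq (law n good j) (good j)
        ≤ d * (n : ℝ) ^ ((3 : ℝ) / 2) ∧
      EX (law n good i) (fun G => if 4 * d * (n : ℝ) ^ ((3 : ℝ) / 2) < Q G then 1 else 0) ≤ d := by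
  have hn0 : 0 < n := by omega
  have hnR : (0 : ℝ) < n := by exact_mod_cast hn0
  have hR : 0 < (n : ℝ) ^ ((3 : ℝ) / 2) := by positivity
  have hMR : ((pairs n).card : ℝ) = (n : ℝ) * ((n : ℝ) - 1) / 2 := pairs_card n
  have hR6 : 6 ≤ (n : ℝ) ^ ((3 : ℝ) / 2) := by
    have : 6 ≤ 6 / d := by rw [le_div_iff₀ hd]; linarith
    linarith
  have hdR : 6 ≤ d * (n : ℝ) ^ ((3 : ℝ) / 2) := by
    rw [div_le_iff₀ hd] at hb2
    linarith
  obtain ⟨i0, i1, hI⟩ := pick n (pairs n).card _ K d l0 Lmax hn0 rfl hR6 hdR hd hd1 hK4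
    (by rw [hMR]; exact hb3) hl0 hLmax
  have hg : ∀ i G, gd i0 gs reg i G → 0 < Q G := by
    intro i G hG
    rcases lt_or_ge i i0 with hj | hj
    · rw [gd_lt hj] at hG
      exact hgs i G hG
    · rw [gd_ge hj] at hG
      exact xr_pos (hreg G hG)
  have hrec := recur hLAW (pairs n).card i0 i1 _ K d l0 Lmax c1 C2 eps rfl hI hc1 hb1 hb4 reg hreg
    hst hstep gs hg
  have hq : ∀ i, 0 ≤ kq (law n (gd i0 gs reg) i) reg := fun i =>
    kq_nonneg (hLAW n (gd i0 gs reg) hg i).1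
  have hI' := hI
  obtain ⟨h01, h3, ha, hb, hc, hdd, hlo, hhi⟩ := hI
  obtain ⟨hc0, hsub0, hG0, -, hG0l⟩ := statics hLAW (pairs n).card i0 i1 _ K d l0 Lmax c1 C2 eps
    rfl hI' reg hst (gd i0 gs reg) hg i0 le_rfl h01.le
  obtain ⟨hc1', hsub1, -, -, hG1l⟩ := statics hLAW (pairs n).card i0 i1 _ K d l0 Lmax c1 C2 eps
    rfl hI' reg hst (gd i0 gs reg) hg i1 h01.le le_rfl
  obtain ⟨hs1, hs2⟩ := hstart i0 ha hb
  rw [← law_eq (gs := gs) (reg := reg) i0 le_rfl] at hs2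
  have hn1 : 1 / (n : ℝ) ^ 2 ≤ 1 := by
    rw [div_le_iff₀ (by positivity)]
    have : (1 : ℝ) ≤ n := by exact_mod_cast hn0
    nlinarith
  have hm0pos : 0 ≤ ((pairs n).card : ℝ) - 3 * i0 := by
    have := (hlo i0 h01.le).1
    linarith
  have hm1pos : (n : ℝ) ^ ((3 : ℝ) / 2) / 3 ≤ ((pairs n).card : ℝ) - 3 * i1 := (hlo i1 le_rfl).1
  have hkill0 : 0 ≤ c1 * (((pairs n).card : ℝ) - 3 * i0) * kq (law n (gd i0 gs reg) i0) reg :=
    mul_nonneg (mul_nonneg hc1.le hm0pos) (hq i0)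
  have hepsm : eps * (((pairs n).card : ℝ) - 3 * i0) ≤ eps * (K * (n : ℝ) ^ ((3 : ℝ) / 2)) :=
    mul_le_mul_of_nonneg_left hb heps.le
  have hU := hSEQ (pairs n).card i0 i1
    (fun i => Gam (rst reg (law n (gd i0 gs reg) i)) ((pairs n).card - 3 * i))
    (fun i => kq (law n (gd i0 gs reg) i) reg) (C / K * (n : ℝ) ^ ((3 : ℝ) / 2) + 1) h01.le
    (by positivity) h3 (hlo i1 le_rfl).2 hb hq (by linarith)
    (by
      have : 0 ≤ eps * (((pairs n).card : ℝ) - 3 * i1) := mul_nonneg heps.le (by linarith)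
      linarith) hrec
  have hU1 : (((pairs n).card : ℝ) - 3 * i1) * kq (law n (gd i0 gs reg) i1) reg ≤
      ∑ j ∈ Ioc i0 i1, (((pairs n).card : ℝ) - 3 * j) * kq (law n (gd i0 gs reg) j) reg := by
    apply single_le_sum (f := fun j : ℕ => (((pairs n).card : ℝ) - 3 * j) *
      kq (law n (gd i0 gs reg) j) reg)
    · intro j hj
      have h5 := (hlo j (mem_Ioc.mp hj).2).1
      exact mul_nonneg (by linarith) (hq j)
    · exact mem_Ioc.mpr ⟨h01, le_rfl⟩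
  have hfin := finish d ((n : ℝ) ^ ((3 : ℝ) / 2))
    (∑ j ∈ range i0, (((pairs n).card : ℝ) - 3 * j) * kq (law n gs j) (gs j))
    ((((pairs n).card : ℝ) - 3 * i0) * kq (law n (gd i0 gs reg) i0) reg)
    (∑ j ∈ Ioc i0 i1, (((pairs n).card : ℝ) - 3 * j) * kq (law n (gd i0 gs reg) j) reg)
    C K C' c1 eps (C' * K ^ ((29 : ℝ) / 30)) (((pairs n).card : ℝ) - 3 * i0)
    (((pairs n).card : ℝ) - 3 * i1) (kq (law n (gd i0 gs reg) i0) reg)
    (kq (law n (gd i0 gs reg) i1) reg) hd hR hc1 (by positivity)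
    (hs1.trans (mul_le_mul_of_nonneg_right hKa hR.le)) hKb hKc hea heb (by linarith) rfl
    hU hb5 hb6 hm1pos (hq i1) hU1
  refine ⟨gd i0 gs reg, hg, i1, hc, hdd, ?_, ?_⟩
  · have hss := sumsplit hLAW (pairs n).card i0 i1 gs reg hg h01.le h3
    exact hss.trans hfin.1
  · have hm1 : 0 < (pairs n).card - 3 * i1 := by
      have : (0 : ℝ) < (((pairs n).card - 3 * i1 : ℕ) : ℝ) := by rw [hc1']; linarith
      exact_mod_cast this
    have hsv := surv d hd hd1 hn0 ((pairs n).card - 3 * i1) reg hreg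
      (law n (gd i0 gs reg) i1) hsub1
      (by rw [hc1']; have := (hlo i1 le_rfl).2; rw [hl0] at this; linarith) hm1
      (by rw [hc1']; exact hdd)
    exact hsv.trans hfin.2

/-- module DYN -/
theorem thm (h1 : StmtSTEP2) (h2 : StmtST2) (h3 : StmtSEQ) (h4 : StmtSTARTG) (hLAW : StmtLAW) :
    StmtCTRL := by
  refine ⟨4, by norm_num, ?_⟩
  intro d hd hd1
  have hl0 : (1 : ℝ) / 2 < 1 / 2 + d := by linarith
  obtain ⟨c1, C2, hc1, hC2, h2'⟩ := h2 (1 / 2 + d) hl0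
  obtain ⟨C', hC', h3'⟩ := h3 (c1 / 2) C2 (1 / 2 + d) (by linarith) hC2 hl0
  obtain ⟨C, K1, hC, hK1, h4'⟩ := h4
  obtain ⟨K, hKK1, hK4, hKa, hKb, hKc⟩ := chooseK C C' c1 d K1 hc1 hd
  have hK0 : 0 < K := by linarith
  obtain ⟨eps, heps, he1, hea, heb⟩ := chooseE (C' * K ^ ((29 : ℝ) / 30)) c1 d K
    (by positivity) hc1 hd hK0
  obtain ⟨n2, h2''⟩ := h2' (4 * K ^ 2 + 2) eps (by nlinarith) heps
  obtain ⟨n3, h3''⟩ := h3' K (3 * eps) hK4 (by linarith) he1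
  obtain ⟨n4, h4''⟩ := h4' K hKK1
  obtain ⟨n5, h5⟩ := step h1 (1 / 2 + d) (4 * K ^ 2 + 2) eps hl0 heps
  obtain ⟨m1, hm1⟩ := big (18 / c1)
  obtain ⟨m2, hm2⟩ := big (6 / d)
  obtain ⟨m3, hm3⟩ := big K
  obtain ⟨m4, hm4⟩ := big (1 / eps)
  obtain ⟨m5, hm5⟩ := big (C' * K ^ ((29 : ℝ) / 30) / (d / 16))
  obtain ⟨m6, hm6⟩ := big (2 / c1 / (d / 16))
  refine ⟨n2 + n3 + n4 + n5 + m1 + m2 + m3 + m4 + m5 + m6, ?_⟩
  intro n hn
  have b1 := (hm1 n (by omega)).1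
  have b2 := (hm2 n (by omega)).1
  have b3 := (hm3 n (by omega)).2.1
  have b4 := (hm4 n (by omega)).2.2.1
  have b5 := (hm5 n (by omega)).1
  have b6 := (hm6 n (by omega)).1
  have hn2 := (hm6 n (by omega)).2.2.2
  have hnR : (0 : ℝ) < n := by exact_mod_cast (show 0 < n by omega)
  obtain ⟨reg, hreg, hst⟩ := h2'' n (by omega)
  obtain ⟨gs, hgs, hstart⟩ := h4'' n (by omega)
  have b4' : 1 / (n : ℝ) ^ 2 ≤ eps := by
    rw [div_le_iff₀ heps] at b4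
    rw [div_le_iff₀ (by positivity)]
    linarith
  have b5' : C' * K ^ ((29 : ℝ) / 30) ≤ d / 16 * (n : ℝ) ^ ((3 : ℝ) / 2) := by
    rw [div_le_iff₀ (by positivity)] at b5
    linarith
  have b6' : 2 / c1 ≤ d / 16 * (n : ℝ) ^ ((3 : ℝ) / 2) := by
    rw [div_le_iff₀ (by positivity)] at b6
    linarith
  exact core hLAW d (1 / 2 + d) (4 * K ^ 2 + 2) eps K C c1 C2 C' hd hd1 rfl rfl heps hK4 hC hc1 hC'
    hKa hKb hKc hea heb n hn2
    (fun M i0 i1 g q G0 => h3'' n M i0 i1 g q G0 (by omega))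
    (fun m reg mu c1 C2 e => h5 n m reg mu c1 C2 e (by omega)) b1 b2 b3 b4' b5' b6' reg hreg hst
    gs hgs hstart

end Vale.Agent.P046.Sh.DYN
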