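import Vale.Agent.P046.Sh.TEL

/-! # P046 Sh, module EDG: transfer from pairs to edges -/

namespace Vale.Agent.P046.Sh.EDG

open Finset Vale.Agent.P046 Vale.Agent.P046.Sh

variable {n : ℕ}

theorem exp_bound {t g : ℝ} (hg : 0 ≤ g) (hg1 : g ≤ 1) :
    Real.exp (t * g) ≤ 1 + (Real.exp t - 1) * g := by
  have h := convexOn_exp.2 (Set.mem_univ (0 : ℝ)) (Set.mem_univ t)
    (show (0 : ℝ) ≤ 1 - g by linarith) hg (by ring)
  simp only [smul_eq_mul, mul_zero, zero_add, Real.exp_zero, mul_one] at h
  rw [mul_comm t g]
  linarith

theorem thm (hCHJ : StmtCHJ) (hSB : StmtSB) : StmtEDG := by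
  classical
  intro n m j mu g bad t rho db hmu hm hj ht hrho hg hgood hbad
  obtain ⟨hP, hmi, -, -, -, -⟩ := hSB n m mu hmu hm
  have h := hCHJ n j (sb mu m (j + 1)) (fun H e => t * g H e) (hP (j + 1) hj) (by omega)
  have e1 : DD (mi (sb mu m (j + 1)) j) j = DD (sb mu m j) j := TEL.DD_congr (hmi j hj)
  rw [e1, TEL.EX_congr _ (hmi j hj)] at h
  have hM : (0 : ℝ) < ((pairs n).card : ℝ) - j := by
    have : ((j + 1 : ℕ) : ℝ) ≤ ((pairs n).card : ℝ) := by
      exact_mod_cast (show j + 1 ≤ (pairs n).card by omega)
    push_cast at this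
    linarith
  have hPj := hP j hj.le
  -- left side
  have e2 : EX (sb mu m (j + 1)) (fun G => (∑ e ∈ G, t * g (G.erase e) e) / ((j : ℝ) + 1)) =
      t * EX (sb mu m (j + 1)) (fun G => (∑ e ∈ G, g (G.erase e) e) / ((j : ℝ) + 1)) := by
    unfold EX
    rw [mul_sum]
    refine sum_congr rfl fun G _ => ?_
    simp only [← mul_sum]
    ring
  rw [e2] at h
  -- bound of the log
  have hlog : EX (sb mu m j) (fun H => Real.log ((∑ e ∈ pairs n \ H, Real.exp (t * g H e))
        / (((pairs n).card : ℝ) - j))) ≤
      EX (sb mu m j) (fun H => rho * Real.exp t * 1 + t * (if bad H then 1 else 0)) := by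
    unfold EX
    refine sum_le_sum fun H _ => ?_
    by_cases h0 : sb mu m j H = 0
    · rw [h0, zero_mul, zero_mul]
    · refine mul_le_mul_of_nonneg_left ?_ (hPj.1 H)
      have hs := hPj.2.1 H h0
      have hcard : ((pairs n \ H).card : ℝ) = ((pairs n).card : ℝ) - j := by
        rw [card_sdiff_of_subset hs.1, hs.2, Nat.cast_sub (by omega)]
      have hne : (pairs n \ H).Nonempty := by
        rw [← card_pos]
        have : (0 : ℝ) < ((pairs n \ H).card : ℝ) := by rw [hcard]; exact hM
        exact_mod_cast this
      have hpos : 0 < (∑ e ∈ pairs n \ H, Real.exp (t * g H e)) / (((pairs n).card : ℝ) - j) :=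
        div_pos (sum_pos (fun e _ => Real.exp_pos _) hne) hM
      by_cases hb : bad H
      · simp only [if_pos hb]
        have h1 : (∑ e ∈ pairs n \ H, Real.exp (t * g H e)) / (((pairs n).card : ℝ) - j)
            ≤ Real.exp t := by
          rw [div_le_iff₀ hM]
          calc ∑ e ∈ pairs n \ H, Real.exp (t * g H e) ≤ ∑ e ∈ pairs n \ H, Real.exp t := by
                refine sum_le_sum fun e _ => Real.exp_le_exp.2 ?_
                have := (hg H e).2
                nlinarith
            _ = Real.exp t * (((pairs n).card : ℝ) - j) := by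
                rw [sum_const, nsmul_eq_mul, hcard]
                ring
        have h2 : Real.log ((∑ e ∈ pairs n \ H, Real.exp (t * g H e))
            / (((pairs n).card : ℝ) - j)) ≤ t := by
          rw [Real.log_le_iff_le_exp hpos]
          exact h1
        have h3 : 0 ≤ rho * Real.exp t := by positivity
        linarith
      · simp only [if_neg hb]
        have h1 : (∑ e ∈ pairs n \ H, Real.exp (t * g H e)) / (((pairs n).card : ℝ) - j)
            ≤ 1 + (Real.exp t - 1) * rho := by
          rw [div_le_iff₀ hM]
          calc ∑ e ∈ pairs n \ H, Real.exp (t * g H e)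
              ≤ ∑ e ∈ pairs n \ H, (1 + (Real.exp t - 1) * g H e) :=
                sum_le_sum fun e _ => exp_bound (hg H e).1 (hg H e).2
            _ = (((pairs n).card : ℝ) - j) + (Real.exp t - 1) * ∑ e ∈ pairs n \ H, g H e := by
                rw [sum_add_distrib, sum_const, nsmul_eq_mul, hcard, mul_one, ← mul_sum]
            _ ≤ (((pairs n).card : ℝ) - j) + (Real.exp t - 1) *
                (rho * (((pairs n).card : ℝ) - j)) := by
                have h5 : 0 ≤ Real.exp t - 1 := by
                  have := Real.add_one_le_exp t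
                  linarith
                have := mul_le_mul_of_nonneg_left (hgood H hs.1 hs.2 hb) h5
                linarith
            _ = (1 + (Real.exp t - 1) * rho) * (((pairs n).card : ℝ) - j) := by ring
        have h2 : Real.log ((∑ e ∈ pairs n \ H, Real.exp (t * g H e))
            / (((pairs n).card : ℝ) - j)) ≤ (1 + (Real.exp t - 1) * rho) - 1 :=
          (Real.log_le_sub_one_of_pos hpos).trans (by linarith)
        have h3 : (Real.exp t - 1) * rho ≤ rho * Real.exp t := by nlinarith
        linarith
  have hsum : EX (sb mu m j) (fun H => rho * Real.exp t * 1 + t * (if bad H then 1 else 0)) =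
      rho * Real.exp t * EX (sb mu m j) (fun _ => 1) +
        t * EX (sb mu m j) (fun H => if bad H then 1 else 0) := by
    unfold EX
    rw [mul_sum, mul_sum, ← sum_add_distrib]
    exact sum_congr rfl fun H _ => by ring
  rw [hsum, hPj.2.2, mul_one] at hlog
  have hbad' : t * EX (sb mu m j) (fun H => if bad H then 1 else 0) ≤ t * db := by
    refine mul_le_mul_of_nonneg_left ?_ ht.le
    exact hbad
  rw [le_div_iff₀ ht]
  unfold kj
  linarith

end Vale.Agent.P046.Sh.EDG
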