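import Vale.Agent.P046.Sh.EndDefs
import Vale.Agent.P046.LAW
import Vale.Agent.P046.Model

/-! # P046, sharp constant: from `StmtCTRL` to the final theorem -/

namespace Vale.Agent.P046.Sh

open Finset Filter Topology Vale.Agent.P046.Model

variable {n : ℕ}

theorem kc_pos : 0 < kc := by
  unfold kc; positivity

/-- law decomposition for a general final functional -/
theorem law_fin (n : ℕ) (good : ℕ → Finset (Finset (Fin n)) → Prop)
    (hgood : ∀ i G, good i G → 0 < Q G) (f : Finset (Finset (Fin n)) → ℝ) (i : ℕ) :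
    fin f (pairs n) = EX (law n good i) (fin f) + ∑ j ∈ range i,
      EX (law n good j) (fun G => by classical exact if good j G then 0 else fin f G) := by
  classical
  induction i with
  | zero => rw [LAW.EX_zero]; simp
  | succ i ih =>
    rw [sum_range_succ]
    have e : EX (law n good (i + 1)) (fin f) +
        EX (law n good i) (fun G => if good i G then 0 else fin f G) =
        EX (law n good i) (fin f) := by
      rw [law, PUSH.thm n (good i) (law n good i) (fin f) (hgood i), LAW.EX_add]
      refine LAW.EX_congr _ _ _ fun G => ?_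
      by_cases hG : good i G
      · have hQ := hgood i G hG
        simp only [hG, if_true]
        have : fin f G = (∑ T ∈ tri G, fin f (del G T)) / Q G := LAW.fin_rec _ hQ
        rw [add_zero, this]
      · simp only [hG, if_false]
        ring
    rw [ih, ← e]
    ring

theorem Q_del {G : Finset (Finset (Fin n))} {T : Finset (Fin n)} (h : T ∈ tri G) :
    Q (del G T) ≤ Q G - 1 := by
  obtain ⟨h1, h2⟩ := LAW.tri_spec h
  have hsub : tri (del G T) ⊆ (tri G).erase T := by
    intro S hS
    obtain ⟨s1, s2⟩ := LAW.tri_spec hS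
    have hS' : S ∈ (univ : Finset (Fin n)).powersetCard 3 := by
      rw [mem_powersetCard]; exact ⟨subset_univ _, s1⟩
    rw [mem_erase]
    refine ⟨?_, ?_⟩
    · rintro rfl
      have hne : (eds S).Nonempty := by
        rw [← card_pos, LAW.eds_card s1]; norm_num
      obtain ⟨e, he⟩ := hne
      have := s2 he
      unfold del at this
      exact (Finset.mem_sdiff.mp this).2 he
    · unfold tri
      rw [mem_filter]
      exact ⟨hS', s2.trans sdiff_subset⟩
  have hc := card_le_card hsub
  rw [card_erase_of_mem h] at hc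
  have hpos : 1 ≤ (tri G).card := card_pos.2 ⟨T, h⟩
  unfold Q
  have : ((tri (del G T)).card : ℝ) ≤ (((tri G).card - 1 : ℕ) : ℝ) := by exact_mod_cast hc
  rw [Nat.cast_sub hpos] at this
  simpa using this

/-- range of the final graph -/
theorem fin_le (f : Finset (Finset (Fin n)) → ℝ) (a : ℝ) : ∀ (k : ℕ) (G : Finset (Finset (Fin n))),
    G.card = k → (∀ H ⊆ G, (G.card : ℝ) - 3 * Q G ≤ H.card → f H ≤ a) → fin f G ≤ a := by
  intro k
  induction k using Nat.strong_induction_on with
  | _ k ih =>
    intro G hk h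
    by_cases hQ : 0 < Q G
    · rw [LAW.fin_rec f hQ, div_le_iff₀ hQ]
      have hb : ∀ T ∈ tri G, fin f (del G T) ≤ a := by
        intro T hT
        have hc := LAW.del_card hT
        refine ih (del G T).card (by omega) (del G T) rfl ?_
        intro H hH hle
        refine h H (hH.trans sdiff_subset) ?_
        have h1 := Q_del hT
        have h2 : ((del G T).card : ℝ) + 3 = G.card := by exact_mod_cast hc
        linarith
      calc ∑ T ∈ tri G, fin f (del G T) ≤ ∑ _T ∈ tri G, a := sum_le_sum hb
        _ = a * Q G := by rw [sum_const, nsmul_eq_mul]; unfold Q; ring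
    · rw [LAW.fin_leaf f hQ]
      refine h G Subset.rfl ?_
      have : Q G = 0 := le_antisymm (not_lt.1 hQ) (LAW.Q_nonneg G)
      rw [this]; simp

theorem fin_neg (f : Finset (Finset (Fin n)) → ℝ) : ∀ (k : ℕ) (G : Finset (Finset (Fin n))),
    G.card = k → fin (fun H => - f H) G = - fin f G := by
  intro k
  induction k using Nat.strong_induction_on with
  | _ k ih =>
    intro G hk
    by_cases hQ : 0 < Q G
    · rw [LAW.fin_rec _ hQ, LAW.fin_rec f hQ, ← neg_div, ← sum_neg_distrib]
      congr 1
      refine sum_congr rfl fun T hT => ?_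
      have hc := LAW.del_card hT
      exact ih (del G T).card (by omega) (del G T) rfl
    · rw [LAW.fin_leaf _ hQ, LAW.fin_leaf f hQ]

theorem le_fin (f : Finset (Finset (Fin n)) → ℝ) (a : ℝ) (G : Finset (Finset (Fin n)))
    (h : ∀ H ⊆ G, (G.card : ℝ) - 3 * Q G ≤ H.card → a ≤ f H) : a ≤ fin f G := by
  have := fin_le (fun H => - f H) (-a) G.card G rfl (fun H hH hle => by
    have := h H hH hle; linarith)
  rw [fin_neg f G.card G rfl] at this
  linarith

theorem EX_mono (mu f g : Finset (Finset (Fin n)) → ℝ) (hmu : ∀ G, 0 ≤ mu G)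
    (h : ∀ G, mu G ≠ 0 → f G ≤ g G) : EX mu f ≤ EX mu g := by
  unfold EX
  refine sum_le_sum fun G _ => ?_
  by_cases h0 : mu G = 0
  · rw [h0]; simp
  · exact mul_le_mul_of_nonneg_left (h G h0) (hmu G)

theorem EX_smul (mu f : Finset (Finset (Fin n)) → ℝ) (a : ℝ) :
    EX mu (fun G => a * f G) = a * EX mu f := by
  unfold EX
  rw [mul_sum]
  exact sum_congr rfl fun G _ => by ring

/-- the quantitative statement at fixed `n` -/
theorem core (n : ℕ) (hn : 1 ≤ n) (C0 d : ℝ) (hC : 0 < C0) (hd : 0 < d) (hs : 3 * C0 * d ≤ kc)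
    (good : ℕ → Finset (Finset (Fin n)) → Prop) (hgood : ∀ i G, good i G → 0 < Q G) (i : ℕ)
    (h1 : kc * (n : ℝ) ^ ((3 : ℝ) / 2) ≤ ((pairs n).card : ℝ) - 3 * i)
    (h2 : ((pairs n).card : ℝ) - 3 * i ≤ (kc + d) * (n : ℝ) ^ ((3 : ℝ) / 2))
    (h3 : ∑ j ∈ range i, (((pairs n).card : ℝ) - 3 * j) *
      EX (law n good j) (fun G => by classical exact if good j G then 0 else 1)
      ≤ d * (n : ℝ) ^ ((3 : ℝ) / 2))
    (h4 : EX (law n good i) (fun G => by
      classical exact if C0 * d * (n : ℝ) ^ ((3 : ℝ) / 2) < Q G then 1 else 0) ≤ d) :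
    (∀ e : ℝ, (3 * C0 + 1) * d ≤ e →
      fin (fun H => by classical exact if e < |(H.card : ℝ) / (n : ℝ) ^ ((3 : ℝ) / 2) - kc|
        then 1 else 0) (pairs n) ≤ d * (1 + 1 / kc)) ∧
    leaveExp (pairs n) ≤ (kc + 2 * d) * (n : ℝ) ^ ((3 : ℝ) / 2) ∧
    (kc - 3 * C0 * d) * (1 - d * (1 + 1 / kc)) * (n : ℝ) ^ ((3 : ℝ) / 2) ≤ leaveExp (pairs n) := by
  classical
  obtain ⟨l1, l2, l3, l4, l5, -⟩ := LAW.thm n good hgood i
  set N : ℝ := (n : ℝ) ^ ((3 : ℝ) / 2) with hN
  have hNpos : 0 < N := by
    rw [hN]; apply Real.rpow_pos_of_pos; exact_mod_cast hn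
  have hkc := kc_pos
  set M : ℝ := ((pairs n).card : ℝ) - 3 * i with hM
  have hMpos : 0 < M := lt_of_lt_of_le (mul_pos hkc hNpos) h1
  -- killed mass
  set kl : ℕ → ℝ := fun j => EX (law n good j) (fun G => if good j G then 0 else 1) with hkl
  have hkl0 : ∀ j, 0 ≤ kl j := by
    intro j
    refine sum_nonneg fun G _ => mul_nonneg (LAW.law_nonneg good j G) ?_
    try dsimp only
    split_ifs <;> norm_num
  have hmj : ∀ j ∈ range i, M ≤ ((pairs n).card : ℝ) - 3 * j := by
    intro j hj
    have : (j : ℝ) ≤ i := by exact_mod_cast (mem_range.1 hj).le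
    rw [hM]; linarith
  have hdead : ∑ j ∈ range i, kl j ≤ d / kc := by
    have a1 : kc * N * ∑ j ∈ range i, kl j ≤ d * N := by
      rw [mul_sum]
      refine le_trans (sum_le_sum fun j hj => ?_) h3
      exact mul_le_mul_of_nonneg_right (h1.trans (hmj j hj)) (hkl0 j)
    rw [le_div_iff₀ hkc]
    have a2 : (kc * ∑ j ∈ range i, kl j) * N ≤ d * N := by
      calc (kc * ∑ j ∈ range i, kl j) * N = kc * N * ∑ j ∈ range i, kl j := by ring
        _ ≤ d * N := a1
    have := le_of_mul_le_mul_right a2 hNpos
    linarith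
  have hcard : ∀ G, law n good i G ≠ 0 → (G.card : ℝ) = M := by
    intro G hG
    obtain ⟨_, hc⟩ := l2 G hG
    have : (G.card : ℝ) + 3 * i = (pairs n).card := by exact_mod_cast hc
    rw [hM]; linarith
  have hmass : EX (law n good i) (fun _ => 1) = 1 - ∑ j ∈ range i, kl j := by
    have : EX (law n good i) (fun _ => 1) + ∑ j ∈ range i, kl j = 1 := l3
    linarith
  have hsum0 : 0 ≤ ∑ j ∈ range i, kl j := sum_nonneg fun j _ => hkl0 j
  refine ⟨?_, ?_, ?_⟩
  · intro e he
    set f : Finset (Finset (Fin n)) → ℝ := fun H =>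
      if e < |(H.card : ℝ) / N - kc| then 1 else 0 with hf
    have hf1 : ∀ G : Finset (Finset (Fin n)), fin f G ≤ 1 := by
      intro G
      refine fin_le f 1 G.card G rfl fun H _ _ => ?_
      simp only [hf]; split_ifs <;> norm_num
    have hlaw := law_fin n good hgood f i
    have b1 : EX (law n good i) (fin f) ≤ d := by
      refine le_trans (EX_mono _ _ _ l1 fun G hG => ?_) h4
      by_cases hQ : C0 * d * N < Q G
      · simp only [hQ, if_true]; exact hf1 G
      · simp only [hQ, if_false]
        refine fin_le f 0 G.card G rfl fun H hH hle => ?_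
        have hc1 : (H.card : ℝ) ≤ M := by
          rw [← hcard G hG]; exact_mod_cast card_le_card hH
        rw [hcard G hG] at hle
        have hnot : ¬ (e < |(H.card : ℝ) / N - kc|) := by
          rw [not_lt, abs_le]
          constructor
          · have : (kc - 3 * C0 * d) * N ≤ H.card := by
              have := not_lt.1 hQ
              calc (kc - 3 * C0 * d) * N = kc * N - 3 * (C0 * d * N) := by ring
                _ ≤ M - 3 * Q G := by linarith
                _ ≤ H.card := hle
            have : kc - 3 * C0 * d ≤ (H.card : ℝ) / N := by rw [le_div_iff₀ hNpos]; exact this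
            nlinarith
          · have : (H.card : ℝ) / N ≤ kc + d := by
              rw [div_le_iff₀ hNpos]; linarith
            nlinarith
        simp only [hf, hnot, if_false]; exact le_rfl
    have b2 : ∑ j ∈ range i, EX (law n good j) (fun G => if good j G then 0 else fin f G)
        ≤ ∑ j ∈ range i, kl j := by
      refine sum_le_sum fun j _ => EX_mono _ _ _ (LAW.law_nonneg good j) fun G _ => ?_
      try dsimp only
      split_ifs
      · exact le_rfl
      · exact hf1 G
    have b3 : fin f (pairs n) ≤ d + d / kc := by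
      rw [hlaw]
      have := b1.trans le_rfl
      linarith [b2.trans hdead]
    calc fin f (pairs n) ≤ d + d / kc := b3
      _ = d * (1 + 1 / kc) := by ring
  · have c1 : EX (law n good i) leaveExp ≤ M := by
      have : EX (law n good i) leaveExp ≤ EX (law n good i) (fun _ => M * 1) := by
        refine EX_mono _ _ _ l1 fun G hG => ?_
        have := (l5 G).2
        rw [hcard G hG] at this
        linarith
      rw [EX_smul, hmass] at this
      nlinarith
    have c2 : ∑ j ∈ range i, EX (law n good j) (fun G => if good j G then 0 else leaveExp G)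
        ≤ d * N := by
      refine le_trans (sum_le_sum fun j hj => ?_) h3
      rw [← EX_smul]
      refine EX_mono _ _ _ (LAW.law_nonneg good j) fun G hG => ?_
      try dsimp only
      split_ifs with hg
      · simp
      · obtain ⟨_, hc⟩ := LAW.law_support good j G hG
        have : (G.card : ℝ) + 3 * j = (pairs n).card := by exact_mod_cast hc
        have := (l5 G).2
        linarith
    rw [l4]
    have : M ≤ (kc + d) * N := h2
    nlinarith
  · rw [l4]
    have c3 : 0 ≤ ∑ j ∈ range i, EX (law n good j)
        (fun G => if good j G then 0 else leaveExp G) := by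
      refine sum_nonneg fun j _ => sum_nonneg fun G _ =>
        mul_nonneg (LAW.law_nonneg good j G) ?_
      try dsimp only
      split_ifs
      · exact le_rfl
      · exact (l5 G).1
    have hk' : 0 ≤ kc - 3 * C0 * d := by linarith
    have c4 : (kc - 3 * C0 * d) * N * (EX (law n good i) (fun _ => 1) -
        EX (law n good i) (fun G => if C0 * d * N < Q G then 1 else 0)) ≤
        EX (law n good i) leaveExp := by
      have e1 : EX (law n good i) (fun _ => 1) -
          EX (law n good i) (fun G => if C0 * d * N < Q G then 1 else 0) =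
          EX (law n good i) (fun G => if C0 * d * N < Q G then 0 else 1) := by
        unfold EX
        rw [← sum_sub_distrib]
        refine sum_congr rfl fun G _ => ?_
        by_cases hQ : C0 * d * N < Q G
        · simp only [hQ, if_true]; ring
        · simp only [hQ, if_false]; ring
      rw [e1, ← EX_smul]
      refine EX_mono _ _ _ l1 fun G hG => ?_
      try dsimp only
      split_ifs with hQ
      · rw [mul_zero]; exact (l5 G).1
      · rw [mul_one]
        refine le_fin _ _ G fun H hH hle => ?_
        rw [hcard G hG] at hle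
        have := not_lt.1 hQ
        calc (kc - 3 * C0 * d) * N = kc * N - 3 * (C0 * d * N) := by ring
          _ ≤ M - 3 * Q G := by linarith
          _ ≤ H.card := hle
    have hlow : 1 - d * (1 + 1 / kc) ≤ EX (law n good i) (fun _ => 1) -
        EX (law n good i) (fun G => if C0 * d * N < Q G then 1 else 0) := by
      rw [hmass]
      have : d * (1 + 1 / kc) = d + d / kc := by ring
      linarith
    have : (kc - 3 * C0 * d) * (1 - d * (1 + 1 / kc)) * N ≤
        (kc - 3 * C0 * d) * N * (EX (law n good i) (fun _ => 1) -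
        EX (law n good i) (fun G => if C0 * d * N < Q G then 1 else 0)) := by
      calc (kc - 3 * C0 * d) * (1 - d * (1 + 1 / kc)) * N
          = (kc - 3 * C0 * d) * N * (1 - d * (1 + 1 / kc)) := by ring
        _ ≤ _ := mul_le_mul_of_nonneg_left hlow (mul_nonneg hk' hNpos.le)
    linarith

/-- the final theorem, from the output of the dynamic part -/
theorem final (h : StmtCTRL) :
    (∀ e : ℝ, 0 < e → Tendsto (fun n : ℕ => ex (after (pairs n) (n ^ 2)) (fun H => by
      classical exact if e < |(H.card : ℝ) / (n : ℝ) ^ ((3 : ℝ) / 2) - kc| then 1 else 0))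
      atTop (𝓝 0)) ∧
    Tendsto (fun n : ℕ => ex (after (pairs n) (n ^ 2)) (fun H => (H.card : ℝ)) /
      (n : ℝ) ^ ((3 : ℝ) / 2)) atTop (𝓝 kc) := by
  classical
  obtain ⟨C0, hC0, h⟩ := h
  have hkc := kc_pos
  constructor
  · intro e he
    rw [Metric.tendsto_atTop]
    intro ε hε
    set d : ℝ := min 1 (min (e / (3 * C0 + 1)) (min (ε / 2 / (1 + 1 / kc)) (kc / (3 * C0))))
      with hd
    have hb : 0 < 1 + 1 / kc := by positivity
    have hd0 : 0 < d := by
      rw [hd]; positivity
    have hd1 : d ≤ 1 := min_le_left _ _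
    have hd2 : d ≤ e / (3 * C0 + 1) := (min_le_right _ _).trans (min_le_left _ _)
    have hd3 : d ≤ ε / 2 / (1 + 1 / kc) :=
      (min_le_right _ _).trans ((min_le_right _ _).trans (min_le_left _ _))
    have hd4 : d ≤ kc / (3 * C0) :=
      (min_le_right _ _).trans ((min_le_right _ _).trans (min_le_right _ _))
    obtain ⟨n0, hn0⟩ := h d hd0 hd1
    refine ⟨max n0 1, fun n hn => ?_⟩
    obtain ⟨good, hgood, i, h1, h2, h3, h4⟩ := hn0 n (le_trans (le_max_left _ _) hn)
    have hn1 : 1 ≤ n := le_trans (le_max_right _ _) hn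
    have hs : 3 * C0 * d ≤ kc := by
      rw [le_div_iff₀ (by positivity)] at hd4; linarith
    obtain ⟨k1, -, -⟩ := core n hn1 C0 d hC0 hd0 hs good hgood i h1 h2 h3 h4
    have hed : (3 * C0 + 1) * d ≤ e := by
      rw [le_div_iff₀ (by positivity)] at hd2; linarith
    have := k1 e hed
    rw [ex_after _ _ _ (card_le_sq _ (Finset.Subset.refl _)), Real.dist_eq, sub_zero, abs_of_nonneg]
    · have h5 : d * (1 + 1 / kc) ≤ ε / 2 := by
        rw [le_div_iff₀ hb] at hd3; exact hd3
      linarith
    · refine le_fin _ 0 _ fun H _ _ => ?_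
      split_ifs <;> norm_num
  · rw [Metric.tendsto_atTop]
    intro ε hε
    set A : ℝ := 2 + 3 * C0 + kc * (1 + 1 / kc) with hA
    have hApos : 0 < A := by positivity
    set d : ℝ := min 1 (min (ε / 2 / A) (kc / (3 * C0))) with hd
    have hd0 : 0 < d := by rw [hd]; positivity
    have hd1 : d ≤ 1 := min_le_left _ _
    have hd3 : d ≤ ε / 2 / A := (min_le_right _ _).trans (min_le_left _ _)
    have hd4 : d ≤ kc / (3 * C0) := (min_le_right _ _).trans (min_le_right _ _)
    obtain ⟨n0, hn0⟩ := h d hd0 hd1
    refine ⟨max n0 1, fun n hn => ?_⟩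
    obtain ⟨good, hgood, i, h1, h2, h3, h4⟩ := hn0 n (le_trans (le_max_left _ _) hn)
    have hn1 : 1 ≤ n := le_trans (le_max_right _ _) hn
    have hs : 3 * C0 * d ≤ kc := by
      rw [le_div_iff₀ (by positivity)] at hd4; linarith
    obtain ⟨-, k2, k3⟩ := core n hn1 C0 d hC0 hd0 hs good hgood i h1 h2 h3 h4
    have hNpos : 0 < (n : ℝ) ^ ((3 : ℝ) / 2) := by
      apply Real.rpow_pos_of_pos; exact_mod_cast hn1
    have hAd : A * d ≤ ε / 2 := by
      rw [le_div_iff₀ hApos] at hd3; linarith
    rw [ex_after _ _ _ (card_le_sq _ (Finset.Subset.refl _)), Real.dist_eq]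
    have e0 : fin (fun H : Finset (Finset (Fin n)) => (H.card : ℝ)) (pairs n)
        = leaveExp (pairs n) := rfl
    rw [e0]
    have u1 : leaveExp (pairs n) / (n : ℝ) ^ ((3 : ℝ) / 2) ≤ kc + 2 * d := by
      rw [div_le_iff₀ hNpos]; exact k2
    have u2 : (kc - 3 * C0 * d) * (1 - d * (1 + 1 / kc)) ≤
        leaveExp (pairs n) / (n : ℝ) ^ ((3 : ℝ) / 2) := by
      rw [le_div_iff₀ hNpos]; exact k3
    have u3 : kc - A * d ≤ (kc - 3 * C0 * d) * (1 - d * (1 + 1 / kc)) := by
      have t1 : 0 ≤ 3 * C0 * d * (d * (1 + 1 / kc)) := by positivity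
      rw [hA]
      nlinarith
    have u4 : 2 * d ≤ A * d := by
      have : (2 : ℝ) ≤ A := by rw [hA]; have : 0 < kc * (1 + 1 / kc) := by positivity
                               linarith
      exact mul_le_mul_of_nonneg_right this hd0.le
    rw [abs_lt]
    constructor <;> linarith

end Vale.Agent.P046.Sh
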