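import Vale.Agent.P046.Sh.Defs

/-!
# P046, sharp constant, module GAIN: one real variable
-/

set_option linter.unusedSectionVars false
set_option linter.unusedVariables false

namespace Vale.Agent.P046.Sh.GAIN

/-- second order bound of the exponential -/
lemma exp_second {s : ℝ} (hs : |s| ≤ 1 / 2) : Real.exp s - 1 - s ≤ (11 / 18) * s ^ 2 := by
  have h1 := Real.exp_bound (x := s) (by linarith) (n := 3) (by norm_num)
  have h2 : ∑ m ∈ Finset.range 3, s ^ m / (m.factorial : ℝ) = 1 + s + s ^ 2 / 2 := by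
    simp [Finset.sum_range_succ, Nat.factorial]
  rw [h2] at h1
  have h3 : (((3 : ℕ).succ : ℝ) / (((3 : ℕ).factorial : ℝ) * (3 : ℕ))) = 2 / 9 := by
    norm_num [Nat.factorial]
  rw [h3] at h1
  have h4 := (abs_le.mp h1).2
  have h5 : |s| ^ 3 ≤ (1 / 2) * s ^ 2 := by
    have : |s| ^ 3 = |s| * s ^ 2 := by
      rw [pow_succ, mul_comm, sq_abs]
    rw [this]
    exact mul_le_mul_of_nonneg_right hs (sq_nonneg s)
  nlinarith

/-- the gain for a sign-aligned small `s` -/
lemma core {s y t x s0 a : ℝ} (hs : |s| ≤ 1 / 2) (ha : a = |y|) (h0 : 0 ≤ s0) (hs0 : |s| = s0)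
    (hsy : s * y = s0 * a) (hle : s0 ≤ a) (ht : |t - 1| ≤ 1 / 1000) (hy : y = x - t) :
    (38 / 100) * s0 * a ≤ s * x - (Real.exp s - 1) * t := by
  have h1 := exp_second hs
  have ht' := abs_le.mp ht
  have h2 : s * x - (Real.exp s - 1) * t = s * y - (Real.exp s - 1 - s) * t := by
    rw [hy]
    ring
  have h3 : (Real.exp s - 1 - s) * t ≤ (11 / 18) * s ^ 2 * t :=
    mul_le_mul_of_nonneg_right h1 (by linarith)
  have h4 : s ^ 2 = s0 ^ 2 := by rw [← hs0, sq_abs]
  have h5 : s0 ^ 2 ≤ s0 * a := by nlinarith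
  rw [h2, hsy]
  rw [h4] at h3
  nlinarith [sq_nonneg s0]

/-- choice of the grid point -/
lemma choice {y h c : ℝ} (hh : 0 < h) (hc : 0 ≤ c) :
    ∃ k : ℤ, ∃ s0 : ℝ, 0 ≤ s0 ∧ |(k : ℝ) * h| = s0 ∧ ((k : ℝ) * h) * y = s0 * |y| ∧
      s0 ≤ min |y| c ∧ min |y| c - h ≤ s0 := by
  have hm : 0 ≤ min |y| c := le_min (abs_nonneg y) hc
  set k0 : ℕ := ⌊min |y| c / h⌋₊ with hk0
  have h1 : (k0 : ℝ) ≤ min |y| c / h := Nat.floor_le (div_nonneg hm hh.le)
  have h2 : min |y| c / h < k0 + 1 := Nat.lt_floor_add_one _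
  rw [le_div_iff₀ hh] at h1
  rw [div_lt_iff₀ hh] at h2
  have h3 : (0 : ℝ) ≤ (k0 : ℝ) * h := by positivity
  by_cases hy : 0 ≤ y
  · refine ⟨(k0 : ℤ), (k0 : ℝ) * h, h3, ?_, ?_, h1, by nlinarith⟩
    · push_cast
      exact abs_of_nonneg h3
    · push_cast
      rw [abs_of_nonneg hy]
  · push Not at hy
    refine ⟨-(k0 : ℤ), (k0 : ℝ) * h, h3, ?_, ?_, h1, by nlinarith⟩
    · push_cast
      rw [neg_mul, abs_neg, abs_of_nonneg h3]
    · push_cast
      rw [abs_of_neg hy]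
      ring

/-- first case: `a ≤ 1/(4L)` -/
lemma caseA {L a del C C2 V s0 : ℝ} (hL : 1 / 2 < L) (ha : 0 ≤ a) (ha1 : a ≤ 11 / 1000)
    (hdel : 0 < del) (hC : 0 ≤ C) (hCC : C ≤ C2)
    (hCL : 2 ≤ C * ((L - 1 / 2) / 3) * (38 / 100)) (hs0 : a - del / (4 * L) ≤ s0)
    (hV : ((L - 1 / 2) / 3) * ((38 / 100) * s0 * a) ≤ V) :
    2 * a ^ 2 ≤ C * V + C2 * del := by
  have hL0 : 0 < L := by linarith
  have e1 : ((L - 1 / 2) / 3) * ((38 / 100) * (a - del / (4 * L)) * a) ≤ V := by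
    refine le_trans ?_ hV
    refine mul_le_mul_of_nonneg_left ?_ (by linarith)
    exact mul_le_mul_of_nonneg_right (by linarith) ha
  have e2 : C * (((L - 1 / 2) / 3) * ((38 / 100) * (a - del / (4 * L)) * a)) ≤ C * V :=
    mul_le_mul_of_nonneg_left e1 hC
  have e3 : ((L - 1 / 2) / 3) * (del / (4 * L)) ≤ del / 12 := by
    have : ((L - 1 / 2) / 3) * (del / (4 * L)) = del / 12 * ((L - 1 / 2) / L) := by
      field_simp
      ring
    rw [this]
    refine mul_le_of_le_one_right (by positivity) ?_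
    rw [div_le_one hL0]
    linarith
  have e4 : C * (((L - 1 / 2) / 3) * ((38 / 100) * (a - del / (4 * L)) * a)) =
      (C * ((L - 1 / 2) / 3) * (38 / 100)) * a ^ 2 -
        C * (38 / 100) * a * (((L - 1 / 2) / 3) * (del / (4 * L))) := by ring
  have e5 : C * (38 / 100) * a * (((L - 1 / 2) / 3) * (del / (4 * L))) ≤
      C * (38 / 100) * a * (del / 12) := mul_le_mul_of_nonneg_left e3 (by positivity)
  have e6 : C * (38 / 100) * a * (del / 12) ≤ C2 * del := by
    have e7 : C * (38 / 100) * a * (del / 12) = C * del * (a * (38 / 1200)) := by ring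
    rw [e7]
    have e8 : a * (38 / 1200) ≤ 1 := by linarith
    calc C * del * (a * (38 / 1200)) ≤ C * del * 1 :=
          mul_le_mul_of_nonneg_left e8 (by positivity)
      _ ≤ C2 * del := by nlinarith
  have e9 : 2 * a ^ 2 ≤ (C * ((L - 1 / 2) / 3) * (38 / 100)) * a ^ 2 :=
    mul_le_mul_of_nonneg_right hCL (sq_nonneg a)
  linarith

/-- lower bound of the gain when `1/(4L) ≤ a` -/
lemma caseB {L a del V s0 : ℝ} (hL : 1 / 2 < L) (ha : 0 ≤ a)
    (hdel : 0 < del) (hdel1 : del ≤ 1 / 1000) (hs0 : 1 / (4 * L) - del / (4 * L) ≤ s0)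
    (hV : ((L - 1 / 2) / 3) * ((38 / 100) * s0 * a) ≤ V) :
    (3 / 100) * ((L - 1 / 2) / L) * a ≤ V := by
  have hL0 : 0 < L := by linarith
  have e1 : ((L - 1 / 2) / 3) * ((38 / 100) * (1 / (4 * L) - del / (4 * L)) * a) ≤ V := by
    refine le_trans ?_ hV
    refine mul_le_mul_of_nonneg_left ?_ (by linarith)
    exact mul_le_mul_of_nonneg_right (by linarith) ha
  have e2 : ((L - 1 / 2) / 3) * ((38 / 100) * (1 / (4 * L) - del / (4 * L)) * a) =
      ((38 / 1200) * (1 - del)) * (((L - 1 / 2) / L) * a) := by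
    field_simp
    ring
  rw [e2] at e1
  have e3 : 0 ≤ ((L - 1 / 2) / L) * a := mul_nonneg (div_nonneg (by linarith) hL0.le) ha
  have e4 : (3 / 100 : ℝ) ≤ (38 / 1200) * (1 - del) := by linarith
  have e5 := mul_le_mul_of_nonneg_right e4 e3
  calc (3 / 100) * ((L - 1 / 2) / L) * a = (3 / 100) * (((L - 1 / 2) / L) * a) := by ring
    _ ≤ _ := e5
    _ ≤ V := e1

/-- second case: far away and `a ≤ 1/(4L)` -/
lemma caseC {l0 L a V s0 : ℝ} (hl0 : 1 / 2 < l0) (hL : l0 ≤ L) (ha : 9 / 1000 ≤ a)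
    (h9 : 8 / 1000 ≤ s0) (hV : ((L - 1 / 2) / 3) * ((38 / 100) * s0 * a) ≤ V) :
    (l0 - 1 / 2) / l0 * (4 / 10 ^ 6) ≤ V := by
  have h10 : ((L - 1 / 2) / 3) * ((38 / 100) * (8 / 1000) * (9 / 1000)) ≤ V := by
    refine le_trans ?_ hV
    refine mul_le_mul_of_nonneg_left ?_ (by linarith)
    have e1 : (38 / 100 : ℝ) * (8 / 1000) ≤ (38 / 100) * s0 := by linarith
    exact mul_le_mul e1 ha (by norm_num) (by linarith)
  have h11 : (l0 - 1 / 2) / l0 ≤ 2 * (l0 - 1 / 2) := by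
    rw [div_le_iff₀ (by linarith)]
    have : 0 ≤ (l0 - 1 / 2) * (l0 - 1 / 2) := mul_self_nonneg _
    linarith
  refine le_trans ?_ h10
  have h13 : (l0 - 1 / 2) / l0 * (4 / 10 ^ 6) ≤ 2 * (L - 1 / 2) * (4 / 10 ^ 6) :=
    mul_le_mul_of_nonneg_right (by linarith) (by norm_num)
  refine h13.trans ?_
  have h14 : (L - 1 / 2) / 3 * (38 / 100 * (8 / 1000) * (9 / 1000)) -
      2 * (L - 1 / 2) * (4 / 10 ^ 6) = (L - 1 / 2) * (112 / 10 ^ 8) := by
    ring
  have h15 : 0 ≤ (L - 1 / 2) * (112 / 10 ^ 8) := mul_nonneg (by linarith) (by norm_num)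
  linarith

/-- second case: far away and `1/(4L) < a` -/
lemma caseD {l0 L a V : ℝ} (hl0 : 1 / 2 < l0) (hL : l0 ≤ L) (ha : 9 / 1000 ≤ a)
    (h10 : (3 / 100) * ((L - 1 / 2) / L) * a ≤ V) :
    (l0 - 1 / 2) / l0 * (4 / 10 ^ 6) ≤ V := by
  have hl1 : 0 < l0 := by linarith
  have hL0 : 0 < L := by linarith
  have hmono : (l0 - 1 / 2) / l0 ≤ (L - 1 / 2) / L := by
    have e1 : (l0 - 1 / 2) / l0 = 1 - 1 / 2 / l0 := by
      rw [sub_div, div_self hl1.ne']
    have e2 : (L - 1 / 2) / L = 1 - 1 / 2 / L := by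
      rw [sub_div, div_self hL0.ne']
    rw [e1, e2]
    have e3 : (1 : ℝ) / 2 / L ≤ 1 / 2 / l0 :=
      div_le_div_of_nonneg_left (by norm_num) hl1 hL
    linarith
  have h12 : 0 ≤ (l0 - 1 / 2) / l0 := div_nonneg (by linarith) (by linarith)
  have h13 : (3 / 100) * ((l0 - 1 / 2) / l0) ≤ (3 / 100) * ((L - 1 / 2) / L) := by linarith
  have h11 : (3 / 100) * ((l0 - 1 / 2) / l0) * (9 / 1000) ≤
      (3 / 100) * ((L - 1 / 2) / L) * a :=
    mul_le_mul h13 ha (by norm_num) (by linarith)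
  refine le_trans ?_ (h11.trans h10)
  linarith

theorem thm : StmtGAIN := by
  intro l0 hl0
  have hl0' : 0 < l0 - 1 / 2 := by linarith
  refine ⟨(l0 - 1 / 2) / l0 * (4 / 10 ^ 6), 29 / 10 + 20 / (l0 - 1 / 2), by positivity, ?_, ?_⟩
  · have : 0 < 20 / (l0 - 1 / 2) := by positivity
    linarith
  intro L t x del hL ht hx hdel hdel1
  set C2 : ℝ := 29 / 10 + 20 / (l0 - 1 / 2) with hC2
  have hC2' : 20 / (l0 - 1 / 2) > 0 := by positivity
  have hL1 : 1 / 2 < L := by linarith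
  have hL0 : 0 < L := by linarith
  have hh : 0 < del / (4 * L) := by positivity
  have hc : (0 : ℝ) ≤ 1 / (4 * L) := by positivity
  obtain ⟨k, s0, h0, h1, h2, h3, h4⟩ := choice (y := x - t) hh hc
  have h5 : s0 ≤ 1 / (4 * L) := h3.trans (min_le_right _ _)
  have h6 : s0 ≤ |x - t| := h3.trans (min_le_left _ _)
  have hhalf : (1 : ℝ) / (4 * L) ≤ 1 / 2 := by
    rw [div_le_div_iff₀ (by positivity) (by norm_num)]
    linarith
  have hcore := core (s := (k : ℝ) * (del / (4 * L))) (y := x - t) (t := t) (x := x)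
    (by rw [h1]; linarith) rfl h0 h1 h2 h6 ht rfl
  have hth : L * th L = L - 1 / 2 := by
    unfold th
    field_simp
  have hV : ((L - 1 / 2) / 3) * ((38 / 100) * s0 * |x - t|) ≤
      (L * th L / 3) * (((k : ℝ) * (del / (4 * L))) * x
        - (Real.exp ((k : ℝ) * (del / (4 * L))) - 1) * t) := by
    rw [hth]
    exact mul_le_mul_of_nonneg_left hcore (by linarith)
  obtain ⟨V, hVdef⟩ : ∃ V : ℝ, V = (L * th L / 3) * (((k : ℝ) * (del / (4 * L))) * x
        - (Real.exp ((k : ℝ) * (del / (4 * L))) - 1) * t) := ⟨_, rfl⟩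
  rw [← hVdef] at hV
  have hsq : 2 * (x - t) ^ 2 = 2 * |x - t| ^ 2 := by rw [sq_abs]
  have ht' := abs_le.mp ht
  refine ⟨k, by rw [h1]; exact h5, ?_, ?_⟩
  · intro hx1
    rw [← hVdef]
    have hx' := abs_le.mp hx1
    have ha1 : |x - t| ≤ 11 / 1000 := by
      rw [abs_le]
      constructor <;> linarith
    rw [hsq]
    by_cases hcase : |x - t| ≤ 1 / (4 * L)
    · have h7 : |x - t| - del / (4 * L) ≤ s0 := by
        rw [min_eq_left hcase] at h4
        exact h4
      by_cases h10 : 10 ≤ L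
      · rw [if_pos h10]
        exact caseA hL1 (abs_nonneg _) ha1 hdel (by norm_num) (by linarith)
          (by linarith) h7 hV
      · rw [if_neg h10]
        refine caseA hL1 (abs_nonneg _) ha1 hdel (by linarith) le_rfl ?_ h7 hV
        have e1 : 20 / (l0 - 1 / 2) * ((l0 - 1 / 2) / 3) = 20 / 3 := by
          rw [div_mul_div_comm, mul_comm (20 : ℝ), mul_div_mul_left _ _ hl0'.ne']
        have e2 : 20 / (l0 - 1 / 2) * ((l0 - 1 / 2) / 3) ≤ C2 * ((L - 1 / 2) / 3) := by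
          refine mul_le_mul (by linarith) (by linarith) (by positivity) (by linarith)
        linarith
    · push Not at hcase
      have h7 : 1 / (4 * L) - del / (4 * L) ≤ s0 := by
        rw [min_eq_right hcase.le] at h4
        exact h4
      have h8 : 1 / (4 * L) < 11 / 1000 := lt_of_lt_of_le hcase ha1
      have h9 : 20 < L := by
        rw [div_lt_iff₀ (by positivity)] at h8
        linarith
      rw [if_pos (by linarith : 10 ≤ L)]
      have h10 := caseB hL1 (abs_nonneg (x - t)) hdel hdel1 h7 hV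
      have h11 : (9 / 10 : ℝ) ≤ (L - 1 / 2) / L := by
        rw [le_div_iff₀ hL0]
        linarith
      have h12 : (3 / 100) * (9 / 10) * |x - t| ≤ V := by
        refine le_trans ?_ h10
        refine mul_le_mul_of_nonneg_right ?_ (abs_nonneg _)
        linarith
      have h13 : 0 < C2 * del := mul_pos (by linarith) hdel
      nlinarith [abs_nonneg (x - t)]
  · intro hx1
    rw [← hVdef]
    have ha1 : 9 / 1000 ≤ |x - t| := by
      have e1 : |x - 1| ≤ |x - t| + |t - 1| := by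
        have : x - 1 = (x - t) + (t - 1) := by ring
        rw [this]
        exact abs_add_le _ _
      linarith
    by_cases hcase : |x - t| ≤ 1 / (4 * L)
    · have h7 : |x - t| - del / (4 * L) ≤ s0 := by
        rw [min_eq_left hcase] at h4
        exact h4
      have h8 : del / (4 * L) ≤ 1 / 2000 := by
        calc del / (4 * L) ≤ del / 2 :=
              div_le_div_of_nonneg_left hdel.le (by norm_num) (by linarith)
          _ ≤ 1 / 2000 := by linarith
      exact caseC hl0 hL ha1 (by linarith) hV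
    · push Not at hcase
      have h7 : 1 / (4 * L) - del / (4 * L) ≤ s0 := by
        rw [min_eq_right hcase.le] at h4
        exact h4
      exact caseD hl0 hL ha1 (caseB hL1 (abs_nonneg (x - t)) hdel hdel1 h7 hV)

end Vale.Agent.P046.Sh.GAIN
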