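import Vale.Agent.P046.Sh.Defs

/-!
# P046, sharp constant, module IDD: derivative in `x` as a sum over edges
-/

namespace Vale.Agent.P046.Sh.IDD

open Finset Vale.Agent.P046 Vale.Agent.P046.Sh

variable {n : ℕ}

theorem ad_nonneg (H : Finset (Finset (Fin n))) (u v : Fin n) : 0 ≤ ad H u v := by
  unfold ad; split_ifs <;> norm_num

theorem ad_symm (H : Finset (Finset (Fin n))) (u v : Fin n) : ad H u v = ad H v u := by
  unfold ad; rw [Finset.pair_comm]

theorem ad_one {H : Finset (Finset (Fin n))} {u v : Fin n}
    (h : ({u, v} : Finset (Fin n)) ∈ H) : ad H u v = 1 := by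
  unfold ad; rw [if_pos h]

theorem ad_zero {H : Finset (Finset (Fin n))} {u v : Fin n}
    (h : ({u, v} : Finset (Fin n)) ∉ H) : ad H u v = 0 := by
  unfold ad; rw [if_neg h]

theorem ne_of_mem {H : Finset (Finset (Fin n))} (hH : H ⊆ pairs n) {u v : Fin n}
    (h : ({u, v} : Finset (Fin n)) ∈ H) : u ≠ v := by
  intro huv
  have h2 := hH h
  simp only [pairs, mem_powersetCard] at h2
  subst huv
  simp at h2

/-- degrees as sums of the adjacency -/
theorem sum_ad (H : Finset (Finset (Fin n))) (hH : H ⊆ pairs n) (c : Fin n) :
    ∑ z, ad H c z = (deg H c : ℝ) := by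
  classical
  have h1 : ∑ z, ad H c z
      = (((univ : Finset (Fin n)).filter (fun z => ({c, z} : Finset (Fin n)) ∈ H)).card : ℝ) := by
    rw [← Finset.sum_boole]
    refine Finset.sum_congr rfl (fun z _ => ?_)
    unfold ad
    split_ifs <;> rfl
  rw [h1]
  unfold deg
  norm_cast
  refine Finset.card_bij (fun z _ => ({c, z} : Finset (Fin n))) ?_ ?_ ?_
  · intro z hz
    simp only [mem_filter, mem_univ, true_and] at hz
    simp only [mem_filter]
    exact ⟨hz, by simp⟩
  · intro z hz z' hz' he
    simp only [mem_filter, mem_univ, true_and] at hz hz'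
    have h3 := ne_of_mem hH hz
    have h5 : z ∈ ({c, z'} : Finset (Fin n)) := by
      rw [← he]; simp
    simp only [mem_insert, mem_singleton] at h5
    rcases h5 with h5 | h5
    · exact absurd h5.symm h3
    · exact h5
  · intro e he
    simp only [mem_filter] at he
    have h2 := hH he.1
    simp only [pairs, mem_powersetCard] at h2
    obtain ⟨x, y, hxy, hexy⟩ := Finset.card_eq_two.mp h2.2
    have h3 := he.2
    rw [hexy] at h3
    simp only [mem_insert, mem_singleton] at h3
    rcases h3 with h3 | h3
    · refine ⟨y, ?_, ?_⟩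
      · simp only [mem_filter, mem_univ, true_and]
        rw [h3, ← hexy]; exact he.1
      · rw [h3, ← hexy]
    · refine ⟨x, ?_, ?_⟩
      · simp only [mem_filter, mem_univ, true_and]
        rw [h3, Finset.pair_comm, ← hexy]; exact he.1
      · rw [h3, Finset.pair_comm, ← hexy]

theorem sum_deg (H : Finset (Finset (Fin n))) (hH : H ⊆ pairs n) :
    ∑ v, (deg H v : ℝ) = 2 * H.card := by
  classical
  have h1 : ∑ v, deg H v = 2 * H.card := by
    unfold deg
    simp only [Finset.card_filter]
    rw [Finset.sum_comm]
    have h2 : ∀ e ∈ H, ∑ v : Fin n, (if v ∈ e then 1 else 0) = 2 := by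
      intro e he
      have h3 := hH he
      simp only [pairs, mem_powersetCard] at h3
      rw [← Finset.card_filter]
      simp [h3.2]
    rw [Finset.sum_congr rfl h2]
    simp [mul_comm]
  exact_mod_cast h1

theorem sum_ad_all (H : Finset (Finset (Fin n))) (hH : H ⊆ pairs n) :
    ∑ a, ∑ c, ad H a c = 2 * H.card := by
  rw [← sum_deg H hH]
  exact Finset.sum_congr rfl (fun a _ => sum_ad H hH a)

/-- codegrees as sums of products of the adjacency -/
theorem sum_ad_ad (H : Finset (Finset (Fin n))) (a z : Fin n) :
    ∑ c, ad H a c * ad H c z = (cd H a z : ℝ) := by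
  classical
  unfold cd
  rw [← Finset.sum_boole]
  refine Finset.sum_congr rfl (fun c _ => ?_)
  unfold ad
  rw [Finset.pair_comm c z]
  by_cases h1 : ({a, c} : Finset (Fin n)) ∈ H <;>
  by_cases h2 : ({z, c} : Finset (Fin n)) ∈ H <;> simp [h1, h2]

/-- removing the edge `ac` lowers the codegree of `a, z` by one, `z` a further neighbour of `c` -/
theorem cd_erase (H : Finset (Finset (Fin n))) (hH : H ⊆ pairs n) (a c z : Fin n)
    (hac : ({a, c} : Finset (Fin n)) ∈ H) (hcz : ({c, z} : Finset (Fin n)) ∈ H) (hz : a ≠ z) :
    cd (H.erase {a, c}) a z = cd H a z - 1 := by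
  classical
  have hczne := ne_of_mem hH hcz
  have hacne := ne_of_mem hH hac
  unfold cd
  have h1 : ((univ : Finset (Fin n)).filter (fun w => ({a, w} : Finset (Fin n)) ∈ H.erase {a, c} ∧
      ({z, w} : Finset (Fin n)) ∈ H.erase {a, c}))
      = ((univ : Finset (Fin n)).filter (fun w => ({a, w} : Finset (Fin n)) ∈ H ∧
      ({z, w} : Finset (Fin n)) ∈ H)).erase c := by
    ext w
    simp only [mem_filter, mem_univ, true_and, mem_erase]
    constructor
    · rintro ⟨⟨h2, h3⟩, h4, h5⟩
      refine ⟨?_, h3, h5⟩
      intro h6
      exact h2 (by rw [h6])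
    · rintro ⟨h2, h3, h4⟩
      refine ⟨⟨?_, h3⟩, ?_, h4⟩
      · intro h5
        have h6 : c ∈ ({a, w} : Finset (Fin n)) := by rw [h5]; simp
        simp only [mem_insert, mem_singleton] at h6
        rcases h6 with h6 | h6
        · exact hacne h6.symm
        · exact h2 h6.symm
      · intro h5
        have h6 : z ∈ ({a, c} : Finset (Fin n)) := by rw [← h5]; simp
        simp only [mem_insert, mem_singleton] at h6
        rcases h6 with h6 | h6
        · exact hz h6.symm
        · exact hczne h6.symm
  rw [h1, Finset.card_erase_of_mem]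
  simp only [mem_filter, mem_univ, true_and]
  exact ⟨hac, by rw [Finset.pair_comm]; exact hcz⟩

theorem od_nonneg (a z : Fin n) : 0 ≤ od a z := by
  unfold od; split_ifs <;> norm_num

theorem od_le_one (a z : Fin n) : od a z ≤ 1 := by
  unfold od; split_ifs <;> norm_num

theorem deg_erase (H : Finset (Finset (Fin n))) (a c : Fin n)
    (hac : ({a, c} : Finset (Fin n)) ∈ H) :
    (deg H c : ℝ) = (deg (H.erase {a, c}) c : ℝ) + 1 := by
  classical
  have h1 : deg (H.erase {a, c}) c + 1 = deg H c := by
    unfold deg
    have h2 : (H.erase {a, c}).filter (fun e => c ∈ e) = (H.filter (fun e => c ∈ e)).erase {a, c} := by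
      ext e
      simp only [mem_filter, mem_erase]
      tauto
    rw [h2, Finset.card_erase_add_one]
    simp only [mem_filter]
    exact ⟨hac, by simp⟩
  rw [← h1]; push_cast; ring

theorem thm : StmtIDD := by
  intro n H KK b B x D0 hn hH hS hb hx0 hx1 hD0
  obtain ⟨hK01, hKmono, hKst⟩ := hS
  have hnpos : (0 : ℝ) < n := by exact_mod_cast hn
  have hB : 0 ≤ B := by
    have h := hb ⟨0, hn⟩ ⟨0, hn⟩
    linarith [h.1, h.2]
  set E : ℝ := D0 * (D0 + 4) * B / n with hE
  have hE0 : 0 ≤ E := by rw [hE]; positivity
  set Y : Fin n → Fin n → Fin n → ℝ := fun a c z =>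
    ad H c z * (od a z * KK H a z * b a z * x ^ (cd H a z - 1)) with hY
  have hY0 : ∀ a c z, 0 ≤ Y a c z := by
    intro a c z
    have h1 := ad_nonneg H c z
    have h2 := od_nonneg a z
    have h3 := (hK01 H a z).1
    have h4 := (hb a z).1
    positivity
  -- one edge
  have key : ∀ a c, ad H a c * (if (deg (H.erase {a, c}) c : ℝ) ≤ D0 then
      ∑ z, ad (H.erase {a, c}) c z * (od a z * KK (H.erase {a, c}) a z * b a z
        * x ^ (cd (H.erase {a, c}) a z)) else 0)
      ≤ ad H a c * ∑ z, Y a c z + ad H a c * E := by
    intro a c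
    by_cases hac : ({a, c} : Finset (Fin n)) ∈ H
    · rw [ad_one hac, one_mul, one_mul, one_mul]
      have hacne := ne_of_mem hH hac
      split_ifs with hdeg
      · have hH' : H.erase {a, c} ⊆ pairs n := (Finset.erase_subset _ _).trans hH
        have hterm : ∀ z, ad (H.erase {a, c}) c z * (od a z * KK (H.erase {a, c}) a z * b a z
            * x ^ (cd (H.erase {a, c}) a z))
            ≤ Y a c z + ad (H.erase {a, c}) c z * ((D0 + 4) / n * B) := by
          intro z
          by_cases hcz' : ({c, z} : Finset (Fin n)) ∈ H.erase {a, c}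
          · have hcz : ({c, z} : Finset (Fin n)) ∈ H := Finset.mem_of_mem_erase hcz'
            have hczne := ne_of_mem hH hcz
            rw [ad_one hcz', hY]
            simp only [one_mul]
            rw [ad_one hcz, one_mul]
            by_cases haz : a = z
            · have h0 : od a z = 0 := by unfold od; rw [if_pos haz]
              rw [h0]
              simp only [zero_mul, zero_add]
              positivity
            · rw [cd_erase H hH a c z hac hcz haz]
              have h1 := hKst H a c z hH hac (fun h => haz h.symm) (fun h => hczne h.symm)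
              have h2 : ((deg H c : ℝ) + 3) / n ≤ (D0 + 4) / n := by
                apply div_le_div_of_nonneg_right _ hnpos.le
                have := deg_erase H a c hac
                linarith
              have h3 : KK (H.erase {a, c}) a z ≤ KK H a z + (D0 + 4) / n := by linarith
              have hq0 : 0 ≤ x ^ (cd H a z - 1) := pow_nonneg hx0 _
              have hq1 : x ^ (cd H a z - 1) ≤ 1 := pow_le_one₀ hx0 hx1
              have ho0 := od_nonneg a z
              have ho1 := od_le_one a z
              obtain ⟨hb0, hb1⟩ := hb a z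
              have h4 : od a z * KK (H.erase {a, c}) a z * b a z * x ^ (cd H a z - 1)
                  = KK (H.erase {a, c}) a z * (od a z * b a z * x ^ (cd H a z - 1)) := by ring
              have h5 : od a z * KK H a z * b a z * x ^ (cd H a z - 1)
                  = KK H a z * (od a z * b a z * x ^ (cd H a z - 1)) := by ring
              rw [h4, h5]
              have hc0 : 0 ≤ od a z * b a z * x ^ (cd H a z - 1) := by positivity
              have hc1 : od a z * b a z * x ^ (cd H a z - 1) ≤ B := by
                have h6 : od a z * b a z ≤ 1 * B := mul_le_mul ho1 hb1 hb0 (by norm_num)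
                have h7 : od a z * b a z * x ^ (cd H a z - 1) ≤ (1 * B) * 1 :=
                  mul_le_mul h6 hq1 hq0 (by linarith)
                linarith
              have h8 : KK (H.erase {a, c}) a z * (od a z * b a z * x ^ (cd H a z - 1))
                  ≤ (KK H a z + (D0 + 4) / n) * (od a z * b a z * x ^ (cd H a z - 1)) :=
                mul_le_mul_of_nonneg_right h3 hc0
              have h9 : (D0 + 4) / n * (od a z * b a z * x ^ (cd H a z - 1)) ≤ (D0 + 4) / n * B :=
                mul_le_mul_of_nonneg_left hc1 (by positivity)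
              calc _ ≤ _ := h8
                _ = KK H a z * (od a z * b a z * x ^ (cd H a z - 1))
                    + (D0 + 4) / n * (od a z * b a z * x ^ (cd H a z - 1)) := by ring
                _ ≤ _ := by linarith
          · rw [ad_zero hcz']
            have := hY0 a c z
            simpa using this
        calc _ ≤ ∑ z, (Y a c z + ad (H.erase {a, c}) c z * ((D0 + 4) / n * B)) :=
              Finset.sum_le_sum (fun z _ => hterm z)
          _ = ∑ z, Y a c z + (deg (H.erase {a, c}) c : ℝ) * ((D0 + 4) / n * B) := by
              rw [Finset.sum_add_distrib, ← Finset.sum_mul, sum_ad _ hH']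
          _ ≤ ∑ z, Y a c z + D0 * ((D0 + 4) / n * B) := by
              have : (deg (H.erase {a, c}) c : ℝ) * ((D0 + 4) / n * B)
                  ≤ D0 * ((D0 + 4) / n * B) :=
                mul_le_mul_of_nonneg_right hdeg (by positivity)
              linarith
          _ = ∑ z, Y a c z + E := by rw [hE]; ring
      · have : 0 ≤ ∑ z, Y a c z := Finset.sum_nonneg (fun z _ => hY0 a c z)
        linarith
    · rw [ad_zero hac]; simp
  have h1 : (∑ a, ∑ c, ad H a c * (if (deg (H.erase {a, c}) c : ℝ) ≤ D0 then
      ∑ z, ad (H.erase {a, c}) c z * (od a z * KK (H.erase {a, c}) a z * b a z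
        * x ^ (cd (H.erase {a, c}) a z)) else 0))
      ≤ ∑ a, ∑ c, (ad H a c * ∑ z, Y a c z + ad H a c * E) :=
    Finset.sum_le_sum (fun a _ => Finset.sum_le_sum (fun c _ => key a c))
  have h2 : ∑ a, ∑ c, (ad H a c * ∑ z, Y a c z + ad H a c * E)
      = ∑ a, ∑ z, od a z * KK H a z * b a z * ((cd H a z : ℝ) * x ^ (cd H a z - 1))
        + 2 * H.card * E := by
    have h3 : ∀ a, ∑ c, (ad H a c * ∑ z, Y a c z + ad H a c * E)
        = ∑ z, od a z * KK H a z * b a z * ((cd H a z : ℝ) * x ^ (cd H a z - 1))
          + (∑ c, ad H a c) * E := by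
      intro a
      rw [Finset.sum_add_distrib, ← Finset.sum_mul]
      congr 1
      simp only [Finset.mul_sum]
      rw [Finset.sum_comm]
      refine Finset.sum_congr rfl (fun z _ => ?_)
      rw [← sum_ad_ad H a z, Finset.sum_mul, Finset.mul_sum]
      refine Finset.sum_congr rfl (fun c _ => ?_)
      rw [hY]
      ring
    rw [Finset.sum_congr rfl (fun a _ => h3 a), Finset.sum_add_distrib, ← Finset.sum_mul,
      sum_ad_all H hH]
  linarith [h1, h2]

end Vale.Agent.P046.Sh.IDD
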