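import Vale.Agent.P046.Sh.Defs

/-!
P046 sharp, module LRS: one-sided regularity is inherited by close subsets.
-/

namespace Vale.Agent.P046.Sh.LRS

open Finset

variable {n : ℕ}

theorem ad_sdiff (G H : Finset (Finset (Fin n))) (h : H ⊆ G) (u v : Fin n) :
    ad (G \ H) u v = ad G u v - ad H u v := by
  unfold ad
  by_cases h1 : ({u, v} : Finset (Fin n)) ∈ H
  · have h2 : ({u, v} : Finset (Fin n)) ∈ G := h h1
    simp [h1, h2]
  · by_cases h2 : ({u, v} : Finset (Fin n)) ∈ G
    · simp [h1, h2]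
    · simp [h1, h2]

theorem sum_form (H : Finset (Finset (Fin n))) (W : Fin n → Fin n → ℝ) (c : ℝ)
    (S T : Finset (Fin n)) :
    ∑ u ∈ S, ∑ v ∈ T, (ad H u v / c - W u v)
      = (∑ u ∈ S, ∑ v ∈ T, ad H u v) / c - ∑ u ∈ S, ∑ v ∈ T, W u v := by
  simp only [sum_sub_distrib, sum_div]

theorem arith (A B w m k N rho r : ℝ) (hm : 0 < m) (hk : 0 < k) (hN : 0 < N)
    (h1 : (k / m) * A - r * m ≤ B) (h2 : -(rho * N) ≤ A / (2 * m / N) - w) :
    -((rho + r * m / (2 * k)) * N) ≤ B / (2 * k / N) - w := by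
  have e1 : A / (2 * m / N) = A * N / (2 * m) := by
    field_simp
  have e2 : B / (2 * k / N) = B * N / (2 * k) := by
    field_simp
  rw [e1] at h2
  rw [e2]
  have h3 : ((k / m) * A - r * m) * N / (2 * k) ≤ B * N / (2 * k) := by
    apply div_le_div_of_nonneg_right _ (by positivity)
    exact mul_le_mul_of_nonneg_right h1 hN.le
  have e3 : ((k / m) * A - r * m) * N / (2 * k) = A * N / (2 * m) - r * m / (2 * k) * N := by
    field_simp
  linarith

theorem thm : StmtLRS := by
  intro n G H W rho r hG hH hh hlt hn hr hLR hC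
  have hm0 : (0 : ℝ) < G.card := by
    have : 0 < G.card := by omega
    exact_mod_cast this
  have hh0 : (0 : ℝ) < H.card := by exact_mod_cast hh
  have hk0 : (0 : ℝ) < (G.card : ℝ) - H.card := by
    have : (H.card : ℝ) < G.card := by exact_mod_cast hlt
    linarith
  have hN : (0 : ℝ) < (n : ℝ) ^ 2 := by positivity
  constructor
  · intro S T
    have h2 := hLR S T
    have h1 := hC S T
    rw [sum_form] at h2 ⊢
    unfold pp at h2 ⊢
    refine arith _ _ _ (G.card : ℝ) (H.card : ℝ) _ _ _ hm0 hh0 hN ?_ h2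
    have := (abs_le.1 h1).1
    linarith
  · intro S T
    have h2 := hLR S T
    have h1 := hC S T
    rw [sum_form] at h2 ⊢
    unfold pp at h2 ⊢
    have hc : (((G \ H).card : ℕ) : ℝ) = (G.card : ℝ) - H.card := by
      rw [card_sdiff_of_subset hH, Nat.cast_sub hlt.le]
    rw [hc]
    have hA : ∑ u ∈ S, ∑ v ∈ T, ad (G \ H) u v
        = ∑ u ∈ S, ∑ v ∈ T, ad G u v - ∑ u ∈ S, ∑ v ∈ T, ad H u v := by
      simp only [ad_sdiff G H hH, sum_sub_distrib]
    refine arith _ _ _ (G.card : ℝ) ((G.card : ℝ) - H.card) _ _ _ hm0 hk0 hN ?_ h2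
    rw [hA]
    have h3 := (abs_le.1 h1).2
    have e : ((G.card : ℝ) - H.card) / G.card = 1 - (H.card : ℝ) / G.card := by
      field_simp
    rw [e]
    linarith

end Vale.Agent.P046.Sh.LRS
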