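import Vale.Agent.P046.Sh.MACb

namespace Vale.Agent.P046.Sh.MAC1

open Finset Vale.Agent.P046 Vale.Agent.P046.Sh

theorem thm : StmtMAC1 := by
  intro n W rho hn hW hr0 hr1 hav
  have hct := MACb.cost_lb hn W hW
  have hex := MACb.tW_expand hn W hW.1
  have htr := MACb.tri_sq hn (fun u v => W u v - 1)
  have hV := MACb.VV_nonneg (fun u v : Fin n => W u v - 1)
  have hN0 : 0 ≤ av2 (fun u v : Fin n => (W u v - 1) ^ 2) := MACb.av2_nonneg fun _ _ => sq_nonneg _
  have ht0 := MACb.tW_nonneg W hW
  have h1 : av2 (fun u v => W u v - 1) = av2 W - 1 := by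
    have : (fun u v => W u v - 1) = fun u v => W u v + (-1 : ℝ) := by funext u v; ring
    rw [this, MACb.av2_add, MACb.av2_const hn]; ring
  have hl := MACa.log55_lb
  have hu := MACa.log55_ub
  set N := av2 (fun u v : Fin n => (W u v - 1) ^ 2) with hN
  set t3 := av3 (fun a b c : Fin n => (W a b - 1) * (W b c - 1) * (W a c - 1)) with ht3
  set V := MACb.VV (fun u v : Fin n => W u v - 1)
  set e := 1 - av2 W with he
  have he2 : av2 (fun u v => W u v - 1) = - e := by rw [h1, he]; ring
  rw [he2] at hct hex
  set l := Real.log (11 / 2)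
  have her : - rho ≤ e := by rw [he]; linarith
  rcases le_or_gt (5 / 24) (cost W) with hc | hc
  · linarith
  · have hle : - (1.72 * rho) ≤ l * e := by
      rcases le_total 0 e with h | h
      · have : 0 ≤ l * e := mul_nonneg (by linarith) h
        linarith [mul_nonneg (show (0:ℝ) ≤ 1.72 by norm_num) hr0]
      · have h2 : l * (-e) ≤ 1.72 * rho := mul_le_mul hu (by linarith) (by linarith) (by norm_num)
        linarith
    have hNb : N ≤ 0.94 := by
      norm_num at hle hr1 ⊢
      linarith
    have ht : |t3| ≤ 0.97 * N := by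
      apply abs_le_of_sq_le_sq _ (by positivity)
      refine htr.trans ?_
      have : N ^ 3 = N * N ^ 2 := by ring
      rw [this]
      have : (0.97 * N) ^ 2 = 0.9409 * N ^ 2 := by ring
      rw [this]
      exact mul_le_mul_of_nonneg_right (by norm_num at hNb ⊢; linarith) (sq_nonneg N)
    have htb := (abs_le.mp ht).1
    -- (1-t)/6 ≤ e/2 + .1617 N
    have hle2 : 0.5 * e ≤ 4 / 5 * (l * e) + rho := by
      rcases le_total 0 e with h | h
      · have : 1.702 * e ≤ l * e := mul_le_mul_of_nonneg_right hl h
        norm_num at this ⊢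
        linarith
      · have : 1.72 * e ≤ l * e := mul_le_mul_of_nonpos_right hu h
        norm_num at this ⊢
        linarith
    norm_num at htb hle2
    rw [hex]
    linarith

end Vale.Agent.P046.Sh.MAC1
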