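import Vale.Agent.P046.Sh.MACb

namespace Vale.Agent.P046.Sh.MAC2

open Finset Vale.Agent.P046 Vale.Agent.P046.Sh

variable {n : ℕ}

/-- `h = 1 + d(a) + d(z) + D∘D` -/
lemma hh_expand (hn : 0 < n) (W : Fin n → Fin n → ℝ) (hs : ∀ u v, W u v = W v u) (a z : Fin n) :
    hh W a z = 1 + MACb.rw1 (fun u v => W u v - 1) a + MACb.rw1 (fun u v => W u v - 1) z
      + MACb.comp2 (fun u v => W u v - 1) a z := by
  have h0 : (n : ℝ) ≠ 0 := by positivity
  unfold hh MACb.rw1 MACb.comp2
  have e : ∀ b, W a b * W b z = 1 + (W a b - 1) + (W z b - 1) + (W a b - 1) * (W b z - 1) := by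
    intro b; rw [hs z b]; ring
  simp_rw [e]
  rw [sum_add_distrib, sum_add_distrib, sum_add_distrib, add_div, add_div, add_div]
  simp only [sum_const, card_univ, Fintype.card_fin, nsmul_eq_mul, mul_one]
  rw [div_self h0]

lemma hh_nonneg (W : Fin n → Fin n → ℝ) (hW : WOK W) (a z : Fin n) : 0 ≤ hh W a z := by
  unfold hh
  apply div_nonneg _ (by positivity)
  exact sum_nonneg fun b _ => mul_nonneg (hW.2.1 a b).le (hW.2.1 b z).le

/-- `R(W) ≤ 3 e - (3/2) V + (9/10) (51/50 (3 V + 6 e^2) + 51 * 9/4 N^2)` where `av2 D = -e` -/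
lemma RW_ub (hn : 0 < n) (W : Fin n → Fin n → ℝ) (hW : WOK W) :
    RW W ≤ - 3 * av2 (fun u v => W u v - 1) - 3 / 2 * MACb.VV (fun u v => W u v - 1)
      + 9 / 10 * (51 / 50 * (3 * MACb.VV (fun u v => W u v - 1)
          + 6 * av2 (fun u v => W u v - 1) ^ 2)
        + 51 * (9 / 4) * av2 (fun u v => (W u v - 1) ^ 2) ^ 2) := by
  set D : Fin n → Fin n → ℝ := fun u v => W u v - 1 with hD
  have hDs : ∀ u v, D u v = D v u := by intro u v; simp only [hD]; rw [hW.1]
  set d := MACb.rw1 D with hd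
  set H := MACb.comp2 D with hH
  set s : Fin n → Fin n → Fin n → ℝ := fun a b c =>
    -(hh W a b + hh W b c + hh W a c - 3) / 2 with hs
  have hsle : ∀ a b c, s a b c ≤ 3 / 2 := by
    intro a b c
    have h1 := hh_nonneg W hW a b
    have h2 := hh_nonneg W hW b c
    have h3 := hh_nonneg W hW a c
    simp only [hs]; linarith
  have hse : ∀ a b c, s a b c = (-1) * d a + ((-1) * d b + ((-1) * d c + ((-1 / 2) * H a b
      + ((-1 / 2) * H b c + (-1 / 2) * H a c)))) := by
    intro a b c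
    simp only [hs]
    rw [hh_expand hn W hW.1, hh_expand hn W hW.1, hh_expand hn W hW.1]
    ring
  have av3_1 : ∀ f : Fin n → ℝ, av3 (fun a _ _ => f a) = MACb.av1 f := fun f => by
    rw [MACb.av3_12 hn (fun a _ => f a), MACb.av2_left hn]
  have av3_2 : ∀ f : Fin n → ℝ, av3 (fun _ b _ => f b) = MACb.av1 f := fun f => by
    rw [MACb.av3_12 hn (fun _ b => f b), MACb.av2_right hn]
  have av3_3 : ∀ f : Fin n → ℝ, av3 (fun _ _ c => f c) = MACb.av1 f := fun f => by
    rw [MACb.av3_13 hn (fun _ b => f b), MACb.av2_right hn]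
  have hmean : av3 s = - 3 * av2 D - 3 / 2 * MACb.VV D := by
    have : s = fun a b c => (-1) * d a + ((-1) * d b + ((-1) * d c + ((-1 / 2) * H a b
      + ((-1 / 2) * H b c + (-1 / 2) * H a c)))) := by
      funext a b c; exact hse a b c
    rw [this, MACb.av3_add, MACb.av3_add, MACb.av3_add, MACb.av3_add, MACb.av3_add, MACb.av3_mul,
      MACb.av3_mul, MACb.av3_mul, MACb.av3_mul, MACb.av3_mul, MACb.av3_mul, av3_1 d, av3_2 d,
      av3_3 d, MACb.av3_12 hn H, MACb.av3_23 hn H, MACb.av3_13 hn H, hd, MACb.av1_rw, hH,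
      MACb.av2_comp hn D hDs]
    ring
  -- second moment
  have hsq : ∀ a b c, s a b c ^ 2 ≤ 51 / 50 * (d a + d b + d c) ^ 2
      + 51 * (3 / 4) * (H a b ^ 2 + (H b c ^ 2 + H a c ^ 2)) := by
    intro a b c
    rw [hse a b c]
    set P := d a + d b + d c
    set R := H a b + H b c + H a c with hR
    have e1 : (-1) * d a + ((-1) * d b + ((-1) * d c + ((-1 / 2) * H a b
      + ((-1 / 2) * H b c + (-1 / 2) * H a c)))) = -(P + R / 2) := by
      simp only [P, hR]; ring
    rw [e1]
    have hR2 : R ^ 2 ≤ 3 * (H a b ^ 2 + (H b c ^ 2 + H a c ^ 2)) := by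
      rw [hR]
      nlinarith [sq_nonneg (H a b - H b c), sq_nonneg (H b c - H a c), sq_nonneg (H a b - H a c)]
    nlinarith [sq_nonneg (P / 5 - 5 * R), sq_nonneg (P - 25 * R)]
  have hm2 : av3 (fun a b c => s a b c ^ 2) ≤ 51 / 50 * (3 * MACb.VV D + 6 * av2 D ^ 2)
      + 51 * (9 / 4) * av2 (fun u v => D u v ^ 2) ^ 2 := by
    refine (MACb.av3_mono hsq).trans ?_
    rw [MACb.av3_add, MACb.av3_mul, MACb.av3_mul, MACb.av3_add, MACb.av3_add,
      MACb.av3_12 hn (fun a b => H a b ^ 2), MACb.av3_23 hn (fun a b => H a b ^ 2),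
      MACb.av3_13 hn (fun a b => H a b ^ 2)]
    have hcn := MACb.comp_norm hn D
    have hP : av3 (fun a b c => (d a + d b + d c) ^ 2) = 3 * MACb.VV D + 6 * av2 D ^ 2 := by
      have e : (fun a b c => (d a + d b + d c) ^ 2) = fun a b c => d a * d a + (d b * d b
          + (d c * d c + (2 * (d a * d b) + (2 * (d b * d c) + 2 * (d a * d c))))) := by
        funext a b c; ring
      have V1 : MACb.av1 (fun a => d a * d a) = MACb.VV D := by
        unfold MACb.av1 MACb.VV; congr 1; exact sum_congr rfl fun a _ => by rw [hd]; ring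
      rw [e, MACb.av3_add, MACb.av3_add, MACb.av3_add, MACb.av3_add, MACb.av3_add, MACb.av3_mul,
        MACb.av3_mul, MACb.av3_mul, av3_1 (fun a => d a * d a), av3_2 (fun a => d a * d a),
        av3_3 (fun a => d a * d a), MACb.av3_12 hn (fun a b => d a * d b),
        MACb.av3_23 hn (fun a b => d a * d b), MACb.av3_13 hn (fun a b => d a * d b),
        MACb.av2_prod, V1]
      have : MACb.av1 d = av2 D := by rw [hd, MACb.av1_rw]
      rw [this]; ring
    rw [hP]
    have : H = MACb.comp2 D := hH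
    rw [this]
    linarith
  -- log ≤ x - 1
  have hexp : av3 (fun a b c => Real.exp (s a b c)) ≤ 1 + (av3 s
      + 9 / 10 * av3 (fun a b c => s a b c ^ 2)) := by
    have h1 : ∀ a b c, Real.exp (s a b c) ≤ 1 + (s a b c + 9 / 10 * s a b c ^ 2) := by
      intro a b c
      have := MACa.exp_ub (hsle a b c)
      linarith
    refine (MACb.av3_mono h1).trans ?_
    rw [MACb.av3_add, MACb.av3_add, MACb.av3_mul, MACb.av3_const hn]
  have hpos : 0 < av3 (fun a b c => Real.exp (s a b c)) := by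
    unfold av3
    have : (0 : ℝ) < n := by positivity
    apply div_pos _ (by positivity)
    have hne : (univ : Finset (Fin n)).Nonempty := ⟨⟨0, hn⟩, mem_univ _⟩
    exact sum_pos (fun a _ => sum_pos (fun b _ => sum_pos (fun c _ => Real.exp_pos _) hne) hne) hne
  have hlog := Real.log_le_sub_one_of_pos hpos
  have hRW : RW W = Real.log (av3 (fun a b c => Real.exp (s a b c))) := rfl
  rw [hRW]
  have hfin : av2 (fun u v : Fin n => (W u v - 1) ^ 2) = av2 (fun u v => D u v ^ 2) := rfl
  rw [hfin]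
  linarith

theorem thm : StmtMAC2 := by
  refine ⟨1 / 100000, 1 / 1000000, by norm_num, by norm_num, by norm_num, ?_⟩
  intro n W rho hn hW hr0 hr1 hav hcost
  have hct := MACb.cost_lb hn W hW
  have hex := MACb.tW_expand hn W hW.1
  have htr := MACb.tri_sq hn (fun u v => W u v - 1)
  have hV := MACb.VV_nonneg (fun u v : Fin n => W u v - 1)
  have hVle := MACb.VV_le hn (fun u v : Fin n => W u v - 1) (fun u v => by
    show W u v - 1 = W v u - 1
    rw [hW.1])
  have hN0 : 0 ≤ av2 (fun u v : Fin n => (W u v - 1) ^ 2) := MACb.av2_nonneg fun _ _ => sq_nonneg _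
  have hR := RW_ub hn W hW
  have h1 : av2 (fun u v => W u v - 1) = av2 W - 1 := by
    have : (fun u v => W u v - 1) = fun u v => W u v + (-1 : ℝ) := by funext u v; ring
    rw [this, MACb.av2_add, MACb.av2_const hn]; ring
  have hl := MACa.log55_lb
  have hu := MACa.log55_ub
  generalize hNg : av2 (fun u v : Fin n => (W u v - 1) ^ 2) = N at *
  generalize htg : av3 (fun a b c : Fin n => (W a b - 1) * (W b c - 1) * (W a c - 1)) = t at *
  generalize hVg : MACb.VV (fun u v : Fin n => W u v - 1) = V at *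
  generalize hlg : Real.log (11 / 2) = l at *
  generalize hmg : av2 (fun u v : Fin n => W u v - 1) = mm at *
  generalize hcg : cost W = C at *
  generalize hRg : RW W = R at *
  generalize htWg : tW W = T at *
  obtain ⟨e, he⟩ : ∃ e : ℝ, mm = - e := ⟨-mm, by ring⟩
  subst he
  have her : - rho ≤ e := by linarith
  -- bounds for l * e
  have hle1 : 1.702 * e - 0.02 * rho ≤ l * e := by
    rcases le_total 0 e with h | h
    · have : 1.702 * e ≤ l * e := mul_le_mul_of_nonneg_right hl h
      norm_num at this ⊢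
      linarith
    · have : 1.72 * e ≤ l * e := mul_le_mul_of_nonpos_right hu h
      norm_num at this ⊢
      linarith
  norm_num at hle1
  have hct' : 6 / 25 * N + l * e ≤ C := by linarith
  -- size of N and e
  have hNb : N ≤ 6 / 100000 := by linarith
  have heb : e ≤ 1 / 100000 := by linarith
  have hea : |e| ≤ 1 / 100000 := abs_le.mpr ⟨by linarith, heb⟩
  have he2 : e ^ 2 ≤ 1 / 100000 * |e| := by
    rw [← sq_abs, sq]
    exact mul_le_mul_of_nonneg_right hea (abs_nonneg e)
  have hae : |e| ≤ e + 2 * rho := by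
    rcases le_total 0 e with h | h
    · rw [abs_of_nonneg h]; linarith
    · rw [abs_of_nonpos h]; linarith
  have ht : |t| ≤ 1 / 100 * N := by
    apply abs_le_of_sq_le_sq _ (by positivity)
    refine htr.trans ?_
    have e1 : N ^ 3 = N * N ^ 2 := by ring
    have e2 : (1 / 100 * N) ^ 2 = 1 / 10000 * N ^ 2 := by ring
    rw [e1, e2]
    exact mul_le_mul_of_nonneg_right (by linarith) (sq_nonneg N)
  have htb := abs_le.mp ht
  have hVb : V ≤ 1 / 2 * N + 1 / 200000 * |e| := by
    have : (-e) ^ 2 = e ^ 2 := by ring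
    rw [this] at hVle
    linarith
  have hN2 : N ^ 2 ≤ 6 / 100000 * N := by
    rw [sq]; exact mul_le_mul_of_nonneg_right hNb hN0
  -- |T - 1|
  have hT : T - 1 = - 3 * e + 3 * V + t := by rw [hex]; ring
  have hTabs : |T - 1| ≤ 3 * |e| + 3 * V + |t| := by
    rw [hT]
    calc |(-3 * e + 3 * V + t)| ≤ |(-3 * e + 3 * V)| + |t| := abs_add_le _ _
      _ ≤ |(-3 * e)| + |3 * V| + |t| := by
          have := abs_add_le (-3 * e) (3 * V); linarith
      _ = 3 * |e| + 3 * V + |t| := by
          rw [abs_mul, abs_mul, abs_of_nonneg hV]; norm_num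
  have hTs : |T - 1| ≤ 1 / 1000 := by
    have := abs_nonneg e
    linarith
  have hT2 : (T - 1) ^ 2 ≤ 1 / 1000 * (3 * |e| + 3 * V + |t|) := by
    rw [← sq_abs, sq]
    exact mul_le_mul hTs hTabs (abs_nonneg _) (by norm_num)
  refine ⟨?_, hTs⟩
  have hR' : R ≤ 3 * e - 3 / 2 * V + 9 / 10 * (51 / 50 * (3 * V + 6 * e ^ 2)
      + 51 * (9 / 4) * N ^ 2) := by
    have : (-e) ^ 2 = e ^ 2 := by ring
    rw [this] at hR
    linarith
  have hTe : T = 1 - 3 * e + 3 * V + t := by linarith
  have habs := abs_nonneg e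
  rw [hTe]
  rw [hTe] at hT2
  linarith

end Vale.Agent.P046.Sh.MAC2
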