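import Vale.Agent.P046.Sh.Defs

/-!
# P046, sharp constant, module PLM: integrate DERI over `x`
-/

namespace Vale.Agent.P046.Sh.PLM

open Finset Vale.Agent.P046 Vale.Agent.P046.Sh

variable {n : ℕ}

theorem hd1 (c L h : ℝ) (k : ℕ) (x : ℝ) :
    HasDerivAt (fun y : ℝ => c * Real.exp (L * (1 - y) * h) * y ^ k)
      (c * Real.exp (L * (1 - x) * h) * ((k : ℝ) * x ^ (k - 1) - L * h * x ^ k)) x := by
  have h1 : HasDerivAt (fun y : ℝ => L * (1 - y) * h) (- (L * h)) x := by
    have h2 : HasDerivAt (fun y : ℝ => 1 - y) (-1) x := by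
      simpa using (hasDerivAt_id x).const_sub 1
    exact ((h2.const_mul L).mul_const h).congr_deriv (by ring)
  have h4 := h1.exp
  have h5 : HasDerivAt (fun y : ℝ => y ^ k) ((k : ℝ) * x ^ (k - 1)) x := hasDerivAt_pow k x
  exact ((h4.const_mul c).mul h5).congr_deriv (by ring)

/-- the function -/
noncomputable def ff (nu : Finset (Finset (Fin n)) → ℝ)
    (KK : Finset (Finset (Fin n)) → Fin n → Fin n → ℝ) (L : ℝ) (W : Fin n → Fin n → ℝ)
    (x : ℝ) : ℝ :=
  EX nu (fun H => av2 (fun a z => od a z * KK H a z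
      * Real.exp (L * (1 - x) * hh W a z) * x ^ (cd H a z)))

/-- its derivative -/
noncomputable def df (nu : Finset (Finset (Fin n)) → ℝ)
    (KK : Finset (Finset (Fin n)) → Fin n → Fin n → ℝ) (L : ℝ) (W : Fin n → Fin n → ℝ)
    (x : ℝ) : ℝ :=
  EX nu (fun H => av2 (fun a z => od a z * KK H a z
      * Real.exp (L * (1 - x) * hh W a z)
      * ((cd H a z : ℝ) * x ^ (cd H a z - 1) - L * hh W a z * x ^ (cd H a z))))

theorem hasDeriv (nu : Finset (Finset (Fin n)) → ℝ)
    (KK : Finset (Finset (Fin n)) → Fin n → Fin n → ℝ) (L : ℝ) (W : Fin n → Fin n → ℝ)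
    (x : ℝ) : HasDerivAt (ff nu KK L W) (df nu KK L W x) x := by
  unfold ff df EX
  refine HasDerivAt.fun_sum (fun H _ => ?_)
  refine HasDerivAt.const_mul _ ?_
  unfold av2
  refine HasDerivAt.div_const ?_ _
  refine HasDerivAt.fun_sum (fun a _ => ?_)
  refine HasDerivAt.fun_sum (fun z _ => ?_)
  exact hd1 _ _ _ _ _

theorem thm (hD : StmtDERI) : StmtPLM := by
  intro C1 K eps hC1 hK heps
  obtain ⟨rho, hrho, n0, hn0⟩ := hD C1 K eps hC1 hK heps
  refine ⟨rho, hrho, n0, ?_⟩
  intro n m j mu W KK x0 hn hHyp hS hx0 hx1 hL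
  set L : ℝ := lam n ((j : ℝ) + 1) with hLdef
  have hL0 : 0 ≤ L := by
    rw [hLdef]; unfold lam; positivity
  set nu := sb mu m (j + 1) with hnu
  have hder : ∀ x, HasDerivAt (ff nu KK L W) (df nu KK L W x) x := fun x => hasDeriv nu KK L W x
  have hmono : MonotoneOn (fun x => ff nu KK L W x + eps * x) (Set.Icc x0 1) := by
    apply monotoneOn_of_deriv_nonneg (convex_Icc x0 1)
    · apply ContinuousOn.add
      · intro x _
        exact (hder x).continuousAt.continuousWithinAt
      · fun_prop
    · intro x _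
      apply DifferentiableAt.differentiableWithinAt
      apply DifferentiableAt.add
      · exact (hder x).differentiableAt
      · fun_prop
    · intro x hx
      rw [interior_Icc] at hx
      have h1 : HasDerivAt (fun x => ff nu KK L W x + eps * x) (df nu KK L W x + eps) x := by
        have h2 : HasDerivAt (fun x : ℝ => eps * x) eps x := by
          simpa using (hasDerivAt_id x).const_mul eps
        exact (hder x).add h2
      rw [h1.deriv]
      have h3 := hn0 n m j mu W KK x hn hHyp hS (by linarith [hx.1]) hx.2.le (by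
        have h4 : L * (1 - x) ≤ L * (1 - x0) :=
          mul_le_mul_of_nonneg_left (by linarith [hx.1]) hL0
        linarith)
      have h5 : - eps ≤ df nu KK L W x := h3
      linarith
  have h1 := hmono (Set.left_mem_Icc.mpr hx1) (Set.right_mem_Icc.mpr hx1) hx1
  simp only at h1
  have h2 : ff nu KK L W 1 = EX nu (fun H => av2 (fun a z => od a z * KK H a z)) := by
    unfold ff
    congr 1
    funext H
    congr 1
    funext a z
    simp
  have h3 : ff nu KK L W x0 ≤ ff nu KK L W 1 + eps := by
    have : eps * (1 - x0) ≤ eps * 1 := mul_le_mul_of_nonneg_left (by linarith) heps.le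
    linarith
  rw [h2] at h3
  exact h3

end Vale.Agent.P046.Sh.PLM
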