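import Vale.Agent.P046.Sh.Defs

/-!
# P046, sharp constant, module PRD: regularity against product functions
-/

set_option linter.unusedSectionVars false
set_option linter.unusedVariables false

namespace Vale.Agent.P046.Sh.PRD

open Finset

variable {n : ℕ}

/-- a bilinear form on boxes is bounded below by its values on indicators -/
lemma bil {M : Fin n → Fin n → ℝ} {c : ℝ}
    (hM : ∀ S T : Finset (Fin n), -c ≤ ∑ u ∈ S, ∑ v ∈ T, M u v)
    (f g : Fin n → ℝ) {B B' : ℝ} (hB : 0 ≤ B) (hB' : 0 ≤ B')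
    (hf : ∀ u, 0 ≤ f u ∧ f u ≤ B) (hg : ∀ v, 0 ≤ g v ∧ g v ≤ B') :
    -(c * B * B') ≤ ∑ u, ∑ v, M u v * f u * g v := by
  classical
  let q : Fin n → ℝ := fun u => ∑ v, M u v * g v
  let S : Finset (Fin n) := univ.filter (fun u => q u < 0)
  let r : Fin n → ℝ := fun v => ∑ u ∈ S, M u v
  let T : Finset (Fin n) := univ.filter (fun v => r v < 0)
  have h1 : ∑ u, ∑ v, M u v * f u * g v = ∑ u, f u * q u := by
    refine Finset.sum_congr rfl fun u _ => ?_
    change _ = f u * ∑ v, M u v * g v
    rw [Finset.mul_sum]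
    exact Finset.sum_congr rfl fun v _ => by ring
  have h2 : B * ∑ u ∈ S, q u ≤ ∑ u, f u * q u := by
    rw [Finset.mul_sum, ← Finset.sum_filter_add_sum_filter_not univ (fun u => q u < 0)]
    have e1 : 0 ≤ ∑ u ∈ univ.filter (fun u => ¬ q u < 0), f u * q u := by
      refine Finset.sum_nonneg fun u hu => ?_
      have := (Finset.mem_filter.mp hu).2
      exact mul_nonneg (hf u).1 (not_lt.mp this)
    have e2 : ∑ u ∈ S, B * q u ≤ ∑ u ∈ univ.filter (fun u => q u < 0), f u * q u := by
      refine Finset.sum_le_sum fun u hu => ?_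
      have := (Finset.mem_filter.mp hu).2
      nlinarith [(hf u).2]
    linarith
  have h3 : ∑ u ∈ S, q u = ∑ v, r v * g v := by
    change ∑ u ∈ S, ∑ v, M u v * g v = ∑ v, (∑ u ∈ S, M u v) * g v
    rw [Finset.sum_comm]
    exact Finset.sum_congr rfl fun v _ => (Finset.sum_mul _ _ _).symm
  have h4 : B' * ∑ v ∈ T, r v ≤ ∑ v, r v * g v := by
    rw [Finset.mul_sum, ← Finset.sum_filter_add_sum_filter_not univ (fun v => r v < 0)]
    have e1 : 0 ≤ ∑ v ∈ univ.filter (fun v => ¬ r v < 0), r v * g v := by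
      refine Finset.sum_nonneg fun v hv => ?_
      have := (Finset.mem_filter.mp hv).2
      exact mul_nonneg (not_lt.mp this) (hg v).1
    have e2 : ∑ v ∈ T, B' * r v ≤ ∑ v ∈ univ.filter (fun v => r v < 0), r v * g v := by
      refine Finset.sum_le_sum fun v hv => ?_
      have := (Finset.mem_filter.mp hv).2
      nlinarith [(hg v).2]
    linarith
  have h5 : ∑ v ∈ T, r v = ∑ u ∈ S, ∑ v ∈ T, M u v := Finset.sum_comm
  have h6 := hM S T
  rw [← h5] at h6
  have h7 : B' * -c ≤ B' * ∑ v ∈ T, r v := mul_le_mul_of_nonneg_left h6 hB'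
  have h8 : B * (B' * -c) ≤ B * ∑ u ∈ S, q u :=
    mul_le_mul_of_nonneg_left (by rw [h3]; exact h7.trans h4) hB
  rw [h1]
  calc -(c * B * B') = B * (B' * -c) := by ring
    _ ≤ B * ∑ u ∈ S, q u := h8
    _ ≤ _ := h2

theorem thm : StmtPRD := by
  intro n H W rho hn hH hc hrho hW hLR
  have hn1 : (0 : ℝ) < n := by exact_mod_cast hn
  have hH1 : (0 : ℝ) < (H.card : ℝ) := by exact_mod_cast hc
  have hpp : 0 < pp n (H.card : ℝ) := by
    unfold pp
    positivity
  let M : Fin n → Fin n → ℝ := fun u v => ad H u v / pp n H.card - W u v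
  have hM : ∀ S T : Finset (Fin n), -(rho * (n : ℝ) ^ 2) ≤ ∑ u ∈ S, ∑ v ∈ T, M u v := hLR
  refine ⟨?_, ?_, ?_⟩
  · intro K B hB hK
    have h1 : ∑ a, ∑ b, (ad H a b / pp n H.card - W a b) * (∑ z, W b z * K a z) =
        ∑ z, ∑ a, ∑ b, M a b * K a z * W b z := by
      calc _ = ∑ a, ∑ b, ∑ z, M a b * K a z * W b z := by
            refine Finset.sum_congr rfl fun a _ => Finset.sum_congr rfl fun b _ => ?_
            rw [Finset.mul_sum]
            exact Finset.sum_congr rfl fun z _ => by ring
        _ = ∑ a, ∑ z, ∑ b, M a b * K a z * W b z :=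
            Finset.sum_congr rfl fun a _ => Finset.sum_comm
        _ = _ := Finset.sum_comm
    rw [h1]
    have h2 : ∀ z, -(rho * (n : ℝ) ^ 2 * B * (11 / 2)) ≤ ∑ a, ∑ b, M a b * K a z * W b z :=
      fun z => bil hM (fun a => K a z) (fun b => W b z) hB (by norm_num)
        (fun a => hK a z) (fun b => ⟨(hW.2.1 b z).le, hW.2.2 b z⟩)
    calc -(rho * (11 / 2) * B * (n : ℝ) ^ 3) = ∑ z : Fin n, -(rho * (n : ℝ) ^ 2 * B * (11 / 2)) := by
          rw [Finset.sum_const, Finset.card_univ, Fintype.card_fin, nsmul_eq_mul]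
          ring
      _ ≤ _ := Finset.sum_le_sum fun z _ => h2 z
  · intro K B hB hK a
    classical
    let D : Fin n → ℝ := fun b => pp n H.card * (∑ z, W b z * K a z) - ∑ z, ad H b z * K a z
    let f : Fin n → ℝ := fun b => if 0 < D b then 1 else 0
    have hD : ∀ b, D b = -(pp n H.card * ∑ z, M b z * K a z) := by
      intro b
      change pp n H.card * (∑ z, W b z * K a z) - ∑ z, ad H b z * K a z = _
      rw [Finset.mul_sum, Finset.mul_sum, ← Finset.sum_sub_distrib, ← Finset.sum_neg_distrib]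
      refine Finset.sum_congr rfl fun z _ => ?_
      change _ = -(pp n H.card * ((ad H b z / pp n H.card - W b z) * K a z))
      field_simp
      ring
    have h1 : ∀ b, max 0 (D b) = f b * D b := by
      intro b
      change max 0 (D b) = (if 0 < D b then 1 else 0) * D b
      split_ifs with h
      · rw [max_eq_right h.le, one_mul]
      · rw [max_eq_left (not_lt.mp h), zero_mul]
    have h2 : ∑ b, max 0 (D b) = -(pp n H.card * ∑ b, ∑ z, M b z * f b * K a z) := by
      rw [Finset.mul_sum, ← Finset.sum_neg_distrib]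
      refine Finset.sum_congr rfl fun b _ => ?_
      rw [h1, hD, Finset.mul_sum, Finset.mul_sum, ← Finset.sum_neg_distrib,
        ← Finset.sum_neg_distrib, Finset.mul_sum]
      exact Finset.sum_congr rfl fun z _ => by ring
    have h3 := bil hM f (fun z => K a z) (by norm_num : (0 : ℝ) ≤ 1) hB
      (fun b => by
        change 0 ≤ (if 0 < D b then (1 : ℝ) else 0) ∧ (if 0 < D b then (1 : ℝ) else 0) ≤ 1
        split_ifs <;> norm_num) (fun z => hK a z)
    change ∑ b, max 0 (D b) ≤ _
    rw [h2]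
    have h4 := mul_le_mul_of_nonneg_left h3 hpp.le
    linarith
  · have h1 : (∑ u, ∑ v, ad H u v * hh W u v) / (2 * (H.card : ℝ)) - tW W =
        (∑ b, ∑ u, ∑ v, M u v * W u b * W b v) / (n : ℝ) ^ 3 := by
      have e1 : ∑ b, ∑ u, ∑ v, M u v * W u b * W b v =
          (n : ℝ) * ∑ u, ∑ v, M u v * hh W u v := by
        rw [Finset.mul_sum, Finset.sum_comm]
        refine Finset.sum_congr rfl fun u _ => ?_
        rw [Finset.mul_sum, Finset.sum_comm]
        refine Finset.sum_congr rfl fun v _ => ?_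
        unfold hh
        have : (n : ℝ) * (M u v * ((∑ b, W u b * W b v) / n)) = M u v * ∑ b, W u b * W b v := by
          field_simp
        rw [this, Finset.mul_sum]
        exact Finset.sum_congr rfl fun b _ => by ring
      have e2 : ∑ u, ∑ v, M u v * hh W u v =
          (∑ u, ∑ v, ad H u v * hh W u v) / pp n H.card - ∑ u, ∑ v, W u v * hh W u v := by
        rw [Finset.sum_div, ← Finset.sum_sub_distrib]
        refine Finset.sum_congr rfl fun u _ => ?_
        rw [Finset.sum_div, ← Finset.sum_sub_distrib]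
        refine Finset.sum_congr rfl fun v _ => ?_
        change (ad H u v / pp n H.card - W u v) * _ = _
        ring
      have e3 : tW W = (∑ u, ∑ v, W u v * hh W u v) / (n : ℝ) ^ 2 := by
        unfold tW av3
        have : ∑ u, ∑ v, ∑ w, W u v * W v w * W u w = (n : ℝ) * ∑ u, ∑ v, W u v * hh W u v := by
          rw [Finset.mul_sum]
          refine Finset.sum_congr rfl fun u _ => ?_
          rw [Finset.mul_sum, Finset.sum_comm]
          refine Finset.sum_congr rfl fun w _ => ?_
          unfold hh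
          have : (n : ℝ) * (W u w * ((∑ b, W u b * W b w) / n)) = W u w * ∑ b, W u b * W b w := by
            field_simp
          rw [this, Finset.mul_sum]
          exact Finset.sum_congr rfl fun b _ => by ring
        rw [this]
        field_simp
      rw [e1, e2, e3]
      unfold pp
      field_simp
    have h2 : ∀ b, -(rho * (n : ℝ) ^ 2 * (11 / 2) * (11 / 2)) ≤
        ∑ u, ∑ v, M u v * W u b * W b v :=
      fun b => bil hM (fun u => W u b) (fun v => W b v) (by norm_num) (by norm_num)
        (fun u => ⟨(hW.2.1 u b).le, hW.2.2 u b⟩) (fun v => ⟨(hW.2.1 b v).le, hW.2.2 b v⟩)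
    have h3 : -(rho * (11 / 2) ^ 2) * (n : ℝ) ^ 3 ≤ ∑ b, ∑ u, ∑ v, M u v * W u b * W b v := by
      calc -(rho * (11 / 2) ^ 2) * (n : ℝ) ^ 3 =
          ∑ b : Fin n, -(rho * (n : ℝ) ^ 2 * (11 / 2) * (11 / 2)) := by
            rw [Finset.sum_const, Finset.card_univ, Fintype.card_fin, nsmul_eq_mul]
            ring
        _ ≤ _ := Finset.sum_le_sum fun b _ => h2 b
    have h4 : -(rho * (11 / 2) ^ 2) ≤ (∑ b, ∑ u, ∑ v, M u v * W u b * W b v) / (n : ℝ) ^ 3 := by
      rw [le_div_iff₀ (by positivity)]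
      exact h3
    rw [← h1] at h4
    linarith

end Vale.Agent.P046.Sh.PRD
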