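import Vale.Agent.P046.Sh.Defs

/-!
# P046, sharp constant, module REG: per-graph one-sided regularity by energy increment
-/

set_option linter.unusedSectionVars false
set_option linter.unusedVariables false

namespace Vale.Agent.P046.Sh.REG

open Finset

/-! ### real lemmas -/

lemma log_lower {x : ℝ} (h0 : 0 ≤ x) (h1 : x ≤ 1 / 4) : -x - x ^ 2 ≤ Real.log (1 - x) := by
  have hp : 0 < 1 - x := by linarith
  have h2 : Real.log (1 / (1 - x)) ≤ 1 / (1 - x) - 1 :=
    Real.log_le_sub_one_of_pos (by positivity)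
  rw [one_div, Real.log_inv] at h2
  -- x/(1-x) may exceed x + x^2; use a better bound
  have h3 : 0 ≤ Real.log (1 - x) - (-x - x ^ 2) := by
    have hs : Real.log (1 - x) = 2 * Real.log (Real.sqrt (1 - x)) := by
      rw [Real.log_sqrt hp.le]
      ring
    have hq : 0 < Real.sqrt (1 - x) := Real.sqrt_pos.mpr hp
    have hl : 1 - 1 / Real.sqrt (1 - x) ≤ Real.log (Real.sqrt (1 - x)) := by
      have := Real.one_sub_inv_le_log_of_pos hq
      rw [one_div]
      exact this
    have hb : 1 / Real.sqrt (1 - x) ≤ 1 + (x + x ^ 2) / 2 := by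
      rw [div_le_iff₀ hq]
      have h5 : 1 / (1 + (x + x ^ 2) / 2) ≤ Real.sqrt (1 - x) := by
        apply Real.le_sqrt_of_sq_le
        rw [div_pow, one_pow, div_le_iff₀ (by positivity)]
        nlinarith [mul_nonneg h0 h0, mul_nonneg (mul_nonneg h0 h0) h0,
          mul_nonneg (mul_nonneg h0 h0) (mul_nonneg h0 h0)]
      have h6 : (0 : ℝ) < 1 + (x + x ^ 2) / 2 := by positivity
      rw [div_le_iff₀ h6] at h5
      linarith
    rw [hs]
    linarith
  linarith

lemma exp_upper {x : ℝ} (h0 : 0 ≤ x) : Real.exp x - 1 ≤ x + x ^ 2 * Real.exp x := by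
  have h1 : Real.exp x - 1 ≤ x * Real.exp x := by
    have h2 : 1 - x ≤ Real.exp (-x) := by
      have := Real.add_one_le_exp (-x)
      linarith
    have h3 : (1 - x) * Real.exp x ≤ Real.exp (-x) * Real.exp x :=
      mul_le_mul_of_nonneg_right h2 (Real.exp_pos x).le
    rw [← Real.exp_add, neg_add_cancel, Real.exp_zero] at h3
    linarith
  nlinarith [mul_le_mul_of_nonneg_left h1 h0]

lemma sq_exp {l : ℝ} (h0 : 0 ≤ l) : l ^ 2 * Real.exp (-(l / 2)) ≤ 8 := by
  have h1 : (l / 2) ^ 2 / 2 ≤ Real.exp (l / 2) := by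
    have := Real.quadratic_le_exp_of_nonneg (show 0 ≤ l / 2 by positivity)
    nlinarith
  have h2 : Real.exp (l / 2) * Real.exp (-(l / 2)) = 1 := by
    rw [← Real.exp_add, add_neg_cancel, Real.exp_zero]
  have h3 := mul_le_mul_of_nonneg_right h1 (Real.exp_pos (-(l / 2))).le
  rw [h2] at h3
  nlinarith

/-- the pointwise estimate of the cost step -/
lemma cost_point {l t eta : ℝ} {k k' : ℕ} (ht0 : 0 ≤ t) (ht : t ≤ 1 / 2) (he : 0 < eta)
    (hl : l = eta * k) (h1 : (k' : ℝ) ≤ (1 - t) * k) (h2 : (1 - t) * k < k' + 1) :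
    t * l ≤ l - eta * k' ∧
    11 / 2 * Real.exp (-(eta * k')) - 11 / 2 * Real.exp (-l) ≤
      t * (11 / 2 * Real.exp (-l)) * l + 44 * t ^ 2 + 11 / 2 * (Real.exp eta - 1) := by
  have hk : (0 : ℝ) ≤ k := Nat.cast_nonneg k
  have hl0 : 0 ≤ l := by rw [hl]; positivity
  have hub : eta * k' ≤ (1 - t) * l := by
    rw [hl]
    nlinarith
  have hlb : (1 - t) * l - eta ≤ eta * k' := by
    rw [hl]
    nlinarith
  refine ⟨by linarith, ?_⟩
  have e1 : Real.exp (-(eta * k')) ≤ Real.exp (-((1 - t) * l)) * Real.exp eta := by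
    rw [← Real.exp_add]
    exact Real.exp_le_exp.mpr (by linarith)
  have e2 : Real.exp (-((1 - t) * l)) ≤ 1 := Real.exp_le_one_iff.mpr (by nlinarith)
  have e3 : Real.exp (-((1 - t) * l)) = Real.exp (-l) * Real.exp (t * l) := by
    rw [← Real.exp_add]
    congr 1
    ring
  have e4 : 1 ≤ Real.exp eta := Real.one_le_exp he.le
  have e5 : Real.exp (-((1 - t) * l)) * Real.exp eta ≤
      Real.exp (-((1 - t) * l)) + (Real.exp eta - 1) := by
    nlinarith [Real.exp_pos (-((1 - t) * l))]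
  have e6 := exp_upper (show 0 ≤ t * l by positivity)
  have e7 : Real.exp (-l) * (Real.exp (t * l) - 1) ≤
      Real.exp (-l) * (t * l + (t * l) ^ 2 * Real.exp (t * l)) :=
    mul_le_mul_of_nonneg_left e6 (Real.exp_pos _).le
  have e8 : l ^ 2 * Real.exp (-((1 - t) * l)) ≤ 8 := by
    have : Real.exp (-((1 - t) * l)) ≤ Real.exp (-(l / 2)) :=
      Real.exp_le_exp.mpr (by nlinarith)
    calc l ^ 2 * Real.exp (-((1 - t) * l)) ≤ l ^ 2 * Real.exp (-(l / 2)) :=
          mul_le_mul_of_nonneg_left this (sq_nonneg l)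
      _ ≤ 8 := sq_exp hl0
  have e9 : Real.exp (-l) * ((t * l) ^ 2 * Real.exp (t * l)) =
      t ^ 2 * (l ^ 2 * Real.exp (-((1 - t) * l))) := by
    rw [e3]
    ring
  have e10 : t ^ 2 * (l ^ 2 * Real.exp (-((1 - t) * l))) ≤ t ^ 2 * 8 :=
    mul_le_mul_of_nonneg_left e8 (sq_nonneg t)
  have e11 : Real.exp (-l) * (t * l + (t * l) ^ 2 * Real.exp (t * l)) =
      Real.exp (-l) * (t * l) + Real.exp (-l) * ((t * l) ^ 2 * Real.exp (t * l)) := by ring
  rw [e11, e9] at e7
  have e12 : Real.exp (-l) * (Real.exp (t * l) - 1) = Real.exp (-((1 - t) * l)) - Real.exp (-l) := by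
    rw [e3]
    ring
  rw [e12] at e7
  nlinarith

/-- the pointwise estimate of the regularity step -/
lemma lr_point {x eta : ℝ} (h0 : 0 ≤ x) (h1 : x ≤ 1 / 4) (he : 0 < eta) {c : ℕ}
    (hc : c = ⌊-Real.log (1 - x) / eta⌋₊) :
    -x - x ^ 2 ≤ -(eta * c) ∧ Real.exp (-(eta * c)) ≤ 1 - x + (Real.exp eta - 1) := by
  have hp : 0 < 1 - x := by linarith
  have hlog : Real.log (1 - x) ≤ 0 := Real.log_nonpos hp.le (by linarith)
  have hq : 0 ≤ -Real.log (1 - x) / eta := div_nonneg (by linarith) he.le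
  have h2 : (c : ℝ) ≤ -Real.log (1 - x) / eta := by
    rw [hc]
    exact Nat.floor_le hq
  have h3 : -Real.log (1 - x) / eta < c + 1 := by
    rw [hc]
    exact Nat.lt_floor_add_one _
  rw [le_div_iff₀ he] at h2
  rw [div_lt_iff₀ he] at h3
  have h4 := log_lower h0 h1
  refine ⟨by nlinarith, ?_⟩
  have h5 : Real.exp (-(eta * c)) ≤ (1 - x) * Real.exp eta := by
    have : Real.exp (-(eta * c)) ≤ Real.exp (Real.log (1 - x) + eta) :=
      Real.exp_le_exp.mpr (by nlinarith)
    rwa [Real.exp_add, Real.exp_log hp] at this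
  have h6 : 1 ≤ Real.exp eta := Real.one_le_exp he.le
  nlinarith

/-! ### the functional -/

section
variable {n : ℕ}

/-- the functional with normalised weights -/
noncomputable def J (p W : Fin n → Fin n → ℝ) : ℝ :=
  (∑ u, ∑ v, p u v * Real.log (W u v)) - (∑ u, ∑ v, W u v) / (n : ℝ) ^ 2 + 1

lemma sum2_le {f g : Fin n → Fin n → ℝ} (h : ∀ u v, f u v ≤ g u v) :
    ∑ u, ∑ v, f u v ≤ ∑ u, ∑ v, g u v :=
  Finset.sum_le_sum fun u _ => Finset.sum_le_sum fun v _ => h u v

lemma sum2_add (f g : Fin n → Fin n → ℝ) :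
    ∑ u, ∑ v, (f u v + g u v) = (∑ u, ∑ v, f u v) + ∑ u, ∑ v, g u v := by
  rw [← Finset.sum_add_distrib]
  exact Finset.sum_congr rfl fun u _ => Finset.sum_add_distrib

lemma sum2_sub (f g : Fin n → Fin n → ℝ) :
    ∑ u, ∑ v, (f u v - g u v) = (∑ u, ∑ v, f u v) - ∑ u, ∑ v, g u v := by
  rw [← Finset.sum_sub_distrib]
  exact Finset.sum_congr rfl fun u _ => Finset.sum_sub_distrib _ _

lemma sum2_mul (c : ℝ) (f : Fin n → Fin n → ℝ) :
    ∑ u, ∑ v, c * f u v = c * ∑ u, ∑ v, f u v := by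
  rw [Finset.mul_sum]
  exact Finset.sum_congr rfl fun u _ => (Finset.mul_sum _ _ _).symm

lemma sum2_const (c : ℝ) : ∑ u : Fin n, ∑ v : Fin n, c = (n : ℝ) ^ 2 * c := by
  simp only [Finset.sum_const, Finset.card_univ, Fintype.card_fin, nsmul_eq_mul]
  ring

/-- comparison of the functional at two weight matrices -/
lemma J_gain (hn : 0 < n) {p W W' A B : Fin n → Fin n → ℝ} (hp : ∀ u v, 0 ≤ p u v)
    (hA : ∀ u v, A u v ≤ Real.log (W' u v) - Real.log (W u v))
    (hB : ∀ u v, W' u v - W u v ≤ B u v) :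
    (∑ u, ∑ v, p u v * A u v) - (∑ u, ∑ v, B u v) / (n : ℝ) ^ 2 ≤ J p W' - J p W := by
  have hn2 : (0 : ℝ) < (n : ℝ) ^ 2 := by positivity
  have h1 : ∑ u, ∑ v, p u v * A u v ≤
      (∑ u, ∑ v, p u v * Real.log (W' u v)) - ∑ u, ∑ v, p u v * Real.log (W u v) := by
    rw [← sum2_sub]
    refine sum2_le fun u v => ?_
    have := mul_le_mul_of_nonneg_left (hA u v) (hp u v)
    linarith
  have h2 : (∑ u, ∑ v, W' u v) - ∑ u, ∑ v, W u v ≤ ∑ u, ∑ v, B u v := by
    rw [← sum2_sub]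
    exact sum2_le hB
  have h3 : ((∑ u, ∑ v, W' u v) - ∑ u, ∑ v, W u v) / (n : ℝ) ^ 2 ≤
      (∑ u, ∑ v, B u v) / (n : ℝ) ^ 2 := div_le_div_of_nonneg_right h2 hn2.le
  rw [sub_div] at h3
  unfold J
  linarith

/-- the classes of weight matrices -/
def Pc (n : ℕ) (eta : ℝ) (g i : ℕ) (W : Fin n → Fin n → ℝ) : Prop :=
  ∃ (s : Fin n → ℕ) (k : ℕ → ℕ → ℕ), (∀ u, s u < 4 ^ i) ∧ (∀ a b, k a b = k b a) ∧
    (∀ a b, k a b ≤ g * i) ∧ ∀ u v, W u v = 11 / 2 * Real.exp (-(eta * k (s u) (s v)))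

lemma Pc_mono {eta : ℝ} {g i : ℕ} {W : Fin n → Fin n → ℝ} (h : Pc n eta g i W) :
    Pc n eta g (i + 1) W := by
  obtain ⟨s, k, h1, h2, h3, h4⟩ := h
  refine ⟨s, k, fun u => ?_, h2, fun a b => ?_, h4⟩
  · calc s u < 4 ^ i := h1 u
      _ ≤ 4 ^ (i + 1) := Nat.pow_le_pow_right (by norm_num) (by omega)
  · calc k a b ≤ g * i := h3 a b
      _ ≤ g * (i + 1) := Nat.mul_le_mul_left g (by omega)

lemma Pc_WOK {eta : ℝ} (he : 0 < eta) {g i : ℕ} {W : Fin n → Fin n → ℝ}
    (h : Pc n eta g i W) : WOK W := by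
  obtain ⟨s, k, h1, h2, h3, h4⟩ := h
  refine ⟨fun u v => ?_, fun u v => ?_, fun u v => ?_⟩
  · rw [h4, h4, h2]
  · rw [h4]
    positivity
  · rw [h4]
    have : Real.exp (-(eta * k (s u) (s v))) ≤ 1 :=
      Real.exp_le_one_iff.mpr (by
        have : (0 : ℝ) ≤ eta * k (s u) (s v) := by positivity
        linarith)
    linarith

/-- block indicator from the last two bits -/
noncomputable def NB (x y : ℕ) : ℝ :=
  ((if x / 2 % 2 = 1 ∧ y % 2 = 1 then 1 else 0) +
    (if x % 2 = 1 ∧ y / 2 % 2 = 1 then 1 else 0)) / 2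

lemma NB_symm (x y : ℕ) : NB x y = NB y x := by
  unfold NB
  by_cases h1 : x / 2 % 2 = 1 <;> by_cases h2 : y % 2 = 1 <;> by_cases h3 : x % 2 = 1 <;>
    by_cases h4 : y / 2 % 2 = 1 <;> simp [h1, h2, h3, h4]

lemma NB_nonneg (x y : ℕ) : 0 ≤ NB x y := by
  unfold NB
  split_ifs <;> norm_num

lemma NB_le (x y : ℕ) : NB x y ≤ 1 := by
  unfold NB
  split_ifs <;> norm_num

/-- new label -/
def lab (s : Fin n → ℕ) (S T : Finset (Fin n)) (u : Fin n) : ℕ :=
  4 * s u + 2 * (if u ∈ S then 1 else 0) + (if u ∈ T then 1 else 0)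

lemma lab_div (s : Fin n → ℕ) (S T : Finset (Fin n)) (u : Fin n) : lab s S T u / 4 = s u := by
  unfold lab
  split_ifs <;> omega

lemma lab_S (s : Fin n → ℕ) (S T : Finset (Fin n)) (u : Fin n) :
    lab s S T u / 2 % 2 = 1 ↔ u ∈ S := by
  unfold lab
  by_cases h1 : u ∈ S <;> by_cases h2 : u ∈ T <;> simp [h1, h2] <;> omega

lemma lab_T (s : Fin n → ℕ) (S T : Finset (Fin n)) (u : Fin n) :
    lab s S T u % 2 = 1 ↔ u ∈ T := by
  unfold lab
  by_cases h1 : u ∈ S <;> by_cases h2 : u ∈ T <;> simp [h1, h2] <;> omega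

lemma lab_lt {i : ℕ} (s : Fin n → ℕ) (S T : Finset (Fin n)) (u : Fin n) (h : s u < 4 ^ i) :
    lab s S T u < 4 ^ (i + 1) := by
  have h1 : lab s S T u < 4 * (s u + 1) := by
    unfold lab
    split_ifs <;> omega
  have h2 : 4 * (s u + 1) ≤ 4 * 4 ^ i := Nat.mul_le_mul_left 4 h
  rw [pow_succ, mul_comm (4 ^ i) 4]
  omega

lemma sum_NB (s : Fin n → ℕ) (S T : Finset (Fin n)) (f : Fin n → Fin n → ℝ)
    (hf : ∀ u v, f u v = f v u) :
    ∑ u, ∑ v, f u v * NB (lab s S T u) (lab s S T v) = ∑ u ∈ S, ∑ v ∈ T, f u v := by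
  have h1 : ∀ u v, f u v * NB (lab s S T u) (lab s S T v) =
      (1 / 2) * (if u ∈ S ∧ v ∈ T then f u v else 0) +
      (1 / 2) * (if u ∈ T ∧ v ∈ S then f u v else 0) := by
    intro u v
    unfold NB
    simp only [lab_S, lab_T]
    split_ifs <;> ring
  have h2 : ∀ (S T : Finset (Fin n)), ∑ u, ∑ v, (if u ∈ S ∧ v ∈ T then f u v else 0) =
      ∑ u ∈ S, ∑ v ∈ T, f u v := by
    intro S T
    rw [← Finset.sum_filter_add_sum_filter_not univ (fun u => u ∈ S)]
    have e1 : ∑ u ∈ univ.filter (fun u => ¬ u ∈ S), ∑ v,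
        (if u ∈ S ∧ v ∈ T then f u v else 0) = 0 := by
      refine Finset.sum_eq_zero fun u hu => Finset.sum_eq_zero fun v _ => ?_
      rw [if_neg]
      exact fun h => (Finset.mem_filter.mp hu).2 h.1
    rw [e1, add_zero]
    have e2 : univ.filter (fun u => u ∈ S) = S := by
      ext u
      simp
    rw [e2]
    refine Finset.sum_congr rfl fun u hu => ?_
    rw [← Finset.sum_filter_add_sum_filter_not univ (fun v => v ∈ T)]
    have e3 : ∑ v ∈ univ.filter (fun v => ¬ v ∈ T), (if u ∈ S ∧ v ∈ T then f u v else 0) = 0 := by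
      refine Finset.sum_eq_zero fun v hv => ?_
      rw [if_neg]
      exact fun h => (Finset.mem_filter.mp hv).2 h.2
    rw [e3, add_zero]
    have e4 : univ.filter (fun v => v ∈ T) = T := by
      ext v
      simp
    rw [e4]
    refine Finset.sum_congr rfl fun v hv => ?_
    rw [if_pos ⟨hu, hv⟩]
  have h3 : ∑ u ∈ T, ∑ v ∈ S, f u v = ∑ u ∈ S, ∑ v ∈ T, f u v := by
    rw [Finset.sum_comm]
    exact Finset.sum_congr rfl fun u _ => Finset.sum_congr rfl fun v _ => hf v u
  calc ∑ u, ∑ v, f u v * NB (lab s S T u) (lab s S T v)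
      = ∑ u, ∑ v, ((1 / 2) * (if u ∈ S ∧ v ∈ T then f u v else 0) +
        (1 / 2) * (if u ∈ T ∧ v ∈ S then f u v else 0)) :=
        Finset.sum_congr rfl fun u _ => Finset.sum_congr rfl fun v _ => h1 u v
    _ = (1 / 2) * (∑ u ∈ S, ∑ v ∈ T, f u v) + (1 / 2) * (∑ u ∈ T, ∑ v ∈ S, f u v) := by
        rw [sum2_add, sum2_mul, sum2_mul, h2 S T, h2 T S]
    _ = _ := by
        rw [h3]
        ring

/-- regularity step -/
lemma stepA (hn : 0 < n) {p W : Fin n → Fin n → ℝ} {eta rho : ℝ} {g i : ℕ}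
    (hp : ∀ u v, 0 ≤ p u v) (hps : ∀ u v, p u v = p v u) (hp1 : ∑ u, ∑ v, p u v = 1)
    (he : 0 < eta) (hr0 : 0 < rho) (hr1 : rho ≤ 1) (hee : Real.exp eta - 1 = rho ^ 2 / 1936)
    (hg : Real.log 2 / eta ≤ g) (hW : Pc n eta g i W) (S T : Finset (Fin n))
    (hST : ∑ u ∈ S, ∑ v ∈ T, (p u v - W u v / (n : ℝ) ^ 2) < -rho) :
    ∃ W', Pc n eta g (i + 1) W' ∧ J p W + rho ^ 2 / 352 ≤ J p W' := by
  have hWOK := Pc_WOK he hW
  obtain ⟨s, k, h1, h2, h3, h4⟩ := hW
  have hn2 : (0 : ℝ) < (n : ℝ) ^ 2 := by positivity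
  set t : ℝ := rho / 4 with ht
  have ht0 : 0 < t := by positivity
  have ht1 : t ≤ 1 / 4 := by rw [ht]; linarith
  let c : ℕ → ℕ → ℕ := fun x y => ⌊-Real.log (1 - t * NB x y) / eta⌋₊
  have hx0 : ∀ x y, 0 ≤ t * NB x y := fun x y => mul_nonneg ht0.le (NB_nonneg x y)
  have hx1 : ∀ x y, t * NB x y ≤ 1 / 4 := fun x y =>
    le_trans (mul_le_of_le_one_right ht0.le (NB_le x y)) ht1
  have hpt : ∀ x y, -(t * NB x y) - (t * NB x y) ^ 2 ≤ -(eta * (c x y : ℝ)) ∧
      Real.exp (-(eta * (c x y : ℝ))) ≤ 1 - t * NB x y + (Real.exp eta - 1) := fun x y =>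
    lr_point (hx0 x y) (hx1 x y) he rfl
  have hcg : ∀ x y, c x y ≤ g := by
    intro x y
    have e1 : -Real.log (1 - t * NB x y) / eta ≤ g := by
      refine le_trans ?_ hg
      refine div_le_div_of_nonneg_right ?_ he.le
      have e2 : (0 : ℝ) < 1 / 2 := by norm_num
      have e3 : Real.log (1 / 2) ≤ Real.log (1 - t * NB x y) :=
        Real.log_le_log e2 (by have := hx1 x y; linarith)
      rw [one_div, Real.log_inv] at e3
      linarith
    exact Nat.floor_le_of_le e1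
  let s' : Fin n → ℕ := lab s S T
  let k' : ℕ → ℕ → ℕ := fun x y => k (x / 4) (y / 4) + c x y
  let W' : Fin n → Fin n → ℝ := fun u v => 11 / 2 * Real.exp (-(eta * (k' (s' u) (s' v) : ℝ)))
  have hk' : ∀ u v, ((k' (s' u) (s' v) : ℕ) : ℝ) = (k (s u) (s v) : ℝ) + (c (s' u) (s' v) : ℝ) := by
    intro u v
    have e1 : k' (s' u) (s' v) = k (s' u / 4) (s' v / 4) + c (s' u) (s' v) := rfl
    have e2 : s' u / 4 = s u := lab_div s S T u
    have e3 : s' v / 4 = s v := lab_div s S T v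
    rw [e1, e2, e3, Nat.cast_add]
  have hW' : ∀ u v, W' u v = W u v * Real.exp (-(eta * (c (s' u) (s' v) : ℝ))) := by
    intro u v
    have e1 : W' u v = 11 / 2 * Real.exp (-(eta * (k' (s' u) (s' v) : ℝ))) := rfl
    rw [e1, hk', h4, mul_assoc, ← Real.exp_add]
    congr 2
    ring
  refine ⟨W', ⟨s', k', fun u => lab_lt s S T u (h1 u), fun a b => ?_, fun a b => ?_,
    fun u v => rfl⟩, ?_⟩
  · change k (a / 4) (b / 4) + c a b = k (b / 4) (a / 4) + c b a
    have : c a b = c b a := by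
      change ⌊-Real.log (1 - t * NB a b) / eta⌋₊ = ⌊-Real.log (1 - t * NB b a) / eta⌋₊
      rw [NB_symm]
    rw [h2, this]
  · change k (a / 4) (b / 4) + c a b ≤ g * (i + 1)
    have e1 := h3 (a / 4) (b / 4)
    have e2 := hcg a b
    rw [mul_add, mul_one]
    omega
  · have hN : ∑ u, ∑ v, (p u v - W u v / (n : ℝ) ^ 2) * NB (s' u) (s' v) < -rho := by
      have := sum_NB s S T (fun u v => p u v - W u v / (n : ℝ) ^ 2) (fun u v => by
        rw [hps u v, hWOK.1 u v])
      rw [this]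
      exact hST
    have hgain := J_gain hn (p := p) (W := W) (W' := W')
      (A := fun u v => -(t * NB (s' u) (s' v)) - t ^ 2)
      (B := fun u v => W u v * (-(t * NB (s' u) (s' v)) + (Real.exp eta - 1))) hp ?_ ?_
    · have e1 : ∑ u, ∑ v, p u v * (-(t * NB (s' u) (s' v)) - t ^ 2) =
          -t * (∑ u, ∑ v, p u v * NB (s' u) (s' v)) - t ^ 2 := by
        have : ∀ u v, p u v * (-(t * NB (s' u) (s' v)) - t ^ 2) =
            -t * (p u v * NB (s' u) (s' v)) - t ^ 2 * p u v := fun u v => by ring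
        calc _ = ∑ u, ∑ v, (-t * (p u v * NB (s' u) (s' v)) - t ^ 2 * p u v) :=
              Finset.sum_congr rfl fun u _ => Finset.sum_congr rfl fun v _ => this u v
          _ = _ := by rw [sum2_sub, sum2_mul, sum2_mul, hp1, mul_one]
      have e2 : (∑ u, ∑ v, W u v * (-(t * NB (s' u) (s' v)) + (Real.exp eta - 1))) =
          -t * (∑ u, ∑ v, W u v * NB (s' u) (s' v)) +
            (Real.exp eta - 1) * ∑ u, ∑ v, W u v := by
        have : ∀ u v, W u v * (-(t * NB (s' u) (s' v)) + (Real.exp eta - 1)) =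
            -t * (W u v * NB (s' u) (s' v)) + (Real.exp eta - 1) * W u v := fun u v => by ring
        calc _ = ∑ u, ∑ v, (-t * (W u v * NB (s' u) (s' v)) + (Real.exp eta - 1) * W u v) :=
              Finset.sum_congr rfl fun u _ => Finset.sum_congr rfl fun v _ => this u v
          _ = _ := by rw [sum2_add, sum2_mul, sum2_mul]
      have e3 : ∑ u, ∑ v, (p u v - W u v / (n : ℝ) ^ 2) * NB (s' u) (s' v) =
          (∑ u, ∑ v, p u v * NB (s' u) (s' v)) -
            (∑ u, ∑ v, W u v * NB (s' u) (s' v)) / (n : ℝ) ^ 2 := by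
        have : ∀ u v, (p u v - W u v / (n : ℝ) ^ 2) * NB (s' u) (s' v) =
            p u v * NB (s' u) (s' v) - (1 / (n : ℝ) ^ 2) * (W u v * NB (s' u) (s' v)) :=
          fun u v => by ring
        calc _ = ∑ u, ∑ v, (p u v * NB (s' u) (s' v) -
              (1 / (n : ℝ) ^ 2) * (W u v * NB (s' u) (s' v))) :=
              Finset.sum_congr rfl fun u _ => Finset.sum_congr rfl fun v _ => this u v
          _ = _ := by
              rw [sum2_sub, sum2_mul]
              ring
      have e4 : ∑ u, ∑ v, W u v ≤ (n : ℝ) ^ 2 * (11 / 2) := by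
        rw [← sum2_const]
        exact sum2_le hWOK.2.2
      have e5 : (∑ u, ∑ v, W u v) / (n : ℝ) ^ 2 ≤ 11 / 2 := by
        rw [div_le_iff₀ hn2]
        linarith
      rw [e1, e2, add_div, mul_div_assoc, mul_div_assoc] at hgain
      rw [e3] at hN
      have e6 : (Real.exp eta - 1) * ((∑ u, ∑ v, W u v) / (n : ℝ) ^ 2) ≤
          (rho ^ 2 / 1936) * (11 / 2) := by
        rw [hee]
        exact mul_le_mul_of_nonneg_left e5 (by positivity)
      have e7 : t * rho = rho ^ 2 / 4 := by rw [ht]; ring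
      have e8 : t ^ 2 = rho ^ 2 / 16 := by rw [ht]; ring
      have e9 := mul_lt_mul_of_pos_left hN ht0
      nlinarith [sq_nonneg rho]
    · intro u v
      have e1 := (hpt (s' u) (s' v)).1
      have e2 : Real.log (W' u v) - Real.log (W u v) = -(eta * (c (s' u) (s' v) : ℝ)) := by
        rw [hW', Real.log_mul (hWOK.2.1 u v).ne' (Real.exp_pos _).ne', Real.log_exp]
        ring
      change -(t * NB (s' u) (s' v)) - t ^ 2 ≤ Real.log (W' u v) - Real.log (W u v)
      rw [e2]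
      have e3 : (t * NB (s' u) (s' v)) ^ 2 ≤ t ^ 2 := by
        apply pow_le_pow_left₀ (hx0 _ _)
        exact mul_le_of_le_one_right ht0.le (NB_le _ _)
      linarith
    · intro u v
      have e1 := (hpt (s' u) (s' v)).2
      change W' u v - W u v ≤ W u v * (-(t * NB (s' u) (s' v)) + (Real.exp eta - 1))
      rw [hW']
      have e2 := mul_le_mul_of_nonneg_left e1 (hWOK.2.1 u v).le
      nlinarith

/-- cost step -/
lemma stepB (hn : 0 < n) {p W : Fin n → Fin n → ℝ} {eta rho : ℝ} {g i : ℕ}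
    (hp : ∀ u v, 0 ≤ p u v) (hp1 : ∑ u, ∑ v, p u v = 1)
    (he : 0 < eta) (hr0 : 0 < rho) (hr1 : rho ≤ 1) (hee : Real.exp eta - 1 = rho ^ 2 / 1936)
    (hW : Pc n eta g i W) (hc : J p W < cost W - rho) :
    ∃ W', Pc n eta g (i + 1) W' ∧ J p W + rho ^ 2 / 352 ≤ J p W' := by
  have hWOK := Pc_WOK he hW
  obtain ⟨s, k, h1, h2, h3, h4⟩ := hW
  have hn2 : (0 : ℝ) < (n : ℝ) ^ 2 := by positivity
  set t : ℝ := rho / 88 with ht
  have ht0 : 0 < t := by positivity
  have ht1 : t ≤ 1 / 2 := by rw [ht]; linarith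
  let l : Fin n → Fin n → ℝ := fun u v => eta * (k (s u) (s v) : ℝ)
  have hlog : ∀ u v, Real.log (W u v) = Real.log (11 / 2) - l u v := by
    intro u v
    rw [h4, Real.log_mul (by norm_num) (Real.exp_pos _).ne', Real.log_exp]
    ring
  have hdiff : (∑ u, ∑ v, p u v * l u v) - (∑ u, ∑ v, W u v * l u v) / (n : ℝ) ^ 2 > rho := by
    have e1 : J p W = Real.log (11 / 2) - (∑ u, ∑ v, p u v * l u v) -
        (∑ u, ∑ v, W u v) / (n : ℝ) ^ 2 + 1 := by
      unfold J
      have : ∑ u, ∑ v, p u v * Real.log (W u v) =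
          Real.log (11 / 2) - ∑ u, ∑ v, p u v * l u v := by
        calc _ = ∑ u, ∑ v, (Real.log (11 / 2) * p u v - p u v * l u v) :=
              Finset.sum_congr rfl fun u _ => Finset.sum_congr rfl fun v _ => by
                rw [hlog]
                ring
          _ = _ := by rw [sum2_sub, sum2_mul, hp1, mul_one]
      rw [this]
    have e2 : cost W = Real.log (11 / 2) - (∑ u, ∑ v, W u v * l u v) / (n : ℝ) ^ 2 -
        (∑ u, ∑ v, W u v) / (n : ℝ) ^ 2 + 1 := by
      unfold cost av2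
      have : ∑ u, ∑ v, (W u v * Real.log (W u v) - W u v + 1) =
          Real.log (11 / 2) * (∑ u, ∑ v, W u v) - (∑ u, ∑ v, W u v * l u v) -
            (∑ u, ∑ v, W u v) + (n : ℝ) ^ 2 := by
        calc _ = ∑ u, ∑ v, (((Real.log (11 / 2) * W u v - W u v * l u v) - W u v) + 1) :=
              Finset.sum_congr rfl fun u _ => Finset.sum_congr rfl fun v _ => by
                rw [hlog]
                ring
          _ = _ := by rw [sum2_add, sum2_sub, sum2_sub, sum2_mul, sum2_const, mul_one]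
      rw [this]
      field_simp
      ring
    rw [e1, e2] at hc
    linarith
  let k' : ℕ → ℕ → ℕ := fun x y => ⌊(1 - t) * (k x y : ℝ)⌋₊
  let W' : Fin n → Fin n → ℝ := fun u v => 11 / 2 * Real.exp (-(eta * (k' (s u) (s v) : ℝ)))
  have hnn : ∀ x y, 0 ≤ (1 - t) * (k x y : ℝ) := fun x y =>
    mul_nonneg (by linarith) (Nat.cast_nonneg _)
  have hpt : ∀ u v, t * l u v ≤ l u v - eta * (k' (s u) (s v) : ℝ) ∧
      11 / 2 * Real.exp (-(eta * (k' (s u) (s v) : ℝ))) - 11 / 2 * Real.exp (-(l u v)) ≤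
      t * (11 / 2 * Real.exp (-(l u v))) * l u v + 44 * t ^ 2 + 11 / 2 * (Real.exp eta - 1) :=
    fun u v => cost_point ht0.le ht1 he rfl (Nat.floor_le (hnn _ _)) (Nat.lt_floor_add_one _)
  refine ⟨W', Pc_mono ⟨s, k', h1, fun a b => ?_, fun a b => ?_, fun u v => rfl⟩, ?_⟩
  · change ⌊(1 - t) * (k a b : ℝ)⌋₊ = ⌊(1 - t) * (k b a : ℝ)⌋₊
    rw [h2]
  · refine le_trans ?_ (h3 a b)
    change ⌊(1 - t) * (k a b : ℝ)⌋₊ ≤ k a b
    refine Nat.floor_le_of_le ?_
    nlinarith [Nat.cast_nonneg (α := ℝ) (k a b)]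
  · have hgain := J_gain hn (p := p) (W := W) (W' := W') (A := fun u v => t * l u v)
      (B := fun u v => t * (W u v * l u v) + (44 * t ^ 2 + 11 / 2 * (Real.exp eta - 1))) hp ?_ ?_
    · have e1 : ∑ u, ∑ v, p u v * (t * l u v) = t * ∑ u, ∑ v, p u v * l u v := by
        rw [← sum2_mul]
        exact Finset.sum_congr rfl fun u _ => Finset.sum_congr rfl fun v _ => by ring
      have e2 : ∑ u, ∑ v, (t * (W u v * l u v) + (44 * t ^ 2 + 11 / 2 * (Real.exp eta - 1))) =
          t * (∑ u, ∑ v, W u v * l u v) +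
            (n : ℝ) ^ 2 * (44 * t ^ 2 + 11 / 2 * (Real.exp eta - 1)) := by
        rw [sum2_add, sum2_mul, sum2_const]
      rw [e1, e2, add_div, mul_div_assoc, mul_comm ((n : ℝ) ^ 2), mul_div_assoc,
        div_self hn2.ne', mul_one, hee] at hgain
      have e3 := mul_lt_mul_of_pos_left hdiff ht0
      have e4 : t * rho = rho ^ 2 / 88 := by rw [ht]; ring
      have e5 : 44 * t ^ 2 = rho ^ 2 / 176 := by rw [ht]; ring
      rw [e5] at hgain
      nlinarith [sq_nonneg rho]
    · intro u v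
      have e1 := (hpt u v).1
      change t * l u v ≤ Real.log (W' u v) - Real.log (W u v)
      have e2 : Real.log (W' u v) = Real.log (11 / 2) - eta * (k' (s u) (s v) : ℝ) := by
        change Real.log (11 / 2 * Real.exp (-(eta * (k' (s u) (s v) : ℝ)))) = _
        rw [Real.log_mul (by norm_num) (Real.exp_pos _).ne', Real.log_exp]
        ring
      rw [e2, hlog]
      linarith
    · intro u v
      have e1 := (hpt u v).2
      change 11 / 2 * Real.exp (-(eta * (k' (s u) (s v) : ℝ))) - W u v ≤ _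
      have e2 : W u v = 11 / 2 * Real.exp (-(l u v)) := h4 u v
      rw [e2]
      linarith

/-- one step -/
lemma step (hn : 0 < n) {p W : Fin n → Fin n → ℝ} {eta rho : ℝ} {g i : ℕ}
    (hp : ∀ u v, 0 ≤ p u v) (hps : ∀ u v, p u v = p v u) (hp1 : ∑ u, ∑ v, p u v = 1)
    (he : 0 < eta) (hr0 : 0 < rho) (hr1 : rho ≤ 1) (hee : Real.exp eta - 1 = rho ^ 2 / 1936)
    (hg : Real.log 2 / eta ≤ g) (hW : Pc n eta g i W)
    (hbad : ¬ ((∀ S T : Finset (Fin n),
      -rho ≤ ∑ u ∈ S, ∑ v ∈ T, (p u v - W u v / (n : ℝ) ^ 2)) ∧ cost W - rho ≤ J p W)) :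
    ∃ W', Pc n eta g (i + 1) W' ∧ J p W + rho ^ 2 / 352 ≤ J p W' := by
  by_cases h : ∀ S T : Finset (Fin n),
      -rho ≤ ∑ u ∈ S, ∑ v ∈ T, (p u v - W u v / (n : ℝ) ^ 2)
  · exact stepB hn hp hp1 he hr0 hr1 hee hW (by
      by_contra h2
      exact hbad ⟨h, not_lt.mp h2⟩)
  · push Not at h
    obtain ⟨S, T, hST⟩ := h
    exact stepA hn hp hps hp1 he hr0 hr1 hee hg hW S T hST

lemma J_upper (hn : 0 < n) {p W : Fin n → Fin n → ℝ} (hp : ∀ u v, 0 ≤ p u v)
    (hp1 : ∑ u, ∑ v, p u v = 1) (hW : WOK W) : J p W ≤ Real.log (11 / 2) + 1 := by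
  have hn2 : (0 : ℝ) < (n : ℝ) ^ 2 := by positivity
  have h1 : ∑ u, ∑ v, p u v * Real.log (W u v) ≤ Real.log (11 / 2) := by
    calc ∑ u, ∑ v, p u v * Real.log (W u v) ≤ ∑ u, ∑ v, Real.log (11 / 2) * p u v := by
          refine sum2_le fun u v => ?_
          have e1 : Real.log (W u v) ≤ Real.log (11 / 2) :=
            Real.log_le_log (hW.2.1 u v) (hW.2.2 u v)
          have e2 := mul_le_mul_of_nonneg_left e1 (hp u v)
          linarith
      _ = Real.log (11 / 2) := by rw [sum2_mul, hp1, mul_one]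
  have h2 : 0 ≤ (∑ u, ∑ v, W u v) / (n : ℝ) ^ 2 :=
    div_nonneg (Finset.sum_nonneg fun u _ => Finset.sum_nonneg fun v _ => (hW.2.1 u v).le)
      hn2.le
  unfold J
  linarith

/-- the iteration -/
lemma iter (hn : 0 < n) {p : Fin n → Fin n → ℝ} {eta rho : ℝ} {g : ℕ}
    (hp : ∀ u v, 0 ≤ p u v) (hps : ∀ u v, p u v = p v u) (hp1 : ∑ u, ∑ v, p u v = 1)
    (he : 0 < eta) (hr0 : 0 < rho) (hr1 : rho ≤ 1) (hee : Real.exp eta - 1 = rho ^ 2 / 1936)
    (hg : Real.log 2 / eta ≤ g) (i : ℕ) :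
    (∃ j, j ≤ i ∧ ∃ W, Pc n eta g j W ∧ ((∀ S T : Finset (Fin n),
      -rho ≤ ∑ u ∈ S, ∑ v ∈ T, (p u v - W u v / (n : ℝ) ^ 2)) ∧ cost W - rho ≤ J p W)) ∨
    ∃ W, Pc n eta g i W ∧ Real.log (11 / 2) - 9 / 2 + i * (rho ^ 2 / 352) ≤ J p W := by
  induction i with
  | zero =>
    right
    refine ⟨fun _ _ => 11 / 2, ⟨fun _ => 0, fun _ _ => 0, fun u => by norm_num,
      fun a b => rfl, fun a b => by norm_num, fun u v => by simp⟩, ?_⟩
    have hn2 : (0 : ℝ) < (n : ℝ) ^ 2 := by positivity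
    have h1 : ∑ u, ∑ v, p u v * Real.log (11 / 2) = Real.log (11 / 2) := by
      calc _ = ∑ u, ∑ v, Real.log (11 / 2) * p u v :=
            Finset.sum_congr rfl fun u _ => Finset.sum_congr rfl fun v _ => by ring
        _ = _ := by rw [sum2_mul, hp1, mul_one]
    unfold J
    rw [h1, sum2_const, mul_comm ((n : ℝ) ^ 2), mul_div_assoc, div_self hn2.ne']
    norm_num
    linarith
  | succ i ih =>
    rcases ih with ⟨j, hj, h⟩ | ⟨W, hW, hJ⟩
    · exact Or.inl ⟨j, by omega, h⟩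
    · by_cases hgood : ((∀ S T : Finset (Fin n),
          -rho ≤ ∑ u ∈ S, ∑ v ∈ T, (p u v - W u v / (n : ℝ) ^ 2)) ∧ cost W - rho ≤ J p W)
      · exact Or.inl ⟨i, by omega, W, hW, hgood⟩
      · right
        obtain ⟨W', hW', hJ'⟩ := step hn hp hps hp1 he hr0 hr1 hee hg hW hgood
        refine ⟨W', hW', ?_⟩
        push_cast
        linarith

/-! ### the net -/

/-- the matrix of a label function and a kernel -/
noncomputable def mat (n : ℕ) (eta : ℝ) (R K : ℕ) (q : (Fin n → Fin R) × (Fin R → Fin R → Fin K)) :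
    Fin n → Fin n → ℝ :=
  fun u v => 11 / 2 * Real.exp (-(eta * ((q.2 (q.1 u) (q.1 v) : ℕ) : ℝ)))

open Classical in
/-- the net -/
noncomputable def net (n : ℕ) (eta : ℝ) (R K : ℕ) : Finset (Fin n → Fin n → ℝ) :=
  (univ.image (mat n eta R K)).filter WOK

lemma net_card (n : ℕ) (eta : ℝ) (R K : ℕ) :
    (net n eta R K).card ≤ R ^ n * (K ^ R) ^ R := by
  classical
  unfold net
  refine (Finset.card_filter_le _ _).trans (Finset.card_image_le.trans ?_)
  rw [Finset.card_univ, Fintype.card_prod, Fintype.card_fun, Fintype.card_fun,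
    Fintype.card_fun, Fintype.card_fin, Fintype.card_fin, Fintype.card_fin]

lemma mem_net {eta : ℝ} (he : 0 < eta) {g i I : ℕ} (hi : i ≤ I) {W : Fin n → Fin n → ℝ}
    (h : Pc n eta g i W) : W ∈ net n eta (4 ^ I) (g * I + 1) := by
  classical
  have hWOK := Pc_WOK he h
  obtain ⟨s, k, h1, h2, h3, h4⟩ := h
  unfold net
  rw [Finset.mem_filter]
  refine ⟨?_, hWOK⟩
  rw [Finset.mem_image]
  have hs : ∀ u, s u < 4 ^ I := fun u => lt_of_lt_of_le (h1 u)
    (Nat.pow_le_pow_right (by norm_num) hi)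
  have hk : ∀ a b, k a b < g * I + 1 := fun a b => by
    have := (h3 a b).trans (Nat.mul_le_mul_left g hi)
    omega
  refine ⟨(fun u => ⟨s u, hs u⟩, fun a b => ⟨k a b, hk a b⟩), Finset.mem_univ _, ?_⟩
  funext u v
  rw [h4]
  rfl

/-! ### the weights of a graph -/

lemma ad_symm (G : Finset (Finset (Fin n))) (u v : Fin n) : ad G u v = ad G v u := by
  unfold ad
  rw [Finset.pair_comm]

lemma ad_nonneg (G : Finset (Finset (Fin n))) (u v : Fin n) : 0 ≤ ad G u v := by
  unfold ad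
  split_ifs <;> norm_num

/-- the sum of the adjacency matrix -/
lemma sum_ad (G : Finset (Finset (Fin n))) (hG : G ⊆ pairs n) :
    ∑ u, ∑ v, ad G u v = 2 * (G.card : ℝ) := by
  classical
  have h1 : ∀ u v, ad G u v = ∑ e ∈ G, (if ({u, v} : Finset (Fin n)) = e then (1 : ℝ) else 0) := by
    intro u v
    unfold ad
    rw [Finset.sum_ite_eq]
  have h2 : ∑ u, ∑ v, ad G u v =
      ∑ e ∈ G, ∑ u, ∑ v, (if ({u, v} : Finset (Fin n)) = e then (1 : ℝ) else 0) := by
    calc _ = ∑ u, ∑ v, ∑ e ∈ G, (if ({u, v} : Finset (Fin n)) = e then (1 : ℝ) else 0) :=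
          Finset.sum_congr rfl fun u _ => Finset.sum_congr rfl fun v _ => h1 u v
      _ = ∑ u, ∑ e ∈ G, ∑ v, (if ({u, v} : Finset (Fin n)) = e then (1 : ℝ) else 0) :=
          Finset.sum_congr rfl fun u _ => Finset.sum_comm
      _ = _ := Finset.sum_comm
  rw [h2]
  have h3 : ∀ e ∈ G, ∑ u, ∑ v, (if ({u, v} : Finset (Fin n)) = e then (1 : ℝ) else 0) = 2 := by
    intro e he
    have hc : e.card = 2 := (Finset.mem_powersetCard.mp (hG he)).2
    obtain ⟨a, b, hab, rfl⟩ := Finset.card_eq_two.mp hc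
    have h4 : ∀ u v : Fin n, (if ({u, v} : Finset (Fin n)) = {a, b} then (1 : ℝ) else 0) =
        (if u = a then (if v = b then 1 else 0) else 0) +
        (if u = b then (if v = a then 1 else 0) else 0) := by
      intro u v
      have h5 : (({u, v} : Finset (Fin n)) = {a, b}) ↔ (u = a ∧ v = b) ∨ (u = b ∧ v = a) := by
        constructor
        · intro h
          have ha : a ∈ ({u, v} : Finset (Fin n)) := by rw [h]; simp
          have hb : b ∈ ({u, v} : Finset (Fin n)) := by rw [h]; simp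
          simp only [Finset.mem_insert, Finset.mem_singleton] at ha hb
          rcases ha with ha | ha <;> rcases hb with hb | hb
          · exact absurd (ha.trans hb.symm) hab
          · exact Or.inl ⟨ha.symm, hb.symm⟩
          · exact Or.inr ⟨hb.symm, ha.symm⟩
          · exact absurd (ha.trans hb.symm) hab
        · rintro (⟨rfl, rfl⟩ | ⟨rfl, rfl⟩)
          · rfl
          · exact Finset.pair_comm _ _
      by_cases h6 : u = a
      · subst h6
        by_cases h7 : v = b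
        · subst h7
          simp [hab]
        · have : ¬ (({u, v} : Finset (Fin n)) = {u, b}) := by
            rw [h5]
            rintro (⟨_, h⟩ | ⟨h, _⟩)
            · exact h7 h
            · exact hab h
          simp [this, h7, hab]
      · by_cases h7 : u = b
        · subst h7
          by_cases h8 : v = a
          · subst h8
            rw [if_pos (Finset.pair_comm _ _)]
            simp [h6]
          · have : ¬ (({u, v} : Finset (Fin n)) = {a, u}) := by
              rw [h5]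
              rintro (⟨h, _⟩ | ⟨_, h⟩)
              · exact h6 h
              · exact h8 h
            simp [this, h6, h8]
        · have : ¬ (({u, v} : Finset (Fin n)) = {a, b}) := by
            rw [h5]
            rintro (⟨h, _⟩ | ⟨h, _⟩)
            · exact h6 h
            · exact h7 h
          simp [this, h6, h7]
    calc _ = ∑ u, ∑ v, ((if u = a then (if v = b then (1 : ℝ) else 0) else 0) +
          (if u = b then (if v = a then 1 else 0) else 0)) :=
          Finset.sum_congr rfl fun u _ => Finset.sum_congr rfl fun v _ => h4 u v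
      _ = 2 := by
          rw [sum2_add]
          have e1 : ∀ a b : Fin n, ∑ u, ∑ v, (if u = a then (if v = b then (1 : ℝ) else 0)
              else 0) = 1 := by
            intro a b
            rw [Finset.sum_eq_single a]
            · simp
            · intro u _ hu
              simp [hu]
            · intro h
              exact absurd (Finset.mem_univ a) h
          rw [e1, e1]
          norm_num
  rw [Finset.sum_congr rfl h3, Finset.sum_const, nsmul_eq_mul, mul_comm]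

end

theorem thm : StmtREG := by
  intro rho0 hrho0
  set rho : ℝ := min rho0 1 with hrho
  have hr0 : 0 < rho := lt_min hrho0 one_pos
  have hr1 : rho ≤ 1 := min_le_right _ _
  have hrr : rho ≤ rho0 := min_le_left _ _
  set eta : ℝ := Real.log (1 + rho ^ 2 / 1936) with heta
  have hpos : 0 < rho ^ 2 / 1936 := by positivity
  have he : 0 < eta := Real.log_pos (by linarith)
  have hee : Real.exp eta - 1 = rho ^ 2 / 1936 := by
    rw [heta, Real.exp_log (by linarith)]
    ring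
  set g : ℕ := ⌈Real.log 2 / eta⌉₊ with hg'
  have hg : Real.log 2 / eta ≤ g := Nat.le_ceil _
  set I : ℕ := ⌊1936 / rho ^ 2⌋₊ + 1 with hI'
  have hI : 1936 / rho ^ 2 < I := by
    rw [hI']
    push_cast
    exact Nat.lt_floor_add_one _
  refine ⟨Real.log (4 ^ I) + Real.log ((((g * I + 1) ^ (4 ^ I)) ^ (4 ^ I) : ℕ) : ℝ), ?_⟩
  intro n hn
  have hn0 : 0 < n := hn
  refine ⟨net n eta (4 ^ I) (g * I + 1), ?_, ?_, ?_⟩
  · have h1 : ((net n eta (4 ^ I) (g * I + 1)).card : ℝ) ≤
        (((4 ^ I) ^ n * ((g * I + 1) ^ (4 ^ I)) ^ (4 ^ I) : ℕ) : ℝ) := by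
      exact_mod_cast net_card n eta (4 ^ I) (g * I + 1)
    refine h1.trans ?_
    rw [Nat.cast_mul, add_mul, Real.exp_add]
    have hK1 : 1 ≤ ((g * I + 1) ^ (4 ^ I)) ^ (4 ^ I) :=
      Nat.one_le_pow _ _ (Nat.one_le_pow _ _ (by omega))
    have hKp : (1 : ℝ) ≤ ((((g * I + 1) ^ (4 ^ I)) ^ (4 ^ I) : ℕ) : ℝ) := by
      exact_mod_cast hK1
    have hn1 : (1 : ℝ) ≤ n := by exact_mod_cast hn
    refine mul_le_mul ?_ ?_ (by positivity) (by positivity)
    · rw [mul_comm, Real.exp_nat_mul, Real.exp_log (by positivity)]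
      push_cast
      exact le_rfl
    · have e1 : Real.exp (Real.log ((((g * I + 1) ^ (4 ^ I)) ^ (4 ^ I) : ℕ) : ℝ)) =
          ((((g * I + 1) ^ (4 ^ I)) ^ (4 ^ I) : ℕ) : ℝ) := Real.exp_log (by linarith)
      calc ((((g * I + 1) ^ (4 ^ I)) ^ (4 ^ I) : ℕ) : ℝ) =
          Real.exp (Real.log ((((g * I + 1) ^ (4 ^ I)) ^ (4 ^ I) : ℕ) : ℝ)) := e1.symm
        _ ≤ _ := by
          refine Real.exp_le_exp.mpr ?_
          exact le_mul_of_one_le_right (Real.log_nonneg hKp) hn1
  · intro W hW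
    classical
    exact (Finset.mem_filter.mp hW).2
  · intro G hG hne
    have hcard : 0 < (G.card : ℝ) := by
      exact_mod_cast Finset.card_pos.mpr hne
    have hn2 : (0 : ℝ) < (n : ℝ) ^ 2 := by positivity
    let p : Fin n → Fin n → ℝ := fun u v => ad G u v / (2 * (G.card : ℝ))
    have hp : ∀ u v, 0 ≤ p u v := fun u v => div_nonneg (ad_nonneg G u v) (by positivity)
    have hps : ∀ u v, p u v = p v u := fun u v => by
      change ad G u v / _ = ad G v u / _
      rw [ad_symm]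
    have hp1 : ∑ u, ∑ v, p u v = 1 := by
      have e1 : ∑ u, ∑ v, p u v = (1 / (2 * (G.card : ℝ))) * ∑ u, ∑ v, ad G u v := by
        rw [← sum2_mul]
        exact Finset.sum_congr rfl fun u _ => Finset.sum_congr rfl fun v _ => by
          change ad G u v / (2 * (G.card : ℝ)) = _
          ring
      rw [e1, sum_ad G hG]
      field_simp
    have hJW : ∀ W, JW G W = J p W := by
      intro W
      unfold JW J av2
      have e1 : ∑ u, ∑ v, p u v * Real.log (W u v) =
          (∑ u, ∑ v, ad G u v * Real.log (W u v)) / (2 * (G.card : ℝ)) := by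
        rw [Finset.sum_div]
        refine Finset.sum_congr rfl fun u _ => ?_
        rw [Finset.sum_div]
        refine Finset.sum_congr rfl fun v _ => ?_
        change ad G u v / (2 * (G.card : ℝ)) * _ = _
        ring
      rw [e1]
    rcases iter hn0 hp hps hp1 he hr0 hr1 hee hg I with ⟨j, hj, W, hW, hLR, hC⟩ | ⟨W, hW, hJ⟩
    · refine ⟨W, mem_net he hj hW, ?_, ?_⟩
      · intro S T
        have e1 := hLR S T
        have e2 : ∑ u ∈ S, ∑ v ∈ T, (ad G u v / pp n G.card - W u v) =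
            (n : ℝ) ^ 2 * ∑ u ∈ S, ∑ v ∈ T, (p u v - W u v / (n : ℝ) ^ 2) := by
          rw [Finset.mul_sum]
          refine Finset.sum_congr rfl fun u _ => ?_
          rw [Finset.mul_sum]
          refine Finset.sum_congr rfl fun v _ => ?_
          change ad G u v / (2 * (G.card : ℝ) / (n : ℝ) ^ 2) - W u v =
            (n : ℝ) ^ 2 * (ad G u v / (2 * (G.card : ℝ)) - W u v / (n : ℝ) ^ 2)
          field_simp
        rw [e2]
        have e3 := mul_le_mul_of_nonneg_left e1 hn2.le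
        nlinarith
      · rw [hJW]
        linarith
    · exfalso
      have h1 := J_upper hn0 hp hp1 (Pc_WOK he hW)
      have h2 : 11 / 2 < (I : ℝ) * (rho ^ 2 / 352) := by
        have e1 : 1936 / rho ^ 2 * (rho ^ 2 / 352) = 11 / 2 := by
          field_simp
          norm_num
        rw [← e1]
        exact mul_lt_mul_of_pos_right hI (by positivity)
      linarith

end Vale.Agent.P046.Sh.REG
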