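import Vale.Agent.P046.Sh.Defs

/-!
# P046, sharp constant, module S1: lower bound of the entropy of one cell
-/

namespace Vale.Agent.P046.Sh.S1

open Finset

variable {n : ℕ}

/-! ### expectations -/

theorem ex_congr {mu f g : Finset (Finset (Fin n)) → ℝ}
    (h : ∀ G, mu G ≠ 0 → G ⊆ pairs n → f G = g G) : EX mu f = EX mu g := by
  unfold EX
  refine sum_congr rfl fun G hG => ?_
  by_cases h0 : mu G = 0
  · rw [h0, zero_mul, zero_mul]
  · rw [h G h0 (mem_powerset.mp hG)]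

theorem ex_mono {mu f g : Finset (Finset (Fin n)) → ℝ} (hmu : ∀ G, 0 ≤ mu G)
    (h : ∀ G, mu G ≠ 0 → G ⊆ pairs n → f G ≤ g G) : EX mu f ≤ EX mu g := by
  unfold EX
  refine sum_le_sum fun G hG => ?_
  by_cases h0 : mu G = 0
  · rw [h0, zero_mul, zero_mul]
  · exact mul_le_mul_of_nonneg_left (h G h0 (mem_powerset.mp hG)) (hmu G)

theorem ex_add (mu f g : Finset (Finset (Fin n)) → ℝ) :
    EX mu (fun G => f G + g G) = EX mu f + EX mu g := by
  unfold EX
  rw [← sum_add_distrib]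
  exact sum_congr rfl fun G _ => by ring

theorem ex_sub (mu f g : Finset (Finset (Fin n)) → ℝ) :
    EX mu (fun G => f G - g G) = EX mu f - EX mu g := by
  unfold EX
  rw [← sum_sub_distrib]
  exact sum_congr rfl fun G _ => by ring

theorem ex_mul (mu f : Finset (Finset (Fin n)) → ℝ) (c : ℝ) :
    EX mu (fun G => c * f G) = c * EX mu f := by
  unfold EX
  rw [mul_sum]
  exact sum_congr rfl fun G _ => by ring

theorem ex_const {mu : Finset (Finset (Fin n)) → ℝ} (h : EX mu (fun _ => 1) = 1) (c : ℝ) :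
    EX mu (fun _ => c) = c := by
  have h1 : EX mu (fun _ => c * 1) = c * EX mu (fun _ => 1) := ex_mul mu (fun _ => 1) c
  rw [h] at h1
  calc EX mu (fun _ => c) = EX mu (fun _ => c * 1) := ex_congr fun G _ _ => (mul_one c).symm
    _ = c * 1 := h1
    _ = c := mul_one c

/-! ### the random order -/

section

variable {m : ℕ} {mu : Finset (Finset (Fin n)) → ℝ}

theorem ident (hSB : StmtSB) (hmu : Prb mu m) (hm : m ≤ (pairs n).card) {j : ℕ} (hj : j < m)
    (F : Finset (Finset (Fin n)) → ℝ) :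
    EX (sb mu m (j + 1)) (fun G => (∑ e ∈ G, F (G.erase e)) / ((j : ℝ) + 1)) =
      EX (sb mu m j) F := by
  obtain ⟨-, -, -, -, h5, h6⟩ := hSB n m mu hmu hm
  rw [h6 j hj (fun H _ => F H), h5 j hj.le F]
  refine ex_congr fun G hG _ => ?_
  congr 1
  refine sum_congr rfl fun H hH => ?_
  rw [mem_powersetCard] at hH
  have hc : ((G \ H).card : ℝ) = (m : ℝ) - j := by
    rw [card_sdiff_of_subset hH.1, hH.2, (hmu.2.1 G hG).2, Nat.cast_sub hj.le]
  rw [sum_const, nsmul_eq_mul, hc]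
  have hpos : (0 : ℝ) < (m : ℝ) - j := by
    have : (j : ℝ) < m := by exact_mod_cast hj
    linarith
  field_simp

theorem sb_top (hSB : StmtSB) (hmu : Prb mu m) (hm : m ≤ (pairs n).card)
    (F : Finset (Finset (Fin n)) → ℝ) : EX (sb mu m m) F = EX mu F := by
  obtain ⟨-, -, -, -, h5, -⟩ := hSB n m mu hmu hm
  rw [h5 m le_rfl F]
  refine ex_congr fun G hG _ => ?_
  have hc := (hmu.2.1 G hG).2
  rw [← hc, powersetCard_self, sum_singleton, Nat.choose_self, Nat.cast_one, div_one]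

theorem sb_bot (hSB : StmtSB) (hmu : Prb mu m) (hm : m ≤ (pairs n).card)
    (F : Finset (Finset (Fin n)) → ℝ) : EX (sb mu m 0) F = F ∅ := by
  obtain ⟨-, -, -, -, h5, -⟩ := hSB n m mu hmu hm
  rw [h5 0 (Nat.zero_le _) F, ← ex_const hmu.2.2 (F ∅)]
  refine ex_congr fun G hG _ => ?_
  rw [powersetCard_zero, sum_singleton, Nat.choose_zero_right, Nat.cast_one, div_one]

theorem avg_const (hSB : StmtSB) (hmu : Prb mu m) (hm : m ≤ (pairs n).card) {j : ℕ}
    (hj : j < m) (F : Finset (Finset (Fin n)) → ℝ) :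
    EX (sb mu m (j + 1)) (fun G => (∑ _e ∈ G, F G) / ((j : ℝ) + 1)) =
      EX (sb mu m (j + 1)) F := by
  obtain ⟨h1, -, -, -, -, -⟩ := hSB n m mu hmu hm
  refine ex_congr fun G hG _ => ?_
  have hc := ((h1 (j + 1) hj).2.1 G hG).2
  rw [sum_const, nsmul_eq_mul, hc]
  push_cast
  field_simp

/-- one step of the telescoping sum -/
theorem step_diff (hSB : StmtSB) (hmu : Prb mu m) (hm : m ≤ (pairs n).card) {j : ℕ}
    (hj : j < m) (F : Finset (Finset (Fin n)) → ℝ) :
    EX (sb mu m (j + 1)) (fun G => (∑ e ∈ G, (F G - F (G.erase e))) / ((j : ℝ) + 1)) =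
      EX (sb mu m (j + 1)) F - EX (sb mu m j) F := by
  rw [← ident hSB hmu hm hj F, ← avg_const hSB hmu hm hj F, ← ex_sub]
  refine ex_congr fun G _ _ => ?_
  rw [sum_sub_distrib, sub_div]

/-- averages of edge functions do not depend on the level -/
theorem lin_const (hSB : StmtSB) (hmu : Prb mu m) (hm : m ≤ (pairs n).card)
    (f : Finset (Fin n) → ℝ) (j : ℕ) (hj : j < m) :
    EX (sb mu m (j + 1)) (fun G => (∑ e ∈ G, f e) / ((j : ℝ) + 1)) =
      EX mu (fun G => (∑ e ∈ G, f e) / (m : ℝ)) := by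
  have key : ∀ j, j + 1 < m →
      EX (sb mu m (j + 1)) (fun G => (∑ e ∈ G, f e) / ((j : ℝ) + 1)) =
      EX (sb mu m (j + 2)) (fun G => (∑ e ∈ G, f e) / (((j + 1 : ℕ) : ℝ) + 1)) := by
    intro j hj
    rw [← ident hSB hmu hm hj (fun G => (∑ e ∈ G, f e) / ((j : ℝ) + 1))]
    obtain ⟨h1, -, -, -, -, -⟩ := hSB n m mu hmu hm
    refine ex_congr fun G hG _ => ?_
    have hc := ((h1 (j + 2) hj).2.1 G hG).2
    congr 1
    have e1 : ∀ e ∈ G, (∑ x ∈ G.erase e, f x) / ((j : ℝ) + 1) =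
        ((∑ x ∈ G, f x) - f e) / ((j : ℝ) + 1) := by
      intro e he
      rw [← sum_erase_add _ _ he]
      ring
    rw [sum_congr rfl e1, ← sum_div, sum_sub_distrib, sum_const, nsmul_eq_mul, hc]
    have : (0 : ℝ) < (j : ℝ) + 1 := by positivity
    field_simp
    push_cast
    ring
  have down : ∀ k j, j + 1 + k = m →
      EX (sb mu m (j + 1)) (fun G => (∑ e ∈ G, f e) / ((j : ℝ) + 1)) =
      EX mu (fun G => (∑ e ∈ G, f e) / (m : ℝ)) := by
    intro k
    induction k with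
    | zero =>
      intro j hjm
      have e : j + 1 = m := by omega
      have e' : (j : ℝ) + 1 = m := by exact_mod_cast e
      rw [e', e, sb_top hSB hmu hm]
    | succ k ih =>
      intro j hjm
      rw [key j (by omega)]
      exact ih (j + 1) (by omega)
  exact down (m - (j + 1)) j (by omega)

end

/-! ### edge functions -/

/-- value of a symmetric matrix at an edge -/
noncomputable def ev (f : Fin n → Fin n → ℝ) (e : Finset (Fin n)) : ℝ :=
  (∑ u, ∑ v, if ({u, v} : Finset (Fin n)) = e then f u v else 0) / 2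

theorem sum_ev (f : Fin n → Fin n → ℝ) (G : Finset (Finset (Fin n))) :
    ∑ e ∈ G, ev f e = (∑ u, ∑ v, ad G u v * f u v) / 2 := by
  unfold ev
  rw [← sum_div]
  congr 1
  rw [sum_comm]
  refine sum_congr rfl fun u _ => ?_
  rw [sum_comm]
  refine sum_congr rfl fun v _ => ?_
  rw [sum_ite_eq]
  unfold ad
  by_cases h : ({u, v} : Finset (Fin n)) ∈ G
  · simp [h]
  · simp [h]

theorem pair_eq {a b u v : Fin n} :
    (({u, v} : Finset (Fin n)) = {a, b}) ↔ (u = a ∧ v = b) ∨ (u = b ∧ v = a) := by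
  constructor
  · intro h
    have h1 : u = a ∨ u = b := by
      have : u ∈ ({a, b} : Finset (Fin n)) := by rw [← h]; simp
      simpa using this
    have h2 : v = a ∨ v = b := by
      have : v ∈ ({a, b} : Finset (Fin n)) := by rw [← h]; simp
      simpa using this
    have h3 : a = u ∨ a = v := by
      have : a ∈ ({u, v} : Finset (Fin n)) := by rw [h]; simp
      simpa using this
    have h4 : b = u ∨ b = v := by
      have : b ∈ ({u, v} : Finset (Fin n)) := by rw [h]; simp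
      simpa using this
    grind
  · rintro (⟨rfl, rfl⟩ | ⟨rfl, rfl⟩)
    · rfl
    · exact pair_comm _ _

theorem ev_pair {f : Fin n → Fin n → ℝ} {a b : Fin n} (hab : a ≠ b) (hf : f a b = f b a) :
    ev f {a, b} = f a b := by
  unfold ev
  have h : ∀ u v, (if ({u, v} : Finset (Fin n)) = {a, b} then f u v else 0) =
      (if u = a then (if v = b then f a b else 0) else 0) +
        (if u = b then (if v = a then f a b else 0) else 0) := by
    intro u v
    by_cases h1 : u = a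
    · subst h1
      by_cases h2 : v = b
      · subst h2
        simp [hab]
      · have : ¬ (({u, v} : Finset (Fin n)) = {u, b}) := by
          rw [pair_eq]
          rintro (⟨-, h⟩ | ⟨h, -⟩)
          · exact h2 h
          · exact hab h
        simp [this, h2, hab]
    · by_cases h2 : u = b
      · subst h2
        by_cases h3 : v = a
        · subst h3
          have : (({u, v} : Finset (Fin n)) = {v, u}) := pair_comm _ _
          simp [this, h1, hf]
        · have : ¬ (({u, v} : Finset (Fin n)) = {a, u}) := by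
            rw [pair_eq]
            rintro (⟨h, -⟩ | ⟨-, h⟩)
            · exact h1 h
            · exact h3 h
          simp [this, h1, h3]
      · have : ¬ (({u, v} : Finset (Fin n)) = {a, b}) := by
          rw [pair_eq]
          rintro (⟨h, -⟩ | ⟨h, -⟩)
          · exact h1 h
          · exact h2 h
        simp [this, h1, h2]
  simp_rw [h, sum_add_distrib]
  simp

theorem mem_pairs {e : Finset (Fin n)} : e ∈ pairs n ↔ ∃ a b, a ≠ b ∧ e = {a, b} := by
  unfold pairs
  rw [mem_powersetCard, card_eq_two]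
  exact ⟨fun h => h.2, fun h => ⟨subset_univ _, h⟩⟩

theorem cn_eq_cd {H : Finset (Finset (Fin n))} (hH : H ⊆ pairs n) {a b : Fin n} (hab : a ≠ b) :
    cn H {a, b} = cd H a b := by
  unfold cn cd
  congr 1
  ext w
  simp only [mem_filter, mem_univ, true_and, mem_insert, mem_singleton, forall_eq_or_imp,
    forall_eq]
  constructor
  · rintro ⟨-, h⟩
    exact h
  · rintro ⟨h1, h2⟩
    refine ⟨?_, h1, h2⟩
    rintro (rfl | rfl)
    · obtain ⟨x, y, hxy, he⟩ := mem_pairs.mp (hH h1)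
      rw [pair_eq] at he
      rcases he with ⟨h3, h4⟩ | ⟨h3, h4⟩
      · exact hxy (h3.symm.trans h4)
      · exact hxy (h4.symm.trans h3)
    · obtain ⟨x, y, hxy, he⟩ := mem_pairs.mp (hH h2)
      rw [pair_eq] at he
      rcases he with ⟨h3, h4⟩ | ⟨h3, h4⟩
      · exact hxy (h3.symm.trans h4)
      · exact hxy (h4.symm.trans h3)

theorem ad_pairs (u v : Fin n) : ad (pairs n) u v = od u v := by
  unfold ad od
  by_cases h : u = v
  · subst h
    have : ¬ (({u, u} : Finset (Fin n)) ∈ pairs n) := by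
      intro h
      obtain ⟨x, y, hxy, he⟩ := mem_pairs.mp h
      rw [pair_eq] at he
      rcases he with ⟨h3, h4⟩ | ⟨h3, h4⟩
      · exact hxy (h3.symm.trans h4)
      · exact hxy (h4.symm.trans h3)
    rw [if_neg this, if_pos rfl]
  · have : (({u, v} : Finset (Fin n)) ∈ pairs n) := mem_pairs.mpr ⟨u, v, h, rfl⟩
    rw [if_pos this, if_neg h]

theorem cd_comm (H : Finset (Finset (Fin n))) (a b : Fin n) : cd H a b = cd H b a := by
  unfold cd
  congr 1
  ext w
  simp only [mem_filter, mem_univ, true_and]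
  exact and_comm

theorem hh_comm {W : Fin n → Fin n → ℝ} (hW : ∀ u v, W u v = W v u) (a b : Fin n) :
    hh W a b = hh W b a := by
  unfold hh
  congr 1
  refine sum_congr rfl fun c _ => ?_
  rw [hW a c, hW c b, mul_comm]

/-! ### the number of triangles -/

theorem cn_le_diff {G : Finset (Finset (Fin n))} (hG : G ⊆ pairs n) {e : Finset (Fin n)}
    (he : e ∈ G) : (cn (G.erase e) e : ℝ) ≤ Q G - Q (G.erase e) := by
  obtain ⟨a, b, hab, hee⟩ := mem_pairs.mp (hG he)
  have h1 : tri (G.erase e) ⊆ tri G := by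
    intro T hT
    unfold tri at hT ⊢
    rw [mem_filter] at hT ⊢
    exact ⟨hT.1, hT.2.trans (erase_subset _ _)⟩
  have h2 : cn (G.erase e) e ≤ (tri G \ tri (G.erase e)).card := by
    unfold cn
    refine card_le_card_of_injOn (fun w => insert w e) ?_ ?_
    · intro w hw
      rw [mem_coe, mem_filter] at hw
      obtain ⟨-, hwe, hw⟩ := hw
      have hcard : (insert w e).card = 3 := by
        rw [card_insert_of_notMem hwe, hee, card_pair hab]
      have hsub : eds (insert w e) ⊆ G := by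
        intro f hf
        unfold eds at hf
        rw [mem_powersetCard] at hf
        by_cases hwf : w ∈ f
        · obtain ⟨u, hu⟩ : ∃ u, f.erase w = {u} := by
            rw [← card_eq_one, card_erase_of_mem hwf, hf.2]
          have huf : u ∈ f.erase w := by rw [hu]; simp
          have hu1 := mem_erase.mp huf
          have hue : u ∈ e := by
            rcases mem_insert.mp (hf.1 hu1.2) with h | h
            · exact absurd h hu1.1
            · exact h
          have hfe : f = {u, w} := by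
            rw [← insert_erase hwf, hu, pair_comm]
          rw [hfe]
          exact mem_of_mem_erase (hw u hue)
        · have hfe : f ⊆ e := fun x hx => by
            rcases mem_insert.mp (hf.1 hx) with h | h
            · subst h
              exact absurd hx hwf
            · exact h
          have : f = e := eq_of_subset_of_card_le hfe (by rw [hf.2, hee, card_pair hab])
          rw [this]
          exact he
      rw [mem_coe, mem_sdiff]
      refine ⟨?_, ?_⟩
      · unfold tri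
        rw [mem_filter, mem_powersetCard]
        exact ⟨⟨subset_univ _, hcard⟩, hsub⟩
      · intro h
        unfold tri at h
        rw [mem_filter] at h
        have hee' : e ∈ eds (insert w e) := by
          unfold eds
          rw [mem_powersetCard]
          exact ⟨subset_insert _ _, by rw [hee, card_pair hab]⟩
        exact (notMem_erase e G) (h.2 hee')
    · intro w hw w' hw' hww
      rw [mem_coe, mem_filter] at hw hw'
      have h3 : w ∈ insert w' e := by
        have h0 : w ∈ insert w e := mem_insert_self _ _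
        have h00 : insert w e = insert w' e := hww
        rwa [h00] at h0
      rcases mem_insert.mp h3 with h | h
      · exact h
      · exact absurd h hw.2.1
  have h3 : (tri G \ tri (G.erase e)).card = (tri G).card - (tri (G.erase e)).card :=
    card_sdiff_of_subset h1
  have h4 : (tri (G.erase e)).card ≤ (tri G).card := card_le_card h1
  unfold Q
  rw [h3] at h2
  have h5 : ((cn (G.erase e) e + (tri (G.erase e)).card : ℕ) : ℝ) ≤ ((tri G).card : ℝ) := by
    exact_mod_cast (by omega : cn (G.erase e) e + (tri (G.erase e)).card ≤ (tri G).card)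
  push_cast at h5
  linarith

/-! ### the partition function of one step -/

/-- the test function -/
noncomputable def psi (W : Fin n → Fin n → ℝ) (v t : ℝ) (H : Finset (Finset (Fin n)))
    (e : Finset (Fin n)) : ℝ :=
  Real.log v * cn H e + t * ev (hh W) e + ev (fun a b => Real.log (W a b)) e

theorem exp_psi {W : Fin n → Fin n → ℝ} (hW : WOK W) {v : ℝ} (hv : 0 < v) (t : ℝ)
    {H : Finset (Finset (Fin n))} (hH : H ⊆ pairs n) {e : Finset (Fin n)} (he : e ∈ pairs n) :
    Real.exp (psi W v t H e) =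
      ev (fun a z => W a z * Real.exp (t * hh W a z) * v ^ (cd H a z)) e := by
  obtain ⟨a, b, hab, rfl⟩ := mem_pairs.mp he
  unfold psi
  rw [ev_pair hab (hh_comm hW.1 a b), ev_pair hab (by rw [hW.1 a b]),
    ev_pair hab (by rw [hW.1 a b, hh_comm hW.1 a b, cd_comm H a b]), cn_eq_cd hH hab,
    Real.exp_add, Real.exp_add, Real.exp_log (hW.2.1 a b), mul_comm (Real.log v),
    Real.exp_nat_mul, Real.exp_log hv]
  ring

theorem sum_exp_le {W : Fin n → Fin n → ℝ} (hn : 0 < n) (hW : WOK W) {v : ℝ} (hv : 0 < v)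
    (t : ℝ) {H : Finset (Finset (Fin n))} (hH : H ⊆ pairs n) :
    ∑ e ∈ pairs n \ H, Real.exp (psi W v t H e) ≤
      ((n : ℝ) ^ 2 / 2) * av2 (fun a z => od a z * W a z * Real.exp (t * hh W a z)
        * v ^ (cd H a z)) := by
  calc ∑ e ∈ pairs n \ H, Real.exp (psi W v t H e)
      ≤ ∑ e ∈ pairs n, Real.exp (psi W v t H e) :=
        sum_le_sum_of_subset_of_nonneg sdiff_subset fun _ _ _ => (Real.exp_pos _).le
    _ = ∑ e ∈ pairs n, ev (fun a z => W a z * Real.exp (t * hh W a z) * v ^ (cd H a z)) e :=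
        sum_congr rfl fun e he => exp_psi hW hv t hH he
    _ = _ := by
        rw [sum_ev]
        unfold av2
        have hn' : (0 : ℝ) < (n : ℝ) ^ 2 := by positivity
        have e1 : (∑ u, ∑ w, ad (pairs n) u w * (W u w * Real.exp (t * hh W u w)
            * v ^ (cd H u w))) = ∑ u, ∑ w, od u w * W u w * Real.exp (t * hh W u w)
            * v ^ (cd H u w) := by
          refine sum_congr rfl fun u _ => sum_congr rfl fun w _ => ?_
          rw [ad_pairs]
          ring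
        rw [e1]
        field_simp

theorem hh_nonneg {W : Fin n → Fin n → ℝ} (hW : WOK W) (a z : Fin n) : 0 ≤ hh W a z := by
  unfold hh
  exact div_nonneg (sum_nonneg fun b _ => mul_nonneg (hW.2.1 _ _).le (hW.2.1 _ _).le)
    (Nat.cast_nonneg _)

theorem hh_le {W : Fin n → Fin n → ℝ} (hn : 0 < n) (hW : WOK W) (a z : Fin n) :
    hh W a z ≤ 31 := by
  unfold hh
  have hn' : (0 : ℝ) < (n : ℝ) := by exact_mod_cast hn
  rw [div_le_iff₀ hn']
  calc ∑ b, W a b * W b z ≤ ∑ _b : Fin n, (31 : ℝ) := by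
        refine sum_le_sum fun b _ => ?_
        have h1 := hW.2.2 a b
        have h2 := hW.2.2 b z
        have h3 := hW.2.1 a b
        have h4 := hW.2.1 b z
        nlinarith
    _ = 31 * n := by
        rw [sum_const, card_univ, Fintype.card_fin, nsmul_eq_mul]
        ring

theorem av2_mono {f g : Fin n → Fin n → ℝ} (h : ∀ a z, f a z ≤ g a z) : av2 f ≤ av2 g := by
  unfold av2
  gcongr with a _ z _
  exact h a z

theorem av2_const (hn : 0 < n) (c : ℝ) : av2 (fun _ _ : Fin n => c) = c := by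
  unfold av2
  have hn' : (n : ℝ) ≠ 0 := by
    have : (0 : ℝ) < (n : ℝ) := by exact_mod_cast hn
    exact this.ne'
  simp only [sum_const, card_univ, Fintype.card_fin, nsmul_eq_mul]
  field_simp

theorem av2_mul (f : Fin n → Fin n → ℝ) (c : ℝ) :
    av2 (fun a z => c * f a z) = c * av2 f := by
  unfold av2
  simp_rw [← mul_sum]
  ring

/-- trivial bound -/
theorem triv_le {W : Fin n → Fin n → ℝ} (hn : 0 < n) (hW : WOK W) {v t : ℝ} (hv : 0 < v)
    (hv1 : v ≤ 1) (ht : 0 ≤ t) (ht1 : t ≤ 1) (H : Finset (Finset (Fin n))) :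
    av2 (fun a z => od a z * W a z * Real.exp (t * hh W a z) * v ^ (cd H a z)) ≤
      11 / 2 * Real.exp 31 := by
  rw [← av2_const hn (11 / 2 * Real.exp 31)]
  refine av2_mono fun a z => ?_
  have h1 : od a z * W a z ≤ 11 / 2 := by
    unfold od
    split_ifs
    · norm_num
    · rw [one_mul]
      exact hW.2.2 a z
  have h2 : 0 ≤ od a z := by
    unfold od
    split_ifs <;> norm_num
  have h3 : Real.exp (t * hh W a z) ≤ Real.exp 31 := by
    apply Real.exp_le_exp.mpr
    have := hh_le hn hW a z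
    have := hh_nonneg hW a z
    nlinarith
  have h4 : v ^ (cd H a z) ≤ 1 := pow_le_one₀ hv.le hv1
  have h5 := (hW.2.1 a z).le
  calc od a z * W a z * Real.exp (t * hh W a z) * v ^ (cd H a z)
      ≤ 11 / 2 * Real.exp 31 * 1 := by gcongr
    _ = _ := mul_one _

/-! ### one level -/

section

variable {m : ℕ} {mu : Finset (Finset (Fin n)) → ℝ}

theorem chj_step (hCHJ : StmtCHJ) (hSB : StmtSB) (hmu : Prb mu m) (hm : m ≤ (pairs n).card)
    {j : ℕ} (hj : j < m) (ps : Finset (Finset (Fin n)) → Finset (Fin n) → ℝ) :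
    EX (sb mu m (j + 1)) (fun G => (∑ e ∈ G, ps (G.erase e) e) / ((j : ℝ) + 1))
      - EX (sb mu m j) (fun H => Real.log ((∑ e ∈ pairs n \ H, Real.exp (ps H e))
        / (((pairs n).card : ℝ) - j))) ≤ kj mu m j := by
  obtain ⟨h1, h2, -, -, -, -⟩ := hSB n m mu hmu hm
  have h := hCHJ n j (sb mu m (j + 1)) ps (h1 (j + 1) hj) (by omega)
  have e1 : ∀ F, EX (mi (sb mu m (j + 1)) j) F = EX (sb mu m j) F := by
    intro F
    unfold EX
    refine sum_congr rfl fun H hH => ?_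
    rw [h2 j hj H (mem_powerset.mp hH)]
  have e2 : DD (mi (sb mu m (j + 1)) j) j = DD (sb mu m j) j := by
    unfold DD
    refine sum_congr rfl fun H hH => ?_
    rw [h2 j hj H (mem_powersetCard.mp hH).1]
  rw [e1, e2] at h
  exact h

theorem psi_lower (hSB : StmtSB) (hmu : Prb mu m) (hm : m ≤ (pairs n).card)
    {j : ℕ} (hj : j < m) (W : Fin n → Fin n → ℝ) {v : ℝ} (hv : 0 < v) (hv1 : v ≤ 1) (t : ℝ) :
    Real.log v * (EX (sb mu m (j + 1)) Q - EX (sb mu m j) Q)
      + t * EX mu (fun G => (∑ e ∈ G, ev (hh W) e) / (m : ℝ))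
      + (EX (sb mu m (j + 1)) (fun H => ∑ e ∈ H, ev (fun a b => Real.log (W a b)) e)
        - EX (sb mu m j) (fun H => ∑ e ∈ H, ev (fun a b => Real.log (W a b)) e)) ≤
    EX (sb mu m (j + 1)) (fun G => (∑ e ∈ G, psi W v t (G.erase e) e) / ((j : ℝ) + 1)) := by
  obtain ⟨h1, -, -, -, -, -⟩ := hSB n m mu hmu hm
  rw [← step_diff hSB hmu hm hj, ← step_diff hSB hmu hm hj, ← lin_const hSB hmu hm _ j hj,
    ← ex_mul, ← ex_mul, ← ex_add, ← ex_add]
  refine ex_mono (h1 (j + 1) hj).1 fun G _ hGp => ?_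
  have hj0 : (0 : ℝ) < (j : ℝ) + 1 := by positivity
  rw [← mul_div_assoc, ← mul_div_assoc, ← add_div, ← add_div]
  refine div_le_div_of_nonneg_right ?_ hj0.le
  rw [mul_sum, mul_sum, ← sum_add_distrib, ← sum_add_distrib]
  refine sum_le_sum fun e he => ?_
  have hl : Real.log v ≤ 0 := Real.log_nonpos hv.le hv1
  have h2 := cn_le_diff hGp he
  have h3 : (∑ x ∈ G, ev (fun a b => Real.log (W a b)) x) -
      ∑ x ∈ G.erase e, ev (fun a b => Real.log (W a b)) x =
      ev (fun a b => Real.log (W a b)) e := by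
    rw [← sum_erase_add _ _ he]
    ring
  rw [h3]
  unfold psi
  have h4 := mul_le_mul_of_nonpos_left h2 hl
  linarith

/-- the average used at each level -/
noncomputable def AA (W : Fin n → Fin n → ℝ) (v t : ℝ) (H : Finset (Finset (Fin n))) : ℝ :=
  av2 (fun a z => od a z * W a z * Real.exp (t * hh W a z) * v ^ (cd H a z))

theorem logmean_le (hSB : StmtSB) (hmu : Prb mu m) (hm : m ≤ (pairs n).card) (hn : 0 < n)
    {j : ℕ} (hj : j < m) {W : Fin n → Fin n → ℝ} (hW : WOK W) {v : ℝ} (hv : 0 < v) (t : ℝ) :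
    EX (sb mu m j) (fun H => Real.log ((∑ e ∈ pairs n \ H, Real.exp (psi W v t H e))
        / (((pairs n).card : ℝ) - j))) ≤
      ((n : ℝ) ^ 2 / 2) / (((pairs n).card : ℝ) - j) * EX (sb mu m j) (AA W v t) - 1 := by
  obtain ⟨h1, -, -, -, -, -⟩ := hSB n m mu hmu hm
  have hP := h1 j hj.le
  rw [← ex_mul]
  have e0 : EX (sb mu m j) (fun G => ((n : ℝ) ^ 2 / 2) / (((pairs n).card : ℝ) - j)
      * AA W v t G) - 1 = EX (sb mu m j) (fun G => ((n : ℝ) ^ 2 / 2) /
        (((pairs n).card : ℝ) - j) * AA W v t G - 1) := by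
    rw [ex_sub, ex_const hP.2.2]
  rw [e0]
  refine ex_mono hP.1 fun H hH hHp => ?_
  have hc := (hP.2.1 H hH).2
  have hpos : (0 : ℝ) < ((pairs n).card : ℝ) - j := by
    have : (j : ℝ) < ((pairs n).card : ℝ) := by exact_mod_cast (by omega : j < (pairs n).card)
    linarith
  have hne : (pairs n \ H).Nonempty := by
    rw [← card_pos, card_sdiff_of_subset hHp, hc]
    omega
  have hS : 0 < (∑ e ∈ pairs n \ H, Real.exp (psi W v t H e)) / (((pairs n).card : ℝ) - j) :=
    div_pos (sum_pos (fun e _ => Real.exp_pos _) hne) hpos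
  have h2 := Real.log_le_sub_one_of_pos hS
  have h3 := sum_exp_le hn hW hv t hHp
  have h4 : (∑ e ∈ pairs n \ H, Real.exp (psi W v t H e)) / (((pairs n).card : ℝ) - j) ≤
      ((n : ℝ) ^ 2 / 2) / (((pairs n).card : ℝ) - j) * AA W v t H := by
    rw [div_mul_eq_mul_div]
    exact div_le_div_of_nonneg_right h3 hpos.le
  linarith

end

/-! ### counting -/

theorem sum_lt (m : ℕ) {t : ℝ} (ht : 0 ≤ t) :
    ∑ j ∈ range m, (if (j : ℝ) < t then (1 : ℝ) else 0) ≤ t + 1 := by
  rw [sum_boole]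
  have h1 : (range m).filter (fun j : ℕ => (j : ℝ) < t) ⊆ range ⌈t⌉₊ := by
    intro j hj
    rw [mem_filter] at hj
    rw [mem_range]
    exact_mod_cast hj.2.trans_le (Nat.le_ceil t)
  have h2 := card_le_card h1
  rw [card_range] at h2
  have h3 : (((range m).filter (fun j : ℕ => (j : ℝ) < t)).card : ℝ) ≤ (⌈t⌉₊ : ℝ) := by
    exact_mod_cast h2
  exact h3.trans (Nat.ceil_lt_add_one ht).le

theorem sum_gt (m : ℕ) {s : ℝ} (hs : s ≤ m) :
    ∑ j ∈ range m, (if s < (j : ℝ) then (1 : ℝ) else 0) ≤ ((m : ℝ) - s) + 1 := by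
  refine le_trans ?_ (sum_lt m (sub_nonneg.mpr hs))
  rw [← sum_range_reflect]
  refine sum_le_sum fun j hj => ?_
  rw [mem_range] at hj
  have e : ((m - 1 - j : ℕ) : ℝ) = (m : ℝ) - 1 - j := by
    rw [Nat.sub_sub, Nat.cast_sub (by omega)]
    push_cast
    ring
  rw [e]
  split_ifs with h1 h2
  · exact le_rfl
  · exfalso
    apply h2
    linarith
  · norm_num
  · norm_num

theorem sum_sq (m : ℕ) : (m : ℝ) ^ 3 / 3 - (m : ℝ) ^ 2 / 2 ≤ ∑ j ∈ range m, (j : ℝ) ^ 2 := by
  induction m with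
  | zero => simp
  | succ m ih =>
    rw [sum_range_succ]
    push_cast
    nlinarith

/-! ### good and bad levels -/

section

variable {m : ℕ} {mu : Finset (Finset (Fin n)) → ℝ}

/-- weight of a bad level -/
noncomputable def bw (mu : Finset (Finset (Fin n)) → ℝ) (m : ℕ) (e1 C1 : ℝ) (j : ℕ) : ℝ :=
  (if (j : ℝ) < e1 * m + 1 then 1 else 0) + (if (1 - e1) * m < (j : ℝ) then 1 else 0)
    + (if j = 0 then 0 else kj mu m (j - 1)) / C1

theorem bw_sum {e1 C0 C1 : ℝ} (he1 : 0 < e1) (hC1 : 0 < C1)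
    (hk : ∀ j, j < m → 0 ≤ kj mu m j) (hs : ∑ j ∈ range m, kj mu m j ≤ C0 * m) (hm1 : 1 ≤ m) :
    ∑ j ∈ range m, bw mu m e1 C1 j ≤ 2 * e1 * m + 3 + C0 * m / C1 := by
  unfold bw
  rw [sum_add_distrib, sum_add_distrib]
  have hm0 : (0 : ℝ) ≤ (m : ℝ) := Nat.cast_nonneg _
  have h1 := sum_lt m (t := e1 * m + 1) (by positivity)
  have h2 := sum_gt m (s := (1 - e1) * m) (by nlinarith)
  have h3 : ∑ j ∈ range m, (if j = 0 then 0 else kj mu m (j - 1)) / C1 ≤ C0 * m / C1 := by
    rw [← sum_div]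
    refine div_le_div_of_nonneg_right (le_trans ?_ hs) hC1.le
    obtain ⟨m', rfl⟩ : ∃ m', m = m' + 1 := ⟨m - 1, by omega⟩
    rw [sum_range_succ']
    simp only [Nat.add_eq_zero_iff, one_ne_zero, and_false, if_false, if_true, add_zero,
      Nat.add_sub_cancel]
    rw [sum_range_succ]
    have := hk m' (by omega)
    linarith
  linarith

theorem good_le (hSB : StmtSB) (hmu : Prb mu m) (hm : m ≤ (pairs n).card) (hn : 0 < n)
    {W : Fin n → Fin n → ℝ} (hW : WOK W) {v : ℝ} (hv : 0 < v) (hv1 : v ≤ 1)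
    {C1 K e1 rho1 : ℝ} {n1 : ℕ}
    (hP : ∀ (n m j : ℕ) (mu : Finset (Finset (Fin n)) → ℝ) (W : Fin n → Fin n → ℝ)
      (KK : Finset (Finset (Fin n)) → Fin n → Fin n → ℝ) (x : ℝ), n1 ≤ n →
      Hyp C1 K e1 rho1 n m j mu W → Stab KK → 0 ≤ x → x ≤ 1 →
      lam n ((j : ℝ) + 1) * (1 - x) ≤ 1 →
      EX (sb mu m (j + 1)) (fun H => av2 (fun a z => od a z * KK H a z
        * Real.exp (lam n ((j : ℝ) + 1) * (1 - x) * hh W a z) * x ^ (cd H a z)))
      ≤ EX (sb mu m (j + 1)) (fun H => av2 (fun a z => od a z * KK H a z)) + e1)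
    (hn1 : n1 ≤ n) {i : ℕ} (hi : i < m) (hH : Hyp C1 K e1 rho1 n m i mu W)
    (hl : lam n ((i : ℝ) + 1) * (1 - v) ≤ 1) :
    EX (sb mu m (i + 1)) (AA W v (lam n ((i : ℝ) + 1) * (1 - v))) ≤ av2 W + 11 / 2 * e1 := by
  obtain ⟨h1, -, -, -, -, -⟩ := hSB n m mu hmu hm
  have hPr := h1 (i + 1) hi
  have hS : Stab (fun (_ : Finset (Finset (Fin n))) a z => W a z / (11 / 2)) := by
    refine ⟨?_, ?_, ?_⟩
    · intro H a z
      have h2 := hW.2.1 a z
      have h3 := hW.2.2 a z
      constructor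
      · positivity
      · rw [div_le_one (by norm_num)]
        exact h3
    · intro H H' a z _
      exact le_rfl
    · intro H a b z _ _ _ _
      rw [sub_self]
      positivity
  have h2 := hP n m i mu W (fun _ a z => W a z / (11 / 2)) v hn1 hH hS hv.le hv1 hl
  rw [ex_const hPr.2.2] at h2
  have e1' : EX (sb mu m (i + 1)) (AA W v (lam n ((i : ℝ) + 1) * (1 - v))) =
      11 / 2 * EX (sb mu m (i + 1)) (fun H => av2 (fun a z => od a z * (W a z / (11 / 2))
        * Real.exp (lam n ((i : ℝ) + 1) * (1 - v) * hh W a z) * v ^ (cd H a z))) := by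
    rw [← ex_mul]
    refine ex_congr fun H _ _ => ?_
    unfold AA
    rw [← av2_mul]
    congr 1
    funext a z
    ring
  have e2 : av2 (fun a z => od a z * (W a z / (11 / 2))) ≤ av2 W / (11 / 2) := by
    have e3 : av2 W / (11 / 2) = av2 (fun a z => 2 / 11 * W a z) := by
      rw [av2_mul]
      ring
    rw [e3]
    refine av2_mono fun a z => ?_
    have h3 := (hW.2.1 a z).le
    have h4 : od a z ≤ 1 := by
      unfold od
      split_ifs <;> norm_num
    have h5 : 0 ≤ W a z / (11 / 2) := by positivity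
    calc od a z * (W a z / (11 / 2)) ≤ 1 * (W a z / (11 / 2)) := by gcongr
      _ = _ := by ring
  rw [e1']
  linarith

theorem level_le (hSB : StmtSB) (hmu : Prb mu m) (hm : m ≤ (pairs n).card) (hn : 0 < n)
    {W : Fin n → Fin n → ℝ} (hW : WOK W) {v : ℝ} (hv : 0 < v) (hv1 : v ≤ 1)
    {C1 K e1 rho1 : ℝ} {n1 : ℕ} (hC1 : 0 < C1) (he1 : 0 < e1) (he1' : e1 ≤ 1 / 4)
    (hP : ∀ (n m j : ℕ) (mu : Finset (Finset (Fin n)) → ℝ) (W : Fin n → Fin n → ℝ)
      (KK : Finset (Finset (Fin n)) → Fin n → Fin n → ℝ) (x : ℝ), n1 ≤ n →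
      Hyp C1 K e1 rho1 n m j mu W → Stab KK → 0 ≤ x → x ≤ 1 →
      lam n ((j : ℝ) + 1) * (1 - x) ≤ 1 →
      EX (sb mu m (j + 1)) (fun H => av2 (fun a z => od a z * KK H a z
        * Real.exp (lam n ((j : ℝ) + 1) * (1 - x) * hh W a z) * x ^ (cd H a z)))
      ≤ EX (sb mu m (j + 1)) (fun H => av2 (fun a z => od a z * KK H a z)) + e1)
    (hn1 : n1 ≤ n) (hk : ∀ j, j < m → 0 ≤ kj mu m j)
    (hm1 : (n : ℝ) ^ ((3 : ℝ) / 2) / 4 ≤ m) (hm2 : (m : ℝ) ≤ K * (n : ℝ) ^ ((3 : ℝ) / 2))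
    (hLR : ∀ G, mu G ≠ 0 → LR rho1 G W) (hl : lam n m * (1 - v) ≤ 1)
    {j : ℕ} (hj : j < m)
    (hq : (n : ℝ) ^ 2 / 2 ≤ (1 + e1) * (((pairs n).card : ℝ) - j)) :
    EX (sb mu m j) (fun H => Real.log ((∑ e ∈ pairs n \ H,
        Real.exp (psi W v (lam n (j : ℝ) * (1 - v)) H e)) / (((pairs n).card : ℝ) - j))) ≤
      av2 W - 1 + 17 * e1 + (7 * Real.exp 31) * bw mu m e1 C1 j := by
  have hSB' := hSB
  obtain ⟨h1, -, -, -, -, -⟩ := hSB' n m mu hmu hm
  have hPr := h1 j hj.le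
  refine (logmean_le hSB hmu hm hn hj hW hv _).trans ?_
  have hpos : (0 : ℝ) < ((pairs n).card : ℝ) - j := by
    have : (j : ℝ) < ((pairs n).card : ℝ) := by exact_mod_cast (by omega : j < (pairs n).card)
    linarith
  have hq' : ((n : ℝ) ^ 2 / 2) / (((pairs n).card : ℝ) - j) ≤ 1 + e1 := by
    rw [div_le_iff₀ hpos]
    exact hq
  have hq0 : 0 ≤ ((n : ℝ) ^ 2 / 2) / (((pairs n).card : ℝ) - j) := by positivity
  have hexp : (1 : ℝ) ≤ Real.exp 31 := Real.one_le_exp (by norm_num)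
  have havW0 : 0 ≤ av2 W := by
    unfold av2
    exact div_nonneg (sum_nonneg fun a _ => sum_nonneg fun b _ => (hW.2.1 _ _).le)
      (by positivity)
  have havW1 : av2 W ≤ 11 / 2 := by
    rw [← av2_const hn (11 / 2)]
    exact av2_mono fun a z => hW.2.2 a z
  have hlj : lam n (j : ℝ) ≤ lam n m := by
    unfold lam
    have : (j : ℝ) ≤ m := by exact_mod_cast hj.le
    gcongr
  have hlj0 : 0 ≤ lam n (j : ℝ) := by
    unfold lam
    positivity
  have hl1 : lam n (j : ℝ) * (1 - v) ≤ 1 :=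
    (mul_le_mul_of_nonneg_right hlj (by linarith)).trans hl
  have hl0 : 0 ≤ lam n (j : ℝ) * (1 - v) := mul_nonneg hlj0 (by linarith)
  have hAA0 : 0 ≤ EX (sb mu m j) (AA W v (lam n (j : ℝ) * (1 - v))) := by
    rw [← ex_const hPr.2.2 0]
    refine ex_mono hPr.1 fun H _ _ => ?_
    unfold AA av2
    refine div_nonneg (sum_nonneg fun a _ => sum_nonneg fun b _ => ?_) (by positivity)
    have := hW.2.1 a b
    have : 0 ≤ od a b := by
      unfold od
      split_ifs <;> norm_num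
    positivity
  have hkn : 0 ≤ (if j = 0 then 0 else kj mu m (j - 1)) / C1 := by
    refine div_nonneg ?_ hC1.le
    split_ifs
    · exact le_rfl
    · exact hk _ (by omega)
  by_cases hbad : 1 ≤ bw mu m e1 C1 j
  · have hA : EX (sb mu m j) (AA W v (lam n (j : ℝ) * (1 - v))) ≤ 11 / 2 * Real.exp 31 := by
      rw [← ex_const hPr.2.2 (11 / 2 * Real.exp 31)]
      refine ex_mono hPr.1 fun H _ _ => ?_
      exact triv_le hn hW hv hv1 hl0 hl1 H
    have h3 : ((n : ℝ) ^ 2 / 2) / (((pairs n).card : ℝ) - j)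
        * EX (sb mu m j) (AA W v (lam n (j : ℝ) * (1 - v))) ≤
        (5 / 4) * (11 / 2 * Real.exp 31) :=
      mul_le_mul (hq'.trans (by linarith)) hA hAA0 (by norm_num)
    have h4 : 7 * Real.exp 31 ≤ (7 * Real.exp 31) * bw mu m e1 C1 j := by
      nlinarith
    linarith
  · have hb1 : ¬ ((j : ℝ) < e1 * m + 1) := by
      intro h
      apply hbad
      unfold bw
      rw [if_pos h]
      have : (0 : ℝ) ≤ (if (1 - e1) * m < (j : ℝ) then 1 else 0) := by
        split_ifs <;> norm_num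
      linarith
    have hb2 : ¬ ((1 - e1) * m < (j : ℝ)) := by
      intro h
      apply hbad
      unfold bw
      rw [if_pos h]
      have : (0 : ℝ) ≤ (if (j : ℝ) < e1 * m + 1 then 1 else 0) := by
        split_ifs <;> norm_num
      linarith
    have hm0 : (0 : ℝ) ≤ (m : ℝ) := Nat.cast_nonneg _
    have hj1 : j ≠ 0 := by
      rintro rfl
      apply hb1
      push_cast
      positivity
    have hb3 : kj mu m (j - 1) ≤ C1 := by
      by_contra h
      apply hbad
      unfold bw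
      rw [if_neg hb1, if_neg hb2, if_neg hj1, zero_add, zero_add, le_div_iff₀ hC1]
      push Not at h
      linarith
    obtain ⟨i, rfl⟩ : ∃ i, j = i + 1 := ⟨j - 1, by omega⟩
    have hH : Hyp C1 K e1 rho1 n m i mu W := by
      refine ⟨hm1, hm2, ?_, ?_, hmu, hW, hLR, ?_⟩
      · push_cast at hb1
        linarith
      · push_cast at hb2
        linarith
      · simpa using hb3
    have hcast : ((i + 1 : ℕ) : ℝ) = (i : ℝ) + 1 := by push_cast; ring
    rw [hcast] at hl1 hl0 hAA0 hq' hq0 ⊢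
    have h3 := good_le hSB hmu hm hn hW hv hv1 hP hn1 (by omega : i < m) hH hl1
    have h4 : ((n : ℝ) ^ 2 / 2) / (((pairs n).card : ℝ) - ((i : ℝ) + 1))
        * EX (sb mu m (i + 1)) (AA W v (lam n ((i : ℝ) + 1) * (1 - v))) ≤
        (1 + e1) * (av2 W + 11 / 2 * e1) :=
      mul_le_mul hq' h3 hAA0 (by linarith)
    have h5 : 0 ≤ bw mu m e1 C1 (i + 1) := by
      unfold bw
      have h6 : (0 : ℝ) ≤ (if ((i + 1 : ℕ) : ℝ) < e1 * m + 1 then 1 else 0) := by
        split_ifs <;> norm_num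
      have h7 : (0 : ℝ) ≤ (if (1 - e1) * m < ((i + 1 : ℕ) : ℝ) then 1 else 0) := by
        split_ifs <;> norm_num
      linarith
    have h6 : 0 ≤ (7 * Real.exp 31) * bw mu m e1 C1 (i + 1) := by positivity
    nlinarith

end

/-! ### the theorem -/

theorem Q_nonneg (G : Finset (Finset (Fin n))) : 0 ≤ Q G := by
  unfold Q
  positivity

theorem jw_eq {W : Fin n → Fin n → ℝ} {m : ℕ} (hm : 1 ≤ m) {G : Finset (Finset (Fin n))}
    (hG : G.card = m) : (m : ℝ) * JW G W =
      (∑ e ∈ G, ev (fun a b => Real.log (W a b)) e) - m * (av2 W - 1) := by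
  have hm0 : (0 : ℝ) < m := by exact_mod_cast hm
  rw [sum_ev]
  unfold JW
  rw [hG]
  field_simp
  ring

theorem core {m : ℕ} {mu : Finset (Finset (Fin n)) → ℝ} (hCHJ : StmtCHJ) (hSB : StmtSB)
    (hTEL : StmtTEL) (hmu : Prb mu m) (hm : m ≤ (pairs n).card) (hm1 : 1 ≤ m)
    {W : Fin n → Fin n → ℝ} {v : ℝ} (hv : 0 < v) (hv1 : v ≤ 1) {B : ℕ → ℝ}
    (hB : ∀ j, j < m → EX (sb mu m j) (fun H => Real.log ((∑ e ∈ pairs n \ H,
        Real.exp (psi W v (lam n (j : ℝ) * (1 - v)) H e)) / (((pairs n).card : ℝ) - j)))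
      ≤ av2 W - 1 + B j) :
    m * EX mu (fun G => JW G W) + (∑ j ∈ range m, lam n (j : ℝ) * (1 - v))
        * EX mu (fun G => (∑ e ∈ G, ev (hh W) e) / (m : ℝ)) - ∑ j ∈ range m, B j
      ≤ DD mu m - Real.log v * EX mu Q := by
  obtain ⟨-, hT⟩ := hTEL n m mu hmu hm
  set c := EX mu (fun G => (∑ e ∈ G, ev (hh W) e) / (m : ℝ)) with hc
  set a : ℕ → ℝ := fun j => EX (sb mu m j) Q with ha
  set b : ℕ → ℝ := fun j => EX (sb mu m j)
    (fun H => ∑ e ∈ H, ev (fun a b => Real.log (W a b)) e) with hb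
  have hstep : ∀ j ∈ range m, Real.log v * (a (j + 1) - a j)
      + (lam n (j : ℝ) * (1 - v)) * c + (b (j + 1) - b j) ≤
      kj mu m j + (av2 W - 1 + B j) := by
    intro j hj
    rw [mem_range] at hj
    have h1 := psi_lower hSB hmu hm hj W hv hv1 (lam n (j : ℝ) * (1 - v))
    have h2 := chj_step hCHJ hSB hmu hm hj (psi W v (lam n (j : ℝ) * (1 - v)))
    have h3 := hB j hj
    simp only [ha, hb]
    linarith
  have hsum := sum_le_sum hstep
  rw [sum_add_distrib, sum_add_distrib, sum_add_distrib, sum_add_distrib, ← mul_sum,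
    sum_range_sub, sum_range_sub, ← sum_mul, hT, sum_const, card_range, nsmul_eq_mul] at hsum
  have ha0 : 0 ≤ a 0 := by
    rw [ha]
    show 0 ≤ EX (sb mu m 0) Q
    rw [sb_bot hSB hmu hm]
    exact Q_nonneg _
  have ham : a m = EX mu Q := sb_top hSB hmu hm _
  have hb0 : b 0 = 0 := by
    show EX (sb mu m 0) _ = 0
    rw [sb_bot hSB hmu hm, sum_empty]
  have hbm : b m = EX mu (fun H => ∑ e ∈ H, ev (fun a b => Real.log (W a b)) e) :=
    sb_top hSB hmu hm _
  have hJ : (m : ℝ) * EX mu (fun G => JW G W) =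
      b m - m * (av2 W - 1) := by
    rw [← ex_mul, hbm]
    have e1 : EX mu (fun _ => (m : ℝ) * (av2 W - 1)) = m * (av2 W - 1) :=
      ex_const hmu.2.2 _
    rw [← e1, ← ex_sub]
    refine ex_congr fun G hG _ => ?_
    exact jw_eq hm1 (hmu.2.1 G hG).2
  have hl : Real.log v ≤ 0 := Real.log_nonpos hv.le hv1
  rw [hJ, ← ham]
  have h5 : Real.log v * a 0 ≤ 0 := mul_nonpos_of_nonpos_of_nonneg hl ha0
  rw [hb0] at hsum
  nlinarith

theorem c_bounds {m : ℕ} {mu : Finset (Finset (Fin n)) → ℝ} (hPRD : StmtPRD) (hn : 0 < n)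
    (hmu : Prb mu m) (hm1 : 1 ≤ m) {W : Fin n → Fin n → ℝ} (hW : WOK W) {rho : ℝ}
    (hrho : 0 ≤ rho) (hLR : ∀ G, mu G ≠ 0 → LR rho G W) :
    tW W - rho * (11 / 2) ^ 2 ≤ EX mu (fun G => (∑ e ∈ G, ev (hh W) e) / (m : ℝ)) ∧
      0 ≤ EX mu (fun G => (∑ e ∈ G, ev (hh W) e) / (m : ℝ)) ∧
      EX mu (fun G => (∑ e ∈ G, ev (hh W) e) / (m : ℝ)) ≤ 31 := by
  have hm0 : (0 : ℝ) < m := by exact_mod_cast hm1
  have hev : ∀ e ∈ pairs n, 0 ≤ ev (hh W) e ∧ ev (hh W) e ≤ 31 := by
    intro e he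
    obtain ⟨a, b, hab, rfl⟩ := mem_pairs.mp he
    rw [ev_pair hab (hh_comm hW.1 a b)]
    exact ⟨hh_nonneg hW a b, hh_le hn hW a b⟩
  refine ⟨?_, ?_, ?_⟩
  · rw [← ex_const hmu.2.2 (tW W - rho * (11 / 2) ^ 2)]
    refine ex_mono hmu.1 fun G hG hGp => ?_
    have hc := (hmu.2.1 G hG).2
    obtain ⟨-, -, h3⟩ := hPRD n G W rho hn hGp (by omega) hrho hW (hLR G hG)
    rw [sum_ev]
    rw [hc] at h3
    have e : (∑ u, ∑ v, ad G u v * hh W u v) / 2 / (m : ℝ) =
        (∑ u, ∑ v, ad G u v * hh W u v) / (2 * (m : ℝ)) := by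
      rw [div_div]
    rw [e]
    exact h3
  · rw [← ex_const hmu.2.2 0]
    refine ex_mono hmu.1 fun G hG hGp => ?_
    exact div_nonneg (sum_nonneg fun e he => (hev e (hGp he)).1) hm0.le
  · rw [← ex_const hmu.2.2 31]
    refine ex_mono hmu.1 fun G hG hGp => ?_
    rw [div_le_iff₀ hm0]
    calc ∑ e ∈ G, ev (hh W) e ≤ ∑ _e ∈ G, (31 : ℝ) :=
          sum_le_sum fun e he => (hev e (hGp he)).2
      _ = 31 * m := by
          rw [sum_const, nsmul_eq_mul, (hmu.2.1 G hG).2]
          ring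

theorem tW_nonneg {W : Fin n → Fin n → ℝ} (hW : WOK W) : 0 ≤ tW W := by
  unfold tW av3
  refine div_nonneg (sum_nonneg fun a _ => sum_nonneg fun b _ => sum_nonneg fun c _ => ?_)
    (by positivity)
  exact mul_nonneg (mul_nonneg (hW.2.1 _ _).le (hW.2.1 _ _).le) (hW.2.1 _ _).le

theorem rpow_eq (n : ℕ) (hn : 0 < n) : (n : ℝ) ^ ((3 : ℝ) / 2) = n * Real.sqrt n := by
  have hn' : (0 : ℝ) < n := by exact_mod_cast hn
  rw [Real.sqrt_eq_rpow, show (3 : ℝ) / 2 = 1 + 1 / 2 by norm_num, Real.rpow_add hn',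
    Real.rpow_one]

theorem card_pairs_real (n : ℕ) : ((pairs n).card : ℝ) = (n : ℝ) * (n - 1) / 2 := by
  unfold pairs
  rw [card_powersetCard, card_univ, Fintype.card_fin, Nat.cast_choose_two]

theorem q_facts {n m : ℕ} {K e1 r : ℝ} (hr1 : 1 ≤ r) (hr2 : r * r = n)
    (he10 : 0 < e1) (he14 : e1 ≤ 1 / 4) (hK : 0 < K) (hrb : 5 / 4 * (1 + 2 * K) ≤ e1 * r)
    (hm2 : (m : ℝ) ≤ K * (n * r)) :
    m ≤ (pairs n).card ∧ ∀ j, j < m → (n : ℝ) ^ 2 / 2 ≤ (1 + e1) * (((pairs n).card : ℝ) - j) := by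
  have hn0 : (0 : ℝ) ≤ n := Nat.cast_nonneg _
  have hr5 : 5 * (1 + 2 * K) ≤ r := by nlinarith
  have hn25 : (25 : ℝ) ≤ n := by
    rw [← hr2]
    nlinarith
  have h2m : 2 * (m : ℝ) ≤ 2 * K * (n * r) := by linarith
  have hnr : (n : ℝ) ≤ n * r := by nlinarith
  refine ⟨?_, ?_⟩
  · have : (m : ℝ) ≤ ((pairs n).card : ℝ) := by
      rw [card_pairs_real]
      have h3 : 5 * (1 + 2 * K) * (n * r) ≤ n * n := by
        calc 5 * (1 + 2 * K) * (n * r) ≤ r * (n * r) := by gcongr
          _ = n * n := by rw [← hr2]; ring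
      nlinarith
    exact_mod_cast this
  · intro j hj
    rw [card_pairs_real]
    have hjm : (j : ℝ) ≤ m := by exact_mod_cast hj.le
    have h3 : 5 / 4 * (1 + 2 * K) * (n * r) ≤ e1 * (n * n) := by
      calc 5 / 4 * (1 + 2 * K) * (n * r) ≤ e1 * r * (n * r) := by gcongr
        _ = e1 * (n * n) := by
            have : e1 * r * (n * r) = e1 * (n * (r * r)) := by ring
            rw [this, hr2]
    have h4 : (n : ℝ) + 2 * j ≤ (1 + 2 * K) * (n * r) := by linarith
    have h5 : (1 + e1) * ((n : ℝ) + 2 * j) ≤ 5 / 4 * ((1 + 2 * K) * (n * r)) :=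
      mul_le_mul (by linarith) h4 (by positivity) (by norm_num)
    nlinarith

theorem lam_sum (n m : ℕ) {v c : ℝ} (hv1 : v ≤ 1) (hc2 : 0 ≤ c) (hc3 : c ≤ 31)
    (hlv : lam n m * (1 - v) ≤ 1) :
    (lam n m * (1 - v)) * (m / 3) * c - 31 / 2 ≤
      (∑ j ∈ range m, lam n (j : ℝ) * (1 - v)) * c := by
  have hlam : lam n m * (m / 3) - lam n m / 2 ≤ ∑ j ∈ range m, lam n (j : ℝ) := by
    have h1 := sum_sq m
    have h2 : ∑ j ∈ range m, lam n (j : ℝ) = 4 / (n : ℝ) ^ 3 * ∑ j ∈ range m, (j : ℝ) ^ 2 := by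
      rw [mul_sum]
      refine sum_congr rfl fun j _ => ?_
      unfold lam
      ring
    rw [h2]
    have h3 : lam n m * (m / 3) - lam n m / 2 =
        4 / (n : ℝ) ^ 3 * ((m : ℝ) ^ 3 / 3 - (m : ℝ) ^ 2 / 2) := by
      unfold lam
      ring
    rw [h3]
    gcongr
  have hlam2 : (lam n m * (1 - v)) * (m / 3) - 1 / 2 ≤
      ∑ j ∈ range m, lam n (j : ℝ) * (1 - v) := by
    rw [← sum_mul]
    have h1 : 0 ≤ 1 - v := by linarith
    have h2 := mul_le_mul_of_nonneg_right hlam h1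
    have h3 : (lam n m * (m / 3) - lam n m / 2) * (1 - v) =
      (lam n m * (1 - v)) * (m / 3) - (lam n m * (1 - v)) / 2 := by ring
    rw [h3] at h2
    linarith
  have h4 := mul_le_mul_of_nonneg_right hlam2 hc2
  have h5 : ((lam n m * (1 - v)) * (m / 3) - 1 / 2) * c =
    (lam n m * (1 - v)) * (m / 3) * c - c / 2 := by ring
  rw [h5] at h4
  linarith

theorem tw_part {X M c tw rho eps : ℝ} (hX0 : 0 ≤ X) (hX1 : X ≤ 1) (hM : 0 ≤ M)
    (heps : 0 < eps) (hrho : rho ≤ eps / 44) (hc : tw - rho * (11 / 2) ^ 2 ≤ c) :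
    X * (M / 3) * tw - eps / 4 * M ≤ X * (M / 3) * c := by
  have h8 : tw - eps / 44 * (11 / 2) ^ 2 ≤ c := by nlinarith
  have h9 : 0 ≤ X * (M / 3) := by positivity
  have h10 := mul_le_mul_of_nonneg_left h8 h9
  have h11 : X * (M / 3) * (eps / 44 * (11 / 2) ^ 2) ≤
      1 * (M / 3) * (eps / 44 * (11 / 2) ^ 2) := by gcongr
  nlinarith

theorem err_part {CB e1 C0 C1 M eps Sb : ℝ} (hCB : 0 ≤ CB) (hM : 0 ≤ M)
    (he : e1 * (17 + 2 * CB) ≤ eps / 4) (hCC : CB * (C0 / C1) ≤ eps / 4)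
    (hS : Sb ≤ 2 * e1 * M + 3 + C0 * M / C1) (h14 : 3 * CB + 16 ≤ eps / 4 * M) :
    M * (17 * e1) + CB * Sb ≤ 3 * (eps / 4 * M) - 16 := by
  have h12 : CB * Sb ≤ CB * (2 * e1 * M + 3 + C0 * M / C1) := by gcongr
  have h13 : M * (17 * e1) + CB * (2 * e1 * M + 3 + C0 * M / C1) ≤
      eps / 4 * M + eps / 4 * M + 3 * CB := by
    have e : M * (17 * e1) + CB * (2 * e1 * M + 3 + C0 * M / C1) =
        (e1 * (17 + 2 * CB)) * M + (CB * (C0 / C1)) * M + 3 * CB := by ring
    rw [e]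
    gcongr
  linarith

theorem thm (hCHJ : StmtCHJ) (hSB : StmtSB) (hTEL : StmtTEL) (hPLM : StmtPLM)
    (hPRD : StmtPRD) : StmtS1 := by
  intro C0 K eps hC0 hK heps
  obtain ⟨CB, hCB⟩ : ∃ CB : ℝ, CB = 7 * Real.exp 31 := ⟨_, rfl⟩
  have hCB0 : 0 < CB := by rw [hCB]; positivity
  obtain ⟨e1, he1⟩ : ∃ e1 : ℝ, e1 = min (1 / 4) (eps / (4 * (17 + 2 * CB))) := ⟨_, rfl⟩
  have he10 : 0 < e1 := by rw [he1]; positivity
  have he14 : e1 ≤ 1 / 4 := by rw [he1]; exact min_le_left _ _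
  have he1e : e1 * (17 + 2 * CB) ≤ eps / 4 := by
    have : e1 ≤ eps / (4 * (17 + 2 * CB)) := by rw [he1]; exact min_le_right _ _
    rw [le_div_iff₀ (by positivity)] at this
    linarith
  obtain ⟨C1, hC1⟩ : ∃ C1 : ℝ, C1 = 4 * CB * C0 / eps := ⟨_, rfl⟩
  have hC10 : 0 < C1 := by rw [hC1]; positivity
  have hCC : CB * (C0 / C1) ≤ eps / 4 := by
    rw [hC1]
    apply le_of_eq
    field_simp
  obtain ⟨rho1, hrho1, n1, hP⟩ := hPLM C1 K e1 hC10 hK he10
  refine ⟨min rho1 (eps / 44), by positivity, max n1 (max 1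
    (max ⌈(5 / 4 * (1 + 2 * K) / e1) ^ 2⌉₊ ⌈16 * (3 * CB + 16) / eps⌉₊)), ?_⟩
  intro n m mu W v hn hm1 hm2 hmu hW hLR hDD hv hv1 hlv
  have hn1 : n1 ≤ n := (le_max_left _ _).trans hn
  have hn2 : 1 ≤ n := ((le_max_left _ _).trans (le_max_right _ _)).trans hn
  have hn3 : ⌈(5 / 4 * (1 + 2 * K) / e1) ^ 2⌉₊ ≤ n :=
    (((le_max_left _ _).trans (le_max_right _ _)).trans (le_max_right _ _)).trans hn
  have hn4 : ⌈16 * (3 * CB + 16) / eps⌉₊ ≤ n :=
    (((le_max_right _ _).trans (le_max_right _ _)).trans (le_max_right _ _)).trans hn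
  have hn3' : (5 / 4 * (1 + 2 * K) / e1) ^ 2 ≤ n := Nat.ceil_le.mp hn3
  have hn4' : 16 * (3 * CB + 16) / eps ≤ n := Nat.ceil_le.mp hn4
  have hn0 : 0 < n := hn2
  have hnR : (1 : ℝ) ≤ n := by exact_mod_cast hn2
  obtain ⟨r, hr⟩ : ∃ r : ℝ, r = Real.sqrt n := ⟨_, rfl⟩
  have hr1 : 1 ≤ r := by
    rw [hr]
    exact Real.one_le_sqrt.mpr hnR
  have hr2 : r * r = n := by
    rw [hr]
    exact Real.mul_self_sqrt (by positivity)
  have hrb : 5 / 4 * (1 + 2 * K) ≤ e1 * r := by
    have h1 : 5 / 4 * (1 + 2 * K) / e1 ≤ r := by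
      rw [hr]
      exact Real.le_sqrt_of_sq_le hn3'
    rw [div_le_iff₀ he10] at h1
    linarith
  have hpow := rpow_eq n hn0
  rw [← hr] at hpow
  have hm1' := hm1
  have hm2' := hm2
  rw [hpow] at hm1' hm2'
  have hmn : (n : ℝ) / 4 ≤ m := by
    refine le_trans ?_ hm1'
    have : (n : ℝ) ≤ n * r := le_mul_of_one_le_right (by positivity) hr1
    linarith
  have hm0 : (0 : ℝ) < m := by linarith
  have hmN : 1 ≤ m := by exact_mod_cast hm0
  obtain ⟨hmp, hq⟩ := q_facts hr1 hr2 he10 he14 hK hrb hm2'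
  have hLR1 : ∀ G, mu G ≠ 0 → LR rho1 G W := by
    intro G hG S T
    have h1 := hLR G hG S T
    have h3 : min rho1 (eps / 44) * (n : ℝ) ^ 2 ≤ rho1 * (n : ℝ) ^ 2 :=
      mul_le_mul_of_nonneg_right (min_le_left _ _) (by positivity)
    linarith
  have hrho0 : 0 ≤ min rho1 (eps / 44) := by positivity
  obtain ⟨hk, hT⟩ := hTEL n m mu hmu hmp
  have hs : ∑ j ∈ range m, kj mu m j ≤ C0 * m := by rw [hT]; exact hDD
  have hlev : ∀ j, j < m → EX (sb mu m j) (fun H => Real.log ((∑ e ∈ pairs n \ H,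
        Real.exp (psi W v (lam n (j : ℝ) * (1 - v)) H e)) / (((pairs n).card : ℝ) - j)))
      ≤ av2 W - 1 + (17 * e1 + CB * bw mu m e1 C1 j) := by
    intro j hj
    have h1 := level_le hSB hmu hmp hn0 hW hv hv1 hC10 he10 he14 hP hn1 hk
      hm1 hm2 hLR1 hlv hj (hq j hj)
    rw [← hCB] at h1
    linarith
  have hcore := core hCHJ hSB hTEL hmu hmp hmN hv hv1 hlev
  obtain ⟨hc1, hc2, hc3⟩ := c_bounds hPRD hn0 hmu hmN hW hrho0 hLR
  have hbw := bw_sum (mu := mu) he10 hC10 hk hs hmN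
  rw [sum_add_distrib, sum_const, card_range, nsmul_eq_mul, ← mul_sum] at hcore
  have hl0 : 0 ≤ lam n m * (1 - v) := by
    have : 0 ≤ lam n m := by unfold lam; positivity
    exact mul_nonneg this (by linarith)
  have h6 := lam_sum n m hv1 hc2 hc3 hlv
  have h7 := tw_part hl0 hlv hm0.le heps (min_le_right rho1 (eps / 44)) hc1
  have h14 : 3 * CB + 16 ≤ eps / 4 * m := by
    rw [div_le_iff₀ heps] at hn4'
    have := mul_le_mul_of_nonneg_left hmn heps.le
    linarith
  have h13 := err_part hCB0.le hm0.le he1e hCC hbw h14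
  linarith

end Vale.Agent.P046.Sh.S1
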