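import Vale.Agent.P046.Sh.Defs
import Vale.Agent.P046.TRIP
import Vale.Agent.P046.TTT

namespace Vale.Agent.P046.Sh.S2

open Finset

variable {n : ℕ}

/-- the ordered average -/
noncomputable def A3 (v : ℝ) (H : Finset (Finset (Fin n))) : ℝ :=
  av3 (fun a b c => od a b * od b c * od a c
      * (v ^ (cd H a b) * v ^ (cd H b c) * v ^ (cd H a c)))

lemma od_nonneg (a b : Fin n) : 0 ≤ od a b := by
  unfold od; split_ifs <;> norm_num

lemma od_le_one (a b : Fin n) : od a b ≤ 1 := by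
  unfold od; split_ifs <;> norm_num

lemma cd_mono {H G : Finset (Finset (Fin n))} (h : H ⊆ G) (u v : Fin n) : cd H u v ≤ cd G u v := by
  unfold cd
  apply card_le_card
  intro w hw
  simp only [mem_filter, mem_univ, true_and] at hw ⊢
  exact ⟨h hw.1, h hw.2⟩

lemma ooo_nonneg (a b c : Fin n) : 0 ≤ od a b * od b c * od a c :=
  mul_nonneg (mul_nonneg (od_nonneg _ _) (od_nonneg _ _)) (od_nonneg _ _)

lemma ooo_le (a b c : Fin n) : od a b * od b c * od a c ≤ 1 :=
  mul_le_one₀ (mul_le_one₀ (od_le_one _ _) (od_nonneg _ _) (od_le_one _ _)) (od_nonneg _ _)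
    (od_le_one _ _)

lemma A3_anti {v : ℝ} (h0 : 0 ≤ v) (h1 : v ≤ 1) {H G : Finset (Finset (Fin n))} (h : H ⊆ G) :
    A3 v G ≤ A3 v H := by
  unfold A3 av3
  apply div_le_div_of_nonneg_right _ (by positivity)
  refine Finset.sum_le_sum (fun a _ => Finset.sum_le_sum (fun b _ => Finset.sum_le_sum (fun c _ => ?_)))
  apply mul_le_mul_of_nonneg_left _ (ooo_nonneg _ _ _)
  have e1 := pow_le_pow_of_le_one h0 h1 (cd_mono h a b)
  have e2 := pow_le_pow_of_le_one h0 h1 (cd_mono h b c)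
  have e3 := pow_le_pow_of_le_one h0 h1 (cd_mono h a c)
  have p1 := pow_nonneg h0 (cd G a b)
  have p2 := pow_nonneg h0 (cd G b c)
  have p3 := pow_nonneg h0 (cd G a c)
  exact mul_le_mul (mul_le_mul e1 e2 p2 (pow_nonneg h0 _)) e3 p3
    (mul_nonneg (pow_nonneg h0 _) (pow_nonneg h0 _))

lemma A3_nonneg {v : ℝ} (h0 : 0 ≤ v) (H : Finset (Finset (Fin n))) : 0 ≤ A3 v H := by
  unfold A3 av3
  apply div_nonneg _ (by positivity)
  refine Finset.sum_nonneg (fun a _ => Finset.sum_nonneg (fun b _ => Finset.sum_nonneg (fun c _ => ?_)))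
  have p1 := pow_nonneg h0 (cd H a b)
  have p2 := pow_nonneg h0 (cd H b c)
  have p3 := pow_nonneg h0 (cd H a c)
  exact mul_nonneg (ooo_nonneg _ _ _) (mul_nonneg (mul_nonneg p1 p2) p3)

lemma sum3_const (n : ℕ) (c : ℝ) : (∑ _a : Fin n, ∑ _b : Fin n, ∑ _d : Fin n, c) = (n : ℝ) ^ 3 * c := by
  simp only [sum_const, card_univ, Fintype.card_fin, nsmul_eq_mul]
  ring

lemma A3_le_one {v : ℝ} (h0 : 0 ≤ v) (h1 : v ≤ 1) (hn : 0 < n) (H : Finset (Finset (Fin n))) :
    A3 v H ≤ 1 := by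
  unfold A3 av3
  have hn' : (0 : ℝ) < (n : ℝ) ^ 3 := by positivity
  rw [div_le_one hn']
  calc _ ≤ ∑ _a : Fin n, ∑ _b : Fin n, ∑ _c : Fin n, (1 : ℝ) := by
        refine Finset.sum_le_sum (fun a _ => Finset.sum_le_sum (fun b _ => Finset.sum_le_sum (fun c _ => ?_)))
        have p1 := pow_nonneg h0 (cd H a b)
        have p2 := pow_nonneg h0 (cd H b c)
        have p3 := pow_nonneg h0 (cd H a c)
        have q1 := pow_le_one₀ (n := cd H a b) h0 h1
        have q2 := pow_le_one₀ (n := cd H b c) h0 h1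
        have q3 := pow_le_one₀ (n := cd H a c) h0 h1
        exact mul_le_one₀ (ooo_le _ _ _) (mul_nonneg (mul_nonneg p1 p2) p3)
          (mul_le_one₀ (mul_le_one₀ q1 p2 q2) p3 q3)
    _ = _ := by rw [sum3_const]; ring

lemma cn_eq {H : Finset (Finset (Fin n))} (hH : H ⊆ pairs n) (a b : Fin n) :
    cn H {a, b} = cd H a b := by
  unfold cn cd
  congr 1
  ext w
  simp only [mem_filter, mem_univ, true_and, mem_insert, mem_singleton, forall_eq_or_imp,
    forall_eq, not_or]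
  constructor
  · rintro ⟨_, h⟩; exact h
  · rintro ⟨h1, h2⟩
    refine ⟨⟨?_, ?_⟩, h1, h2⟩
    · rintro rfl
      have := hH h1
      unfold pairs at this
      rw [mem_powersetCard] at this
      simp at this
    · rintro rfl
      have := hH h2
      unfold pairs at this
      rw [mem_powersetCard] at this
      simp at this

lemma choose3 (hn : 3 ≤ n) : ((n.choose 3 : ℕ) : ℝ) = (n : ℝ) * (n - 1) * (n - 2) / 6 := by
  obtain ⟨k, rfl⟩ := Nat.exists_eq_add_of_le hn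
  have h : (3 + k).choose 3 * 6 = (3 + k) * (2 + k) * (1 + k) := by
    have := Nat.add_choose_mul_factorial_mul_factorial 3 k
    have h2 : (3 + k).factorial = (3 + k) * (2 + k) * (1 + k) * k.factorial := by
      rw [show 3 + k = (k + 1 + 1) + 1 by ring, Nat.factorial_succ, Nat.factorial_succ,
        Nat.factorial_succ]
      ring
    rw [h2, ← Nat.choose_symm_add] at this
    have h3 : (3 : ℕ).factorial = 6 := rfl
    rw [h3] at this
    exact Nat.eq_of_mul_eq_mul_right (Nat.factorial_pos k) this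
  have h' : (((3 + k).choose 3 : ℕ) : ℝ) * 6 = (3 + k) * (2 + k) * (1 + k) := by exact_mod_cast h
  push_cast
  linarith [h']

/-- `t3` as an ordered average -/
lemma t3_eq (hn : 3 ≤ n) {H : Finset (Finset (Fin n))} (hH : H ⊆ pairs n) :
    t3 H = (n : ℝ) ^ 3 / ((n : ℝ) * (n - 1) * (n - 2)) * A3 (th (lam n H.card)) H := by
  classical
  have hT : StmtTRIP := TRIP.thm
  unfold t3 A3 av3
  rw [hT, choose3 hn]
  have hn0 : (3 : ℝ) ≤ n := by exact_mod_cast hn
  have e : ∀ u v w : Fin n, (if u ≠ v ∧ v ≠ w ∧ u ≠ w then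
      ∏ e ∈ eds ({u, v, w} : Finset (Fin n)), (th (lam n H.card)) ^ (cn H e) else 0)
      = od u v * od v w * od u w * ((th (lam n H.card)) ^ (cd H u v)
        * (th (lam n H.card)) ^ (cd H v w) * (th (lam n H.card)) ^ (cd H u w)) := by
    intro u v w
    by_cases h : u ≠ v ∧ v ≠ w ∧ u ≠ w
    · rw [if_pos h, TTT.prod_eds3 u v w h.1 h.2.1 h.2.2, cn_eq hH, cn_eq hH, cn_eq hH]
      unfold od
      rw [if_neg h.1, if_neg h.2.1, if_neg h.2.2]
      ring
    · rw [if_neg h]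
      unfold od
      by_cases h1 : u = v
      · simp [h1]
      · by_cases h2 : v = w
        · simp [h2]
        · by_cases h3 : u = w
          · simp [h3]
          · exact absurd ⟨h1, h2, h3⟩ h
  simp only [e]
  have a1 : (n : ℝ) ≠ 0 := by linarith
  have a2 : (n : ℝ) - 1 ≠ 0 := by linarith
  have a3 : (n : ℝ) - 2 ≠ 0 := by linarith
  field_simp

lemma t3_le (hn : 6 ≤ n) {H : Finset (Finset (Fin n))} (hH : H ⊆ pairs n)
    (h0 : 0 ≤ th (lam n H.card)) (h1 : th (lam n H.card) ≤ 1) :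
    t3 H ≤ A3 (th (lam n H.card)) H + 6 / n := by
  rw [t3_eq (by omega) hH]
  set A := A3 (th (lam n H.card)) H with hA
  have hA0 : 0 ≤ A := A3_nonneg h0 H
  have hA1 : A ≤ 1 := A3_le_one h0 h1 (by omega) H
  have hn0 : (6 : ℝ) ≤ n := by exact_mod_cast hn
  have hf : (n : ℝ) ^ 3 / ((n : ℝ) * (n - 1) * (n - 2)) ≤ 1 + 6 / n := by
    have e1 : 0 < (n : ℝ) * (n - 1) * (n - 2) := by
      apply mul_pos (mul_pos _ _) <;> linarith
    rw [div_le_iff₀ e1]
    have e2 : (1 + 6 / (n : ℝ)) * ((n : ℝ) * (n - 1) * (n - 2)) = (n + 6) * ((n - 1) * (n - 2)) := by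
      field_simp
    rw [e2]
    nlinarith
  have h6 : 0 ≤ 6 / (n : ℝ) := by positivity
  calc (n : ℝ) ^ 3 / ((n : ℝ) * (n - 1) * (n - 2)) * A ≤ (1 + 6 / n) * A :=
        mul_le_mul_of_nonneg_right hf hA0
    _ ≤ A + 6 / n := by nlinarith

lemma t3_nonneg {H : Finset (Finset (Fin n))} (h0 : 0 ≤ th (lam n H.card)) : 0 ≤ t3 H := by
  unfold t3
  apply div_nonneg _ (by positivity)
  exact Finset.sum_nonneg (fun T _ => Finset.prod_nonneg (fun e _ => pow_nonneg h0 _))

lemma hh_nonneg {W : Fin n → Fin n → ℝ} (hW : WOK W) (a z : Fin n) : 0 ≤ hh W a z := by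
  unfold hh
  apply div_nonneg _ (by positivity)
  exact Finset.sum_nonneg (fun b _ => mul_nonneg (hW.2.1 a b).le (hW.2.1 b z).le)

lemma hh_le (hn : 0 < n) {W : Fin n → Fin n → ℝ} (hW : WOK W) (a z : Fin n) :
    hh W a z ≤ 121 / 4 := by
  unfold hh
  have hn' : (0 : ℝ) < n := by exact_mod_cast hn
  rw [div_le_iff₀ hn']
  calc ∑ b, W a b * W b z ≤ ∑ _b : Fin n, (121 / 4 : ℝ) := by
        refine Finset.sum_le_sum (fun b _ => ?_)
        have h1 := hW.2.2 a b
        have h2 := hW.2.2 b z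
        have h3 := hW.2.1 a b
        have h4 := hW.2.1 b z
        nlinarith
    _ = 121 / 4 * n := by
        simp only [sum_const, card_univ, Fintype.card_fin, nsmul_eq_mul]
        ring

/-- the limit constant -/
noncomputable def ZZ3 (W : Fin n → Fin n → ℝ) : ℝ :=
  av3 (fun a b c => Real.exp (-(hh W a b + hh W b c + hh W a c) / 2))

lemma ZZ3_ge (hn : 0 < n) {W : Fin n → Fin n → ℝ} (hW : WOK W) : Real.exp (-46) ≤ ZZ3 W := by
  unfold ZZ3 av3
  have hn' : (0 : ℝ) < (n : ℝ) ^ 3 := by positivity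
  rw [le_div_iff₀ hn', mul_comm, ← sum3_const]
  refine Finset.sum_le_sum (fun a _ => Finset.sum_le_sum (fun b _ => Finset.sum_le_sum (fun c _ => ?_)))
  apply Real.exp_le_exp.mpr
  have h1 := hh_le hn hW a b
  have h2 := hh_le hn hW b c
  have h3 := hh_le hn hW a c
  linarith

lemma RW_eq (hn : 0 < n) {W : Fin n → Fin n → ℝ} (hW : WOK W) :
    RW W = 3 / 2 + Real.log (ZZ3 W) := by
  have hZ : 0 < ZZ3 W := lt_of_lt_of_le (Real.exp_pos _) (ZZ3_ge hn hW)
  have e : av3 (fun a b c => Real.exp (-(hh W a b + hh W b c + hh W a c - 3) / 2))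
      = Real.exp (3 / 2) * ZZ3 W := by
    unfold ZZ3 av3
    rw [mul_div_assoc', mul_sum]
    congr 1
    refine Finset.sum_congr rfl (fun a _ => ?_)
    rw [mul_sum]
    refine Finset.sum_congr rfl (fun b _ => ?_)
    rw [mul_sum]
    refine Finset.sum_congr rfl (fun c _ => ?_)
    rw [← Real.exp_add]
    exact congrArg Real.exp (by ring)
  unfold RW
  rw [e, Real.log_mul (Real.exp_pos _).ne' hZ.ne', Real.log_exp]

lemma av3_le {s e : ℝ} (hn : 0 < n) {W : Fin n → Fin n → ℝ} (hW : WOK W) (he : 0 ≤ e)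
    (hs : 1 / 2 - s ≤ 2 * e) :
    av3 (fun a b c => Real.exp (- s * (hh W a b + hh W b c + hh W a c)))
      ≤ Real.exp (182 * e) * ZZ3 W := by
  unfold ZZ3 av3
  rw [mul_div_assoc', mul_sum]
  apply div_le_div_of_nonneg_right _ (by positivity)
  refine Finset.sum_le_sum (fun a _ => ?_)
  rw [mul_sum]
  refine Finset.sum_le_sum (fun b _ => ?_)
  rw [mul_sum]
  refine Finset.sum_le_sum (fun c _ => ?_)
  rw [← Real.exp_add]
  apply Real.exp_le_exp.mpr
  have h1 := hh_le hn hW a b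
  have h2 := hh_le hn hW b c
  have h3 := hh_le hn hW a c
  have g1 := hh_nonneg hW a b
  have g2 := hh_nonneg hW b c
  have g3 := hh_nonneg hW a c
  set S := hh W a b + hh W b c + hh W a c with hS
  have hS0 : 0 ≤ S := by linarith
  have hS1 : S ≤ 91 := by linarith
  have : (1 / 2 - s) * S ≤ 2 * e * S := mul_le_mul_of_nonneg_right hs hS0
  nlinarith

lemma level (f : ℕ → ℝ) (m : ℕ) (C0 e : ℝ) (hC : 0 < C0) (hf : ∀ j, j < m → 0 ≤ f j)
    (hsum : ∑ j ∈ range m, f j ≤ C0 * m) (he : 0 < e) (he4 : e ≤ 1 / 4) (hm : 4 / e ≤ m) :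
    ∃ j : ℕ, (1 - 2 * e) * m ≤ j ∧ (j : ℝ) + 1 ≤ (1 - e) * m ∧ f j ≤ 2 * C0 / e := by
  by_contra hcon
  push Not at hcon
  set a := ⌈(1 - 2 * e) * (m : ℝ)⌉₊ with ha
  set b := ⌊(1 - e) * (m : ℝ)⌋₊ with hb
  have hm0 : (0 : ℝ) ≤ m := Nat.cast_nonneg m
  have hem : 4 ≤ e * m := by
    rw [div_le_iff₀ he] at hm; linarith
  have ha1 : (a : ℝ) < (1 - 2 * e) * m + 1 := Nat.ceil_lt_add_one (by nlinarith)
  have ha0 : (1 - 2 * e) * m ≤ a := Nat.le_ceil _
  have hb1 : (1 - e) * (m : ℝ) < b + 1 := Nat.lt_floor_add_one _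
  have hb0 : (b : ℝ) ≤ (1 - e) * m := Nat.floor_le (by nlinarith)
  have hab : a < b := by
    have : (a : ℝ) < b := by nlinarith
    exact_mod_cast this
  have hbm : b ≤ m := by
    have : (b : ℝ) ≤ m := by nlinarith
    exact_mod_cast this
  have hsub : Ico a b ⊆ range m := by
    intro j hj
    rw [mem_Ico] at hj
    rw [mem_range]
    omega
  have h1 : ∑ j ∈ Ico a b, f j ≤ ∑ j ∈ range m, f j := by
    apply Finset.sum_le_sum_of_subset_of_nonneg hsub
    intro j hj _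
    exact hf j (mem_range.mp hj)
  have h2 : ∑ _j ∈ Ico a b, (2 * C0 / e) < ∑ j ∈ Ico a b, f j := by
    apply Finset.sum_lt_sum_of_nonempty (Finset.nonempty_Ico.mpr hab)
    intro j hj
    rw [mem_Ico] at hj
    have j1 : (a : ℝ) ≤ j := by exact_mod_cast hj.1
    have j2 : (j : ℝ) + 1 ≤ b := by exact_mod_cast hj.2
    exact hcon j (by linarith) (by linarith)
  rw [sum_const, Nat.card_Ico, nsmul_eq_mul, Nat.cast_sub hab.le] at h2
  have h3 : C0 * m ≤ ((b : ℝ) - a) * (2 * C0 / e) := by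
    have h4 : e * m / 2 ≤ (b : ℝ) - a := by nlinarith
    have h5 : 0 ≤ 2 * C0 / e := by positivity
    have h6 : e * m / 2 * (2 * C0 / e) = C0 * m := by
      field_simp
    calc C0 * m = e * m / 2 * (2 * C0 / e) := h6.symm
      _ ≤ _ := mul_le_mul_of_nonneg_right h4 h5
  linarith

/-- passing to subsets -/
lemma EX_sub (hSB : StmtSB) {m : ℕ} {mu : Finset (Finset (Fin n)) → ℝ} (hmu : Prb mu m)
    (hm : m ≤ (pairs n).card) {v : ℝ} (h0 : 0 ≤ v) (h1 : v ≤ 1) {i : ℕ} (hi : i ≤ m) :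
    EX mu (A3 v) ≤ EX (sb mu m i) (A3 v) := by
  rw [(hSB n m mu hmu hm).2.2.2.2.1 i hi (A3 v)]
  unfold EX
  refine Finset.sum_le_sum (fun G _ => ?_)
  by_cases hG : mu G = 0
  · rw [hG]; simp
  · apply mul_le_mul_of_nonneg_left _ (hmu.1 G)
    have hc := (hmu.2.1 G hG).2
    have hch : (0 : ℝ) < (m.choose i : ℝ) := by exact_mod_cast Nat.choose_pos hi
    rw [le_div_iff₀ hch]
    calc A3 v G * (m.choose i : ℝ) = ∑ _H ∈ G.powersetCard i, A3 v G := by
          rw [sum_const, card_powersetCard, hc, nsmul_eq_mul, mul_comm]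
      _ ≤ _ := by
          refine Finset.sum_le_sum (fun H hH => ?_)
          rw [mem_powersetCard] at hH
          exact A3_anti h0 h1 hH.1

lemma Prb_le {m : ℕ} {mu : Finset (Finset (Fin n)) → ℝ} (hmu : Prb mu m) :
    m ≤ (pairs n).card := by
  by_contra hcon
  have h : EX mu (fun _ => 1) = 0 := by
    unfold EX
    refine Finset.sum_eq_zero (fun G _ => ?_)
    by_cases hG : mu G = 0
    · rw [hG]; simp
    · exfalso
      have h2 := hmu.2.1 G hG
      exact hcon (h2.2 ▸ card_le_card h2.1)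
  rw [hmu.2.2] at h
  norm_num at h

lemma EX_aff (mu : Finset (Finset (Fin n)) → ℝ) (f : Finset (Finset (Fin n)) → ℝ) (a b : ℝ) :
    EX mu (fun G => a * f G + b) = a * EX mu f + b * EX mu (fun _ => 1) := by
  unfold EX
  rw [mul_sum, mul_sum, ← sum_add_distrib]
  refine Finset.sum_congr rfl (fun G _ => ?_)
  ring

/-- analytic end of the proof -/
lemma finish {m : ℕ} {mu : Finset (Finset (Fin n)) → ℝ} {W : Fin n → Fin n → ℝ}
    {eps e d eps1 v : ℝ} (hn6 : 6 ≤ n) (heps : 0 < eps) (he0 : 0 < e) (he4 : e ≤ 1 / 400)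
    (hee : e ≤ eps / 1600)
    (hd : d = eps * Real.exp (-46) / 4) (hep2 : eps1 ≤ d) (hnd' : (7 / d) ^ 2 ≤ n)
    (hmu : Prb mu m) (hW : WOK W) (hv : th (lam n m) = v) (hv0 : 0 ≤ v) (hv1 : v ≤ 1)
    (hA : EX mu (A3 v) ≤ Real.exp (182 * e) * ZZ3 W + eps1) :
    EX mu (fun G => lt3 G) + 3 / 2 ≤ RW W + eps := by
  have hn0 : (6 : ℝ) ≤ n := by exact_mod_cast hn6
  have hnpos : 0 < n := by omega
  have hd0 : 0 < d := by rw [hd]; positivity
  set Z := ZZ3 W with hZ
  have hZ1 : Real.exp (-46) ≤ Z := ZZ3_ge hnpos hW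
  have hZ0 : 0 < Z := lt_of_lt_of_le (Real.exp_pos _) hZ1
  have hexp : Real.exp (182 * e) ≤ 1 + eps / 4 := by
    have h1 : Real.exp (182 * e) ≤ 1 / (1 - 182 * e) := by
      apply Real.exp_bound_div_one_sub_of_interval
      · positivity
      · linarith
    refine le_trans h1 ?_
    rw [div_le_iff₀ (by linarith)]
    nlinarith
  have hsq : 0 < Real.sqrt n := Real.sqrt_pos.mpr (by linarith)
  have hdel : 6 / (n : ℝ) + 1 / Real.sqrt n ≤ d := by
    have h1 : 7 / d ≤ Real.sqrt n := by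
      rw [← Real.sqrt_sq (by positivity : 0 ≤ 7 / d)]
      exact Real.sqrt_le_sqrt hnd'
    have h2 : Real.sqrt n ≤ n := by
      rw [Real.sqrt_le_left (by linarith)]
      nlinarith
    have h3 : 6 / (n : ℝ) ≤ 6 / Real.sqrt n := div_le_div_of_nonneg_left (by norm_num) hsq h2
    have h4 : 6 / Real.sqrt n + 1 / Real.sqrt n = 7 / Real.sqrt n := by ring
    have h5 : 7 / Real.sqrt n ≤ d := by
      rw [div_le_iff₀ hsq]
      rw [div_le_iff₀ hd0] at h1
      linarith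
    linarith
  have hpt : EX mu (fun G => lt3 G) ≤ EX mu (fun G => (1 / Z) * A3 v G
      + ((6 / (n : ℝ) + 1 / Real.sqrt n) / Z - 1 + Real.log Z)) := by
    unfold EX
    refine Finset.sum_le_sum (fun G _ => ?_)
    by_cases hG : mu G = 0
    · rw [hG]; simp
    · apply mul_le_mul_of_nonneg_left _ (hmu.1 G)
      obtain ⟨hG1, hG2⟩ := hmu.2.1 G hG
      have hvG : th (lam n G.card) = v := by rw [hG2]; exact hv
      have ht := t3_le hn6 hG1 (by rw [hvG]; exact hv0) (by rw [hvG]; exact hv1)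
      have ht0 := t3_nonneg (H := G) (by rw [hvG]; exact hv0)
      rw [hvG] at ht
      have hy : 0 < t3 G + 1 / Real.sqrt n := by positivity
      unfold lt3
      have hlog : Real.log (t3 G + 1 / Real.sqrt n) ≤ (t3 G + 1 / Real.sqrt n) / Z - 1 + Real.log Z := by
        have h1 := Real.log_le_sub_one_of_pos (div_pos hy hZ0)
        rw [Real.log_div hy.ne' hZ0.ne'] at h1
        linarith
      refine le_trans hlog ?_
      have h2 : (t3 G + 1 / Real.sqrt n) / Z ≤ (A3 v G + 6 / n + 1 / Real.sqrt n) / Z := by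
        apply div_le_div_of_nonneg_right _ hZ0.le
        linarith
      have h3 : (A3 v G + 6 / (n : ℝ) + 1 / Real.sqrt n) / Z
          = (1 / Z) * A3 v G + (6 / (n : ℝ) + 1 / Real.sqrt n) / Z := by ring
      linarith
  rw [EX_aff, hmu.2.2] at hpt
  rw [RW_eq hnpos hW]
  have h1 : (1 / Z) * EX mu (A3 v) ≤ Real.exp (182 * e) + eps1 / Z := by
    have : (1 / Z) * (Real.exp (182 * e) * Z + eps1) = Real.exp (182 * e) + eps1 / Z := by
      field_simp
    rw [← this]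
    exact mul_le_mul_of_nonneg_left hA (by positivity)
  have h2 : d / Z ≤ eps / 4 := by
    rw [div_le_iff₀ hZ0, hd]
    have : eps / 4 * Real.exp (-46) ≤ eps / 4 * Z := mul_le_mul_of_nonneg_left hZ1 (by positivity)
    linarith
  have h3 : eps1 / Z ≤ eps / 4 := le_trans (div_le_div_of_nonneg_right hep2 hZ0.le) h2
  have h4 : (6 / (n : ℝ) + 1 / Real.sqrt n) / Z ≤ eps / 4 :=
    le_trans (div_le_div_of_nonneg_right hdel hZ0.le) h2
  linarith

/-- the parameter `v = th L` and the level -/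
lemma params {m j : ℕ} {e v : ℝ} (hn : 0 < n) (hm : (0 : ℝ) < m) (hlam : 1 / 2 < lam n m)
    (hv : v = th (lam n m)) (he0 : 0 < e) (he4 : e ≤ 1 / 400)
    (hj1 : (1 - 2 * e) * m ≤ j) (hj2 : (j : ℝ) + 1 ≤ (1 - e) * m) :
    0 ≤ v ∧ v ≤ 1 ∧ lam n ((j : ℝ) + 1) * (1 - v) ≤ 1 ∧
      1 / 2 - lam n ((j : ℝ) + 1) * (1 - v) ≤ 2 * e := by
  have hn0 : (0 : ℝ) < n := by exact_mod_cast hn
  have hL0 : 0 < lam n m := by linarith
  have hv0 : 0 ≤ v := by
    rw [hv]; unfold th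
    have : 1 / (2 * lam n m) ≤ 1 := by
      rw [div_le_one (by linarith)]; linarith
    linarith
  have hv1 : v ≤ 1 := by
    rw [hv]; unfold th
    have : 0 ≤ 1 / (2 * lam n m) := by positivity
    linarith
  have hs : lam n ((j : ℝ) + 1) * (1 - v) = (((j : ℝ) + 1) / m) ^ 2 / 2 := by
    have h1 : (1 - v) = 1 / (2 * lam n m) := by rw [hv]; unfold th; ring
    rw [h1]
    unfold lam
    field_simp
  have hq1 : ((j : ℝ) + 1) / m ≤ 1 - e := by
    rw [div_le_iff₀ hm]; exact hj2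
  have hq2 : 1 - 2 * e ≤ ((j : ℝ) + 1) / m := by
    rw [le_div_iff₀ hm]; linarith
  refine ⟨hv0, hv1, ?_, ?_⟩
  · rw [hs]; nlinarith
  · rw [hs]; nlinarith

theorem thm (hTEL : StmtTEL) (hSB : StmtSB) (hT3 : StmtT3M) : StmtS2 := by
  intro C0 K eps hC0 hK heps
  obtain ⟨e, he⟩ : ∃ e : ℝ, e = min (1 / 400) (eps / 1600) := ⟨_, rfl⟩
  have he0 : 0 < e := by rw [he]; exact lt_min (by norm_num) (by positivity)
  have he4 : e ≤ 1 / 400 := by rw [he]; exact min_le_left _ _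
  have hee : e ≤ eps / 1600 := by rw [he]; exact min_le_right _ _
  obtain ⟨d, hd⟩ : ∃ d : ℝ, d = eps * Real.exp (-46) / 4 := ⟨_, rfl⟩
  have hd0 : 0 < d := by rw [hd]; positivity
  obtain ⟨eps1, heps1⟩ : ∃ x : ℝ, x = min e d := ⟨_, rfl⟩
  have hep0 : 0 < eps1 := by rw [heps1]; exact lt_min he0 hd0
  have hep1 : eps1 ≤ e := by rw [heps1]; exact min_le_left _ _
  have hep2 : eps1 ≤ d := by rw [heps1]; exact min_le_right _ _
  obtain ⟨rho, hrho, n1, hn1⟩ := hT3 (2 * C0 / e) K eps1 (by positivity) hK hep0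
  refine ⟨rho, hrho, max n1 (max 6 (max ⌈16 / e⌉₊ ⌈(7 / d) ^ 2⌉₊)), ?_⟩
  intro n m mu W hn hm1 hm2 hmu hW hLR hDD hlam
  have hnn1 : n1 ≤ n := le_trans (le_max_left _ _) hn
  have hn6 : 6 ≤ n := le_trans (le_trans (le_max_left _ _) (le_max_right _ _)) hn
  have hne : ⌈16 / e⌉₊ ≤ n := le_trans (le_trans (le_trans (le_max_left _ _) (le_max_right _ _)) (le_max_right _ _)) hn
  have hnd : ⌈(7 / d) ^ 2⌉₊ ≤ n := le_trans (le_trans (le_trans (le_max_right _ _) (le_max_right _ _)) (le_max_right _ _)) hn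
  have hn0 : (6 : ℝ) ≤ n := by exact_mod_cast hn6
  have hnpos : 0 < n := by omega
  have hne' : 16 / e ≤ n := le_trans (Nat.le_ceil _) (by exact_mod_cast hne)
  have hnd' : (7 / d) ^ 2 ≤ n := le_trans (Nat.le_ceil _) (by exact_mod_cast hnd)
  -- m is large
  have hnm : (n : ℝ) / 4 ≤ m := by
    refine le_trans ?_ hm1
    have : (n : ℝ) ^ (1 : ℝ) ≤ (n : ℝ) ^ ((3 : ℝ) / 2) :=
      Real.rpow_le_rpow_of_exponent_le (by linarith) (by norm_num)
    rw [Real.rpow_one] at this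
    linarith
  have hme : 4 / e ≤ m := by
    refine le_trans ?_ hnm
    have : 4 / e = (16 / e) / 4 := by ring
    rw [this]
    linarith
  have hmpos : (0 : ℝ) < m := by linarith
  have hmN := Prb_le hmu
  -- the level
  obtain ⟨hk0, hksum⟩ := hTEL n m mu hmu hmN
  obtain ⟨j, hj1, hj2, hj3⟩ := level (kj mu m) m C0 e hC0 hk0 (by rw [hksum]; exact hDD) he0
    (by linarith) hme
  obtain ⟨v, hv⟩ : ∃ v : ℝ, v = th (lam n m) := ⟨_, rfl⟩
  obtain ⟨hv0, hv1, hs1, hs2⟩ := params hnpos hmpos hlam hv he0 he4 hj1 hj2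
  have hem : 4 ≤ e * m := by
    rw [div_le_iff₀ he0] at hme; linarith
  have hHyp : Hyp (2 * C0 / e) K eps1 rho n m j mu W := by
    refine ⟨hm1, hm2, ?_, ?_, hmu, hW, hLR, hj3⟩
    · refine le_trans ?_ hj1
      apply mul_le_mul_of_nonneg_right _ hmpos.le
      linarith
    · refine le_trans hj2 ?_
      apply mul_le_mul_of_nonneg_right _ hmpos.le
      linarith
  have hT : EX (sb mu m (j + 1)) (A3 v) ≤
      av3 (fun a b c => Real.exp (- (lam n ((j : ℝ) + 1) * (1 - v))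
        * (hh W a b + hh W b c + hh W a c))) + eps1 := hn1 n m j mu W v hnn1 hHyp hv0 hv1 hs1
  have hjm : j + 1 ≤ m := by
    have : (j : ℝ) + 1 ≤ m := by nlinarith
    exact_mod_cast this
  have hsub := EX_sub hSB hmu hmN hv0 hv1 hjm
  have hav := av3_le hnpos hW he0.le hs2
  have hA : EX mu (A3 v) ≤ Real.exp (182 * e) * ZZ3 W + eps1 :=
    le_trans hsub (le_trans hT (add_le_add hav (le_refl _)))
  exact finish hn6 heps he0 he4 hee hd hep2 hnd' hmu hW hv.symm hv0 hv1 hA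

end Vale.Agent.P046.Sh.S2
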