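import Vale.Agent.P046.Sh.Defs

/-!
P046 sharp, module SAMP: Hoeffding for random subsets, union over all `S, T`.
-/

namespace Vale.Agent.P046.Sh.SAMP

open Finset MeasureTheory ProbabilityTheory

theorem hoef (s x : ℝ) (h0 : 0 ≤ s) (h1 : s ≤ 1) :
    s * Real.exp x + (1 - s) ≤ Real.exp (s * x + x ^ 2 / 8) := by
  let μ : Measure ℝ := ENNReal.ofReal (1 - s) • Measure.dirac 0 + ENNReal.ofReal s • Measure.dirac 1
  have hs1 : 0 ≤ 1 - s := by linarith
  have hprob : IsProbabilityMeasure μ := by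
    constructor
    simp only [μ, Measure.add_apply, Measure.smul_apply, measure_univ, smul_eq_mul, mul_one]
    rw [← ENNReal.ofReal_add hs1 h0]
    simp
  have hint : ∀ f : ℝ → ℝ, Measurable f → ∫ y, f y ∂μ = (1 - s) * f 0 + s * f 1 := by
    intro f hf
    have i0 : Integrable f (ENNReal.ofReal (1 - s) • Measure.dirac (0 : ℝ)) := by
      refine Integrable.smul_measure ?_ (by simp)
      exact integrable_dirac (by simp [enorm])
    have i1 : Integrable f (ENNReal.ofReal s • Measure.dirac (1 : ℝ)) := by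
      refine Integrable.smul_measure ?_ (by simp)
      exact integrable_dirac (by simp [enorm])
    simp only [μ]
    rw [integral_add_measure i0 i1, integral_smul_measure, integral_smul_measure,
      integral_dirac, integral_dirac, ENNReal.toReal_ofReal hs1, ENNReal.toReal_ofReal h0]
    simp
  have hb : ∀ᵐ ω ∂μ, (fun y : ℝ => y) ω ∈ Set.Icc (0 : ℝ) 1 := by
    simp only [μ]
    rw [ae_add_measure_iff]
    constructor
    · refine Measure.ae_smul_measure ?_ _
      exact (ae_dirac_iff (p := fun y : ℝ => y ∈ Set.Icc (0 : ℝ) 1) measurableSet_Icc).2 (by simp)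
    · refine Measure.ae_smul_measure ?_ _
      exact (ae_dirac_iff (p := fun y : ℝ => y ∈ Set.Icc (0 : ℝ) 1) measurableSet_Icc).2 (by simp)
  have h := (hasSubgaussianMGF_of_mem_Icc (μ := μ) (X := fun y : ℝ => y)
    measurable_id.aemeasurable hb).mgf_le x
  have hm : μ[fun y : ℝ => y] = s := by
    have := hint (fun y : ℝ => y) measurable_id
    rw [this]
    ring
  rw [hm] at h
  unfold mgf at h
  rw [hint _ (by fun_prop)] at h
  have e1 : (((‖(1 : ℝ) - 0‖₊ / 2) ^ 2 : NNReal) : ℝ) * x ^ 2 / 2 = x ^ 2 / 8 := by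
    simp
    ring
  rw [e1] at h
  have e2 : Real.exp (s * x + x ^ 2 / 8) = Real.exp (s * x) * Real.exp (x ^ 2 / 8) := by
    rw [Real.exp_add]
  rw [e2]
  have e3 : s * Real.exp x + (1 - s)
      = Real.exp (s * x) * ((1 - s) * Real.exp (x * (0 - s)) + s * Real.exp (x * (1 - s))) := by
    have a1 : Real.exp (s * x) * Real.exp (x * (0 - s)) = 1 := by
      rw [← Real.exp_add]
      simp [mul_comm]
    have a2 : Real.exp (s * x) * Real.exp (x * (1 - s)) = Real.exp x := by
      rw [← Real.exp_add]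
      congr 1
      ring
    calc s * Real.exp x + (1 - s)
        = s * (Real.exp (s * x) * Real.exp (x * (1 - s)))
          + (1 - s) * (Real.exp (s * x) * Real.exp (x * (0 - s))) := by rw [a1, a2]; ring
      _ = _ := by ring
  rw [e3]
  exact mul_le_mul_of_nonneg_left h (Real.exp_pos _).le

/-- mode of the binomial distribution -/
theorem mode_up (m j : ℕ) (hj : j ≤ m) : ∀ d, d ≤ j →
    ((m.choose (j - d) : ℕ) : ℝ) * (j : ℝ) ^ (j - d) * ((m : ℝ) - j) ^ (m - (j - d))
      ≤ (m.choose j : ℝ) * (j : ℝ) ^ j * ((m : ℝ) - j) ^ (m - j) := by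
  intro d
  have hmj : (0 : ℝ) ≤ (m : ℝ) - j := by
    have : (j : ℝ) ≤ m := by exact_mod_cast hj
    linarith
  induction d with
  | zero => intro _; simp
  | succ d ih =>
    intro hd
    refine le_trans ?_ (ih (by omega))
    obtain ⟨k, hk⟩ : ∃ k, k = j - (d + 1) := ⟨_, rfl⟩
    have hk1 : j - d = k + 1 := by omega
    have hkj : k + 1 ≤ j := by omega
    rw [← hk, hk1]
    have e1 : m - k = (m - (k + 1)) + 1 := by omega
    rw [e1, pow_succ, pow_succ]
    have h1 : ((m.choose (k + 1) : ℕ) : ℝ) * ((k : ℝ) + 1) = (m.choose k : ℝ) * ((m : ℝ) - k) := by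
      have := Nat.choose_succ_right_eq m k
      have h2 : ((m.choose (k + 1) * (k + 1) : ℕ) : ℝ) = ((m.choose k * (m - k) : ℕ) : ℝ) := by
        rw [this]
      rw [Nat.cast_mul, Nat.cast_mul, Nat.cast_sub (by omega : k ≤ m)] at h2
      push_cast at h2
      exact h2
    have hc : (0 : ℝ) ≤ (m.choose (k + 1) : ℝ) := by positivity
    have hc' : (0 : ℝ) ≤ (m.choose k : ℝ) := by positivity
    have hkj' : (k : ℝ) + 1 ≤ j := by exact_mod_cast hkj
    have h3 : (m.choose k : ℝ) * ((m : ℝ) - j) ≤ (m.choose (k + 1) : ℝ) * j := by nlinarith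
    have hp : (0 : ℝ) ≤ (j : ℝ) ^ k * ((m : ℝ) - j) ^ (m - (k + 1)) := by positivity
    nlinarith [mul_le_mul_of_nonneg_right h3 hp]

theorem mode_down (m j : ℕ) (hj : j ≤ m) : ∀ d, j + d ≤ m →
    ((m.choose (j + d) : ℕ) : ℝ) * (j : ℝ) ^ (j + d) * ((m : ℝ) - j) ^ (m - (j + d))
      ≤ (m.choose j : ℝ) * (j : ℝ) ^ j * ((m : ℝ) - j) ^ (m - j) := by
  intro d
  have hmj : (0 : ℝ) ≤ (m : ℝ) - j := by
    have : (j : ℝ) ≤ m := by exact_mod_cast hj
    linarith
  induction d with
  | zero => intro _; simp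
  | succ d ih =>
    intro hd
    refine le_trans ?_ (ih (by omega))
    obtain ⟨k, hk⟩ : ∃ k, k = j + d := ⟨_, rfl⟩
    have hk1 : j + (d + 1) = k + 1 := by omega
    have hkj : j ≤ k := by omega
    rw [← hk, hk1]
    have e1 : m - k = (m - (k + 1)) + 1 := by omega
    rw [e1, pow_succ, pow_succ]
    have h1 : ((m.choose (k + 1) : ℕ) : ℝ) * ((k : ℝ) + 1) = (m.choose k : ℝ) * ((m : ℝ) - k) := by
      have := Nat.choose_succ_right_eq m k
      have h2 : ((m.choose (k + 1) * (k + 1) : ℕ) : ℝ) = ((m.choose k * (m - k) : ℕ) : ℝ) := by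
        rw [this]
      rw [Nat.cast_mul, Nat.cast_mul, Nat.cast_sub (by omega : k ≤ m)] at h2
      push_cast at h2
      exact h2
    have hc : (0 : ℝ) ≤ (m.choose (k + 1) : ℝ) := by positivity
    have hc' : (0 : ℝ) ≤ (m.choose k : ℝ) := by positivity
    have hkj' : (j : ℝ) ≤ k := by exact_mod_cast hkj
    have h3 : (m.choose (k + 1) : ℝ) * j ≤ (m.choose k : ℝ) * ((m : ℝ) - j) := by nlinarith
    have hp : (0 : ℝ) ≤ (j : ℝ) ^ k * ((m : ℝ) - j) ^ (m - (k + 1)) := by positivity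
    nlinarith [mul_le_mul_of_nonneg_right h3 hp]

theorem mode (m j : ℕ) (hj : j ≤ m) (hm : 1 ≤ m) :
    1 ≤ ((m : ℝ) + 1) * ((m.choose j : ℝ) * ((j : ℝ) / m) ^ j * (1 - (j : ℝ) / m) ^ (m - j)) := by
  have hm0 : (0 : ℝ) < m := by exact_mod_cast hm
  have hk : ∀ k ∈ range (m + 1), ((j : ℝ) / m) ^ k * (1 - (j : ℝ) / m) ^ (m - k) * (m.choose k : ℝ)
      ≤ (m.choose j : ℝ) * ((j : ℝ) / m) ^ j * (1 - (j : ℝ) / m) ^ (m - j) := by
    intro k hk
    have hk' : k ≤ m := by
      have := mem_range.1 hk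
      omega
    have key : ((m.choose k : ℕ) : ℝ) * (j : ℝ) ^ k * ((m : ℝ) - j) ^ (m - k)
      ≤ (m.choose j : ℝ) * (j : ℝ) ^ j * ((m : ℝ) - j) ^ (m - j) := by
      rcases le_total k j with h | h
      · have := mode_up m j hj (j - k) (by omega)
        rwa [show j - (j - k) = k by omega] at this
      · have := mode_down m j hj (k - j) (by omega)
        rwa [show j + (k - j) = k by omega] at this
    have e1 : (1 - (j : ℝ) / m) = ((m : ℝ) - j) / m := by field_simp
    rw [e1, div_pow, div_pow, div_pow, div_pow]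
    have e2 : (j : ℝ) ^ k / (m : ℝ) ^ k * (((m : ℝ) - j) ^ (m - k) / (m : ℝ) ^ (m - k))
        * (m.choose k : ℝ)
        = (m.choose k : ℝ) * (j : ℝ) ^ k * ((m : ℝ) - j) ^ (m - k) / (m : ℝ) ^ m := by
      have : (m : ℝ) ^ m = (m : ℝ) ^ k * (m : ℝ) ^ (m - k) := by
        rw [← pow_add]
        congr 1
        omega
      rw [this]
      field_simp
    have e3 : (m.choose j : ℝ) * ((j : ℝ) ^ j / (m : ℝ) ^ j)
        * (((m : ℝ) - j) ^ (m - j) / (m : ℝ) ^ (m - j))
        = (m.choose j : ℝ) * (j : ℝ) ^ j * ((m : ℝ) - j) ^ (m - j) / (m : ℝ) ^ m := by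
      have : (m : ℝ) ^ m = (m : ℝ) ^ j * (m : ℝ) ^ (m - j) := by
        rw [← pow_add]
        congr 1
        omega
      rw [this]
      field_simp
    rw [e2, e3]
    exact div_le_div_of_nonneg_right key (by positivity)
  have hs : ((j : ℝ) / m + (1 - (j : ℝ) / m)) ^ m = 1 := by
    rw [add_sub_cancel]
    exact one_pow _
  rw [add_pow] at hs
  calc (1 : ℝ) = _ := hs.symm
    _ ≤ ∑ k ∈ range (m + 1), ((m.choose j : ℝ) * ((j : ℝ) / m) ^ j
          * (1 - (j : ℝ) / m) ^ (m - j)) := sum_le_sum hk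
    _ = _ := by
      rw [sum_const, card_range, nsmul_eq_mul]
      push_cast
      ring

variable {n : ℕ}

/-- number of ordered pairs of `S × T` giving the pair `e` -/
noncomputable def fe (S T : Finset (Fin n)) (e : Finset (Fin n)) : ℝ :=
  ∑ u ∈ S, ∑ v ∈ T, if ({u, v} : Finset (Fin n)) = e then 1 else 0

theorem sum_ad (S T : Finset (Fin n)) (H : Finset (Finset (Fin n))) :
    ∑ u ∈ S, ∑ v ∈ T, ad H u v = ∑ e ∈ H, fe S T e := by
  symm
  unfold fe
  rw [sum_comm]
  refine sum_congr rfl fun u _ => ?_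
  rw [sum_comm]
  refine sum_congr rfl fun v _ => ?_
  unfold ad
  rw [sum_ite_eq]

theorem fe_nonneg (S T : Finset (Fin n)) (e : Finset (Fin n)) : 0 ≤ fe S T e := by
  unfold fe
  exact sum_nonneg fun u _ => sum_nonneg fun v _ => by split_ifs <;> norm_num

theorem one_le_aux (S : Finset (Fin n)) (a : Fin n) (c : ℝ) (hc : 0 ≤ c) :
    ∑ u ∈ S, (if u = a then c else 0) ≤ c := by
  rw [sum_ite_eq' S a (fun _ => c)]
  split_ifs
  · exact le_rfl
  · exact hc

theorem fe_le (S T : Finset (Fin n)) (e : Finset (Fin n)) (he : e ∈ pairs n) :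
    fe S T e ≤ 2 := by
  obtain ⟨a, b, hab, rfl⟩ := card_eq_two.1 (mem_powersetCard.1 he).2
  have h1 : ∀ u v : Fin n, (if ({u, v} : Finset (Fin n)) = {a, b} then (1 : ℝ) else 0)
      ≤ (if u = a then (if v = b then 1 else 0) else 0)
        + (if u = b then (if v = a then 1 else 0) else 0) := by
    intro u v
    by_cases h : ({u, v} : Finset (Fin n)) = {a, b}
    · have hu : u ∈ ({a, b} : Finset (Fin n)) := by
        rw [← h]
        simp
      have hv : v ∈ ({a, b} : Finset (Fin n)) := by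
        rw [← h]
        simp
      have ha : a ∈ ({u, v} : Finset (Fin n)) := by
        rw [h]
        simp
      have hb : b ∈ ({u, v} : Finset (Fin n)) := by
        rw [h]
        simp
      simp only [mem_insert, mem_singleton] at hu hv ha hb
      rw [if_pos h]
      rcases hu with rfl | rfl
      · rcases hb with hb | hb
        · exact absurd hb.symm hab
        · subst hb
          rw [if_pos rfl, if_pos rfl, if_neg hab]
          norm_num
      · rcases ha with ha | ha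
        · exact absurd ha hab
        · subst ha
          rw [if_neg (fun h => hab h.symm), if_pos rfl, if_pos rfl]
          norm_num
    · rw [if_neg h]
      split_ifs <;> norm_num
  have h2 : ∀ x y : Fin n, ∑ u ∈ S, ∑ v ∈ T,
      (if u = x then (if v = y then (1 : ℝ) else 0) else 0) ≤ 1 := by
    intro x y
    have : ∀ u ∈ S, ∑ v ∈ T, (if u = x then (if v = y then (1 : ℝ) else 0) else 0)
        = if u = x then (∑ v ∈ T, if v = y then (1 : ℝ) else 0) else 0 := by
      intro u _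
      split_ifs
      · rfl
      · simp
    rw [sum_congr rfl this]
    refine le_trans (one_le_aux S x _ (sum_nonneg fun v _ => by split_ifs <;> norm_num)) ?_
    exact one_le_aux T y 1 zero_le_one
  unfold fe
  calc ∑ u ∈ S, ∑ v ∈ T, (if ({u, v} : Finset (Fin n)) = {a, b} then (1 : ℝ) else 0)
      ≤ ∑ u ∈ S, ∑ v ∈ T, ((if u = a then (if v = b then 1 else 0) else 0)
        + (if u = b then (if v = a then 1 else 0) else 0)) :=
        sum_le_sum fun u _ => sum_le_sum fun v _ => h1 u v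
    _ = (∑ u ∈ S, ∑ v ∈ T, (if u = a then (if v = b then (1 : ℝ) else 0) else 0))
        + ∑ u ∈ S, ∑ v ∈ T, (if u = b then (if v = a then (1 : ℝ) else 0) else 0) := by
        simp only [sum_add_distrib]
    _ ≤ 1 + 1 := add_le_add (h2 a b) (h2 b a)
    _ = 2 := by norm_num

/-- Chernoff bound for the moment generating function of a random `j`-subset -/
theorem chern (G : Finset (Finset (Fin n))) (f : Finset (Fin n) → ℝ)
    (hf : ∀ e ∈ G, 0 ≤ f e ∧ f e ≤ 2) (s : ℝ) (h0 : 0 ≤ s) (h1 : s ≤ 1) (j : ℕ) (la : ℝ) :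
    (∑ H ∈ G.powersetCard j, Real.exp (la * (∑ e ∈ H, f e - s * ∑ e ∈ G, f e)))
      * (s ^ j * (1 - s) ^ (G.card - j)) ≤ Real.exp (la ^ 2 * G.card / 2) := by
  have hs1 : 0 ≤ 1 - s := by linarith
  have e1 : ∀ H ∈ G.powersetCard j,
      Real.exp (la * (∑ e ∈ H, f e - s * ∑ e ∈ G, f e)) * (s ^ j * (1 - s) ^ (G.card - j))
      = Real.exp (-(la * s * ∑ e ∈ G, f e)) *
        ((∏ e ∈ H, (s * Real.exp (la * f e))) * ∏ e ∈ G \ H, (1 - s)) := by
    intro H hH
    obtain ⟨hHG, hHj⟩ := mem_powersetCard.1 hH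
    rw [prod_mul_distrib, prod_const, prod_const, card_sdiff_of_subset hHG, hHj, ← Real.exp_sum,
      ← mul_sum]
    have : Real.exp (la * (∑ e ∈ H, f e - s * ∑ e ∈ G, f e))
        = Real.exp (-(la * s * ∑ e ∈ G, f e)) * Real.exp (la * ∑ e ∈ H, f e) := by
      rw [← Real.exp_add]
      congr 1
      ring
    rw [this]
    ring
  rw [sum_mul, sum_congr rfl e1, ← mul_sum]
  have e2 : ∑ H ∈ G.powersetCard j,
        ((∏ e ∈ H, (s * Real.exp (la * f e))) * ∏ e ∈ G \ H, (1 - s))
      ≤ ∑ H ∈ G.powerset, ((∏ e ∈ H, (s * Real.exp (la * f e))) * ∏ e ∈ G \ H, (1 - s)) := by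
    refine sum_le_sum_of_subset_of_nonneg ?_ ?_
    · intro H hH
      exact mem_powerset.2 (mem_powersetCard.1 hH).1
    · intro H _ _
      exact mul_nonneg (prod_nonneg fun e _ => mul_nonneg h0 (Real.exp_pos _).le)
        (prod_nonneg fun e _ => hs1)
  refine le_trans (mul_le_mul_of_nonneg_left e2 (Real.exp_pos _).le) ?_
  rw [← prod_add]
  have e3 : ∏ e ∈ G, (s * Real.exp (la * f e) + (1 - s))
      ≤ ∏ e ∈ G, Real.exp (s * (la * f e) + la ^ 2 / 2) := by
    refine prod_le_prod (fun e _ => ?_) (fun e he => ?_)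
    · have := mul_nonneg h0 (Real.exp_pos (la * f e)).le
      linarith
    · refine le_trans (hoef s (la * f e) h0 h1) ?_
      refine Real.exp_le_exp.2 ?_
      obtain ⟨g0, g2⟩ := hf e he
      have : (la * f e) ^ 2 ≤ la ^ 2 * 4 := by
        rw [mul_pow]
        refine mul_le_mul_of_nonneg_left ?_ (sq_nonneg _)
        nlinarith
      linarith
  refine le_trans (mul_le_mul_of_nonneg_left e3 (Real.exp_pos _).le) ?_
  rw [← Real.exp_sum, ← Real.exp_add]
  refine Real.exp_le_exp.2 ?_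
  rw [sum_add_distrib, sum_const, nsmul_eq_mul, ← mul_sum, ← mul_sum]
  ring_nf
  exact le_rfl

open Classical in
theorem tail (G : Finset (Finset (Fin n))) (f : Finset (Fin n) → ℝ)
    (hf : ∀ e ∈ G, 0 ≤ f e ∧ f e ≤ 2) (s : ℝ) (h0 : 0 ≤ s) (h1 : s ≤ 1) (j : ℕ) (r : ℝ)
    (hr : 0 < r) :
    (∑ H ∈ G.powersetCard j, if |∑ e ∈ H, f e - s * ∑ e ∈ G, f e| ≤ r * G.card then (0 : ℝ) else 1)
      * (s ^ j * (1 - s) ^ (G.card - j)) ≤ 2 * Real.exp (- (r ^ 2 * G.card / 2)) := by
  have hs1 : 0 ≤ 1 - s := by linarith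
  have hw : 0 ≤ s ^ j * (1 - s) ^ (G.card - j) := by positivity
  have key : ∀ H ∈ G.powersetCard j,
      (if |∑ e ∈ H, f e - s * ∑ e ∈ G, f e| ≤ r * G.card then (0 : ℝ) else 1)
      ≤ Real.exp (- (r ^ 2 * G.card)) * (Real.exp (r * (∑ e ∈ H, f e - s * ∑ e ∈ G, f e))
        + Real.exp (-r * (∑ e ∈ H, f e - s * ∑ e ∈ G, f e))) := by
    intro H _
    set y := ∑ e ∈ H, f e - s * ∑ e ∈ G, f e
    split_ifs with h
    · positivity
    · push Not at h
      rw [mul_add, ← Real.exp_add, ← Real.exp_add]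
      rcases le_total 0 y with hy | hy
      · rw [abs_of_nonneg hy] at h
        have : (0 : ℝ) ≤ - (r ^ 2 * G.card) + r * y := by nlinarith
        have h2 := Real.one_le_exp this
        have h3 := Real.exp_pos (-(r ^ 2 * (G.card : ℝ)) + -r * y)
        linarith
      · rw [abs_of_nonpos hy] at h
        have : (0 : ℝ) ≤ - (r ^ 2 * G.card) + -r * y := by nlinarith
        have h2 := Real.one_le_exp this
        have h3 := Real.exp_pos (-(r ^ 2 * (G.card : ℝ)) + r * y)
        linarith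
  have c1 := chern G f hf s h0 h1 j r
  have c2 := chern G f hf s h0 h1 j (-r)
  have hsum : (∑ H ∈ G.powersetCard j,
      if |∑ e ∈ H, f e - s * ∑ e ∈ G, f e| ≤ r * G.card then (0 : ℝ) else 1)
      ≤ Real.exp (- (r ^ 2 * G.card)) *
        ((∑ H ∈ G.powersetCard j, Real.exp (r * (∑ e ∈ H, f e - s * ∑ e ∈ G, f e)))
        + ∑ H ∈ G.powersetCard j, Real.exp (-r * (∑ e ∈ H, f e - s * ∑ e ∈ G, f e))) := by
    refine le_trans (sum_le_sum key) (le_of_eq ?_)
    rw [← mul_sum, sum_add_distrib]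
  have e1 : Real.exp (-(r ^ 2 * (G.card : ℝ) / 2))
      = Real.exp (- (r ^ 2 * G.card)) * Real.exp (r ^ 2 * G.card / 2) := by
    rw [← Real.exp_add]
    congr 1
    ring
  calc _ ≤ (Real.exp (- (r ^ 2 * G.card)) *
        ((∑ H ∈ G.powersetCard j, Real.exp (r * (∑ e ∈ H, f e - s * ∑ e ∈ G, f e)))
        + ∑ H ∈ G.powersetCard j, Real.exp (-r * (∑ e ∈ H, f e - s * ∑ e ∈ G, f e))))
        * (s ^ j * (1 - s) ^ (G.card - j)) := mul_le_mul_of_nonneg_right hsum hw
    _ = Real.exp (- (r ^ 2 * G.card)) *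
        ((∑ H ∈ G.powersetCard j, Real.exp (r * (∑ e ∈ H, f e - s * ∑ e ∈ G, f e)))
          * (s ^ j * (1 - s) ^ (G.card - j))
        + (∑ H ∈ G.powersetCard j, Real.exp (-r * (∑ e ∈ H, f e - s * ∑ e ∈ G, f e)))
          * (s ^ j * (1 - s) ^ (G.card - j))) := by ring
    _ ≤ Real.exp (- (r ^ 2 * G.card)) * (Real.exp (r ^ 2 * G.card / 2)
        + Real.exp ((-r) ^ 2 * G.card / 2)) :=
        mul_le_mul_of_nonneg_left (add_le_add c1 c2) (Real.exp_pos _).le
    _ = _ := by
        rw [e1, neg_sq]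
        ring

theorem thm : StmtSAMP := by
  intro n j G r hG hm hj hr
  classical
  have hm0 : (0 : ℝ) < G.card := by exact_mod_cast hm
  set s : ℝ := (j : ℝ) / G.card with hs
  have h0 : 0 ≤ s := by positivity
  have h1 : s ≤ 1 := by
    rw [hs, div_le_one hm0]
    exact_mod_cast hj
  have hs1 : 0 ≤ 1 - s := by linarith
  set w : ℝ := s ^ j * (1 - s) ^ (G.card - j) with hw
  have hw0 : 0 ≤ w := by positivity
  have hmode : 1 ≤ ((G.card : ℝ) + 1) * ((G.card.choose j : ℝ) * w) := by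
    have := mode G.card j hj hm
    rw [← hs, mul_assoc (G.card.choose j : ℝ)] at this
    exact this
  have hpt : ∀ H ∈ G.powersetCard j, (if Close r G H then (0 : ℝ) else 1)
      ≤ ∑ S : Finset (Fin n), ∑ T : Finset (Fin n),
        (if |∑ e ∈ H, fe S T e - s * ∑ e ∈ G, fe S T e| ≤ r * G.card then (0 : ℝ) else 1) := by
    intro H hH
    have hHj := (mem_powersetCard.1 hH).2
    have hnn : ∀ S T : Finset (Fin n),
        (0 : ℝ) ≤ (if |∑ e ∈ H, fe S T e - s * ∑ e ∈ G, fe S T e| ≤ r * G.card then (0 : ℝ)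
          else 1) := by
      intro S T
      split_ifs <;> norm_num
    by_cases hc : Close r G H
    · rw [if_pos hc]
      exact sum_nonneg fun S _ => sum_nonneg fun T _ => hnn S T
    · rw [if_neg hc]
      unfold Close at hc
      push Not at hc
      obtain ⟨S, T, hST⟩ := hc
      rw [sum_ad, sum_ad, hHj] at hST
      have e1 : (1 : ℝ) = (if |∑ e ∈ H, fe S T e - s * ∑ e ∈ G, fe S T e| ≤ r * G.card
          then (0 : ℝ) else 1) := by
        rw [if_neg (not_le.2 hST)]
      calc (1 : ℝ) = _ := e1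
        _ ≤ ∑ T' : Finset (Fin n), (if |∑ e ∈ H, fe S T' e - s * ∑ e ∈ G, fe S T' e|
              ≤ r * G.card then (0 : ℝ) else 1) :=
            single_le_sum (f := fun T' => (if |∑ e ∈ H, fe S T' e - s * ∑ e ∈ G, fe S T' e|
              ≤ r * G.card then (0 : ℝ) else 1)) (fun T' _ => hnn S T') (mem_univ T)
        _ ≤ _ := single_le_sum (f := fun S' => ∑ T' : Finset (Fin n),
              (if |∑ e ∈ H, fe S' T' e - s * ∑ e ∈ G, fe S' T' e|
              ≤ r * G.card then (0 : ℝ) else 1))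
              (fun S' _ => sum_nonneg fun T' _ => hnn S' T') (mem_univ S)
  set cnt : ℝ := ∑ H ∈ G.powersetCard j, (if Close r G H then (0 : ℝ) else 1) with hcnt
  have hcnt0 : 0 ≤ cnt := sum_nonneg fun H _ => by split_ifs <;> norm_num
  have hcw : cnt * w ≤ 2 * 4 ^ n * Real.exp (- (r ^ 2 * G.card / 2)) := by
    have hfin : ∀ S T : Finset (Fin n), (∑ H ∈ G.powersetCard j,
        (if |∑ e ∈ H, fe S T e - s * ∑ e ∈ G, fe S T e| ≤ r * G.card then (0 : ℝ) else 1)) * w
        ≤ 2 * Real.exp (- (r ^ 2 * G.card / 2)) := fun S T =>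
      tail G (fe S T) (fun e he => ⟨fe_nonneg S T e, fe_le S T e (hG he)⟩) s h0 h1 j r hr
    calc cnt * w ≤ (∑ H ∈ G.powersetCard j, ∑ S : Finset (Fin n), ∑ T : Finset (Fin n),
        (if |∑ e ∈ H, fe S T e - s * ∑ e ∈ G, fe S T e| ≤ r * G.card then (0 : ℝ) else 1)) * w :=
          mul_le_mul_of_nonneg_right (sum_le_sum hpt) hw0
      _ = ∑ S : Finset (Fin n), ∑ T : Finset (Fin n), (∑ H ∈ G.powersetCard j,
        (if |∑ e ∈ H, fe S T e - s * ∑ e ∈ G, fe S T e| ≤ r * G.card then (0 : ℝ) else 1)) * w := by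
          rw [sum_comm, sum_mul]
          refine sum_congr rfl fun S _ => ?_
          rw [sum_comm, sum_mul]
      _ ≤ ∑ S : Finset (Fin n), ∑ T : Finset (Fin n), 2 * Real.exp (- (r ^ 2 * G.card / 2)) :=
          sum_le_sum fun S _ => sum_le_sum fun T _ => hfin S T
      _ = _ := by
          simp only [sum_const, card_univ, Fintype.card_finset, Fintype.card_fin, nsmul_eq_mul]
          have : (4 : ℝ) ^ n = 2 ^ n * 2 ^ n := by
            rw [← mul_pow]
            norm_num
          rw [this]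
          push_cast
          ring
  have hC : (0 : ℝ) ≤ ((G.card : ℝ) + 1) * (G.card.choose j : ℝ) := by positivity
  calc cnt = cnt * 1 := (mul_one _).symm
    _ ≤ cnt * (((G.card : ℝ) + 1) * ((G.card.choose j : ℝ) * w)) :=
        mul_le_mul_of_nonneg_left hmode hcnt0
    _ = (((G.card : ℝ) + 1) * (G.card.choose j : ℝ)) * (cnt * w) := by ring
    _ ≤ (((G.card : ℝ) + 1) * (G.card.choose j : ℝ))
        * (2 * 4 ^ n * Real.exp (- (r ^ 2 * G.card / 2))) := mul_le_mul_of_nonneg_left hcw hC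
    _ = _ := by ring

end Vale.Agent.P046.Sh.SAMP
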