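import Vale.Agent.P046.Sh.Defs

/-!
# P046 sharp constant, module SB: facts on the laws `sb`
-/

namespace Vale.Agent.P046.Sh.SB

open Finset
open Vale.Agent.P046
open Vale.Agent.P046.Sh

variable {n : ℕ}

lemma EX_eq_sum {mu : Finset (Finset (Fin n)) → ℝ} {m : ℕ}
    (h : ∀ G, mu G ≠ 0 → G ⊆ pairs n ∧ G.card = m) (F : Finset (Finset (Fin n)) → ℝ) :
    EX mu F = ∑ G ∈ (pairs n).powersetCard m, mu G * F G := by
  unfold EX
  symm
  apply Finset.sum_subset
  · intro G hG
    rw [mem_powersetCard] at hG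
    exact mem_powerset.2 hG.1
  · intro G _ hG
    by_cases h0 : mu G = 0
    · rw [h0, zero_mul]
    · exact absurd (mem_powersetCard.2 (h G h0)) hG

/-- double counting of pairs (set, element) -/
lemma double_count {α : Type*} [DecidableEq α] (G : Finset α) (j : ℕ)
    (psi : Finset α → α → ℝ) :
    ∑ K ∈ G.powersetCard (j + 1), ∑ e ∈ K, psi (K.erase e) e
      = ∑ H ∈ G.powersetCard j, ∑ e ∈ G \ H, psi H e := by
  rw [Finset.sum_sigma', Finset.sum_sigma']
  refine Finset.sum_bij' (fun x _ => ⟨x.1.erase x.2, x.2⟩) (fun y _ => ⟨insert y.2 y.1, y.2⟩)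
    ?_ ?_ ?_ ?_ ?_
  · rintro ⟨K, e⟩ hx
    rw [mem_sigma] at hx
    obtain ⟨hK, he⟩ := hx
    rw [mem_powersetCard] at hK
    rw [mem_sigma]
    refine ⟨mem_powersetCard.2 ⟨(erase_subset _ _).trans hK.1, ?_⟩, ?_⟩
    · simp only
      rw [card_erase_of_mem he, hK.2]
      rfl
    · simp only
      rw [mem_sdiff]
      exact ⟨hK.1 he, notMem_erase _ _⟩
  · rintro ⟨H, e⟩ hx
    rw [mem_sigma] at hx
    obtain ⟨hH, he⟩ := hx
    rw [mem_powersetCard] at hH
    simp only at he hH
    rw [mem_sdiff] at he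
    rw [mem_sigma]
    refine ⟨mem_powersetCard.2 ⟨insert_subset he.1 hH.1, ?_⟩, ?_⟩
    · simp only
      rw [card_insert_of_notMem he.2, hH.2]
    · simp only
      exact mem_insert_self _ _
  · rintro ⟨K, e⟩ hx
    rw [mem_sigma] at hx
    obtain ⟨_, he⟩ := hx
    simp only at he
    simp only
    rw [insert_erase he]
  · rintro ⟨H, e⟩ hx
    rw [mem_sigma] at hx
    obtain ⟨_, he⟩ := hx
    simp only at he
    rw [mem_sdiff] at he
    simp only
    rw [erase_insert he.2]
  · rintro ⟨K, e⟩ _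
    rfl

lemma choose_real {m j : ℕ} (h : j < m) :
    ((j : ℝ) + 1) * (m.choose (j + 1) : ℝ) = ((m : ℝ) - j) * (m.choose j : ℝ) := by
  have h1 : m.choose (j + 1) * (j + 1) = m.choose j * (m - j) := Nat.choose_succ_right_eq m j
  have h2 : ((m - j : ℕ) : ℝ) = (m : ℝ) - j := by
    rw [Nat.cast_sub h.le]
  have h3 : ((m.choose (j + 1) * (j + 1) : ℕ) : ℝ) = ((m.choose j * (m - j) : ℕ) : ℝ) := by
    rw [h1]
  push_cast at h3
  rw [h2] at h3
  linarith

lemma sb_supp {mu : Finset (Finset (Fin n)) → ℝ} {m j : ℕ} (H : Finset (Finset (Fin n)))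
    (h : sb mu m j H ≠ 0) : H ⊆ pairs n ∧ H.card = j := by
  classical
  unfold sb at h
  split_ifs at h with hc
  · refine ⟨?_, hc⟩
    by_contra hH
    apply h
    have : (∑ G ∈ (pairs n).powersetCard m, if H ⊆ G then mu G else 0) = 0 := by
      apply Finset.sum_eq_zero
      intro G hG
      rw [mem_powersetCard] at hG
      rw [if_neg]
      intro hHG
      exact hH (hHG.trans hG.1)
    rw [this, zero_div]
  · exact absurd rfl h

lemma sb_nonneg {mu : Finset (Finset (Fin n)) → ℝ} {m j : ℕ} (hmu : ∀ G, 0 ≤ mu G)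
    (H : Finset (Finset (Fin n))) : 0 ≤ sb mu m j H := by
  classical
  unfold sb
  split_ifs with hc
  · apply div_nonneg
    · apply Finset.sum_nonneg
      intro G _
      split_ifs
      · exact hmu G
      · exact le_rfl
    · positivity
  · exact le_rfl

lemma EX_sb {mu : Finset (Finset (Fin n)) → ℝ} {m : ℕ}
    (h : ∀ G, mu G ≠ 0 → G ⊆ pairs n ∧ G.card = m) (j : ℕ)
    (F : Finset (Finset (Fin n)) → ℝ) :
    EX (sb mu m j) F = EX mu (fun G => (∑ H ∈ G.powersetCard j, F H) / (m.choose j : ℝ)) := by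
  classical
  rw [EX_eq_sum (m := j) (fun G hG => sb_supp G hG) F, EX_eq_sum h]
  have h1 : ∀ H ∈ (pairs n).powersetCard j, sb mu m j H * F H
      = ∑ G ∈ (pairs n).powersetCard m,
        (if H ⊆ G then mu G * (F H / (m.choose j : ℝ)) else 0) := by
    intro H hH
    rw [mem_powersetCard] at hH
    unfold sb
    rw [if_pos hH.2, div_mul_eq_mul_div, Finset.sum_mul, Finset.sum_div]
    apply Finset.sum_congr rfl
    intro G _
    split_ifs
    · ring
    · simp
  rw [Finset.sum_congr rfl h1, Finset.sum_comm]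
  apply Finset.sum_congr rfl
  intro G hG
  rw [mem_powersetCard] at hG
  rw [← Finset.sum_filter, Finset.sum_div, Finset.mul_sum]
  apply Finset.sum_congr
  · ext H
    rw [mem_filter, mem_powersetCard, mem_powersetCard]
    constructor
    · rintro ⟨⟨_, h2⟩, h3⟩
      exact ⟨h3, h2⟩
    · rintro ⟨h2, h3⟩
      exact ⟨⟨h2.trans hG.1, h3⟩, h2⟩
  · intro H _
    rfl

lemma EX_congr {mu : Finset (Finset (Fin n)) → ℝ} {F F' : Finset (Finset (Fin n)) → ℝ}
    (h : ∀ G, mu G ≠ 0 → F G = F' G) : EX mu F = EX mu F' := by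
  unfold EX
  apply Finset.sum_congr rfl
  intro G _
  by_cases h0 : mu G = 0
  · rw [h0, zero_mul, zero_mul]
  · rw [h G h0]

lemma sb_prb {mu : Finset (Finset (Fin n)) → ℝ} {m : ℕ} (h : Prb mu m) {j : ℕ} (hj : j ≤ m) :
    Prb (sb mu m j) j := by
  refine ⟨sb_nonneg h.1, fun G hG => sb_supp G hG, ?_⟩
  rw [EX_sb h.2.1 j]
  refine Eq.trans (EX_congr ?_) h.2.2
  intro G hG
  have hc : (m.choose j : ℝ) ≠ 0 := by
    have := Nat.choose_pos hj
    positivity
  rw [Finset.sum_const, card_powersetCard, (h.2.1 G hG).2, nsmul_eq_mul, mul_one, div_self hc]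

lemma mi_sb {mu : Finset (Finset (Fin n)) → ℝ} {m : ℕ}
    (h : ∀ G, mu G ≠ 0 → G ⊆ pairs n ∧ G.card = m) {j : ℕ} (hj : j < m)
    (H : Finset (Finset (Fin n))) : mi (sb mu m (j + 1)) j H = sb mu m j H := by
  classical
  unfold mi
  by_cases hc : H.card = j
  · have hcj : (m.choose j : ℝ) ≠ 0 := by
      have := Nat.choose_pos hj.le
      positivity
    have hcj1 : (m.choose (j + 1) : ℝ) ≠ 0 := by
      have := Nat.choose_pos (Nat.succ_le_of_lt hj)
      positivity
    have hj1 : ((j : ℝ) + 1) ≠ 0 := by positivity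
    have h1 : ∀ e ∈ pairs n \ H, sb mu m (j + 1) (insert e H)
        = ∑ G ∈ (pairs n).powersetCard m,
          (if H ⊆ G then (if e ∈ G then mu G / (m.choose (j + 1) : ℝ) else 0) else 0) := by
      intro e he
      rw [mem_sdiff] at he
      unfold sb
      rw [if_pos (by rw [card_insert_of_notMem he.2, hc]), Finset.sum_div]
      apply Finset.sum_congr rfl
      intro G _
      by_cases h2 : H ⊆ G
      · by_cases h3 : e ∈ G
        · rw [if_pos (insert_subset h3 h2), if_pos h2, if_pos h3]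
        · rw [if_neg (fun h4 => h3 (h4 (mem_insert_self _ _))), if_pos h2, if_neg h3, zero_div]
      · rw [if_neg (fun h4 => h2 ((subset_insert _ _).trans h4)), if_neg h2, zero_div]
    rw [Finset.sum_congr rfl h1, Finset.sum_comm]
    unfold sb
    rw [if_pos hc, Finset.sum_div, Finset.sum_div]
    apply Finset.sum_congr rfl
    intro G hG
    rw [mem_powersetCard] at hG
    by_cases h2 : H ⊆ G
    · simp only [if_pos h2]
      rw [← Finset.sum_filter, Finset.sum_const, nsmul_eq_mul]
      have h3 : (pairs n \ H).filter (fun e => e ∈ G) = G \ H := by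
        ext e
        rw [mem_filter, mem_sdiff, mem_sdiff]
        constructor
        · rintro ⟨⟨_, h5⟩, h6⟩
          exact ⟨h6, h5⟩
        · rintro ⟨h5, h6⟩
          exact ⟨⟨hG.1 h5, h6⟩, h5⟩
      have h4 : ((G \ H).card : ℝ) = (m : ℝ) - j := by
        rw [card_sdiff_of_subset h2, hG.2, hc, Nat.cast_sub hj.le]
      rw [h3, h4]
      have h5 := choose_real hj
      rw [mul_div_assoc', div_div, div_eq_div_iff (by positivity) hcj]
      have h6 : (m : ℝ) - j ≠ 0 := by
        have : (j : ℝ) < m := by exact_mod_cast hj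
        linarith
      calc ((m : ℝ) - j) * mu G * (m.choose j : ℝ)
          = mu G * (((m : ℝ) - j) * (m.choose j : ℝ)) := by ring
        _ = mu G * (((j : ℝ) + 1) * (m.choose (j + 1) : ℝ)) := by rw [h5]
        _ = mu G * ((m.choose (j + 1) : ℝ) * ((j : ℝ) + 1)) := by ring
    · simp only [if_neg h2]
      simp
  · have h1 : ∀ e ∈ pairs n \ H, sb mu m (j + 1) (insert e H) = 0 := by
      intro e he
      rw [mem_sdiff] at he
      unfold sb
      rw [if_neg]
      rw [card_insert_of_notMem he.2]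
      omega
    rw [Finset.sum_congr rfl h1]
    unfold sb
    rw [if_neg hc]
    simp

lemma sb_self {mu : Finset (Finset (Fin n)) → ℝ} {m : ℕ}
    {G : Finset (Finset (Fin n))} (hG : G ∈ (pairs n).powersetCard m) : sb mu m m G = mu G := by
  classical
  have hG' := hG
  rw [mem_powersetCard] at hG'
  unfold sb
  rw [if_pos hG'.2, Nat.choose_self, Nat.cast_one, div_one]
  rw [Finset.sum_eq_single G]
  · rw [if_pos (Finset.Subset.refl G)]
  · intro G' hG1 hne
    rw [mem_powersetCard] at hG1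
    rw [if_neg]
    intro hsub
    apply hne
    exact (Finset.eq_of_subset_of_card_le hsub (by rw [hG1.2, hG'.2])).symm
  · intro h
    exact absurd hG h

theorem thm : StmtSB := by
  intro n m mu h hm
  refine ⟨fun j hj => sb_prb h hj, fun j hj H _ => mi_sb h.2.1 hj H, ?_, ?_,
    fun j _ F => EX_sb h.2.1 j F, ?_⟩
  · unfold DD
    apply Finset.sum_congr rfl
    intro G hG
    rw [sb_self hG]
  · unfold DD
    rw [powersetCard_zero, Finset.sum_singleton]
    have h1 := (sb_prb h (Nat.zero_le m)).2.2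
    have h2 : EX (sb mu m 0) (fun _ => 1) = sb mu m 0 ∅ := by
      rw [EX_eq_sum (m := 0) (fun G hG => sb_supp G hG), powersetCard_zero, Finset.sum_singleton,
        mul_one]
    rw [h2] at h1
    rw [h1]
    simp
  · intro j hj psi
    rw [EX_sb h.2.1 (j + 1)]
    apply EX_congr
    intro G hG
    have hcj : (m.choose j : ℝ) ≠ 0 := by
      have := Nat.choose_pos hj.le
      positivity
    have hcj1 : (m.choose (j + 1) : ℝ) ≠ 0 := by
      have := Nat.choose_pos (Nat.succ_le_of_lt hj)
      positivity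
    have hj1 : ((j : ℝ) + 1) ≠ 0 := by positivity
    have h6 : (m : ℝ) - j ≠ 0 := by
      have : (j : ℝ) < m := by exact_mod_cast hj
      linarith
    rw [← Finset.sum_div, ← Finset.sum_div, double_count, div_div, div_div,
      choose_real hj]

end Vale.Agent.P046.Sh.SB
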