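import Vale.Agent.P046.Sh.DynDefs

/-! # P046, module SEQ: discrete Gronwall for the killed functional -/

namespace Vale.Agent.P046.Sh.SEQ

open Finset

lemma exp_le_one_sub {a : ℝ} (h0 : 0 ≤ a) (h1 : a ≤ 1 / 3) :
    Real.exp (-(a + a ^ 2)) ≤ 1 - a := by
  have hx : 0 ≤ a + a ^ 2 := by positivity
  have h2 := Real.quadratic_le_exp_of_nonneg hx
  have h4 : 0 ≤ a ^ 2 / 2 * (1 - a - a ^ 2 - a ^ 3) := by
    apply mul_nonneg (by positivity)
    have : a ^ 2 ≤ (1 / 3) ^ 2 := by gcongr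
    have : a ^ 3 ≤ (1 / 3) ^ 3 := by gcongr
    linarith
  have h3 : 1 ≤ (1 - a) * Real.exp (a + a ^ 2) := by
    have h5 : 1 ≤ (1 - a) * (1 + (a + a ^ 2) + (a + a ^ 2) ^ 2 / 2) := by nlinarith [h4]
    exact h5.trans (mul_le_mul_of_nonneg_left h2 (by linarith))
  rw [Real.exp_neg]
  have hpos := Real.exp_pos (a + a ^ 2)
  rw [inv_eq_one_div, div_le_iff₀ hpos]
  exact h3

lemma log_ge {x : ℝ} (h0 : 0 ≤ x) : x - x ^ 2 / 2 ≤ Real.log (1 + x) := by
  have h1 := Real.le_log_one_add_of_nonneg h0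
  refine le_trans ?_ h1
  rw [le_div_iff₀ (by linarith)]
  nlinarith [pow_nonneg h0 3]

lemma one_div_le {m : ℝ} (hm : 0 < m) :
    1 / m ≤ (1 / 3) * (Real.log (m + 3) - Real.log m) + (3 / 2) / m ^ 2 := by
  have h1 := log_ge (x := 3 / m) (by positivity)
  have h2 : Real.log (m + 3) - Real.log m = Real.log (1 + 3 / m) := by
    rw [← Real.log_div (by linarith) hm.ne']
    congr 1
    field_simp
  rw [h2]
  have h3 : (3 / m - (3 / m) ^ 2 / 2) / 3 = 1 / m - (3 / 2) / m ^ 2 := by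
    field_simp
  linarith

lemma step_a (C3 kap s x r : ℝ) (hC3 : 0 < C3) (hkap : kap = C3 / 3) (hs0 : 0 < s)
    (hm : s / 3 ≤ x) (hr0 : 0 ≤ r) (hr1 : r ≤ C3) (hr2 : r ≤ 29 / 10 ∨ x + 3 ≤ 2 * s) :
    r / x + (r / x) ^ 2 ≤ (29 / 30) * (Real.log (x + 3) - Real.log x)
      + kap * (min (Real.log (x + 3)) (Real.log (2 * s))
          - min (Real.log x) (Real.log (2 * s)))
      + ((3 / 2) * C3 + C3 ^ 2) * (9 / s ^ 2) := by
  have hkap0 : 0 < kap := by rw [hkap]; positivity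
  have hxpos : 0 < x := by linarith [div_pos hs0 (by norm_num : (0 : ℝ) < 3)]
  have hlog : 0 ≤ Real.log (x + 3) - Real.log x := by
    have := Real.log_le_log hxpos (by linarith : x ≤ x + 3)
    linarith
  have hll : 0 ≤ min (Real.log (x + 3)) (Real.log (2 * s))
      - min (Real.log x) (Real.log (2 * s)) := by
    have : min (Real.log x) (Real.log (2 * s)) ≤
        min (Real.log (x + 3)) (Real.log (2 * s)) := min_le_min_right _ (by linarith)
    linarith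
  have hxs : 1 / x ^ 2 ≤ 9 / s ^ 2 := by
    rw [div_le_div_iff₀ (by positivity) (by positivity)]
    nlinarith
  have h6 : r / x ≤ (r / 3) * (Real.log (x + 3) - Real.log x)
      + (3 / 2) * C3 * (1 / x ^ 2) := by
    have h7 := mul_le_mul_of_nonneg_left (one_div_le hxpos) hr0
    have h8 : r * ((3 / 2) / x ^ 2) ≤ (3 / 2) * C3 * (1 / x ^ 2) := by
      have e : r * ((3 / 2) / x ^ 2) = (3 / 2) * r * (1 / x ^ 2) := by ring
      rw [e]
      gcongr
    have e2 : r * (1 / x) = r / x := by ring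
    rw [e2] at h7
    linarith
  have h9 : (r / x) ^ 2 ≤ C3 ^ 2 * (1 / x ^ 2) := by
    have e : (r / x) ^ 2 = r ^ 2 * (1 / x ^ 2) := by
      rw [div_pow]; ring
    rw [e]
    gcongr
  have h10 : (r / 3) * (Real.log (x + 3) - Real.log x) ≤
      (29 / 30) * (Real.log (x + 3) - Real.log x) +
      kap * (min (Real.log (x + 3)) (Real.log (2 * s))
          - min (Real.log x) (Real.log (2 * s))) := by
    rcases hr2 with h | h
    · have h11 : (r / 3) * (Real.log (x + 3) - Real.log x) ≤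
        (29 / 30) * (Real.log (x + 3) - Real.log x) := by
        apply mul_le_mul_of_nonneg_right _ hlog
        linarith
      have := mul_nonneg hkap0.le hll
      linarith
    · have h12 : min (Real.log (x + 3)) (Real.log (2 * s))
          - min (Real.log x) (Real.log (2 * s)) = Real.log (x + 3) - Real.log x := by
        rw [min_eq_left, min_eq_left]
        · exact Real.log_le_log hxpos (by linarith)
        · exact Real.log_le_log (by linarith) h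
      rw [h12]
      have h13 : (r / 3) * (Real.log (x + 3) - Real.log x) ≤
        kap * (Real.log (x + 3) - Real.log x) := by
        apply mul_le_mul_of_nonneg_right _ hlog
        rw [hkap]
        linarith
      have := mul_nonneg (by norm_num : (0 : ℝ) ≤ 29 / 30) hlog
      linarith
  have h14 : ((3 / 2) * C3 + C3 ^ 2) * (1 / x ^ 2) ≤
      ((3 / 2) * C3 + C3 ^ 2) * (9 / s ^ 2) := by
    apply mul_le_mul_of_nonneg_left hxs
    positivity
  linarith [h6, h9, h10, h14]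

lemma step_m (c1 C3 s eps X p a g g' q y A B : ℝ) (hc1 : 0 < c1) (heps : 0 < eps)
    (hX : 0 < X) (p0 : 0 < p) (p1 : p ≤ 1) (a0 : 0 ≤ a) (a2 : a ≤ 3 * C3 / s)
    (hq : 0 ≤ q) (hy : 0 ≤ y) (h2 : (1 - a) * g' ≤ g + a + eps - c1 * X * q)
    (pm : p * g + c1 * p * y ≤ A + B) :
    p * (1 - a) * g' + c1 * (p * (1 - a)) * (y + X * q) ≤ A + (B + (3 * C3 / s + eps)) := by
  have h3 := mul_le_mul_of_nonneg_left h2 p0.le
  have h4 : p * (a + eps) ≤ 3 * C3 / s + eps := by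
    calc p * (a + eps) ≤ 1 * (a + eps) := by
          apply mul_le_mul_of_nonneg_right p1
          linarith
      _ ≤ _ := by linarith
  have h6 : p * (1 - a) ≤ p := by nlinarith
  have h5 : c1 * (p * (1 - a)) * (y + X * q) ≤ c1 * p * (y + X * q) := by
    apply mul_le_mul_of_nonneg_right
    · exact mul_le_mul_of_nonneg_left h6 hc1.le
    · positivity
  have e1 : p * ((1 - a) * g') = p * (1 - a) * g' := by ring
  have e2 : p * (g + a + eps - c1 * X * q) = p * g + p * (a + eps) - c1 * p * (X * q) := by ring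
  have e3 : c1 * p * (y + X * q) = c1 * p * y + c1 * p * (X * q) := by ring
  rw [e1, e2] at h3
  rw [e3] at h5
  linarith

lemma fin_lo (C3 kap s K m0 m1 N p : ℝ) (hC3 : 0 < C3)
    (hkap : kap = C3 / 3) (hs0 : 0 < s)
    (hs6 : 3 * K * ((3 / 2) * C3 + C3 ^ 2) ≤ s) (hK : 4 ≤ K)
    (hM1 : s / 3 ≤ m1) (hm0 : 0 < m0) (hMK : m0 ≤ K * s) (hN1 : N ≤ K * s / 3)
    (pe : Real.exp (-((29 / 30) * (Real.log m0 - Real.log m1)
        + kap * (min (Real.log m0) (Real.log (2 * s)) - min (Real.log m1) (Real.log (2 * s)))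
        + N * (((3 / 2) * C3 + C3 ^ 2) * (9 / s ^ 2)))) ≤ p) :
    Real.exp (-((29 / 30) * Real.log (3 * K) + kap * Real.log 6 + 1)) ≤ p := by
  have hkap0 : 0 < kap := by rw [hkap]; positivity
  have hm1pos : 0 < m1 := by linarith [div_pos hs0 (by norm_num : (0 : ℝ) < 3)]
  refine le_trans ?_ pe
  apply Real.exp_le_exp.mpr
  have hA : Real.log m0 - Real.log m1 ≤ Real.log (3 * K) := by
    rw [← Real.log_div hm0.ne' hm1pos.ne']
    apply Real.log_le_log (by positivity)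
    rw [div_le_iff₀ hm1pos]
    nlinarith
  have hB : min (Real.log m0) (Real.log (2 * s)) - min (Real.log m1) (Real.log (2 * s))
      ≤ Real.log 6 := by
    have h1 : min (Real.log m0) (Real.log (2 * s)) ≤ Real.log (2 * s) := min_le_right _ _
    have h2 : Real.log (s / 3) ≤ min (Real.log m1) (Real.log (2 * s)) := by
      apply le_min
      · exact Real.log_le_log (by positivity) hM1
      · exact Real.log_le_log (by positivity) (by linarith)
    have h3 : Real.log (2 * s) - Real.log (s / 3) = Real.log 6 := by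
      rw [← Real.log_div (by positivity) (by positivity)]
      congr 1
      field_simp
      norm_num
    linarith
  have hC : N * (((3 / 2) * C3 + C3 ^ 2) * (9 / s ^ 2)) ≤ 1 := by
    have h1 : N * (((3 / 2) * C3 + C3 ^ 2) * (9 / s ^ 2)) ≤
        (K * s / 3) * (((3 / 2) * C3 + C3 ^ 2) * (9 / s ^ 2)) :=
      mul_le_mul_of_nonneg_right hN1 (by positivity)
    have h2 : (K * s / 3) * (((3 / 2) * C3 + C3 ^ 2) * (9 / s ^ 2)) =
        (3 * K * ((3 / 2) * C3 + C3 ^ 2)) / s := by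
      field_simp
      ring
    have h3 : (3 * K * ((3 / 2) * C3 + C3 ^ 2)) / s ≤ 1 := by
      rw [div_le_one hs0]
      exact hs6
    linarith
  have hB' := mul_le_mul_of_nonneg_left hB hkap0.le
  linarith

lemma fin_hi (c1 C3 s K eps G0 m1 N p g1 y : ℝ) (hs0 : 0 < s)
    (hC3 : 0 < C3) (hs4 : C3 ≤ eps * s) (hs5 : 1 ≤ eps * s) (hK : 4 ≤ K)
    (heps : 0 < eps) (hG0 : 0 ≤ G0)
    (hm1pos : 0 < m1) (hmm : m1 ≤ K * s) (hN1 : N ≤ K * s / 3)
    (hg1 : - (eps * m1) - 1 ≤ g1) (p0 : 0 < p) (p1 : p ≤ 1)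
    (pm : p * g1 + c1 * p * y ≤ G0 + N * (3 * C3 / s + eps)) :
    c1 * p * y ≤ 4 * (G0 + eps * K * s) := by
  have h1 : N * (3 * C3 / s + eps) ≤ (K * s / 3) * (3 * C3 / s + eps) :=
    mul_le_mul_of_nonneg_right hN1 (by positivity)
  have h2 : (K * s / 3) * (3 * C3 / s + eps) = K * C3 + eps * K * s / 3 := by
    field_simp
  have h3 : K * C3 ≤ K * (eps * s) := mul_le_mul_of_nonneg_left hs4 (by linarith)
  have h4 : - (p * g1) ≤ eps * m1 + 1 := by
    have h5 : - g1 ≤ eps * m1 + 1 := by linarith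
    have h6 : 0 ≤ eps * m1 + 1 := by positivity
    have h7 := mul_le_mul_of_nonneg_left h5 p0.le
    have h8 : p * (eps * m1 + 1) ≤ 1 * (eps * m1 + 1) :=
      mul_le_mul_of_nonneg_right p1 h6
    linarith
  have h9 : eps * m1 ≤ eps * (K * s) := mul_le_mul_of_nonneg_left hmm heps.le
  have h10 : 1 ≤ K * (eps * s) := by
    have : 1 * 1 ≤ K * (eps * s) :=
      mul_le_mul (by linarith) hs5 (by norm_num) (by linarith)
    linarith
  have h11 : 0 ≤ eps * K * s := by positivity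
  have e3 : K * (eps * s) = eps * K * s := by ring
  have e4 : eps * (K * s) = eps * K * s := by ring
  rw [e3] at h3 h10
  rw [e4] at h9
  rw [h2] at h1
  linarith

lemma fin_c (c1 C3 kap s K eps G0 m0 m1 N p g1 y : ℝ) (hc1 : 0 < c1) (hC3 : 0 < C3)
    (hkap : kap = C3 / 3) (hs0 : 0 < s) (hs4 : C3 ≤ eps * s) (hs5 : 1 ≤ eps * s)
    (hs6 : 3 * K * ((3 / 2) * C3 + C3 ^ 2) ≤ s) (hK : 4 ≤ K) (heps : 0 < eps) (hG0 : 0 ≤ G0)
    (hM1 : s / 3 ≤ m1) (hm0 : 0 < m0) (hMK : m0 ≤ K * s) (hN1 : N ≤ K * s / 3)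
    (hmm : m1 ≤ K * s)
    (hg1 : - (eps * m1) - 1 ≤ g1) (p0 : 0 < p) (p1 : p ≤ 1)
    (pe : Real.exp (-((29 / 30) * (Real.log m0 - Real.log m1)
        + kap * (min (Real.log m0) (Real.log (2 * s)) - min (Real.log m1) (Real.log (2 * s)))
        + N * (((3 / 2) * C3 + C3 ^ 2) * (9 / s ^ 2)))) ≤ p)
    (pm : p * g1 + c1 * p * y ≤ G0 + N * (3 * C3 / s + eps)) (hy : 0 ≤ y) :
    c1 * y ≤ 4 * (G0 + eps * K * s) *
        Real.exp ((29 / 30) * Real.log (3 * K) + kap * Real.log 6 + 1) := by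
  have hm1pos : 0 < m1 := by linarith [div_pos hs0 (by norm_num : (0 : ℝ) < 3)]
  have hub := fin_hi c1 C3 s K eps G0 m1 N p g1 y hs0 hC3 hs4 hs5 hK heps hG0 hm1pos hmm hN1
    hg1 p0 p1 pm
  have hlo := fin_lo C3 kap s K m0 m1 N p hC3 hkap hs0 hs6 hK hM1 hm0 hMK hN1 pe
  obtain ⟨X, hX⟩ : ∃ X, X = (29 / 30) * Real.log (3 * K) + kap * Real.log 6 + 1 := ⟨_, rfl⟩
  rw [← hX] at hlo ⊢
  have h1 : Real.exp (-X) * (c1 * y) ≤ 4 * (G0 + eps * K * s) := by
    have h3 : Real.exp (-X) * (c1 * y) ≤ p * (c1 * y) :=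
      mul_le_mul_of_nonneg_right hlo (by positivity)
    have h4 : p * (c1 * y) = c1 * p * y := by ring
    linarith
  have h2 : c1 * y = Real.exp X * (Real.exp (-X) * (c1 * y)) := by
    rw [← mul_assoc, ← Real.exp_add]
    simp
  rw [h2]
  have := mul_le_mul_of_nonneg_left h1 (Real.exp_pos X).le
  linarith

/-- the combinatorial core -/
lemma core (c1 C3 kap s K eps G0 : ℝ) (M i0 i1 : ℕ) (g q r : ℕ → ℝ) (hc1 : 0 < c1)
    (hC3 : 0 < C3) (hkap : kap = C3 / 3) (hs : 8 ≤ s) (hs3 : 9 * C3 ≤ s)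
    (hs4 : C3 ≤ eps * s) (hs5 : 1 ≤ eps * s)
    (hs6 : 3 * K * ((3 / 2) * C3 + C3 ^ 2) ≤ s) (hK : 4 ≤ K)
    (heps : 0 < eps) (hi : i0 ≤ i1) (hG0 : 0 ≤ G0)
    (hM1 : s / 3 ≤ (M : ℝ) - 3 * i1) (hMK : (M : ℝ) - 3 * i0 ≤ K * s)
    (hq : ∀ i, 0 ≤ q i) (hg0 : g i0 ≤ G0)
    (hg1 : - (eps * ((M : ℝ) - 3 * i1)) - 1 ≤ g i1)
    (hr : ∀ i, i0 < i → i ≤ i1 → 0 ≤ r i ∧ r i ≤ C3 ∧
      (r i ≤ 29 / 10 ∨ (M : ℝ) - 3 * i + 3 ≤ 2 * s))
    (hrec : ∀ i, i0 ≤ i → i < i1 → g (i + 1) ≤ g i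
      + r (i + 1) * ((g (i + 1) + 1) / ((M : ℝ) - 3 * (i + 1)))
      + eps - c1 * ((M : ℝ) - 3 * (i + 1)) * q (i + 1)) :
    c1 * ∑ j ∈ Ioc i0 i1, ((M : ℝ) - 3 * j) * q j ≤
      4 * (G0 + eps * K * s) *
        Real.exp ((29 / 30) * Real.log (3 * K) + kap * Real.log 6 + 1) := by
  have hs0 : 0 < s := by linarith
  have hkap0 : 0 < kap := by rw [hkap]; positivity
  have hmono : ∀ i : ℕ, i ≤ i1 → s / 3 ≤ (M : ℝ) - 3 * i := by
    intro i hi'
    have : (i : ℝ) ≤ i1 := by exact_mod_cast hi'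
    linarith
  obtain ⟨a, ha⟩ : ∃ a : ℕ → ℝ, ∀ j, a j = r j / ((M : ℝ) - 3 * j) := ⟨_, fun j => rfl⟩
  obtain ⟨l, hl⟩ : ∃ l : ℝ → ℝ, ∀ x, l x = min (Real.log x) (Real.log (2 * s)) :=
    ⟨_, fun j => rfl⟩
  have ha0 : ∀ i, i0 < i → i ≤ i1 → 0 ≤ a i ∧ a i ≤ 1 / 3 ∧ a i ≤ 3 * C3 / s := by
    intro i h1 h2
    obtain ⟨hr0, hr1, -⟩ := hr i h1 h2
    have hm := hmono i h2
    have hmpos : 0 < (M : ℝ) - 3 * i := by linarith [div_pos hs0 (by norm_num : (0 : ℝ) < 3)]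
    have h5 : a i ≤ 3 * C3 / s := by
      rw [ha, div_le_div_iff₀ hmpos hs0]
      nlinarith
    refine ⟨by rw [ha]; positivity, ?_, h5⟩
    refine h5.trans ?_
    rw [div_le_div_iff₀ hs0 (by norm_num)]
    linarith
  have haa : ∀ i, i0 ≤ i → i < i1 → a (i + 1) + a (i + 1) ^ 2 ≤
      (29 / 30) * (Real.log ((M : ℝ) - 3 * i) - Real.log ((M : ℝ) - 3 * (i + 1 : ℕ)))
      + kap * (l ((M : ℝ) - 3 * i) - l ((M : ℝ) - 3 * (i + 1 : ℕ)))
      + ((3 / 2) * C3 + C3 ^ 2) * (9 / s ^ 2) := by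
    intro i h1 h2
    obtain ⟨hr0, hr1, hr2⟩ := hr (i + 1) (by omega) (by omega)
    have hm := hmono (i + 1) (by omega)
    have hx3 : (M : ℝ) - 3 * i = (M : ℝ) - 3 * (i + 1 : ℕ) + 3 := by push_cast; ring
    rw [hx3, ha, hl, hl]
    exact step_a C3 kap s _ _ hC3 hkap hs0 hm hr0 hr1 hr2
  -- the induction
  have main : ∀ i, i0 ≤ i → i ≤ i1 →
      0 < (∏ j ∈ Ioc i0 i, (1 - a j)) ∧ (∏ j ∈ Ioc i0 i, (1 - a j)) ≤ 1 ∧
      Real.exp (-((29 / 30) * (Real.log ((M : ℝ) - 3 * i0) - Real.log ((M : ℝ) - 3 * i))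
        + kap * (l ((M : ℝ) - 3 * i0) - l ((M : ℝ) - 3 * i))
        + ((i : ℝ) - i0) * (((3 / 2) * C3 + C3 ^ 2) * (9 / s ^ 2)))) ≤
        (∏ j ∈ Ioc i0 i, (1 - a j)) ∧
      (∏ j ∈ Ioc i0 i, (1 - a j)) * g i
        + c1 * (∏ j ∈ Ioc i0 i, (1 - a j)) * ∑ j ∈ Ioc i0 i, ((M : ℝ) - 3 * j) * q j
        ≤ G0 + ((i : ℝ) - i0) * (3 * C3 / s + eps) := by
    intro i hi0
    induction i, hi0 using Nat.le_induction with
    | base =>
      intro _
      simp
      exact hg0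
    | succ i hi0 ih =>
      intro hi1
      obtain ⟨p0, p1, pe, pm⟩ := ih (by omega)
      obtain ⟨a0, a1, a2⟩ := ha0 (i + 1) (by omega) hi1
      have hr1 := hrec i hi0 (by omega)
      rw [Finset.prod_Ioc_succ_top (by omega), Finset.sum_Ioc_succ_top (by omega)]
      set p := ∏ j ∈ Ioc i0 i, (1 - a j) with hp
      set y := ∑ j ∈ Ioc i0 i, ((M : ℝ) - 3 * j) * q j with hy
      have hy0 : 0 ≤ y := by
        rw [hy]
        apply Finset.sum_nonneg
        intro j hj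
        rw [Finset.mem_Ioc] at hj
        have := hmono j (by omega)
        have : 0 ≤ (M : ℝ) - 3 * j := by linarith
        exact mul_nonneg this (hq j)
      have hm := hmono (i + 1) hi1
      have hxpos : 0 < (M : ℝ) - 3 * (i + 1 : ℕ) := by
        linarith [div_pos hs0 (by norm_num : (0 : ℝ) < 3)]
      refine ⟨mul_pos p0 (by linarith), ?_, ?_, ?_⟩
      · calc p * (1 - a (i + 1)) ≤ 1 * 1 :=
            mul_le_mul p1 (by linarith) (by linarith) (by norm_num)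
          _ = 1 := by norm_num
      · have h1 := exp_le_one_sub a0 a1
        have h2 := haa i hi0 (by omega)
        have h3 : Real.exp (-((29 / 30) * (Real.log ((M : ℝ) - 3 * i0)
              - Real.log ((M : ℝ) - 3 * i))
            + kap * (l ((M : ℝ) - 3 * i0) - l ((M : ℝ) - 3 * i))
            + ((i : ℝ) - i0) * (((3 / 2) * C3 + C3 ^ 2) * (9 / s ^ 2))))
            * Real.exp (-(a (i + 1) + a (i + 1) ^ 2)) ≤ p * (1 - a (i + 1)) :=
          mul_le_mul pe h1 (Real.exp_pos _).le p0.le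
        refine le_trans ?_ h3
        rw [← Real.exp_add]
        apply Real.exp_le_exp.mpr
        have e : (((i + 1 : ℕ) : ℝ) - i0) * (((3 / 2) * C3 + C3 ^ 2) * (9 / s ^ 2))
            = ((i : ℝ) - i0) * (((3 / 2) * C3 + C3 ^ 2) * (9 / s ^ 2))
              + ((3 / 2) * C3 + C3 ^ 2) * (9 / s ^ 2) := by push_cast; ring
        rw [e]
        linarith
      · -- the main inequality
        have e1 : ((M : ℝ) - 3 * (i + 1 : ℕ)) = (M : ℝ) - 3 * ((i : ℝ) + 1) := by push_cast; ring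
        have hX : 0 < (M : ℝ) - 3 * ((i : ℝ) + 1) := by rw [← e1]; exact hxpos
        have h1 : r (i + 1) * ((g (i + 1) + 1) / ((M : ℝ) - 3 * ((i : ℝ) + 1)))
            = a (i + 1) * g (i + 1) + a (i + 1) := by
          rw [ha, e1]
          field_simp
        rw [h1] at hr1
        have h2 : (1 - a (i + 1)) * g (i + 1) ≤ g i + a (i + 1) + eps
            - c1 * ((M : ℝ) - 3 * ((i : ℝ) + 1)) * q (i + 1) := by linarith
        have e2 : (((i + 1 : ℕ) : ℝ) - i0) * (3 * C3 / s + eps)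
            = ((i : ℝ) - i0) * (3 * C3 / s + eps) + (3 * C3 / s + eps) := by push_cast; ring
        rw [e2, e1]
        exact step_m c1 C3 s eps _ p _ _ _ _ y G0 _ hc1 heps hX p0 p1 a0 a2 (hq _) hy0 h2 pm
  obtain ⟨p0, p1, pe, pm⟩ := main i1 hi le_rfl
  have hm0 := hmono i0 hi
  have hm0pos : 0 < (M : ℝ) - 3 * i0 := by linarith [div_pos hs0 (by norm_num : (0 : ℝ) < 3)]
  have hy0 : 0 ≤ ∑ j ∈ Ioc i0 i1, ((M : ℝ) - 3 * j) * q j := by
    apply Finset.sum_nonneg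
    intro j hj
    rw [Finset.mem_Ioc] at hj
    have := hmono j (by omega)
    have : 0 ≤ (M : ℝ) - 3 * j := by linarith
    exact mul_nonneg this (hq j)
  have hle : (i0 : ℝ) ≤ i1 := by exact_mod_cast hi
  rw [hl, hl] at pe
  exact fin_c c1 C3 kap s K eps G0 _ _ (i1 - i0) _ _ _ hc1 hC3 hkap hs0 hs4 hs5 hs6 hK heps hG0
    hM1 hm0pos hMK (by linarith) (by linarith) hg1 p0 p1 pe pm hy0

lemma exp_fac (K X : ℝ) (hK0 : 0 < K) :
    Real.exp ((29 / 30) * Real.log (3 * K) + X) ≤ 3 * Real.exp X * K ^ ((29 : ℝ) / 30) := by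
  have e1 : Real.exp ((29 / 30) * Real.log (3 * K) + X)
      = (3 * K) ^ ((29 : ℝ) / 30) * Real.exp X := by
    rw [Real.rpow_def_of_pos (by positivity), ← Real.exp_add]
    congr 1
    ring
  rw [e1, Real.mul_rpow (by norm_num) hK0.le]
  have h6 : (3 : ℝ) ^ ((29 : ℝ) / 30) ≤ 3 := by
    calc (3 : ℝ) ^ ((29 : ℝ) / 30) ≤ (3 : ℝ) ^ (1 : ℝ) :=
          Real.rpow_le_rpow_of_exponent_le (by norm_num) (by norm_num)
      _ = 3 := Real.rpow_one _
  have h7 : 0 < K ^ ((29 : ℝ) / 30) := Real.rpow_pos_of_pos hK0 _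
  calc (3 : ℝ) ^ ((29 : ℝ) / 30) * K ^ ((29 : ℝ) / 30) * Real.exp X
      ≤ 3 * K ^ ((29 : ℝ) / 30) * Real.exp X := by gcongr
    _ = _ := by ring

lemma ra_bd (C2 C3 s : ℝ) (n : ℕ) (x : ℝ) (hC2 : 0 < C2) (hC3 : C3 = C2 + 29 / 10)
    (hn3 : (0 : ℝ) < (n : ℝ) ^ 3) (hs2 : s ^ 2 = (n : ℝ) ^ 3) (hs : 8 ≤ s) (hx : 0 ≤ x) :
    0 ≤ ra C2 (lam n x) ∧ ra C2 (lam n x) ≤ C3 ∧
      (ra C2 (lam n x) ≤ 29 / 10 ∨ x + 3 ≤ 2 * s) := by
  by_cases h : 10 ≤ lam n x
  · simp only [ra, if_pos h]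
    refine ⟨by norm_num, by linarith, Or.inl le_rfl⟩
  · simp only [ra, if_neg h]
    refine ⟨hC2.le, by linarith, Or.inr ?_⟩
    push Not at h
    unfold lam at h
    rw [div_lt_iff₀ hn3, ← hs2] at h
    by_contra hcon
    push Not at hcon
    nlinarith

theorem thm : StmtSEQ := by
  intro c1 C2 l0 hc1 hC2 hl0
  set C3 : ℝ := C2 + 29 / 10 with hC3
  have hC3pos : 0 < C3 := by positivity
  set kap : ℝ := C3 / 3 with hkap
  refine ⟨(4 / c1) * (3 * Real.exp (kap * Real.log 6 + 1)), by positivity, ?_⟩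
  intro K eps hK heps heps1
  obtain ⟨n0, hn0⟩ := exists_nat_ge (8 + 9 * C3 + C3 / eps + 1 / eps
    + 3 * K * ((3 / 2) * C3 + C3 ^ 2))
  refine ⟨n0 + 1, ?_⟩
  intro n M i0 i1 g q G0 hn hi hG0 h3 hl hMK hq hg0 hg1 hrec
  have hn1 : (1 : ℝ) ≤ n := by exact_mod_cast (by omega : 1 ≤ n)
  have hnn : (n0 : ℝ) ≤ n := by exact_mod_cast (by omega : n0 ≤ n)
  set s : ℝ := (n : ℝ) ^ ((3 : ℝ) / 2) with hs
  have hs2 : s ^ 2 = (n : ℝ) ^ 3 := by
    rw [hs, ← Real.rpow_natCast, ← Real.rpow_mul (by positivity), ← Real.rpow_natCast]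
    congr 1
    norm_num
  have hsn : (n : ℝ) ≤ s := by
    rw [hs]
    calc (n : ℝ) = (n : ℝ) ^ (1 : ℝ) := (Real.rpow_one _).symm
      _ ≤ _ := Real.rpow_le_rpow_of_exponent_le hn1 (by norm_num)
  have hs0 : 0 < s := by linarith
  have hCe : 0 < C3 / eps := by positivity
  have h1e : 0 < 1 / eps := by positivity
  have hKC : 0 < 3 * K * ((3 / 2) * C3 + C3 ^ 2) := by positivity
  have e8 : 8 ≤ s := by linarith
  have hs3 : 9 * C3 ≤ s := by linarith
  have hs4 : C3 ≤ eps * s := by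
    have : C3 / eps ≤ s := by linarith
    rw [div_le_iff₀ heps] at this
    linarith
  have hs5 : 1 ≤ eps * s := by
    have : 1 / eps ≤ s := by linarith
    rw [div_le_iff₀ heps] at this
    linarith
  have hs6 : 3 * K * ((3 / 2) * C3 + C3 ^ 2) ≤ s := by linarith
  have hm1nn : 0 ≤ (M : ℝ) - 3 * i1 := by
    have : (3 * i1 : ℝ) ≤ M := by exact_mod_cast h3
    linarith
  have hn3 : (0 : ℝ) < (n : ℝ) ^ 3 := by positivity
  have hM1 : s / 3 ≤ (M : ℝ) - 3 * i1 := by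
    have h1 : 1 / 2 < 4 * ((M : ℝ) - 3 * i1) ^ 2 / (n : ℝ) ^ 3 := lt_of_lt_of_le hl0 hl
    rw [lt_div_iff₀ hn3, ← hs2] at h1
    by_contra hcon
    push Not at hcon
    nlinarith
  have hr : ∀ i : ℕ, i0 < i → i ≤ i1 → 0 ≤ ra C2 (lam n ((M : ℝ) - 3 * i)) ∧
      ra C2 (lam n ((M : ℝ) - 3 * i)) ≤ C3 ∧
      (ra C2 (lam n ((M : ℝ) - 3 * i)) ≤ 29 / 10 ∨ (M : ℝ) - 3 * i + 3 ≤ 2 * s) := by
    intro i h1 h2
    have hle : (i : ℝ) ≤ i1 := by exact_mod_cast h2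
    exact ra_bd C2 C3 s n _ hC2 hC3 hn3 hs2 e8 (by linarith)
  have hcore := core c1 C3 kap s K eps G0 M i0 i1 g q
    (fun i => ra C2 (lam n ((M : ℝ) - 3 * i))) hc1 hC3pos hkap e8 hs3 hs4 hs5 hs6 hK heps hi hG0
    hM1 hMK hq hg0 hg1 hr (by
      intro i h1 h2
      have := hrec i h1 h2
      push_cast
      exact this)
  have h5 := exp_fac K (kap * Real.log 6 + 1) (by linarith)
  rw [← add_assoc] at h5
  have h9 : 0 ≤ 4 * (G0 + eps * K * s) := by positivity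
  have h10 := hcore.trans (mul_le_mul_of_nonneg_left h5 h9)
  have h11 : (4 / c1) * (3 * Real.exp (kap * Real.log 6 + 1)) * K ^ ((29 : ℝ) / 30)
      * (G0 + eps * K * s) = (4 * (G0 + eps * K * s)
        * (3 * Real.exp (kap * Real.log 6 + 1) * K ^ ((29 : ℝ) / 30))) / c1 := by
    ring
  rw [h11, le_div_iff₀ hc1, mul_comm]
  exact h10

end Vale.Agent.P046.Sh.SEQ
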