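import Vale.Agent.P046.Sh.Defs

/-!
# P046, sharp constant, module ST: assembly of the static theorem
-/

namespace Vale.Agent.P046.Sh.ST

open Finset

variable {n : ℕ}

lemma EX_congr' {mu F F' : Finset (Finset (Fin n)) → ℝ}
    (h : ∀ G, mu G ≠ 0 → F G = F' G) : EX mu F = EX mu F' := by
  unfold EX
  refine sum_congr rfl fun G _ => ?_
  by_cases h0 : mu G = 0
  · simp [h0]
  · rw [h G h0]

lemma EX_mono' {mu F F' : Finset (Finset (Fin n)) → ℝ} (hmu : ∀ G, 0 ≤ mu G)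
    (h : ∀ G, mu G ≠ 0 → F G ≤ F' G) : EX mu F ≤ EX mu F' := by
  unfold EX
  refine sum_le_sum fun G _ => ?_
  by_cases h0 : mu G = 0
  · simp [h0]
  · exact mul_le_mul_of_nonneg_left (h G h0) (hmu G)

lemma EX_cmul (mu F : Finset (Finset (Fin n)) → ℝ) (c : ℝ) :
    EX mu (fun G => c * F G) = c * EX mu F := by
  unfold EX
  rw [mul_sum]
  refine sum_congr rfl fun G _ => ?_
  ring

lemma EX_add' (mu F F' : Finset (Finset (Fin n)) → ℝ) :
    EX mu (fun G => F G + F' G) = EX mu F + EX mu F' := by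
  unfold EX
  rw [← sum_add_distrib]
  refine sum_congr rfl fun G _ => ?_
  ring

lemma EX_const' {mu : Finset (Finset (Fin n)) → ℝ} (h1 : EX mu (fun _ => 1) = 1) (c : ℝ) :
    EX mu (fun _ => c) = c := by
  have := EX_cmul mu (fun _ => 1) c
  rw [h1] at this
  simpa using this

/-- elementary facts on `th` -/
lemma th_facts {L : ℝ} (hL : 1 / 2 < L) :
    L * th L = L - 1 / 2 ∧ 0 < th L ∧ th L ≤ 1 ∧ 0 ≤ be L := by
  have hL0 : 0 < L := by linarith
  have h1 : L * th L = L - 1 / 2 := by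
    unfold th; field_simp
  have h2 : 0 < th L := by
    have : 0 < L * th L := by rw [h1]; linarith
    exact (pos_iff_pos_of_mul_pos this).mp hL0
  have h3 : th L ≤ 1 := by
    unfold th
    have : 0 < 1 / (2 * L) := by positivity
    linarith
  refine ⟨h1, h2, h3, ?_⟩
  unfold be
  have := Real.log_nonpos h2.le h3
  linarith

lemma cell_low {m : ℕ} {nu : Finset (Finset (Fin n)) → ℝ} {W : Fin n → Fin n → ℝ}
    {rho e s : ℝ} (hm : 0 < m) (hL : 1 / 2 < lam n m) (hP : Prb nu m)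
    (hJ : ∀ G, nu G ≠ 0 → cost W - rho ≤ JW G W) (hs : |s| ≤ 1 / (4 * lam n m))
    (hS : ∀ v : ℝ, 0 < v → v ≤ 1 → lam n m * (1 - v) ≤ 1 →
      m * EX nu (fun G => JW G W) + (lam n m * (1 - v)) * (m / 3) * tW W - e * m
        ≤ DD nu m - Real.log v * EX nu Q) :
    m * (cost W - rho - (1 - tW W) / 6 - e + (lam n m * th (lam n m) / 3) *
      (s * EX nu xr - (Real.exp s - 1) * tW W)) ≤ Gam nu m := by
  obtain ⟨h1, h2, h3, h4⟩ := th_facts hL
  obtain ⟨hnn, hsup, hmass⟩ := hP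
  have hmr : (0 : ℝ) < m := by exact_mod_cast hm
  set L := lam n m with hLdef
  have hL0 : 0 < L := by linarith
  obtain ⟨hs1, hs2⟩ := abs_le.mp hs
  have hinv : 0 < 1 / (4 * L) := by positivity
  have hinv2 : 1 / (2 * L) = 2 * (1 / (4 * L)) := by field_simp; ring
  have hLinv : L * (1 / (4 * L)) = 1 / 4 := by field_simp
  have hv0 : 0 < th L * Real.exp s := mul_pos h2 (Real.exp_pos s)
  have hv1 : th L * Real.exp s ≤ 1 := by
    have ha : th L ≤ Real.exp (-(1 / (2 * L))) := by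
      have := Real.add_one_le_exp (-(1 / (2 * L)))
      unfold th; linarith
    calc th L * Real.exp s ≤ Real.exp (-(1 / (2 * L))) * Real.exp s :=
          mul_le_mul_of_nonneg_right ha (Real.exp_pos s).le
      _ = Real.exp (-(1 / (2 * L)) + s) := by rw [Real.exp_add]
      _ ≤ Real.exp 0 := Real.exp_le_exp.mpr (by rw [hinv2]; linarith)
      _ = 1 := Real.exp_zero
  have hLv : L * (1 - th L * Real.exp s) = L - (L - 1 / 2) * Real.exp s := by
    rw [← h1]; ring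
  have hv2 : L * (1 - th L * Real.exp s) ≤ 1 := by
    rw [hLv]
    have hb : 1 - 1 / (4 * L) ≤ Real.exp s := by
      have := Real.add_one_le_exp s
      linarith
    have hc : (L - 1 / 2) * (1 - 1 / (4 * L)) ≤ (L - 1 / 2) * Real.exp s :=
      mul_le_mul_of_nonneg_left hb (by linarith)
    have hd : (L - 1 / 2) * (1 - 1 / (4 * L)) = L - 1 / 2 - 1 / 4 + 1 / 2 * (1 / (4 * L)) := by
      rw [← hLinv]; ring
    linarith
  have hSv := hS _ hv0 hv1 hv2
  have hlog : Real.log (th L * Real.exp s) = - be L + s := by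
    rw [Real.log_mul h2.ne' (Real.exp_pos s).ne', Real.log_exp]
    unfold be; ring
  have hQ : EX nu Q = (m * (L - 1 / 2) / 3) * EX nu xr := by
    rw [← EX_cmul]
    refine EX_congr' fun G hG => ?_
    have hc := (hsup G hG).2
    unfold xr
    rw [hc, ← hLdef]
    have : L - 1 / 2 ≠ 0 := by intro h; linarith
    have h2' : L * 2 - 1 ≠ 0 := by intro h; linarith
    field_simp
  have hJW : cost W - rho ≤ EX nu (fun G => JW G W) := by
    have := EX_mono' (F := fun _ => cost W - rho) (F' := fun G => JW G W) hnn hJ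
    rwa [EX_const' hmass] at this
  have hJW' : m * (cost W - rho) ≤ m * EX nu (fun G => JW G W) :=
    mul_le_mul_of_nonneg_left hJW hmr.le
  have hGam : Gam nu m = DD nu m + be L * EX nu Q - (m : ℝ) / 6 := by
    unfold Gam; rw [hmass]; ring
  rw [hGam]
  rw [hlog, hLv] at hSv
  rw [h1]
  have hring : m * (cost W - rho - (1 - tW W) / 6 - e + ((L - 1 / 2) / 3) *
      (s * EX nu xr - (Real.exp s - 1) * tW W)) =
      m * (cost W - rho) + (L - (L - 1 / 2) * Real.exp s) * (m / 3) * tW W - e * m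
      + s * ((m * (L - 1 / 2) / 3) * EX nu xr) - (m : ℝ) / 6 := by ring
  rw [hring, ← hQ]
  have hring2 : (- be L + s) * EX nu Q = - (be L * EX nu Q) + s * EX nu Q := by ring
  rw [hring2] at hSv
  linarith


/-- the coefficient -/
noncomputable def coef (L C2 : ℝ) : ℝ := if 10 ≤ L then 29 / 10 else C2

lemma coef_facts (L : ℝ) {C2 : ℝ} (h : 29 / 10 ≤ C2) : 29 / 10 ≤ coef L C2 ∧ coef L C2 ≤ C2 := by
  unfold coef
  split_ifs
  · exact ⟨le_rfl, h⟩
  · exact ⟨h, le_rfl⟩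

/-- the gain function -/
noncomputable def gg (L s x t : ℝ) : ℝ := (L * th L / 3) * (s * x - (Real.exp s - 1) * t)

lemma EX_gg {mu : Finset (Finset (Fin n)) → ℝ} (h1 : EX mu (fun _ => 1) = 1) (L s t : ℝ) :
    EX mu (fun G => gg L s (xr G) t) =
      (L * th L / 3) * (s * EX mu xr - (Real.exp s - 1) * t) := by
  have : (fun G => gg L s (xr (n := n) G) t) = fun G => (L * th L / 3 * s) * xr G
      + (-(L * th L / 3) * ((Real.exp s - 1) * t)) := by
    funext G; unfold gg; ring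
  rw [this, EX_add' mu (fun G => (L * th L / 3 * s) * xr G), EX_cmul, EX_const' h1]
  ring

/-- cells with large entropy -/
lemma Gam_big {m : ℕ} {nu : Finset (Finset (Fin n)) → ℝ} (hL : 1 / 2 < lam n m)
    (hP : Prb nu m) (hD : 4 * (m : ℝ) < DD nu m) : (23 / 6 : ℝ) * m ≤ Gam nu m := by
  obtain ⟨h1, h2, h3, h4⟩ := th_facts hL
  obtain ⟨hnn, hsup, hmass⟩ := hP
  have hQ : 0 ≤ EX nu Q := by
    unfold EX
    refine sum_nonneg fun G _ => mul_nonneg (hnn G) ?_
    unfold Q; positivity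
  unfold Gam
  rw [hmass]
  have := mul_nonneg h4 hQ
  linarith

lemma t3_le {G : Finset (Finset (Fin n))} (hL : 1 / 2 < lam n G.card) :
    0 ≤ t3 G ∧ t3 G ≤ 1 := by
  obtain ⟨h1, h2, h3, h4⟩ := th_facts hL
  have hp : ∀ T ∈ (univ : Finset (Fin n)).powersetCard 3,
      0 ≤ ∏ e ∈ eds T, (th (lam n G.card)) ^ (cn G e) := fun T _ =>
    prod_nonneg fun e _ => pow_nonneg h2.le _
  have hq : ∀ T ∈ (univ : Finset (Fin n)).powersetCard 3,
      ∏ e ∈ eds T, (th (lam n G.card)) ^ (cn G e) ≤ 1 := fun T _ =>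
    prod_le_one (fun e _ => pow_nonneg h2.le _) fun e _ => pow_le_one₀ h2.le h3
  refine ⟨?_, ?_⟩
  · unfold t3
    exact div_nonneg (sum_nonneg hp) (Nat.cast_nonneg _)
  · unfold t3
    refine div_le_one_of_le₀ ?_ (Nat.cast_nonneg _)
    calc ∑ T ∈ (univ : Finset (Fin n)).powersetCard 3,
          ∏ e ∈ eds T, (th (lam n G.card)) ^ (cn G e)
        ≤ ∑ _T ∈ (univ : Finset (Fin n)).powersetCard 3, (1 : ℝ) := sum_le_sum hq
      _ = ((n.choose 3 : ℕ) : ℝ) := by
          simp [card_powersetCard]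

lemma lt3_le (hn : 0 < n) {G : Finset (Finset (Fin n))} (hL : 1 / 2 < lam n G.card) :
    lt3 G ≤ 7 / 10 := by
  obtain ⟨h1, h2⟩ := t3_le hL
  have hs : 1 ≤ Real.sqrt n := by
    rw [Real.one_le_sqrt]
    exact_mod_cast hn
  have h3 : 1 / Real.sqrt n ≤ 1 := by
    rw [div_le_one (by linarith)]
    exact hs
  have h4 : 0 < 1 / Real.sqrt n := by positivity
  have h5 : lt3 G ≤ Real.log 2 := by
    unfold lt3
    exact Real.log_le_log (by linarith) (by linarith)
  have := Real.log_two_lt_d9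
  linarith

/-- the average of a regular approximation -/
lemma av2_le (hn : 0 < n) {G : Finset (Finset (Fin n))} {W : Fin n → Fin n → ℝ} {rho : ℝ}
    (hG : G ⊆ pairs n) (hc : 0 < G.card) (h : LR rho G W) : av2 W ≤ 1 + rho := by
  have hnr : (0 : ℝ) < n := by exact_mod_cast hn
  have hcr : (0 : ℝ) < G.card := by exact_mod_cast hc
  have hpp : 0 < pp n G.card := by unfold pp; positivity
  have h0 := h univ univ
  have had : ∑ u : Fin n, ∑ v : Fin n, ad G u v = 2 * (G.card : ℝ) := by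
    classical
    have e1 : ∑ u : Fin n, ∑ v : Fin n, ad G u v =
        ∑ x : Fin n × Fin n, ad G x.1 x.2 := by
      rw [← univ_product_univ, sum_product]
    rw [e1]
    have e2 : ∀ x : Fin n × Fin n, ad G x.1 x.2 = ∑ e ∈ G, if ({x.1, x.2} : Finset (Fin n)) = e
        then (1 : ℝ) else 0 := by
      intro x
      unfold ad
      rw [sum_ite_eq]
    simp_rw [e2]
    rw [sum_comm]
    have e3 : ∀ e ∈ G, ∑ x : Fin n × Fin n, (if ({x.1, x.2} : Finset (Fin n)) = e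
        then (1 : ℝ) else 0) = 2 := by
      intro e he
      have he2 := hG he
      unfold pairs at he2
      rw [mem_powersetCard] at he2
      obtain ⟨a, b, hab, rfl⟩ := card_eq_two.mp he2.2
      rw [← sum_filter]
      have : (univ.filter fun x : Fin n × Fin n => ({x.1, x.2} : Finset (Fin n)) = {a, b})
          = {(a, b), (b, a)} := by
        ext x
        rcases x with ⟨x, y⟩
        simp only [mem_filter, mem_univ, true_and, mem_insert, mem_singleton, Prod.mk.injEq]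
        constructor
        · intro hx
          have hxa : x ∈ ({a, b} : Finset (Fin n)) := by rw [← hx]; simp
          have hya : y ∈ ({a, b} : Finset (Fin n)) := by rw [← hx]; simp
          have hax : a ∈ ({x, y} : Finset (Fin n)) := by rw [hx]; simp
          have hbx : b ∈ ({x, y} : Finset (Fin n)) := by rw [hx]; simp
          simp only [mem_insert, mem_singleton] at hxa hya hax hbx
          rcases hxa with rfl | rfl
          · rcases hya with rfl | rfl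
            · exact absurd (by rcases hbx with h | h <;> exact h.symm) hab
            · left; exact ⟨rfl, rfl⟩
          · rcases hya with rfl | rfl
            · right; exact ⟨rfl, rfl⟩
            · exact absurd (by rcases hax with h | h <;> exact h) hab
        · rintro (⟨rfl, rfl⟩ | ⟨rfl, rfl⟩)
          · rfl
          · exact pair_comm _ _
      rw [this, sum_const, card_pair (by intro h; exact hab (Prod.mk.inj h).1)]
      norm_num
    rw [sum_congr rfl e3, sum_const]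
    simp [mul_comm]
  have hsplit : ∑ u : Fin n, ∑ v : Fin n, (ad G u v / pp n G.card - W u v)
      = (n : ℝ) ^ 2 - ∑ u : Fin n, ∑ v : Fin n, W u v := by
    have : ∑ u : Fin n, ∑ v : Fin n, (ad G u v / pp n G.card - W u v)
        = (∑ u : Fin n, ∑ v : Fin n, ad G u v) / pp n G.card
          - ∑ u : Fin n, ∑ v : Fin n, W u v := by
      rw [sum_div, ← sum_sub_distrib]
      refine sum_congr rfl fun u _ => ?_
      rw [sum_div, ← sum_sub_distrib]
    rw [this, had]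
    unfold pp
    have : (2 * (G.card : ℝ)) / (2 * (G.card : ℝ) / (n : ℝ) ^ 2) = (n : ℝ) ^ 2 := by
      field_simp
    rw [this]
  rw [hsplit] at h0
  unfold av2
  rw [div_le_iff₀ (by positivity)]
  nlinarith


lemma mul_log_ge {w : ℝ} (hw : 0 < w) : 0 ≤ w * Real.log w - w + 1 := by
  have h := Real.one_sub_inv_le_log_of_pos hw
  have h2 : w * (1 - w⁻¹) ≤ w * Real.log w := mul_le_mul_of_nonneg_left h hw.le
  have h3 : w * (1 - w⁻¹) = w - 1 := by field_simp
  linarith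

lemma log_lt_two : Real.log (11 / 2) ≤ 2 := by
  have h1 : Real.log (11 / 2) ≤ Real.log (2 ^ 2 * 2) := by
    apply Real.log_le_log (by norm_num) (by norm_num)
  have h2 : Real.log (2 ^ 2 * 2 : ℝ) = 3 * Real.log 2 := by
    rw [← pow_succ, Real.log_pow]; norm_num
  rw [h2] at h1
  have h3 : Real.log (11 / 2) ≤ 2 := by
    have e : (11 / 2 : ℝ) ≤ Real.exp 2 := by
      have := Real.exp_one_gt_d9
      have h4 : Real.exp 2 = Real.exp 1 * Real.exp 1 := by rw [← Real.exp_add]; norm_num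
      rw [h4]
      nlinarith
    calc Real.log (11 / 2) ≤ Real.log (Real.exp 2) := Real.log_le_log (by norm_num) e
      _ = 2 := Real.log_exp 2
  exact h3

lemma log_pos' : 0 ≤ Real.log (11 / 2) := Real.log_nonneg (by norm_num)

lemma cost_ge (hn : 0 < n) {W : Fin n → Fin n → ℝ} (hW : WOK W) {rho : ℝ} (hr : 0 ≤ rho)
    (ha : av2 W ≤ 1 + rho) : -(2 * rho) ≤ cost W := by
  have hnr : (0 : ℝ) < n := by exact_mod_cast hn
  have h1 : 0 ≤ av2 (fun u v => W u v * Real.log (W u v) - W u v + 1) := by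
    unfold av2
    refine div_nonneg (sum_nonneg fun u _ => sum_nonneg fun v _ => mul_log_ge (hW.2.1 u v)) ?_
    positivity
  have h2 := log_lt_two
  have h3 := log_pos'
  have h4 : - (2 * rho) ≤ Real.log (11 / 2) * (1 - av2 W) := by
    have h5 : Real.log (11 / 2) * (- rho) ≤ Real.log (11 / 2) * (1 - av2 W) :=
      mul_le_mul_of_nonneg_left (by linarith) h3
    nlinarith
  unfold cost
  linarith

/-- cells with irregular label -/
lemma cell_a {m : ℕ} {nu : Finset (Finset (Fin n)) → ℝ} {W : Fin n → Fin n → ℝ}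
    {rho e1 epsM c1 : ℝ} (hm : 0 < m) (hL : 1 / 2 < lam n m) (hP : Prb nu m)
    (hJ : ∀ G, nu G ≠ 0 → cost W - rho ≤ JW G W) (hre : rho ≤ e1)
    (hS : DD nu m ≤ 4 * m → ∀ v : ℝ, 0 < v → v ≤ 1 → lam n m * (1 - v) ≤ 1 →
      m * EX nu (fun G => JW G W) + (lam n m * (1 - v)) * (m / 3) * tW W - e1 * m
        ≤ DD nu m - Real.log v * EX nu Q)
    (hM1 : (1 - tW W) / 6 ≤ (4 / 5) * cost W + rho) (hc : epsM < cost W)
    (hc1 : c1 ≤ epsM / 5) (hc1' : c1 ≤ 1) (he0 : 0 ≤ e1) : c1 * m - 4 * e1 * m ≤ Gam nu m := by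
  have hmr : (0 : ℝ) < m := by exact_mod_cast hm
  by_cases hD : DD nu m ≤ 4 * m
  · have h0 : |(0 : ℝ)| ≤ 1 / (4 * lam n m) := by
      rw [abs_zero]
      have : 0 < lam n m := by linarith
      positivity
    have := cell_low hm hL hP hJ h0 (hS hD)
    rw [Real.exp_zero] at this
    have h2 : (m : ℝ) * (c1 - 4 * e1) ≤ m * (cost W - rho - (1 - tW W) / 6 - e1 +
        (lam n m * th (lam n m) / 3) * (0 * EX nu xr - (1 - 1) * tW W)) := by
      apply mul_le_mul_of_nonneg_left _ hmr.le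
      linarith
    linarith
  · push Not at hD
    have := Gam_big hL hP hD
    nlinarith

/-- cells with regular label and far triangle count -/
lemma cell_b {m : ℕ} {nu : Finset (Finset (Fin n)) → ℝ} {W : Fin n → Fin n → ℝ}
    {rho e1 c1 s : ℝ} (hm : 0 < m) (hL : 1 / 2 < lam n m) (hP : Prb nu m)
    (hJ : ∀ G, nu G ≠ 0 → cost W - rho ≤ JW G W) (hr0 : 0 ≤ rho) (hre : rho ≤ e1)
    (hs : |s| ≤ 1 / (4 * lam n m))
    (hS : DD nu m ≤ 4 * m → ∀ v : ℝ, 0 < v → v ≤ 1 → lam n m * (1 - v) ≤ 1 →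
      m * EX nu (fun G => JW G W) + (lam n m * (1 - v)) * (m / 3) * tW W - e1 * m
        ≤ DD nu m - Real.log v * EX nu Q)
    (hM1 : (1 - tW W) / 6 ≤ (4 / 5) * cost W + rho) (hc : -(2 * rho) ≤ cost W)
    (hg : ∀ G, nu G ≠ 0 → c1 ≤ gg (lam n m) s (xr G) (tW W)) (hc1' : c1 ≤ 1) :
    c1 * m - 4 * e1 * m ≤ Gam nu m := by
  have hmr : (0 : ℝ) < m := by exact_mod_cast hm
  by_cases hD : DD nu m ≤ 4 * m
  · have := cell_low hm hL hP hJ hs (hS hD)
    rw [← EX_gg hP.2.2] at this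
    have h3 : c1 ≤ EX nu (fun G => gg (lam n m) s (xr G) (tW W)) := by
      have h4 := EX_mono' (F := fun _ => c1) hP.1 hg
      rwa [EX_const' hP.2.2] at h4
    have h2 : (m : ℝ) * (c1 - 4 * e1) ≤ m * (cost W - rho - (1 - tW W) / 6 - e1 +
        EX nu (fun G => gg (lam n m) s (xr G) (tW W))) := by
      apply mul_le_mul_of_nonneg_left _ hmr.le
      linarith
    linarith
  · push Not at hD
    have := Gam_big hL hP hD
    nlinarith

/-- good cells -/
lemma cell_c {m : ℕ} {nu : Finset (Finset (Fin n)) → ℝ} {W : Fin n → Fin n → ℝ}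
    {rho e1 C2 s : ℝ} (hn : 0 < n) (hm : 0 < m) (hL : 1 / 2 < lam n m) (hP : Prb nu m)
    (hJ : ∀ G, nu G ≠ 0 → cost W - rho ≤ JW G W) (hr0 : 0 ≤ rho) (hre : rho ≤ e1)
    (hs : |s| ≤ 1 / (4 * lam n m))
    (hS : DD nu m ≤ 4 * m → ∀ v : ℝ, 0 < v → v ≤ 1 → lam n m * (1 - v) ≤ 1 →
      m * EX nu (fun G => JW G W) + (lam n m * (1 - v)) * (m / 3) * tW W - e1 * m
        ≤ DD nu m - Real.log v * EX nu Q)
    (hS2 : DD nu m ≤ 4 * m → EX nu (fun G => lt3 G) + 3 / 2 ≤ RW W + e1)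
    (hM1 : (1 - tW W) / 6 ≤ (4 / 5) * cost W + rho)
    (hM2 : RW W + 2 * (tW W - 1) ^ 2 ≤ (14 / 5) * (cost W - (1 - tW W) / 6) + 10 * rho)
    (hc : -(2 * rho) ≤ cost W) (hC2 : 29 / 10 ≤ C2)
    (hx : ∀ G, nu G ≠ 0 → |xr G - 1| ≤ 1 / 100)
    (hg : ∀ G, nu G ≠ 0 → 2 * (xr G - tW W) ^ 2 ≤
      coef (lam n m) C2 * gg (lam n m) s (xr G) (tW W) + C2 * e1) :
    - (4 * C2 * e1 * m) ≤ Gam nu m ∧
    EX nu (fun G => lt3 G + 3 / 2 + (xr G - 1) ^ 2) ≤
      coef (lam n m) C2 * (Gam nu m / m) + (6 * C2 + 11) * e1 := by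
  have hmr : (0 : ℝ) < m := by exact_mod_cast hm
  have he0 : 0 ≤ e1 := hr0.trans hre
  obtain ⟨hcf1, hcf2⟩ := coef_facts (lam n m) hC2
  by_cases hD : DD nu m ≤ 4 * m
  · have hlow := cell_low hm hL hP hJ hs (hS hD)
    rw [← EX_gg hP.2.2] at hlow
    set E := EX nu (fun G => gg (lam n m) s (xr G) (tW W)) with hE
    set cf := coef (lam n m) C2 with hcf
    set A := cost W - (1 - tW W) / 6 with hA
    have hA0 : - (2 * rho) ≤ A := by rw [hA]; linarith
    have h3 : EX nu (fun G => 2 * (xr G - tW W) ^ 2) ≤ cf * E + C2 * e1 := by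
      have h4 := EX_mono' (F' := fun G => cf * gg (lam n m) s (xr G) (tW W) + C2 * e1) hP.1 hg
      rw [EX_add' nu (fun G => cf * gg (lam n m) s (xr G) (tW W)),
        EX_cmul nu (fun G => gg (lam n m) s (xr G) (tW W)) cf, EX_const' hP.2.2] at h4
      exact h4
    have h3' : 0 ≤ EX nu (fun G => 2 * (xr G - tW W) ^ 2) := by
      unfold EX
      refine sum_nonneg fun G _ => mul_nonneg (hP.1 G) (by positivity)
    have hE0 : - (C2 * e1) ≤ E := by
      have h5 : 0 ≤ cf * E + C2 * e1 := h3'.trans h3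
      by_contra hcon
      push Not at hcon
      have h6 : 0 ≤ C2 * e1 := by positivity
      have h7 : cf * E ≤ 1 * E := by
        have : E < 0 := by linarith
        nlinarith
      linarith
    have hGm : A - rho - e1 + E ≤ Gam nu m / m := by
      rw [le_div_iff₀ hmr]
      have : (A - rho - e1 + E) * m = m * (cost W - rho - (1 - tW W) / 6 - e1 + E) := by
        rw [hA]; ring
      rw [this]
      exact hlow
    constructor
    · have h8 : - (4 * C2 * e1) ≤ Gam nu m / m := by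
        nlinarith
      have h9 := mul_le_mul_of_nonneg_right h8 hmr.le
      rw [div_mul_cancel₀ _ hmr.ne'] at h9
      linarith
    · have h10 : EX nu (fun G => lt3 G + 3 / 2 + (xr G - 1) ^ 2) ≤
          EX nu (fun G => lt3 G) + 3 / 2 + (EX nu (fun G => 2 * (xr G - tW W) ^ 2)
            + 2 * (tW W - 1) ^ 2) := by
        have h11 := EX_mono' (mu := nu) (F := fun G => lt3 G + 3 / 2 + (xr G - 1) ^ 2)
          (F' := fun G => (lt3 G + 3 / 2) + (2 * (xr G - tW W) ^ 2 + 2 * (tW W - 1) ^ 2))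
          hP.1 (fun G _ => by nlinarith [sq_nonneg ((xr G - tW W) - (tW W - 1))])
        rw [EX_add' nu (fun G => lt3 G + 3 / 2)
            (fun G => 2 * (xr G - tW W) ^ 2 + 2 * (tW W - 1) ^ 2),
          EX_add' nu (fun G => lt3 G) (fun _ => 3 / 2),
          EX_add' nu (fun G => 2 * (xr G - tW W) ^ 2) (fun _ => 2 * (tW W - 1) ^ 2),
          EX_const' hP.2.2, EX_const' hP.2.2] at h11
        exact h11
      have hS2' := hS2 hD
      have h12 : cf * (A - rho - e1 + E) ≤ cf * (Gam nu m / m) :=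
        mul_le_mul_of_nonneg_left hGm (by linarith)
      have h13 : (14 / 5) * A ≤ cf * A + (cf - 14 / 5) * (2 * rho) := by
        nlinarith
      have h14 : cf * rho ≤ C2 * e1 := mul_le_mul hcf2 hre hr0 (by linarith)
      have h15 : cf * e1 ≤ C2 * e1 := mul_le_mul_of_nonneg_right hcf2 he0
      have h16 : (cf - 14 / 5) * (2 * rho) ≤ 2 * (C2 * e1) := by nlinarith
      have h17 : cf * (A - rho - e1 + E) = cf * A - cf * rho - cf * e1 + cf * E := by ring
      rw [h17] at h12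
      nlinarith
  · push Not at hD
    have hbig := Gam_big hL hP hD
    have hGm : 23 / 6 ≤ Gam nu m / m := by
      rw [le_div_iff₀ hmr]; exact hbig
    constructor
    · have : 0 ≤ 4 * C2 * e1 * m := by positivity
      nlinarith
    · have h11 := EX_mono' (mu := nu) (F := fun G => lt3 G + 3 / 2 + (xr G - 1) ^ 2)
          (F' := fun _ => (3 : ℝ)) hP.1 (fun G hG => by
            have hcard := (hP.2.1 G hG).2
            have h1 := lt3_le (n := n) hn (G := G) (by rw [hcard]; exact hL)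
            have h2 := abs_le.mp (hx G hG)
            have h3 : (xr G - 1) ^ 2 ≤ (1 / 100) ^ 2 := by
              apply sq_le_sq'
              · exact h2.1
              · exact h2.2
            norm_num at h3
            linarith)
      rw [EX_const' hP.2.2] at h11
      have h12 : (29 / 10 : ℝ) * (23 / 6) ≤ coef (lam n m) C2 * (Gam nu m / m) :=
        mul_le_mul hcf1 hGm (by norm_num) (by linarith)
      have h13 : 0 ≤ (6 * C2 + 11) * e1 := by positivity
      linarith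


lemma size_low (hn : 0 < n) {m : ℕ} (h : 1 / 2 < lam n m) :
    (n : ℝ) ^ ((3 : ℝ) / 2) / 4 ≤ m ∧ 0 < m := by
  have hnr : (0 : ℝ) < n := by exact_mod_cast hn
  have hr : (0 : ℝ) < (n : ℝ) ^ ((3 : ℝ) / 2) := Real.rpow_pos_of_pos hnr _
  have hr2 : ((n : ℝ) ^ ((3 : ℝ) / 2)) ^ 2 = (n : ℝ) ^ 3 := by
    rw [← Real.rpow_natCast, ← Real.rpow_mul hnr.le, ← Real.rpow_natCast]
    norm_num
  unfold lam at h
  rw [← hr2, lt_div_iff₀ (by positivity)] at h
  have h1 : (n : ℝ) ^ ((3 : ℝ) / 2) / 4 ≤ m := by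
    apply le_of_sq_le_sq _ (Nat.cast_nonneg m)
    nlinarith [sq_nonneg ((n : ℝ) ^ ((3 : ℝ) / 2))]
  refine ⟨h1, ?_⟩
  have : (0 : ℝ) < m := by linarith
  exact_mod_cast this

lemma size_up (hn : 0 < n) {m : ℕ} {Lmax : ℝ} (h0 : 0 < Lmax) (h : lam n m ≤ Lmax) :
    (m : ℝ) ≤ (Lmax + 1) * (n : ℝ) ^ ((3 : ℝ) / 2) := by
  have hnr : (0 : ℝ) < n := by exact_mod_cast hn
  have hr : (0 : ℝ) < (n : ℝ) ^ ((3 : ℝ) / 2) := Real.rpow_pos_of_pos hnr _
  have hr2 : ((n : ℝ) ^ ((3 : ℝ) / 2)) ^ 2 = (n : ℝ) ^ 3 := by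
    rw [← Real.rpow_natCast, ← Real.rpow_mul hnr.le, ← Real.rpow_natCast]
    norm_num
  unfold lam at h
  rw [← hr2, div_le_iff₀ (by positivity)] at h
  apply le_of_sq_le_sq _ (by positivity)
  have h1 : ((Lmax + 1) * (n : ℝ) ^ ((3 : ℝ) / 2)) ^ 2 =
      (Lmax ^ 2 + 2 * Lmax + 1) * ((n : ℝ) ^ ((3 : ℝ) / 2)) ^ 2 := by ring
  rw [h1]
  have h2 : Lmax * ((n : ℝ) ^ ((3 : ℝ) / 2)) ^ 2 ≤
      (Lmax ^ 2 + 2 * Lmax + 1) * ((n : ℝ) ^ ((3 : ℝ) / 2)) ^ 2 := by
    apply mul_le_mul_of_nonneg_right _ (by positivity)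
    nlinarith
  nlinarith [sq_nonneg (m : ℝ)]

lemma n32 (hn : 0 < n) : (n : ℝ) ^ ((3 : ℝ) / 2) = n * Real.sqrt n := by
  have hnr : (0 : ℝ) < n := by exact_mod_cast hn
  rw [Real.sqrt_eq_rpow, show (3 : ℝ) / 2 = 1 + 1 / 2 by norm_num, Real.rpow_add hnr,
    Real.rpow_one]

lemma fin_sum {m : ℕ} {mu : Finset (Finset (Fin n)) → ℝ} {ι : Type} {I : Finset ι}
    {p : ι → ℝ} {nu : ι → Finset (Finset (Fin n)) → ℝ} {c1 C2 e1 eps cf : ℝ}
    {bad F : Finset (Finset (Fin n)) → ℝ} {P : Prop} (hmr : (0 : ℝ) < m) (he10 : 0 < e1)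
    (hC20 : 0 < C2) (hcf1 : 29 / 10 ≤ cf) (hcf2 : cf ≤ C2)
    (he1b : (10 * C2 + 30) * e1 ≤ eps) (hp0 : ∀ i, 0 ≤ p i)
    (hpsum : ∑ i ∈ I, p i = 1)
    (hEX : ∀ F : Finset (Finset (Fin n)) → ℝ, EX mu F = ∑ i ∈ I, p i * EX (nu i) F)
    (hDD : ∑ i ∈ I, p i * DD (nu i) m - Real.log I.card ≤ DD mu m)
    (hlogI : Real.log I.card ≤ e1 * m)
    (hmain : ∀ i ∈ I, 0 < p i →
      (c1 * m * EX (nu i) bad - 4 * C2 * e1 * m ≤ Gam (nu i) m) ∧
      (P → EX (nu i) F ≤ cf * (Gam (nu i) m / m) + (6 * C2 + 11) * e1)) :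
    (c1 * m * EX mu bad - eps * m ≤ Gam mu m) ∧
    (P → EX mu F ≤ cf * (Gam mu m / m) + eps) := by
  -- the sum of the functionals of the cells
  have hGS : ∑ i ∈ I, p i * Gam (nu i) m ≤ Gam mu m + e1 * m := by
    have h1 : ∑ i ∈ I, p i * Gam (nu i) m = ∑ i ∈ I, p i * DD (nu i) m
        + be (lam n m) * EX mu Q - ((m : ℝ) / 6) * EX mu (fun _ => 1) := by
      rw [hEX Q, hEX (fun _ => 1), mul_sum, mul_sum, ← sum_add_distrib, ← sum_sub_distrib]
      refine sum_congr rfl fun i _ => ?_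
      unfold Gam
      ring
    rw [h1]
    unfold Gam
    linarith
  constructor
  · have h1 : ∑ i ∈ I, p i * (c1 * m * EX (nu i) bad - 4 * C2 * e1 * m) ≤
        ∑ i ∈ I, p i * Gam (nu i) m := by
      refine sum_le_sum fun i hi => ?_
      rcases (hp0 i).eq_or_lt with h0 | h0
      · rw [← h0]; simp
      · exact mul_le_mul_of_nonneg_left (hmain i hi h0).1 h0.le
    have h2 : ∑ i ∈ I, p i * (c1 * m * EX (nu i) bad - 4 * C2 * e1 * m) =
        c1 * m * EX mu bad - 4 * C2 * e1 * m := by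
      have h3 : ∀ i ∈ I, p i * (c1 * m * EX (nu i) bad - 4 * C2 * e1 * m) =
          c1 * m * (p i * EX (nu i) bad) - (4 * C2 * e1 * m) * p i := fun i _ => by ring
      rw [sum_congr rfl h3, sum_sub_distrib, ← mul_sum, ← mul_sum, hpsum, ← hEX bad, mul_one]
    rw [h2] at h1
    have h4 : (10 * C2 + 30) * e1 * m ≤ eps * m := mul_le_mul_of_nonneg_right he1b hmr.le
    have h5 : 0 ≤ C2 * (e1 * m) := by positivity
    have h6 : 0 ≤ e1 * m := by positivity
    nlinarith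
  · intro hgood
    have h1 : EX mu F ≤
        ∑ i ∈ I, p i * (cf * (Gam (nu i) m / m) + (6 * C2 + 11) * e1) := by
      rw [hEX]
      refine sum_le_sum fun i hi => ?_
      rcases (hp0 i).eq_or_lt with h0 | h0
      · rw [← h0]; simp
      · exact mul_le_mul_of_nonneg_left ((hmain i hi h0).2 hgood) h0.le
    have h2 : ∑ i ∈ I, p i * (cf * (Gam (nu i) m / m) + (6 * C2 + 11) * e1) =
        cf / m * (∑ i ∈ I, p i * Gam (nu i) m) + (6 * C2 + 11) * e1 := by
      have h3 : ∀ i ∈ I, p i * (cf * (Gam (nu i) m / m) + (6 * C2 + 11) * e1) =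
          cf / m * (p i * Gam (nu i) m) + ((6 * C2 + 11) * e1) * p i :=
        fun i _ => by ring
      rw [sum_congr rfl h3, sum_add_distrib, ← mul_sum, ← mul_sum, hpsum, mul_one]
    rw [h2] at h1
    have h4 : cf / m * (∑ i ∈ I, p i * Gam (nu i) m) ≤
        cf / m * (Gam mu m + e1 * m) :=
      mul_le_mul_of_nonneg_left hGS (by
        have : 0 < cf := by linarith
        positivity)
    have h5 : cf / m * (Gam mu m + e1 * m) =
        cf * (Gam mu m / m) + cf * e1 := by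
      field_simp
    rw [h5] at h4
    have h6 : cf * e1 ≤ C2 * e1 := mul_le_mul_of_nonneg_right hcf2 he10.le
    nlinarith


lemma logsize (hn0 : 0 < n) {M N m : ℕ} {CR e1 : ℝ} (hN : 0 < N)
    (hNet : (N : ℝ) ≤ Real.exp (CR * n)) (he10 : 0 < e1)
    (hn3 : ⌈(4 * (|CR| + 2 * (2 * (M : ℝ) + 1)) / e1) ^ 2⌉₊ + 1 ≤ n)
    (hsl : (n : ℝ) ^ ((3 : ℝ) / 2) / 4 ≤ m) :
    Real.log ((N : ℝ) * ((2 * M + 1) * 2)) ≤ e1 * m := by
  have hnr : (0 : ℝ) < n := by exact_mod_cast hn0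
  have hNpos : (0 : ℝ) < N := by exact_mod_cast hN
  set cc : ℝ := |CR| + 2 * (2 * (M : ℝ) + 1) with hcc
  have h1 : Real.log ((N : ℝ) * ((2 * M + 1) * 2)) ≤ CR * n + (2 * M + 1) * 2 := by
    rw [Real.log_mul hNpos.ne' (by positivity)]
    have h2 : Real.log N ≤ CR * n := by
      calc Real.log N ≤ Real.log (Real.exp (CR * n)) := Real.log_le_log hNpos hNet
        _ = CR * n := Real.log_exp _
    have h3 : Real.log ((2 * (M : ℝ) + 1) * 2) ≤ (2 * M + 1) * 2 :=
      (Real.log_le_sub_one_of_pos (by positivity)).trans (by linarith)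
    linarith
  have hn1r : (1 : ℝ) ≤ n := by exact_mod_cast hn0
  have h4 : CR * n + (2 * M + 1) * 2 ≤ cc * n := by
    rw [hcc]
    have h5 : CR * n ≤ |CR| * n := mul_le_mul_of_nonneg_right (le_abs_self _) hnr.le
    have h6 : (2 * (M : ℝ) + 1) * 2 * 1 ≤ (2 * M + 1) * 2 * n :=
      mul_le_mul_of_nonneg_left hn1r (by positivity)
    linarith
  have h7 : 4 * cc / e1 ≤ Real.sqrt n := by
    apply Real.le_sqrt_of_sq_le
    have h8 : (4 * cc / e1) ^ 2 ≤ (⌈(4 * cc / e1) ^ 2⌉₊ : ℝ) := Nat.le_ceil _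
    have h9 : ((⌈(4 * cc / e1) ^ 2⌉₊ : ℕ) : ℝ) + 1 ≤ n := by exact_mod_cast hn3
    linarith
  rw [div_le_iff₀ he10] at h7
  have h10 : 4 * cc * n ≤ Real.sqrt n * e1 * n := mul_le_mul_of_nonneg_right h7 hnr.le
  have h11 : e1 * ((n : ℝ) ^ ((3 : ℝ) / 2) / 4) ≤ e1 * m :=
    mul_le_mul_of_nonneg_left hsl he10.le
  rw [n32 hn0] at h11
  nlinarith

/-- one cell, all cases -/
lemma cell_main {m : ℕ} {mu nu : Finset (Finset (Fin n)) → ℝ} {W : Fin n → Fin n → ℝ}
    {Wf : Finset (Finset (Fin n)) → Fin n → Fin n → ℝ}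
    {rho e1 epsM c1 c1G C2 s : ℝ} {bt : Prop} (hn0 : 0 < n) (hm : 0 < m)
    (hL : 1 / 2 < lam n m) (hPi : Prb nu m) (hrho0 : 0 ≤ rho) (hrd : rho ≤ e1)
    (hC2 : 29 / 10 ≤ C2)
    (hc1a : c1 ≤ epsM / 5) (hc1b : c1 ≤ c1G) (hc1c : c1 ≤ 1) (hc10 : 0 < c1)
    (bad : Finset (Finset (Fin n)) → ℝ) (hbad1 : ∀ G, bad G ≤ 1)
    (hbad0 : ∀ G, cost (Wf G) ≤ epsM → |xr G - 1| ≤ 1 / 100 → bad G = 0)
    (hex : ∃ G, nu G ≠ 0)
    (hsame : ∀ G, nu G ≠ 0 → mu G ≠ 0 ∧ Wf G = W ∧ (1 / 100 < |xr G - 1| ↔ bt))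
    (hJi : ∀ G, nu G ≠ 0 → cost W - rho ≤ JW G W)
    (hs : |s| ≤ 1 / (4 * lam n m))
    (hSS : DD nu m ≤ 4 * m → ∀ v : ℝ, 0 < v → v ≤ 1 → lam n m * (1 - v) ≤ 1 →
        m * EX nu (fun G => JW G W) + (lam n m * (1 - v)) * (m / 3) * tW W
          - e1 * m ≤ DD nu m - Real.log v * EX nu Q)
    (hSS2 : DD nu m ≤ 4 * m → EX nu (fun G => lt3 G) + 3 / 2 ≤ RW W + e1)
    (hW5 : -(2 * rho) ≤ cost W) (hW6 : (1 - tW W) / 6 ≤ (4 / 5) * cost W + rho)
    (hW7 : cost W ≤ epsM → RW W + 2 * (tW W - 1) ^ 2 ≤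
        (14 / 5) * (cost W - (1 - tW W) / 6) + 10 * rho)
    (hg1 : cost W ≤ epsM → ∀ G, nu G ≠ 0 → |xr G - 1| ≤ 1 / 100 →
      2 * (xr G - tW W) ^ 2 ≤ coef (lam n m) C2 * gg (lam n m) s (xr G) (tW W) + C2 * e1)
    (hg2 : cost W ≤ epsM → ∀ G, nu G ≠ 0 → 1 / 100 < |xr G - 1| →
      c1G ≤ gg (lam n m) s (xr G) (tW W)) :
    (c1 * m * EX nu bad - 4 * C2 * e1 * m ≤ Gam nu m) ∧
      ((∀ G, mu G ≠ 0 → cost (Wf G) ≤ epsM ∧ |xr G - 1| ≤ 1 / 100) →
        EX nu (fun G => lt3 G + 3 / 2 + (xr G - 1) ^ 2) ≤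
          coef (lam n m) C2 * (Gam nu m / m) + (6 * C2 + 11) * e1) := by
  obtain ⟨G1, hG1⟩ := hex
  have he10 : 0 ≤ e1 := hrho0.trans hrd
  obtain ⟨hmu1, hW1, hbt1⟩ := hsame G1 hG1
  have hbadle : EX nu bad ≤ 1 := by
    have := EX_mono' (F := bad) (F' := fun _ => 1) hPi.1 (fun G _ => hbad1 G)
    rwa [hPi.2.2] at this
  have hbadm : c1 * m * EX nu bad ≤ c1 * m := by
    have : 0 ≤ c1 * m := by positivity
    nlinarith
  have hC2e : 4 * e1 * m ≤ 4 * C2 * e1 * m := by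
    have : 0 ≤ e1 * m := by positivity
    nlinarith
  by_cases hca : epsM < cost W
  · have h1 := cell_a hm hL hPi hJi hrd hSS hW6 hca hc1a hc1c he10
    refine ⟨by linarith, fun hgood => ?_⟩
    have h2 := (hgood G1 hmu1).1
    rw [hW1] at h2
    exact absurd h2 (not_le.mpr hca)
  · push Not at hca
    by_cases hcb : bt
    · have hg : ∀ G, nu G ≠ 0 → c1 ≤ gg (lam n m) s (xr G) (tW W) := by
        intro G hG'
        obtain ⟨h1, h2, h3⟩ := hsame G hG'
        exact hc1b.trans (hg2 hca G hG' (h3.mpr hcb))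
      have h1 := cell_b hm hL hPi hJi hrho0 hrd hs hSS hW6 hW5 hg hc1c
      refine ⟨by linarith, fun hgood => ?_⟩
      exact absurd (hgood G1 hmu1).2 (not_le.mpr (hbt1.mpr hcb))
    · have hx : ∀ G, nu G ≠ 0 → |xr G - 1| ≤ 1 / 100 := by
        intro G hG'
        obtain ⟨h1, h2, h3⟩ := hsame G hG'
        by_contra hcon
        push Not at hcon
        exact hcb (h3.mp hcon)
      have hg : ∀ G, nu G ≠ 0 → 2 * (xr G - tW W) ^ 2 ≤
          coef (lam n m) C2 * gg (lam n m) s (xr G) (tW W) + C2 * e1 :=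
        fun G hG' => hg1 hca G hG' (hx G hG')
      obtain ⟨h1, h2⟩ := cell_c hn0 hm hL hPi hJi hrho0 hrd hs hSS hSS2 hW6 (hW7 hca)
        hW5 hC2 hx hg
      refine ⟨?_, fun _ => h2⟩
      have hb0 : EX nu bad = 0 := by
        unfold EX
        refine sum_eq_zero fun G _ => ?_
        by_cases h0 : nu G = 0
        · simp [h0]
        · obtain ⟨h1', h2', h3'⟩ := hsame G h0
          rw [hbad0 G (by rw [h2']; exact hca) (hx G h0), mul_zero]
      rw [hb0, mul_zero, zero_sub]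
      exact h1

theorem thm (hCELL : StmtCELL) (hREG : StmtREG) (hS1 : StmtS1) (hS2 : StmtS2)
    (hMAC1 : StmtMAC1) (hMAC2 : StmtMAC2) (hGAIN : StmtGAIN) : StmtST := by
  classical
  intro l0 hl0
  obtain ⟨epsM, rhoM, hepsM, hrhoM, hrhoM1, hM2⟩ := hMAC2
  obtain ⟨c1G, C2, hc1G, hC2, hG⟩ := hGAIN l0 hl0
  refine ⟨min (epsM / 5) (min c1G 1), epsM, C2, by positivity, hepsM, by linarith, ?_⟩
  intro Lmax eps hLmax heps
  have hC20 : 0 < C2 := by linarith
  obtain ⟨e1, he10, he1a, he1b⟩ : ∃ e1 : ℝ, 0 < e1 ∧ e1 ≤ 1 / 1000 ∧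
      (10 * C2 + 30) * e1 ≤ eps := by
    refine ⟨min (1 / 1000) (eps / (10 * C2 + 30)), by positivity, min_le_left _ _, ?_⟩
    have := min_le_right (1 / 1000) (eps / (10 * C2 + 30))
    rwa [le_div_iff₀ (by positivity), mul_comm] at this
  obtain ⟨rho1, hrho1, n1, hS1'⟩ := hS1 4 (Lmax + 1) e1 (by norm_num) (by linarith) he10
  obtain ⟨rho2, hrho2, n2, hS2'⟩ := hS2 4 (Lmax + 1) e1 (by norm_num) (by linarith) he10
  obtain ⟨rho, hrho0, hra, hrb, hrc, hrd⟩ : ∃ rho : ℝ, 0 < rho ∧ rho ≤ rho1 ∧ rho ≤ rho2 ∧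
      rho ≤ rhoM ∧ rho ≤ e1 := by
    refine ⟨min (min rho1 rho2) (min rhoM e1), by positivity, ?_, ?_, ?_, ?_⟩
    · exact (min_le_left _ _).trans (min_le_left _ _)
    · exact (min_le_left _ _).trans (min_le_right _ _)
    · exact (min_le_right _ _).trans (min_le_left _ _)
    · exact (min_le_right _ _).trans (min_le_right _ _)
  obtain ⟨CR, hR⟩ := hREG rho hrho0
  set M : ℕ := ⌈1 / e1⌉₊ with hM
  refine ⟨max (max n1 n2) (⌈(4 * (|CR| + 2 * (2 * (M : ℝ) + 1)) / e1) ^ 2⌉₊ + 1), fun n hn => ?_⟩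
  have hn1 : n1 ≤ n := (le_max_left _ _).trans ((le_max_left _ _).trans hn)
  have hn2 : n2 ≤ n := (le_max_right _ _).trans ((le_max_left _ _).trans hn)
  have hn3 : ⌈(4 * (|CR| + 2 * (2 * (M : ℝ) + 1)) / e1) ^ 2⌉₊ + 1 ≤ n :=
    (le_max_right _ _).trans hn
  have hn0 : 0 < n := by omega
  have hnr : (0 : ℝ) < n := by exact_mod_cast hn0
  obtain ⟨Net, hNet, hWOK, hsel⟩ := hR n hn0
  have hex : ∀ G : Finset (Finset (Fin n)), ∃ W : Fin n → Fin n → ℝ,
      G ⊆ pairs n → G.Nonempty → W ∈ Net ∧ LR rho G W ∧ cost W - rho ≤ JW G W := by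
    intro G
    by_cases h : G ⊆ pairs n ∧ G.Nonempty
    · obtain ⟨W, h1, h2, h3⟩ := hsel G h.1 h.2
      exact ⟨W, fun _ _ => ⟨h1, h2, h3⟩⟩
    · exact ⟨fun _ _ => 1, fun h1 h2 => absurd ⟨h1, h2⟩ h⟩
  choose Wf hWf using hex
  refine ⟨fun G => cost (Wf G), fun m hml hmu mu hP => ?_⟩
  have hL : 1 / 2 < lam n m := by linarith
  have hL0 : 0 < lam n m := by linarith
  obtain ⟨hsl, hm⟩ := size_low hn0 hL
  have hsu := size_up hn0 (by linarith) hmu
  have hmr : (0 : ℝ) < m := by exact_mod_cast hm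
  -- facts on the graphs of the support
  have hfac : ∀ G, mu G ≠ 0 → Wf G ∈ Net ∧ WOK (Wf G) ∧ LR rho G (Wf G) ∧
      cost (Wf G) - rho ≤ JW G (Wf G) ∧ -(2 * rho) ≤ cost (Wf G) ∧
      (1 - tW (Wf G)) / 6 ≤ (4 / 5) * cost (Wf G) + rho ∧
      (cost (Wf G) ≤ epsM → RW (Wf G) + 2 * (tW (Wf G) - 1) ^ 2 ≤
        (14 / 5) * (cost (Wf G) - (1 - tW (Wf G)) / 6) + 10 * rho ∧
        |tW (Wf G) - 1| ≤ 1 / 1000) := by
    intro G hG'
    obtain ⟨hs1, hs2⟩ := hP.2.1 G hG'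
    have hne : G.Nonempty := by
      rw [← card_pos, hs2]; exact hm
    obtain ⟨h1, h2, h3⟩ := hWf G hs1 hne
    have hav := av2_le hn0 hs1 (by rw [hs2]; exact hm) h2
    refine ⟨h1, hWOK _ h1, h2, h3, cost_ge hn0 (hWOK _ h1) hrho0.le hav, ?_, ?_⟩
    · exact hMAC1 n (Wf G) rho hn0 (hWOK _ h1) hrho0.le (hrc.trans hrhoM1) hav
    · exact hM2 n (Wf G) rho hn0 (hWOK _ h1) hrho0.le hrc hav
  have hk : ∀ G : Finset (Finset (Fin n)), ∃ k : ℤ,
      |(k : ℝ) * (e1 / (4 * lam n m))| ≤ 1 / (4 * lam n m) ∧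
      (mu G ≠ 0 → cost (Wf G) ≤ epsM →
        (|xr G - 1| ≤ 1 / 100 → 2 * (xr G - tW (Wf G)) ^ 2 ≤ coef (lam n m) C2 *
          gg (lam n m) ((k : ℝ) * (e1 / (4 * lam n m))) (xr G) (tW (Wf G)) + C2 * e1) ∧
        (1 / 100 < |xr G - 1| → c1G ≤
          gg (lam n m) ((k : ℝ) * (e1 / (4 * lam n m))) (xr G) (tW (Wf G)))) := by
    intro G
    by_cases h : mu G ≠ 0 ∧ cost (Wf G) ≤ epsM
    · obtain ⟨-, -, -, -, -, -, h7⟩ := hfac G h.1
      have hx0 : 0 ≤ xr G := by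
        have hc := (hP.2.1 G h.1).2
        unfold xr
        rw [hc]
        have : 0 < lam n m - 1 / 2 := by linarith
        unfold Q
        positivity
      obtain ⟨k, hk1, hk2, hk3⟩ := hG (lam n m) (tW (Wf G)) (xr G) e1 hml (h7 h.2).2 hx0
        he10 he1a
      exact ⟨k, hk1, fun _ _ => ⟨hk2, hk3⟩⟩
    · refine ⟨0, ?_, fun h1 h2 => absurd ⟨h1, h2⟩ h⟩
      simp only [Int.cast_zero, zero_mul, abs_zero]
      positivity
  choose kf hkf using hk
  set I : Finset ((Fin n → Fin n → ℝ) × ℤ × Bool) :=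
    Net ×ˢ (Icc (-(M : ℤ)) M ×ˢ univ) with hI
  set f : Finset (Finset (Fin n)) → (Fin n → Fin n → ℝ) × ℤ × Bool :=
    fun G => (Wf G, kf G, decide (1 / 100 < |xr G - 1|)) with hf
  have hfI : ∀ G, mu G ≠ 0 → f G ∈ I := by
    intro G hG'
    rw [hI, hf]
    simp only [mem_product, mem_univ, and_true, mem_Icc]
    refine ⟨(hfac G hG').1, ?_⟩
    have h1 := (hkf G).1
    have h2 : |(kf G : ℝ)| ≤ M := by
      rw [abs_mul, abs_of_pos (show 0 < e1 / (4 * lam n m) by positivity)] at h1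
      have h3 : |(kf G : ℝ)| ≤ 1 / e1 := by
        rw [le_div_iff₀ he10]
        have h4 : |(kf G : ℝ)| * (e1 / (4 * lam n m)) = |(kf G : ℝ)| * e1 / (4 * lam n m) := by
          ring
        rw [h4, div_le_div_iff_of_pos_right (by positivity)] at h1
        exact h1
      exact h3.trans (Nat.le_ceil _)
    have h3 := abs_le.mp h2
    constructor
    · exact_mod_cast h3.1
    · exact_mod_cast h3.2
  -- existence of a support point
  have hexm : ∀ nu : Finset (Finset (Fin n)) → ℝ, Prb nu m → ∃ G, nu G ≠ 0 := by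
    intro nu hnu
    by_contra hcon
    push Not at hcon
    have h1 := hnu.2.2
    unfold EX at h1
    simp [hcon] at h1
  obtain ⟨G0, hG0⟩ := hexm mu hP
  obtain ⟨p, nu, hp0, hpsum, hcell, hEX, hzero, hDD⟩ :=
    hCELL n m mu _ I f hP ⟨f G0, hfI G0 hG0⟩ hfI
  -- size of the label set
  have hlogI : Real.log I.card ≤ e1 * m := by
    have hIc : (I.card : ℝ) = Net.card * ((2 * M + 1) * 2) := by
      rw [hI, card_product, card_product]
      simp only [Int.card_Icc, card_univ, Fintype.card_bool]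
      have : ((M : ℤ) + 1 - -(M : ℤ)).toNat = 2 * M + 1 := by omega
      rw [this]
      push_cast
      ring
    rw [hIc]
    refine logsize hn0 ?_ hNet he10 hn3 hsl
    exact card_pos.mpr ⟨_, (hfac G0 hG0).1⟩
  -- the cells
  set c1 := min (epsM / 5) (min c1G 1) with hc1
  have hc1a : c1 ≤ epsM / 5 := min_le_left _ _
  have hc1b : c1 ≤ c1G := (min_le_right _ _).trans (min_le_left _ _)
  have hc1c : c1 ≤ 1 := (min_le_right _ _).trans (min_le_right _ _)
  have hc10 : 0 < c1 := by rw [hc1]; positivity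
  set bad : Finset (Finset (Fin n)) → ℝ := fun G =>
    if epsM < cost (Wf G) ∨ 1 / 100 < |xr G - 1| then 1 else 0 with hbad
  have hbad1 : ∀ G, bad G ≤ 1 := by
    intro G; rw [hbad]; simp only; split_ifs <;> norm_num
  have hbad0 : ∀ G, cost (Wf G) ≤ epsM → |xr G - 1| ≤ 1 / 100 → bad G = 0 := by
    intro G h1 h2
    rw [hbad]
    simp only
    rw [if_neg]
    rintro (h5 | h5)
    · exact absurd h5 (not_lt.mpr h1)
    · exact absurd h5 (not_lt.mpr h2)
  obtain ⟨hcf1, hcf2⟩ := coef_facts (lam n m) hC2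
  have hmain' : ∀ i ∈ I, 0 < p i →
      (c1 * m * EX (nu i) bad - 4 * C2 * e1 * m ≤ Gam (nu i) m) ∧
      ((∀ G, mu G ≠ 0 → cost (Wf G) ≤ epsM ∧ |xr G - 1| ≤ 1 / 100) →
        EX (nu i) (fun G => lt3 G + 3 / 2 + (xr G - 1) ^ 2) ≤
          coef (lam n m) C2 * (Gam (nu i) m / m) + (6 * C2 + 11) * e1) := by
    intro i hi hpi
    obtain ⟨hPi, hsupi⟩ := hcell i hi hpi
    obtain ⟨G1, hG1⟩ := hexm _ hPi
    obtain ⟨hmu1, hfi⟩ := hsupi G1 hG1
    -- the data of the cell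
    obtain ⟨hW1, hW2, hW3, hW4, hW5, hW6, hW7⟩ := hfac G1 hmu1
    have hsame : ∀ G, nu i G ≠ 0 → Wf G = Wf G1 ∧ kf G = kf G1 ∧
        (1 / 100 < |xr G - 1| ↔ 1 / 100 < |xr G1 - 1|) := by
      intro G hG'
      have h1 : f G = f G1 := by rw [(hsupi G hG').2, hfi]
      rw [hf] at h1
      simp only [Prod.mk.injEq, decide_eq_decide] at h1
      exact h1
    have hLRi : ∀ G, nu i G ≠ 0 → LR rho G (Wf G1) := by
      intro G hG'
      rw [← (hsame G hG').1]
      exact (hfac G (hsupi G hG').1).2.2.1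
    have hLRmono : ∀ {r : ℝ}, rho ≤ r → ∀ G, nu i G ≠ 0 → LR r G (Wf G1) := by
      intro r hr G hG' S T
      have h1 := hLRi G hG' S T
      have h2 : rho * (n : ℝ) ^ 2 ≤ r * (n : ℝ) ^ 2 :=
        mul_le_mul_of_nonneg_right hr (by positivity)
      linarith
    have hJi : ∀ G, nu i G ≠ 0 → cost (Wf G1) - rho ≤ JW G (Wf G1) := by
      intro G hG'
      rw [← (hsame G hG').1]
      exact (hfac G (hsupi G hG').1).2.2.2.1
    refine cell_main (mu := mu) (nu := nu i) (W := Wf G1) (Wf := Wf) (rho := rho)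
      (s := (kf G1 : ℝ) * (e1 / (4 * lam n m))) (bt := 1 / 100 < |xr G1 - 1|)
      hn0 hm hL hPi hrho0.le hrd hC2 hc1a hc1b hc1c hc10 bad hbad1 hbad0 ⟨G1, hG1⟩
      (fun G hG' => ⟨(hsupi G hG').1, (hsame G hG').1, (hsame G hG').2.2⟩) hJi (hkf G1).1
      ?_ ?_ hW5 hW6 (fun h => (hW7 h).1) ?_ ?_
    · intro hD v hv0 hv1 hv2
      exact hS1' n m (nu i) (Wf G1) v hn1 hsl hsu hPi hW2 (hLRmono hra) hD hv0 hv1 hv2
    · intro hD
      exact hS2' n m (nu i) (Wf G1) hn2 hsl hsu hPi hW2 (hLRmono hrb) hD hL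
    · intro hca G hG' hx
      obtain ⟨h1, h2, h3⟩ := hsame G hG'
      have h4 := ((hkf G).2 (hsupi G hG').1 (by rw [h1]; exact hca)).1 hx
      rw [h1, h2] at h4
      exact h4
    · intro hca G hG' hx
      obtain ⟨h1, h2, h3⟩ := hsame G hG'
      have h4 := ((hkf G).2 (hsupi G hG').1 (by rw [h1]; exact hca)).2 hx
      rw [h1, h2] at h4
      exact h4
  have hfin := fin_sum hmr he10 hC20 hcf1 hcf2 he1b hp0 hpsum hEX hDD hlogI hmain'
  exact ⟨hfin.1, fun hgood => hfin.2 hgood⟩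

end Vale.Agent.P046.Sh.ST
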