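import Vale.Agent.P046.Sh.DynDefs

/-! # P046, sharp constant, module ST2: the static theorem for sub-probabilities -/

namespace Vale.Agent.P046.Sh.ST2

open Finset

variable {n : ℕ}

theorem EX_smul (c : ℝ) (mu f : Finset (Finset (Fin n)) → ℝ) :
    EX (fun G => c * mu G) f = c * EX mu f := by
  unfold EX
  rw [mul_sum]
  exact sum_congr rfl fun G _ => by ring

theorem EX_card {mu : Finset (Finset (Fin n)) → ℝ} {m : ℕ}
    (hs : ∀ G, mu G ≠ 0 → G ⊆ pairs n ∧ G.card = m) (f : Finset (Finset (Fin n)) → ℝ) :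
    EX mu f = ∑ G ∈ (pairs n).powersetCard m, mu G * f G := by
  unfold EX
  symm
  refine sum_subset ?_ ?_
  · intro G hG
    rw [mem_powersetCard] at hG
    exact mem_powerset.mpr hG.1
  · intro G _ h2
    by_cases h : mu G = 0
    · rw [h, zero_mul]
    · exact absurd (mem_powersetCard.mpr (hs G h)) h2

theorem EX_nonneg {mu f : Finset (Finset (Fin n)) → ℝ} (h0 : ∀ G, 0 ≤ mu G)
    (hf : ∀ G, 0 ≤ f G) : 0 ≤ EX mu f := by
  unfold EX
  exact sum_nonneg fun G _ => mul_nonneg (h0 G) (hf G)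

theorem norm_prb {mu : Finset (Finset (Fin n)) → ℝ} {m : ℕ} (hs : Sub mu m)
    (h : 0 < EX mu (fun _ => 1)) : Prb (fun G => (EX mu (fun _ => 1))⁻¹ * mu G) m := by
  refine ⟨fun G => mul_nonneg (inv_nonneg.mpr h.le) (hs.1 G), fun G hG => ?_, ?_⟩
  · refine hs.2.1 G fun h0 => hG ?_
    show (EX mu (fun _ => 1))⁻¹ * mu G = 0
    rw [h0, mul_zero]
  · rw [EX_smul]
    exact inv_mul_cancel₀ h.ne'

theorem DD_smul {mu : Finset (Finset (Fin n)) → ℝ} {m : ℕ} (hs : Sub mu m)
    (h : 0 < EX mu (fun _ => 1)) :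
    DD mu m = EX mu (fun _ => 1) * DD (fun G => (EX mu (fun _ => 1))⁻¹ * mu G) m
      + EX mu (fun _ => 1) * Real.log (EX mu (fun _ => 1)) := by
  set eta := EX mu (fun _ => 1) with heta
  have h1 : eta * Real.log eta
      = ∑ G ∈ (pairs n).powersetCard m, mu G * Real.log eta := by
    rw [← sum_mul]
    congr 1
    rw [heta, EX_card hs.2.1]
    exact sum_congr rfl fun G _ => by ring
  rw [h1]
  unfold DD
  rw [mul_sum, ← sum_add_distrib]
  refine sum_congr rfl fun G hG => ?_
  by_cases h0 : mu G = 0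
  · simp [h0]
  · have hpos : 0 < mu G := lt_of_le_of_ne (hs.1 G) (Ne.symm h0)
    have hc : 0 < (((pairs n).card.choose m : ℕ) : ℝ) := by
      have hle : m ≤ (pairs n).card := by
        rw [mem_powersetCard] at hG
        rw [← hG.2]
        exact card_le_card hG.1
      exact_mod_cast Nat.choose_pos hle
    have e1 : mu G * (((pairs n).card.choose m : ℕ) : ℝ)
        = eta * (eta⁻¹ * mu G * (((pairs n).card.choose m : ℕ) : ℝ)) := by
      field_simp
    have e2 : Real.log (mu G * (((pairs n).card.choose m : ℕ) : ℝ))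
        = Real.log eta + Real.log (eta⁻¹ * mu G * (((pairs n).card.choose m : ℕ) : ℝ)) := by
      rw [e1]
      exact Real.log_mul h.ne' (by positivity)
    rw [e2]
    have e3 : eta * (eta⁻¹ * mu G
        * Real.log (eta⁻¹ * mu G * (((pairs n).card.choose m : ℕ) : ℝ)))
        = mu G * Real.log (eta⁻¹ * mu G * (((pairs n).card.choose m : ℕ) : ℝ)) := by
      rw [← mul_assoc, ← mul_assoc, mul_inv_cancel₀ h.ne', one_mul]
    rw [e3]
    ring

theorem Gam_smul {mu : Finset (Finset (Fin n)) → ℝ} {m : ℕ} (hs : Sub mu m)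
    (h : 0 < EX mu (fun _ => 1)) :
    Gam mu m = EX mu (fun _ => 1) * Gam (fun G => (EX mu (fun _ => 1))⁻¹ * mu G) m
      + EX mu (fun _ => 1) * Real.log (EX mu (fun _ => 1)) := by
  have h1 := DD_smul hs h
  set eta := EX mu (fun _ => 1) with heta
  have h2 : EX mu Q = eta * EX (fun G => eta⁻¹ * mu G) Q := by
    rw [EX_smul, ← mul_assoc, mul_inv_cancel₀ h.ne', one_mul]
  have h3 : EX (fun G => eta⁻¹ * mu G) (fun _ => 1) = 1 := by
    rw [EX_smul, ← heta, inv_mul_cancel₀ h.ne']
  unfold Gam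
  rw [h1, h2, h3, ← heta]
  ring

theorem rst_nonneg {mu : Finset (Finset (Fin n)) → ℝ} (h0 : ∀ G, 0 ≤ mu G)
    (p : Finset (Finset (Fin n)) → Prop) (G : Finset (Finset (Fin n))) : 0 ≤ rst p mu G := by
  unfold rst
  split_ifs
  · exact h0 G
  · exact le_rfl

theorem rst_le {mu : Finset (Finset (Fin n)) → ℝ} (h0 : ∀ G, 0 ≤ mu G)
    (p : Finset (Finset (Fin n)) → Prop) (G : Finset (Finset (Fin n))) :
    rst p mu G ≤ mu G := by
  unfold rst
  split_ifs
  · exact le_rfl
  · exact h0 G

theorem rst_ne {mu : Finset (Finset (Fin n)) → ℝ} {p : Finset (Finset (Fin n)) → Prop}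
    {G : Finset (Finset (Fin n))} (h : rst p mu G ≠ 0) : p G ∧ mu G ≠ 0 := by
  unfold rst at h
  split_ifs at h with h1
  · exact ⟨h1, h⟩
  · exact absurd rfl h

theorem rst_sub {mu : Finset (Finset (Fin n)) → ℝ} {m : ℕ} (hs : Sub mu m)
    (p : Finset (Finset (Fin n)) → Prop) : Sub (rst p mu) m := by
  refine ⟨rst_nonneg hs.1 p, fun G hG => hs.2.1 G (rst_ne hG).2, ?_⟩
  refine le_trans ?_ hs.2.2
  unfold EX
  exact sum_le_sum fun G _ => mul_le_mul_of_nonneg_right (rst_le hs.1 p G) zero_le_one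

theorem rst_add (mu : Finset (Finset (Fin n)) → ℝ) (p : Finset (Finset (Fin n)) → Prop)
    (f : Finset (Finset (Fin n)) → ℝ) :
    EX mu f = EX (rst p mu) f + EX (rst (fun G => ¬ p G) mu) f := by
  unfold EX
  rw [← sum_add_distrib]
  refine sum_congr rfl fun G _ => ?_
  unfold rst
  by_cases h : p G
  · simp [h]
  · simp [h]

theorem rst_mass (mu : Finset (Finset (Fin n)) → ℝ) (p : Finset (Finset (Fin n)) → Prop) :
    EX mu (fun G => by classical exact if p G then 0 else 1)
      = EX (rst (fun G => ¬ p G) mu) (fun _ => 1) := by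
  unfold EX
  refine sum_congr rfl fun G _ => ?_
  unfold rst
  by_cases h : p G
  · simp [h]
  · simp [h]

/-- zero mass -/
theorem zero_of_mass {mu : Finset (Finset (Fin n)) → ℝ} {m : ℕ} (hs : Sub mu m)
    (h : EX mu (fun _ => 1) = 0) (G : Finset (Finset (Fin n))) : mu G = 0 := by
  by_contra hG
  have h1 := hs.2.1 G hG
  unfold EX at h
  have h2 := (sum_eq_zero_iff_of_nonneg (fun G _ => by
    rw [mul_one]
    exact hs.1 G)).mp h G (mem_powerset.mpr h1.1)
  rw [mul_one] at h2
  exact hG h2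

theorem Gam_zero (m : ℕ) (mu : Finset (Finset (Fin n)) → ℝ) (h : ∀ G, mu G = 0) :
    Gam mu m = 0 := by
  have h1 : ∀ f, EX mu f = 0 := by
    intro f
    unfold EX
    exact sum_eq_zero fun G _ => by rw [h G, zero_mul]
  unfold Gam DD
  rw [h1, h1]
  rw [sum_eq_zero fun G _ => by rw [h G, zero_mul]]
  ring

theorem xlogx (x : ℝ) (hx : 0 < x) : -1 ≤ x * Real.log x := by
  have h1 := Real.one_sub_inv_le_log_of_pos hx
  have h2 : x * (1 - x⁻¹) ≤ x * Real.log x := mul_le_mul_of_nonneg_left h1 hx.le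
  rw [mul_sub, mul_one, mul_inv_cancel₀ hx.ne'] at h2
  linarith

theorem axlogx (a x : ℝ) (hx : 0 < x) : - Real.exp (-a - 1) ≤ a * x + x * Real.log x := by
  have hy : 0 < x * Real.exp (a + 1) := by positivity
  have h1 := Real.one_sub_inv_le_log_of_pos hy
  rw [Real.log_mul hx.ne' (Real.exp_pos _).ne', Real.log_exp] at h1
  have h2 : x * (1 - (x * Real.exp (a + 1))⁻¹) ≤ x * (Real.log x + (a + 1)) :=
    mul_le_mul_of_nonneg_left h1 hx.le
  have h3 : x * (x * Real.exp (a + 1))⁻¹ = Real.exp (-a - 1) := by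
    rw [mul_inv, ← mul_assoc, mul_inv_cancel₀ hx.ne', one_mul, ← Real.exp_neg]
    congr 1
    ring
  rw [mul_sub, h3] at h2
  linarith

/-- numbers of edges -/
theorem m_large {m : ℕ} {l0 : ℝ} (hl : 1 / 2 < l0) (hn : 0 < n) (h : l0 ≤ lam n m) :
    (n : ℝ) ^ 3 / 8 ≤ (m : ℝ) ^ 2 := by
  unfold lam at h
  have hn' : (0 : ℝ) < n := by exact_mod_cast hn
  have h1 : 1 / 2 ≤ 4 * (m : ℝ) ^ 2 / (n : ℝ) ^ 3 := by linarith
  rw [le_div_iff₀ (by positivity)] at h1
  linarith

theorem small_exp {c1 : ℝ} {m : ℕ} (hc : 0 < c1) (hn : 256 / c1 ^ 2 ≤ n) (hn0 : 0 < n)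
    (hm : (n : ℝ) ^ 3 / 8 ≤ (m : ℝ) ^ 2) :
    Real.exp (-(c1 * m / 4) - 1) ≤ 1 / (n : ℝ) ^ 2 := by
  have hn' : (0 : ℝ) < n := by exact_mod_cast hn0
  have hx : 0 ≤ c1 * m / 4 := by positivity
  have h1 : (c1 * m / 4) ^ 2 / 2 ≤ Real.exp (c1 * m / 4) := by
    have := Real.quadratic_le_exp_of_nonneg hx
    linarith
  have h2 : (n : ℝ) ^ 2 ≤ (c1 * m / 4) ^ 2 / 2 := by
    rw [div_le_iff₀ (by positivity)] at hn
    have e : (c1 * m / 4) ^ 2 / 2 = c1 ^ 2 * (m : ℝ) ^ 2 / 32 := by ring
    rw [e]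
    have h3 : c1 ^ 2 * ((n : ℝ) ^ 3 / 8) ≤ c1 ^ 2 * (m : ℝ) ^ 2 :=
      mul_le_mul_of_nonneg_left hm (by positivity)
    have h4 : (n : ℝ) ^ 2 * 256 ≤ (n : ℝ) ^ 2 * ((n : ℝ) * c1 ^ 2) :=
      mul_le_mul_of_nonneg_left hn (by positivity)
    nlinarith
  have h5 : Real.exp (-(c1 * m / 4) - 1) ≤ (Real.exp (c1 * m / 4))⁻¹ := by
    rw [← Real.exp_neg]
    exact Real.exp_le_exp.mpr (by linarith)
  refine h5.trans ?_
  rw [inv_eq_one_div]
  exact one_div_le_one_div_of_le (by positivity) (h2.trans h1)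

theorem ra_nonneg {C2 : ℝ} (h : 0 < C2) (L : ℝ) : 0 ≤ ra C2 L := by
  unfold ra
  split_ifs
  · norm_num
  · exact h.le

theorem thm (hST : StmtST) (hR : StmtENTRST) : StmtST2 := by
  classical
  intro l0 hl0
  obtain ⟨c1, eps0, C2, hc1, heps0, hC2, H⟩ := hST l0 hl0
  refine ⟨c1 / 2, C2, by linarith, hC2, fun Lmax eps hLm heps => ?_⟩
  obtain ⟨n0, H⟩ := H Lmax (min eps (c1 / 4)) hLm (lt_min heps (by linarith))
  set eps' := min eps (c1 / 4) with heps'
  have he1 : eps' ≤ eps := min_le_left _ _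
  have he2 : eps' ≤ c1 / 4 := min_le_right _ _
  have he0 : 0 < eps' := lt_min heps (by linarith)
  obtain ⟨n1, hn1⟩ := exists_nat_ge (256 / c1 ^ 2)
  refine ⟨max n0 (max n1 1), fun n hn => ?_⟩
  have hn0 : n0 ≤ n := (le_max_left _ _).trans hn
  have hn1' : n1 ≤ n := (le_max_left _ _).trans ((le_max_right n0 _).trans hn)
  have hnpos : 0 < n := lt_of_lt_of_le (by norm_num)
    ((le_max_right n1 1).trans ((le_max_right n0 _).trans hn))
  have hnb : 256 / c1 ^ 2 ≤ (n : ℝ) := hn1.trans (by exact_mod_cast hn1')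
  obtain ⟨irr, H⟩ := H n hn0
  refine ⟨fun G => irr G ≤ eps0 ∧ |xr G - 1| ≤ 1 / 100, fun G hG => hG.2, ?_⟩
  set reg : Finset (Finset (Fin n)) → Prop := fun G => irr G ≤ eps0 ∧ |xr G - 1| ≤ 1 / 100
    with hreg
  intro m hm1 hm2 mu hs
  have hml := m_large hl0 hnpos hm1
  have hn' : (0 : ℝ) < n := by exact_mod_cast hnpos
  have hm0 : (0 : ℝ) < m := by
    rcases Nat.eq_zero_or_pos m with h | h
    · rw [h] at hml
      have : 0 < (n : ℝ) ^ 3 / 8 := by positivity
      norm_num at hml
      linarith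
    · exact_mod_cast h
  have hn2 : (0 : ℝ) ≤ 1 / (n : ℝ) ^ 2 := by positivity
  have hsr := rst_sub hs reg
  have hsb := rst_sub hs (fun G => ¬ reg G)
  refine ⟨?_, ?_, ?_⟩
  · rw [rst_mass mu reg]
    have hb0 : 0 ≤ EX (rst (fun G => ¬ reg G) mu) (fun _ => 1) :=
      EX_nonneg hsb.1 fun _ => zero_le_one
    rcases hb0.lt_or_eq with hb | hb
    · have hN : m ≤ (pairs n).card := by
        by_contra hcon
        have hz : ∀ G, rst (fun G => ¬ reg G) mu G = 0 := by
          intro G
          by_contra hG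
          have h1 := hsb.2.1 G hG
          have h2 := card_le_card h1.1
          omega
        have : EX (rst (fun G => ¬ reg G) mu) (fun _ => 1) = 0 := by
          unfold EX
          exact sum_eq_zero fun G _ => by rw [hz G, zero_mul]
        linarith
      have hdd := (hR n m mu mu reg hs.1 (fun _ => le_rfl) hs.2.1 hs.2.2 hN).1
      have hG : Gam mu m = Gam (rst reg mu) m + Gam (rst (fun G => ¬ reg G) mu) m := by
        unfold Gam
        rw [hdd, rst_add mu reg Q, rst_add mu reg (fun _ => 1)]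
        ring
      have hGb := Gam_smul hsb hb
      have hP := norm_prb hsb hb
      have hA := (H m hm1 hm2 _ hP).1
      have hind : EX (fun G => (EX (rst (fun G => ¬ reg G) mu) (fun _ => 1))⁻¹
          * rst (fun G => ¬ reg G) mu G) (fun G => by
            classical exact if eps0 < irr G ∨ 1 / 100 < |xr G - 1| then 1 else 0) = 1 := by
        refine Eq.trans ?_ hP.2.2
        refine sum_congr rfl fun G _ => ?_
        by_cases h : rst (fun G => ¬ reg G) mu G = 0
        · simp only [h, mul_zero, zero_mul]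
        · have h1 := (rst_ne h).1
          have h2 : eps0 < irr G ∨ 1 / 100 < |xr G - 1| := by
            by_contra hcon
            push Not at hcon
            exact h1 hcon
          simp only [h2, if_true]
      rw [hind] at hA
      set eta := EX (rst (fun G => ¬ reg G) mu) (fun _ => 1) with heta
      have h3 := axlogx (c1 * m / 4) eta hb
      have h4 := small_exp hc1 hnb hnpos hml
      have h5 : eta * (c1 * m * 1 - eps' * m) ≤ eta * Gam (fun G => eta⁻¹
          * rst (fun G => ¬ reg G) mu G) m := mul_le_mul_of_nonneg_left hA hb.le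
      have h6 : eta * (eps' * m) ≤ eta * (c1 / 4 * m) :=
        mul_le_mul_of_nonneg_left (mul_le_mul_of_nonneg_right he2 hm0.le) hb.le
      rw [hG, hGb]
      nlinarith
    · have hz := zero_of_mass hsb hb.symm
      have hGe : rst reg mu = mu := by
        funext G
        have h1 := hz G
        unfold rst at h1 ⊢
        by_cases h : reg G
        · simp [h]
        · simp only [h, not_false_eq_true, if_true] at h1
          simp [h, h1]
      rw [hGe, ← hb]
      linarith
  · have hb0 : 0 ≤ EX (rst reg mu) (fun _ => 1) := EX_nonneg hsr.1 fun _ => zero_le_one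
    rcases hb0.lt_or_eq with hb | hb
    · have hGb := Gam_smul hsr hb
      have hP := norm_prb hsr hb
      have hB := (H m hm1 hm2 _ hP).2 (fun G hG => by
        have : rst reg mu G ≠ 0 := fun h0 => hG (by rw [h0, mul_zero])
        exact (rst_ne this).1)
      have hle1 := hsr.2.2
      set eta := EX (rst reg mu) (fun _ => 1) with heta
      have h1 : EX (rst reg mu) er = eta * EX (fun G => eta⁻¹ * rst reg mu G) er := by
        rw [EX_smul, ← mul_assoc, mul_inv_cancel₀ hb.ne', one_mul]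
      have hB' : EX (fun G => eta⁻¹ * rst reg mu G) er
          ≤ ra C2 (lam n m) * (Gam (fun G => eta⁻¹ * rst reg mu G) m / m) + eps' := hB
      have h2 := xlogx eta hb
      have h3 : eta * EX (fun G => eta⁻¹ * rst reg mu G) er
          ≤ eta * (ra C2 (lam n m) * (Gam (fun G => eta⁻¹ * rst reg mu G) m / m) + eps') :=
        mul_le_mul_of_nonneg_left hB' hb.le
      have h4 : eta * (ra C2 (lam n m) * (Gam (fun G => eta⁻¹ * rst reg mu G) m / m) + eps')
          = ra C2 (lam n m) * ((Gam (rst reg mu) m - eta * Real.log eta) / m) + eta * eps' := by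
        rw [hGb]
        ring
      have h5 : ra C2 (lam n m) * ((Gam (rst reg mu) m - eta * Real.log eta) / m)
          ≤ ra C2 (lam n m) * ((Gam (rst reg mu) m + 1) / m) := by
        refine mul_le_mul_of_nonneg_left ?_ (ra_nonneg hC2 _)
        exact div_le_div_of_nonneg_right (by linarith) hm0.le
      have h6 : eta * eps' ≤ 1 * eps := mul_le_mul hle1 he1 he0.le zero_le_one
      rw [h1]
      linarith
    · have hz := zero_of_mass hsr hb.symm
      rw [Gam_zero m _ hz]
      have h1 : EX (rst reg mu) er = 0 := by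
        unfold EX
        exact sum_eq_zero fun G _ => by rw [hz G, zero_mul]
      rw [h1]
      have h2 : 0 ≤ ra C2 (lam n m) * ((0 + 1) / (m : ℝ)) :=
        mul_nonneg (ra_nonneg hC2 _) (by positivity)
      linarith
  · have hb0 : 0 ≤ EX (rst reg mu) (fun _ => 1) := EX_nonneg hsr.1 fun _ => zero_le_one
    rcases hb0.lt_or_eq with hb | hb
    · have hGb := Gam_smul hsr hb
      have hP := norm_prb hsr hb
      have hA := (H m hm1 hm2 _ hP).1
      have hle1 := hsr.2.2
      have hi0 : 0 ≤ EX (fun G => (EX (rst reg mu) (fun _ => 1))⁻¹ * rst reg mu G)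
          (fun G => by
            classical exact if eps0 < irr G ∨ 1 / 100 < |xr G - 1| then 1 else 0) := by
        refine EX_nonneg hP.1 fun G => ?_
        show (0 : ℝ) ≤ if eps0 < irr G ∨ 1 / 100 < |xr G - 1| then 1 else 0
        split_ifs <;> norm_num
      set eta := EX (rst reg mu) (fun _ => 1) with heta
      have h1 : -(eps' * m) ≤ Gam (fun G => eta⁻¹ * rst reg mu G) m := by
        have : 0 ≤ c1 * m * EX (fun G => eta⁻¹ * rst reg mu G)
          (fun G => by
            classical exact if eps0 < irr G ∨ 1 / 100 < |xr G - 1| then 1 else 0) :=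
          mul_nonneg (by positivity) hi0
        linarith
      have h2 := xlogx eta hb
      have h3 : eta * (-(eps' * m)) ≤ eta * Gam (fun G => eta⁻¹ * rst reg mu G) m :=
        mul_le_mul_of_nonneg_left h1 hb.le
      have h4 : eta * (eps' * m) ≤ 1 * (eps * m) :=
        mul_le_mul hle1 (mul_le_mul_of_nonneg_right he1 hm0.le) (by positivity) zero_le_one
      rw [hGb]
      linarith
    · have hz := zero_of_mass hsr hb.symm
      rw [Gam_zero m _ hz]
      have : 0 ≤ eps * m := by positivity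
      linarith

end Vale.Agent.P046.Sh.ST2
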