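import Vale.Agent.P046.Sh.DynDefs

/-! # P046, sharp constant, module STARTG: the functional `Gam` at the start -/

namespace Vale.Agent.P046.Sh.STARTG

open Finset

variable {n : ℕ}

theorem be_le {L : ℝ} (h : 1 ≤ L) : 0 ≤ be L ∧ be L ≤ 1 / (2 * L - 1) := by
  unfold be th
  have hu : 0 < 1 / (2 * L) := by positivity
  have hu2 : 1 / (2 * L) ≤ 1 / 2 := by
    rw [div_le_div_iff₀ (by positivity) (by norm_num)]
    linarith
  have h1 : 0 < 1 - 1 / (2 * L) := by linarith
  constructor
  · have := Real.log_nonpos h1.le (by linarith)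
    linarith
  · have h2 := Real.one_sub_inv_le_log_of_pos h1
    have h3 : (1 - 1 / (2 * L))⁻¹ - 1 = 1 / (2 * L - 1) := by
      have a1 : (2 * L) ≠ 0 := by positivity
      have a2 : 2 * L - 1 ≠ 0 := by
        have : 0 < 2 * L - 1 := by linarith
        exact this.ne'
      have a3 : 1 - 1 / (2 * L) = (2 * L - 1) / (2 * L) := by
        field_simp
      rw [a3, inv_div]
      field_simp
      ring
    linarith

theorem EX_Q_le (mu : Finset (Finset (Fin n)) → ℝ) (m : ℕ) (hm : 0 < m)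
    (h0 : ∀ G, 0 ≤ mu G) (hs : ∀ G, mu G ≠ 0 → G.card = m) :
    EX mu Q ≤ ((m : ℝ) / 3) * (EX mu (fun G => |yy G - lam n G.card|)
      + lam n m * EX mu (fun _ => 1)) := by
  unfold EX
  rw [mul_add, mul_sum, mul_sum, mul_sum, ← sum_add_distrib]
  refine sum_le_sum fun G _ => ?_
  by_cases hG : mu G = 0
  · rw [hG]
    simp
  · have hc := hs G hG
    have hm' : (0 : ℝ) < m := by exact_mod_cast hm
    have h1 : Q G = (m : ℝ) / 3 * yy G := by
      unfold yy
      rw [hc]
      field_simp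
    have h2 : yy G ≤ |yy G - lam n G.card| + lam n m := by
      have := le_abs_self (yy G - lam n G.card)
      rw [hc] at this
      rw [hc]
      linarith
    have h3 : mu G * Q G ≤ mu G * ((m : ℝ) / 3 * (|yy G - lam n G.card| + lam n m)) := by
      rw [h1]
      refine mul_le_mul_of_nonneg_left ?_ (h0 G)
      exact mul_le_mul_of_nonneg_left h2 (by positivity)
    calc mu G * Q G ≤ mu G * ((m : ℝ) / 3 * (|yy G - lam n G.card| + lam n m)) := h3
      _ = _ := by ring

theorem gam_le {C K x : ℝ} {m : ℕ} (mu : Finset (Finset (Fin n)) → ℝ) (hC : 0 < C) (hK : 4 ≤ K)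
    (hn : 0 < n) (hx : x = (n : ℝ) ^ ((3 : ℝ) / 2))
    (h0 : ∀ G, 0 ≤ mu G) (hs : ∀ G, mu G ≠ 0 → G.card = m)
    (hmass : EX mu (fun _ => 1) ≤ 1)
    (hm1 : K * x / 2 ≤ m) (hm2 : (m : ℝ) ≤ K * x)
    (hD : DD mu m ≤ C / K * x) (hy : EX mu (fun G => |yy G - lam n G.card|) ≤ C) :
    Gam mu m ≤ (2 * C + 1) / K * x := by
  have hn' : (0 : ℝ) < n := by exact_mod_cast hn
  have hx0 : 0 < x := by rw [hx]; positivity
  have hm' : (0 : ℝ) < m := by
    have : 0 < K * x / 2 := by positivity
    linarith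
  have hm : 0 < m := by exact_mod_cast hm'
  have hx2 : x ^ 2 = (n : ℝ) ^ 3 := by
    rw [hx, ← Real.rpow_natCast, ← Real.rpow_mul hn'.le]
    norm_num
  set L : ℝ := lam n m with hL
  have hLK : K ^ 2 ≤ L := by
    rw [hL]
    unfold lam
    rw [← hx2, le_div_iff₀ (by positivity)]
    have h1 : K * x ≤ 2 * m := by linarith
    have h2 : 0 ≤ K * x := by positivity
    nlinarith [mul_self_le_mul_self h2 h1]
  have hL16 : 16 ≤ L := by nlinarith
  obtain ⟨b0, b1⟩ := be_le (L := L) (by linarith)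
  have hmass0 : 0 ≤ EX mu (fun _ => 1) := by
    unfold EX
    exact sum_nonneg fun G _ => by
      rw [mul_one]
      exact h0 G
  set s : ℝ := EX mu (fun _ => 1) with hsdef
  have hq := EX_Q_le mu m hm h0 hs
  rw [← hL, ← hsdef] at hq
  have hq0 : 0 ≤ EX mu Q := by
    unfold EX
    exact sum_nonneg fun G _ => mul_nonneg (h0 G) (Nat.cast_nonneg _)
  have hq2 : EX mu Q ≤ ((m : ℝ) / 3) * (C + L * s) := by
    refine hq.trans ?_
    refine mul_le_mul_of_nonneg_left ?_ (by positivity)
    linarith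
  have e1 : be L * EX mu Q ≤ (1 / (2 * L - 1)) * (((m : ℝ) / 3) * (C + L * s)) := by
    refine mul_le_mul b1 hq2 hq0 ?_
    have : 0 < 2 * L - 1 := by linarith
    positivity
  have h2L : 0 < 2 * L - 1 := by linarith
  have e2 : (1 / (2 * L - 1)) * (((m : ℝ) / 3) * (C + L * s)) - (m : ℝ) / 6 * s
      = (m : ℝ) * (C / 3 + s / 6) / (2 * L - 1) := by
    field_simp
    ring
  have e3 : (m : ℝ) * (C / 3 + s / 6) / (2 * L - 1) ≤ (C + 1) / K * x := by
    rw [div_mul_eq_mul_div, div_le_div_iff₀ h2L (by linarith)]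
    have a1 : (m : ℝ) * (C / 3 + s / 6) ≤ K * x * ((C + 1) / 3) := by
      refine mul_le_mul hm2 ?_ (by positivity) (by positivity)
      linarith
    have a2 : K ^ 2 ≤ 2 * L - 1 := by nlinarith
    have a3 : (m : ℝ) * (C / 3 + s / 6) * K ≤ K * x * ((C + 1) / 3) * K :=
      mul_le_mul_of_nonneg_right a1 (by linarith)
    have a4 : (C + 1) * x * K ^ 2 ≤ (C + 1) * x * (2 * L - 1) :=
      mul_le_mul_of_nonneg_left a2 (by positivity)
    have a5 : 0 ≤ (C + 1) * x * K ^ 2 := by positivity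
    nlinarith
  have e4 : (2 * C + 1) / K * x = C / K * x + (C + 1) / K * x := by ring
  unfold Gam
  rw [← hL, ← hsdef, e4]
  linarith

theorem thm (h : StmtSTART) (hLAW : StmtLAW) : StmtSTARTG := by
  classical
  obtain ⟨C, K1, hC, hK1, H⟩ := h
  refine ⟨2 * C + 1, max K1 4, by linarith, le_max_right _ _, fun K hK => ?_⟩
  have hK1' : K1 ≤ K := (le_max_left _ _).trans hK
  have hK4 : 4 ≤ K := (le_max_right _ _).trans hK
  obtain ⟨n0, H⟩ := H K hK1'
  refine ⟨max n0 1, fun n hn => ?_⟩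
  have hn0 : n0 ≤ n := (le_max_left _ _).trans hn
  have hn1 : 0 < n := lt_of_lt_of_le (by norm_num) ((le_max_right n0 1).trans hn)
  obtain ⟨good, hgood, H⟩ := H n hn0
  refine ⟨good, hgood, fun i hi1 hi2 => ?_⟩
  obtain ⟨_, hsum, hDD, hyy⟩ := H i hi1 hi2
  have hn' : (0 : ℝ) < n := by exact_mod_cast hn1
  have hx0 : 0 < (n : ℝ) ^ ((3 : ℝ) / 2) := by positivity
  have hK0 : 0 < K := by linarith
  refine ⟨hsum.trans ?_, ?_⟩
  · refine mul_le_mul_of_nonneg_right ?_ hx0.le
    refine mul_le_mul_of_nonneg_right (by linarith) (by positivity)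
  · obtain ⟨l0, l1, l2, _⟩ := hLAW n good hgood i
    have hpos : 0 < ((pairs n).card : ℝ) - 3 * i := by
      have : 0 < K * (n : ℝ) ^ ((3 : ℝ) / 2) / 2 := by positivity
      linarith
    have hle : 3 * i ≤ (pairs n).card := by
      have : ((3 * i : ℕ) : ℝ) ≤ ((pairs n).card : ℝ) := by
        push_cast
        linarith
      exact_mod_cast this
    have hcast : (((pairs n).card - 3 * i : ℕ) : ℝ) = ((pairs n).card : ℝ) - 3 * i := by
      rw [Nat.cast_sub hle]
      push_cast
      ring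
    refine gam_le (C := C) (law n good i) hC hK4 hn1 rfl l0 ?_ ?_ ?_ ?_ hDD hyy
    · intro G hG
      have := (l1 G hG).2
      omega
    · have : 0 ≤ ∑ j ∈ range i, EX (law n good j) (fun G => by
          classical exact if good j G then 0 else 1) := by
        refine sum_nonneg fun j _ => ?_
        unfold EX
        refine sum_nonneg fun G _ => ?_
        refine mul_nonneg ((hLAW n good hgood j).1 G) ?_
        show (0 : ℝ) ≤ if good j G then 0 else 1
        split_ifs <;> norm_num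
      linarith
    · rw [hcast]
      exact hi1
    · rw [hcast]
      exact hi2

end Vale.Agent.P046.Sh.STARTG
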