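import Vale.Agent.P046.Sh.Defs

/-! # P046 Sh, module STB: the functionals used for triples -/

namespace Vale.Agent.P046.Sh.STB

open Finset Vale.Agent.P046 Vale.Agent.P046.Sh

variable {n : ℕ}

theorem cd_mono {H H' : Finset (Finset (Fin n))} (h : H' ⊆ H) (u v : Fin n) :
    cd H' u v ≤ cd H u v := by
  classical
  unfold cd
  refine card_le_card (fun w hw => ?_)
  rw [mem_filter] at hw ⊢
  exact ⟨hw.1, h hw.2.1, h hw.2.2⟩

/-- one term -/
noncomputable def tm (om : Fin n → Fin n → Fin n → ℝ) (i k : ℕ) (v : ℝ)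
    (H : Finset (Finset (Fin n))) (a z c : Fin n) : ℝ :=
  om a c z * v ^ (i * cd H a c) * v ^ (k * cd H c z)

theorem tm_mem {om : Fin n → Fin n → Fin n → ℝ} (hom : ∀ a c z, 0 ≤ om a c z ∧ om a c z ≤ 1)
    {v : ℝ} (hv : 0 ≤ v) (hv1 : v ≤ 1) (i k : ℕ) (H : Finset (Finset (Fin n))) (a z c : Fin n) :
    0 ≤ tm om i k v H a z c ∧ tm om i k v H a z c ≤ 1 := by
  unfold tm
  have h1 := hom a c z
  have h2 : 0 ≤ v ^ (i * cd H a c) := pow_nonneg hv _
  have h3 : v ^ (i * cd H a c) ≤ 1 := pow_le_one₀ hv hv1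
  have h4 : 0 ≤ v ^ (k * cd H c z) := pow_nonneg hv _
  have h5 : v ^ (k * cd H c z) ≤ 1 := pow_le_one₀ hv hv1
  refine ⟨mul_nonneg (mul_nonneg h1.1 h2) h4, ?_⟩
  exact mul_le_one₀ (mul_le_one₀ h1.2 h2 h3) h4 h5

theorem tm_mono {om : Fin n → Fin n → Fin n → ℝ} (hom : ∀ a c z, 0 ≤ om a c z ∧ om a c z ≤ 1)
    {v : ℝ} (hv : 0 ≤ v) (hv1 : v ≤ 1) (i k : ℕ) {H H' : Finset (Finset (Fin n))} (h : H' ⊆ H)
    (a z c : Fin n) : tm om i k v H a z c ≤ tm om i k v H' a z c := by
  unfold tm
  have h1 := (hom a c z).1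
  have h2 : v ^ (i * cd H a c) ≤ v ^ (i * cd H' a c) :=
    pow_le_pow_of_le_one hv hv1 (Nat.mul_le_mul_left _ (cd_mono h a c))
  have h3 : v ^ (k * cd H c z) ≤ v ^ (k * cd H' c z) :=
    pow_le_pow_of_le_one hv hv1 (Nat.mul_le_mul_left _ (cd_mono h c z))
  exact mul_le_mul (mul_le_mul_of_nonneg_left h2 h1) h3 (pow_nonneg hv _)
    (mul_nonneg h1 (pow_nonneg hv _))

theorem pair_eq {a b w : Fin n} (hab : a ≠ b) (h : ({a, w} : Finset (Fin n)) = {a, b}) :
    w = b := by
  have hb : b ∈ ({a, w} : Finset (Fin n)) := by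
    rw [h]
    simp
  rw [mem_insert, mem_singleton] at hb
  rcases hb with hb | hb
  · exact absurd hb.symm hab
  · exact hb.symm

theorem ne_of_mem {H : Finset (Finset (Fin n))} (hH : H ⊆ pairs n) {a b : Fin n}
    (h : ({a, b} : Finset (Fin n)) ∈ H) : a ≠ b := by
  rintro rfl
  have h1 := (mem_powersetCard.1 (hH h)).2
  simp at h1

/-- the pairs with unchanged codegree -/
theorem cd_eq {H : Finset (Finset (Fin n))} {a b : Fin n} {c u : Fin n}
    (h1 : ∀ w, ({c, w} : Finset (Fin n)) ∈ H → ({u, w} : Finset (Fin n)) ∈ H →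
      ({c, w} : Finset (Fin n)) ≠ {a, b} ∧ ({u, w} : Finset (Fin n)) ≠ {a, b}) :
    cd (H.erase {a, b}) c u = cd H c u := by
  classical
  unfold cd
  congr 1
  ext w
  simp only [mem_filter, mem_univ, true_and, mem_erase]
  constructor
  · rintro ⟨⟨_, h2⟩, ⟨_, h3⟩⟩
    exact ⟨h2, h3⟩
  · rintro ⟨h2, h3⟩
    exact ⟨⟨(h1 w h2 h3).1, h2⟩, ⟨(h1 w h2 h3).2, h3⟩⟩

theorem bad_card {H : Finset (Finset (Fin n))} (hH : H ⊆ pairs n) (b : Fin n) :
    ((univ : Finset (Fin n)).filter (fun c => ({c, b} : Finset (Fin n)) ∈ H)).card ≤ deg H b := by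
  classical
  unfold deg
  refine card_le_card_of_injOn (fun c => ({c, b} : Finset (Fin n))) ?_ ?_
  · intro c hc
    rw [mem_coe, mem_filter] at hc
    rw [mem_coe, mem_filter]
    exact ⟨hc.2, by simp⟩
  · intro c hc c' hc' hcc
    rw [mem_coe, mem_filter] at hc hc'
    have h1 : ({b, c} : Finset (Fin n)) = {b, c'} := by
      rw [pair_comm b c, pair_comm b c']
      exact hcc
    exact pair_eq (ne_of_mem hH hc'.2).symm h1

theorem thm : StmtSTB := by
  classical
  intro n om i k v hn hom _ _ hv hv1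
  have hn' : (0 : ℝ) < n := by exact_mod_cast hn
  refine ⟨fun H a z => ⟨?_, ?_⟩, fun H H' a z h => ?_, fun H a b z hH hab hza hzb => ?_⟩
  · exact div_nonneg (sum_nonneg (fun c _ => (tm_mem hom hv hv1 i k H a z c).1)) hn'.le
  · rw [div_le_one hn']
    have h1 : ∑ c, tm om i k v H a z c ≤ ∑ _c : Fin n, (1 : ℝ) :=
      sum_le_sum (fun c _ => (tm_mem hom hv hv1 i k H a z c).2)
    rw [sum_const, card_univ, Fintype.card_fin, nsmul_eq_mul, mul_one] at h1
    exact h1
  · exact div_le_div_of_nonneg_right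
      (sum_le_sum (fun c _ => tm_mono hom hv hv1 i k h a z c)) hn'.le
  · show (∑ c, tm om i k v (H.erase {a, b}) a z c) / n - (∑ c, tm om i k v H a z c) / n ≤ _
    rw [← sub_div, ← sum_sub_distrib]
    refine div_le_div_of_nonneg_right ?_ hn'.le
    set Bad := (univ : Finset (Fin n)).filter (fun c => ({c, b} : Finset (Fin n)) ∈ H) ∪ {a, b}
      with hBad
    have hab' : a ≠ b := ne_of_mem hH hab
    have h1 : ∀ c ∈ (univ : Finset (Fin n)), tm om i k v (H.erase {a, b}) a z c -
        tm om i k v H a z c ≤ if c ∈ Bad then 1 else 0 := by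
      intro c _
      split_ifs with hc
      · have h2 := (tm_mem hom hv hv1 i k (H.erase {a, b}) a z c).2
        have h3 := (tm_mem hom hv hv1 i k H a z c).1
        linarith
      · rw [hBad, mem_union, not_or, mem_filter, not_and, mem_insert, mem_singleton,
          not_or] at hc
        obtain ⟨hc1, hc2, hc3⟩ := hc
        have hcb := hc1 (mem_univ _)
        have e1 : cd (H.erase {a, b}) a c = cd H a c := by
          refine cd_eq (fun w hw hw' => ⟨fun h => ?_, fun h => ?_⟩)
          · rw [pair_eq hab' h] at hw'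
            exact hcb hw'
          · have : c ∈ ({a, b} : Finset (Fin n)) := by
              rw [← h]
              simp
            rw [mem_insert, mem_singleton] at this
            rcases this with h' | h'
            · exact hc2 h'
            · exact hc3 h'
        have e2 : cd (H.erase {a, b}) c z = cd H c z := by
          refine cd_eq (fun w hw hw' => ⟨fun h => ?_, fun h => ?_⟩)
          · have : c ∈ ({a, b} : Finset (Fin n)) := by
              rw [← h]
              simp
            rw [mem_insert, mem_singleton] at this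
            rcases this with h' | h'
            · exact hc2 h'
            · exact hc3 h'
          · have : z ∈ ({a, b} : Finset (Fin n)) := by
              rw [← h]
              simp
            rw [mem_insert, mem_singleton] at this
            rcases this with h' | h'
            · exact hza h'
            · exact hzb h'
        unfold tm
        rw [e1, e2, sub_self]
    refine (sum_le_sum h1).trans ?_
    rw [sum_ite_mem, univ_inter, sum_const, nsmul_eq_mul, mul_one]
    have h2 : Bad.card ≤ deg H b + 2 := by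
      rw [hBad]
      refine (card_union_le _ _).trans (Nat.add_le_add (bad_card hH b) ?_)
      exact card_le_two
    have h3 : (Bad.card : ℝ) ≤ (deg H b : ℝ) + 2 := by exact_mod_cast h2
    linarith

end Vale.Agent.P046.Sh.STB
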