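import Vale.Agent.P046.Sh.StepDefs

/-!
# P046 sharp: module STEP2 (helper16): one step of the functional `Gam`
-/

namespace Vale.Agent.P046.Sh.STEP2

open Finset

variable {n : ℕ}

theorem log_bound {x : ℝ} (h : |x - 1| ≤ 1 / 50) : - Real.log x ≤ (1 - x) + (x - 1) ^ 2 := by
  have h1 := abs_le.1 h
  have hx : 0 < x := by linarith [h1.1]
  set y := Real.sqrt x with hy
  have hy0 : 0 < y := Real.sqrt_pos.2 hx
  have hyx : y ^ 2 = x := Real.sq_sqrt hx.le
  have hlog : Real.log x = 2 * Real.log y := by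
    rw [← hyx, Real.log_pow]; norm_num
  have h2 := Real.one_sub_inv_le_log_of_pos hy0
  have hs1 : y ≤ 51 / 50 := by nlinarith [h1.2]
  have hs2 : 49 / 50 ≤ y := by nlinarith [h1.1]
  have key : 2 * (y⁻¹ - 1) ≤ (1 - x) + (x - 1) ^ 2 := by
    rw [← hyx]
    have h3 : 2 * (1 - y) ≤ y * ((1 - y ^ 2) + (y ^ 2 - 1) ^ 2) := by
      obtain ⟨s, hs⟩ : ∃ s, y = 1 - s := ⟨1 - y, by ring⟩
      rw [hs]
      have e : (1 - s) * ((1 - (1 - s) ^ 2) + ((1 - s) ^ 2 - 1) ^ 2) - 2 * (1 - (1 - s)) =
          s ^ 2 * (1 - 7 * s + 5 * s ^ 2 - s ^ 3) := by ring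
      have hsb : |s| ≤ 1 / 50 := abs_le.2 ⟨by linarith, by linarith⟩
      have hb := abs_le.1 hsb
      have h4 : 0 ≤ 1 - 7 * s + 5 * s ^ 2 - s ^ 3 := by
        nlinarith [sq_nonneg s, mul_nonneg (sq_nonneg s) (by linarith : (0:ℝ) ≤ 1/50 - s)]
      have := mul_nonneg (sq_nonneg s) h4
      linarith
    have h5 : 2 * (y⁻¹ - 1) = (2 * (1 - y)) / y := by
      field_simp
    rw [h5, div_le_iff₀ hy0]
    linarith [mul_comm y ((1 - y ^ 2) + (y ^ 2 - 1) ^ 2)]
  rw [hlog]
  linarith

theorem push_nonneg {good : Finset (Finset (Fin n)) → Prop} {mu : Finset (Finset (Fin n)) → ℝ}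
    (hmu : ∀ G, 0 ≤ mu G) (H : Finset (Finset (Fin n))) : 0 ≤ push good mu H := by
  classical
  unfold push
  refine Finset.sum_nonneg (fun G _ => Finset.sum_nonneg (fun T _ => ?_))
  split_ifs
  · exact div_nonneg (hmu G) (Nat.cast_nonneg _)
  · exact le_refl _

theorem push_supp {good : Finset (Finset (Fin n)) → Prop} {mu : Finset (Finset (Fin n)) → ℝ}
    {H : Finset (Finset (Fin n))} (h : push good mu H ≠ 0) :
    ∃ G T, good G ∧ mu G ≠ 0 ∧ T ∈ tri G ∧ del G T = H := by
  classical
  unfold push at h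
  obtain ⟨G, _, hG⟩ := Finset.exists_ne_zero_of_sum_ne_zero h
  obtain ⟨T, hT, hGT⟩ := Finset.exists_ne_zero_of_sum_ne_zero hG
  by_cases hc : good G ∧ del G T = H
  · rw [if_pos hc] at hGT
    refine ⟨G, T, hc.1, ?_, hT, hc.2⟩
    intro h0
    rw [h0, zero_div] at hGT
    exact hGT rfl
  · rw [if_neg hc] at hGT
    exact absurd rfl hGT

theorem EX_add (mu f g : Finset (Finset (Fin n)) → ℝ) :
    EX mu (fun G => f G + g G) = EX mu f + EX mu g := by
  unfold EX
  rw [← Finset.sum_add_distrib]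
  exact Finset.sum_congr rfl (fun G _ => by ring)

theorem EX_smul (mu f : Finset (Finset (Fin n)) → ℝ) (c : ℝ) :
    EX mu (fun G => c * f G) = c * EX mu f := by
  unfold EX
  rw [Finset.mul_sum]
  exact Finset.sum_congr rfl (fun G _ => by ring)

theorem EX_mono {mu f g : Finset (Finset (Fin n)) → ℝ} (hmu : ∀ G, 0 ≤ mu G)
    (h : ∀ G, mu G ≠ 0 → f G ≤ g G) : EX mu f ≤ EX mu g := by
  unfold EX
  refine Finset.sum_le_sum (fun G _ => ?_)
  by_cases h0 : mu G = 0
  · rw [h0]; simp
  · exact mul_le_mul_of_nonneg_left (h G h0) (hmu G)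

theorem EX_congr {mu f g : Finset (Finset (Fin n)) → ℝ}
    (h : ∀ G, mu G ≠ 0 → f G = g G) : EX mu f = EX mu g := by
  unfold EX
  refine Finset.sum_congr rfl (fun G _ => ?_)
  by_cases h0 : mu G = 0
  · rw [h0]; simp
  · rw [h G h0]

theorem t3_le (H : Finset (Finset (Fin n))) (h : 1 / 2 < lam n H.card) :
    0 ≤ t3 H ∧ t3 H ≤ 1 := by
  have hL : 0 < lam n H.card := by linarith
  have hth0 : 0 ≤ th (lam n H.card) := by
    unfold th
    rw [sub_nonneg, div_le_one (by linarith)]
    linarith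
  have hth1 : th (lam n H.card) ≤ 1 := by
    unfold th
    have : 0 ≤ 1 / (2 * lam n H.card) := by positivity
    linarith
  unfold t3
  constructor
  · exact div_nonneg (Finset.sum_nonneg (fun T _ => Finset.prod_nonneg
      (fun e _ => pow_nonneg hth0 _))) (Nat.cast_nonneg _)
  · refine div_le_one_of_le₀ ?_ (Nat.cast_nonneg _)
    have : ∑ T ∈ (univ : Finset (Fin n)).powersetCard 3, ∏ e ∈ eds T,
        (th (lam n H.card)) ^ (cn H e) ≤ ∑ T ∈ (univ : Finset (Fin n)).powersetCard 3, (1 : ℝ) :=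
      Finset.sum_le_sum (fun T _ => Finset.prod_le_one (fun e _ => pow_nonneg hth0 _)
        (fun e _ => pow_le_one₀ hth0 hth1))
    refine this.trans ?_
    rw [Finset.sum_const, Finset.card_powersetCard, Finset.card_univ, Fintype.card_fin]
    simp

theorem thm (hES : StmtENTSTEP) (hDV : StmtENTDV) (hPU : StmtPUSH) (hDQ : StmtDQ)
    (hDA : StmtDELADD) (hDET : StmtDET) (hB : StmtBETA) (hX : StmtXRL) : StmtSTEP2 := by
  intro l0 Lmax eps hl0 heps
  have he : 0 < eps / 10 := by linarith
  have he' : 0 < min (eps / 10) (1 / 1000) := lt_min he (by norm_num)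
  obtain ⟨n1, hn1⟩ := hDET l0 Lmax (eps / 10) hl0 he
  obtain ⟨n2, hn2⟩ := hB l0 Lmax (eps / 10) hl0 he
  obtain ⟨n3, hn3⟩ := hX l0 Lmax (min (eps / 10) (1 / 1000)) hl0 he'
  refine ⟨max (max n1 n2) (max n3 4), ?_⟩
  intro n m good mu hn hl0m hlm hst hmass hgood
  have hnn1 : n1 ≤ n := le_trans (le_trans (le_max_left _ _) (le_max_left _ _)) hn
  have hnn2 : n2 ≤ n := le_trans (le_trans (le_max_right _ _) (le_max_left _ _)) hn
  have hnn3 : n3 ≤ n := le_trans (le_trans (le_max_left _ _) (le_max_right _ _)) hn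
  have hnn4 : 4 ≤ n := le_trans (le_trans (le_max_right _ _) (le_max_right _ _)) hn
  have hgQ := hst.1
  have hmu := hst.2.1
  have hsup := hst.2.2.1
  set L := lam n m with hL
  set b := be L with hb
  set nu := push good mu with hnu
  set rh := rst good mu with hrh
  have hnu0 : ∀ H, 0 ≤ nu H := push_nonneg hmu
  have hrh0 : ∀ G, 0 ≤ rh G := by
    intro G
    rw [hrh]
    unfold rst
    classical
    split_ifs
    · exact hmu G
    · exact le_refl _
  have hrhs : ∀ G, rh G ≠ 0 → good G ∧ mu G ≠ 0 := by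
    intro G h
    rw [hrh] at h
    unfold rst at h
    classical
    by_cases hg : good G
    · rw [if_pos hg] at h
      exact ⟨hg, h⟩
    · rw [if_neg hg] at h
      exact absurd rfl h
  -- support of nu
  have hsuppN : ∀ H, nu H ≠ 0 → H ⊆ pairs n ∧ H.card = m ∧ |xr H - 1| ≤ 1 / 50 ∧ 0 < Q H := by
    intro H hH
    obtain ⟨G, T, hgG, hmG, hT, hdel⟩ := push_supp hH
    obtain ⟨hGp, hGc⟩ := hsup G hmG
    obtain ⟨h1, h2, h3⟩ := hDQ n G T hGp hT
    obtain ⟨h4, h5⟩ := hn3 n m G T hnn3 hGp hT hGc hl0m hlm (hgood G hgG)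
    rw [hdel] at h2 h3 h4 h5
    refine ⟨h3, by omega, ?_, h5⟩
    have h6 := hgood G hgG
    have h7 : |xr H - xr G| ≤ 1 / 1000 := h4.trans (min_le_right _ _)
    have h8 := abs_le.1 h6
    have h9 := abs_le.1 h7
    exact abs_le.2 ⟨by linarith [h8.1, h9.1], by linarith [h8.2, h9.2]⟩
  -- er bound
  have herb : ∀ H, nu H ≠ 0 → er H ≤ 3 := by
    intro H hH
    obtain ⟨h1, h2, h3, h4⟩ := hsuppN H hH
    have hlH : 1 / 2 < lam n H.card := by rw [h2]; linarith
    obtain ⟨ht0, ht1⟩ := t3_le H hlH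
    have hsn : 1 ≤ Real.sqrt n := by
      rw [show (1 : ℝ) = Real.sqrt 1 by simp]
      refine Real.sqrt_le_sqrt ?_
      have : (4 : ℝ) ≤ n := by exact_mod_cast hnn4
      linarith
    have hs1 : 0 < 1 / Real.sqrt n := by positivity
    have hs2 : 1 / Real.sqrt n ≤ 1 := by
      rw [div_le_one (by linarith)]
      exact hsn
    have hlog := Real.log_le_sub_one_of_pos (show 0 < t3 H + 1 / Real.sqrt n by linarith)
    unfold er lt3
    have h8 := abs_le.1 h3
    nlinarith [h8.1, h8.2]
  -- masses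
  have hone : EX nu (fun _ => 1) = EX rh (fun _ => 1) := by
    rw [hnu, hPU n good mu (fun _ => 1) hgQ, hrh]
    unfold EX rst
    refine Finset.sum_congr rfl (fun G _ => ?_)
    classical
    by_cases hg : good G
    · have hQ := hgQ G hg
      beta_reduce
      rw [if_pos hg, if_pos hg]
      have : (∑ T ∈ tri G, (1 : ℝ)) / Q G = 1 := by
        rw [Finset.sum_const, nsmul_eq_mul, mul_one]
        exact div_self (ne_of_gt hQ)
      rw [this]
    · beta_reduce
      rw [if_neg hg, if_neg hg]; simp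
  have hrhmass : EX rh (fun _ => 1) ≤ 1 := by
    refine le_trans ?_ hmass
    unfold EX
    refine Finset.sum_le_sum (fun G _ => ?_)
    rw [mul_one, mul_one, hrh]
    unfold rst
    classical
    split_ifs
    · exact le_refl _
    · exact hmu G
  have hrhmass0 : 0 ≤ EX rh (fun _ => 1) := by
    unfold EX
    exact Finset.sum_nonneg (fun G _ => by rw [mul_one]; exact hrh0 G)
  -- xr
  have hxr : EX rh xr - eps / 10 ≤ EX nu xr := by
    have h1 : EX nu xr = EX mu (fun G => by
        classical exact if good G then (∑ T ∈ tri G, xr (del G T)) / Q G else 0) :=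
      hPU n good mu xr hgQ
    have h2 : EX rh xr - (eps / 10) * EX rh (fun _ => 1) ≤ EX nu xr := by
      rw [h1, hrh]
      unfold EX rst
      rw [Finset.mul_sum, ← Finset.sum_sub_distrib]
      refine Finset.sum_le_sum (fun G _ => ?_)
      classical
      beta_reduce
      by_cases hg : good G
      · rw [if_pos hg, if_pos hg]
        by_cases hm0 : mu G = 0
        · rw [hm0]; simp
        · obtain ⟨hGp, hGc⟩ := hsup G hm0
          have hQ := hgQ G hg
          have h3 : xr G - eps / 10 ≤ (∑ T ∈ tri G, xr (del G T)) / Q G := by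
            rw [le_div_iff₀ hQ]
            have : (xr G - eps / 10) * Q G = ∑ T ∈ tri G, (xr G - eps / 10) := by
              rw [Finset.sum_const, nsmul_eq_mul, mul_comm]
              rfl
            rw [this]
            refine Finset.sum_le_sum (fun T hT => ?_)
            obtain ⟨h4, h5⟩ := hn3 n m G T hnn3 hGp hT hGc hl0m hlm (hgood G hg)
            have h6 := (abs_le.1 (h4.trans (min_le_left _ _))).1
            linarith
          have := mul_le_mul_of_nonneg_left h3 (hmu G)
          linarith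
      · rw [if_neg hg, if_neg hg]; simp
    nlinarith
  -- the entropy inequality
  have hDVn := (hDV n m good mu hst)
  have hKL : - (b * (EX rh Q - EX nu Q)) - EX nu (fun H => Real.log (∑ T ∈ anti H,
      RR H T * Real.exp (- (b * (Q (add H T) - Q H))))) ≤ EX nu (KLs good mu) := by
    have h1 : EX nu (fun H => ∑ T ∈ anti H, JJ good mu H T * Q (add H T)) = EX rh Q := by
      rw [hnu, hDVn.2 (fun H T => Q (add H T)), hrh]
      refine EX_congr (fun G hG => ?_)
      obtain ⟨hg, hm0⟩ := hrhs G hG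
      obtain ⟨hGp, hGc⟩ := hsup G hm0
      have hQ := hgQ G hg
      have h2 : ∑ T ∈ tri G, Q (add (del G T) T) = ∑ T ∈ tri G, Q G :=
        Finset.sum_congr rfl (fun T hT => by rw [(hDA n G T hGp hT).2])
      show (∑ T ∈ tri G, Q (add (del G T) T)) / Q G = Q G
      rw [h2, Finset.sum_const, nsmul_eq_mul]
      exact mul_div_cancel_left₀ _ (ne_of_gt hQ)
    have h2 : - (b * (EX rh Q - EX nu Q)) - EX nu (fun H => Real.log (∑ T ∈ anti H,
        RR H T * Real.exp (- (b * (Q (add H T) - Q H))))) =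
        EX nu (fun H => (∑ T ∈ anti H, JJ good mu H T * Real.log
          (Real.exp (- (b * (Q (add H T) - Q H)))))
          - Real.log (∑ T ∈ anti H, RR H T * Real.exp (- (b * (Q (add H T) - Q H))))) := by
      have h3 : EX nu (fun H => (∑ T ∈ anti H, JJ good mu H T * Real.log
          (Real.exp (- (b * (Q (add H T) - Q H)))))) =
          - (b * (EX rh Q - EX nu Q)) := by
        have h4 : EX nu (fun H => (∑ T ∈ anti H, JJ good mu H T * Real.log
          (Real.exp (- (b * (Q (add H T) - Q H)))))) =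
          EX nu (fun H => (-b) * (∑ T ∈ anti H, JJ good mu H T * Q (add H T)) + b * Q H) := by
          refine EX_congr (fun H hH => ?_)
          have hpos : 0 < nu H := lt_of_le_of_ne (hnu0 H) (Ne.symm hH)
          have hsum := (hDVn.1 H hpos).2.1
          have h5 : ∀ T ∈ anti H, JJ good mu H T * Real.log
              (Real.exp (- (b * (Q (add H T) - Q H)))) =
              (-b) * (JJ good mu H T * Q (add H T)) + (b * Q H) * JJ good mu H T := by
            intro T _
            rw [Real.log_exp]; ring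
          rw [Finset.sum_congr rfl h5, Finset.sum_add_distrib, ← Finset.mul_sum,
            ← Finset.mul_sum, hsum, mul_one]
        rw [h4, EX_add nu (fun H => (-b) * (∑ T ∈ anti H, JJ good mu H T * Q (add H T)))
          (fun H => b * Q H), EX_smul nu _ (-b), EX_smul nu Q b, h1]
        ring
      have h6 : EX nu (fun H => (∑ T ∈ anti H, JJ good mu H T * Real.log
          (Real.exp (- (b * (Q (add H T) - Q H)))))
          - Real.log (∑ T ∈ anti H, RR H T * Real.exp (- (b * (Q (add H T) - Q H))))) =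
          EX nu (fun H => (∑ T ∈ anti H, JJ good mu H T * Real.log
          (Real.exp (- (b * (Q (add H T) - Q H)))))) -
          EX nu (fun H => Real.log (∑ T ∈ anti H,
            RR H T * Real.exp (- (b * (Q (add H T) - Q H))))) := by
        unfold EX
        rw [← Finset.sum_sub_distrib]
        exact Finset.sum_congr rfl (fun H _ => by ring)
      rw [h6, h3]
    rw [h2]
    refine EX_mono hnu0 (fun H hH => ?_)
    have hpos : 0 < nu H := lt_of_le_of_ne (hnu0 H) (Ne.symm hH)
    obtain ⟨_, _, _, _, _, h7, _⟩ := hDVn.1 H hpos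
    have := h7 (fun T => Real.exp (- (b * (Q (add H T) - Q H)))) (fun T _ => Real.exp_pos _)
    linarith
  have hlogs : EX nu (fun H => Real.log (ZZ H * rat n m)) + EX nu (fun H => Real.log
      (∑ T ∈ anti H, RR H T * Real.exp (- (b * (Q (add H T) - Q H))))) ≤
      EX nu (fun H => er H - 1 / 2 - xr H + eps / 10) := by
    rw [← EX_add]
    refine EX_mono hnu0 (fun H hH => ?_)
    have hpos : 0 < nu H := lt_of_le_of_ne (hnu0 H) (Ne.symm hH)
    obtain ⟨hZ, hJ1, hR1, hJR, _, _, _⟩ := hDVn.1 H hpos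
    obtain ⟨hHp, hHc, hHx, hHQ⟩ := hsuppN H hH
    have hrat : 0 < rat n m := by
      unfold rat
      have hN := hst.2.2.2
      have h1 : 0 < (pairs n).card.choose m := Nat.choose_pos (by omega)
      have h2 : 0 < (pairs n).card.choose (m + 3) := Nat.choose_pos hN
      have h1' : (0 : ℝ) < ((pairs n).card.choose m : ℝ) := by exact_mod_cast h1
      have h2' : (0 : ℝ) < ((pairs n).card.choose (m + 3) : ℝ) := by exact_mod_cast h2
      exact div_pos h1' h2'
    have hanti : (anti H).Nonempty := by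
      by_contra h
      rw [Finset.not_nonempty_iff_eq_empty] at h
      rw [h] at hR1
      simp at hR1
    have hRW : 0 < ∑ T ∈ anti H, RR H T * Real.exp (- (b * (Q (add H T) - Q H))) :=
      Finset.sum_pos (fun T hT => mul_pos (hJR T hT).2 (Real.exp_pos _)) hanti
    have heq : ZZ H * rat n m * (∑ T ∈ anti H, RR H T *
        Real.exp (- (b * (Q (add H T) - Q H)))) =
        rat n H.card * ∑ T ∈ anti H, Real.exp (- (be (lam n H.card) * (Q (add H T) - Q H)))
          / Q (add H T) := by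
      rw [hHc]
      have : (∑ T ∈ anti H, RR H T * Real.exp (- (b * (Q (add H T) - Q H)))) =
          (∑ T ∈ anti H, Real.exp (- (be (lam n m) * (Q (add H T) - Q H)))
          / Q (add H T)) / ZZ H := by
        rw [Finset.sum_div]
        refine Finset.sum_congr rfl (fun T _ => ?_)
        unfold RR
        rw [hb, hL]
        ring
      rw [this]
      field_simp
    have hlog1 : Real.log (ZZ H * rat n m) + Real.log
        (∑ T ∈ anti H, RR H T * Real.exp (- (b * (Q (add H T) - Q H)))) =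
        Real.log (rat n H.card * ∑ T ∈ anti H,
          Real.exp (- (be (lam n H.card) * (Q (add H T) - Q H))) / Q (add H T)) := by
      rw [← heq, Real.log_mul (ne_of_gt (mul_pos hZ hrat)) (ne_of_gt hRW)]
    rw [hlog1]
    have hsumpos : 0 < ∑ T ∈ anti H,
        Real.exp (- (be (lam n H.card) * (Q (add H T) - Q H))) / Q (add H T) := by
      have h1 : 0 < ZZ H * rat n m * (∑ T ∈ anti H, RR H T *
        Real.exp (- (b * (Q (add H T) - Q H)))) := mul_pos (mul_pos hZ hrat) hRW
      rw [heq, hHc] at h1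
      rw [hHc]
      exact (pos_iff_pos_of_mul_pos h1).1 hrat
    have hD := hn1 n H hnn1 hHp (by rw [hHc]; exact hl0m) (by rw [hHc]; exact hlm) hHx hsumpos
    have hlb := log_bound hHx
    unfold er
    linarith
  have hEXlin : EX nu (fun H => er H - 1 / 2 - xr H + eps / 10) =
      EX nu er - (1 / 2) * EX nu (fun _ => 1) - EX nu xr + (eps / 10) * EX nu (fun _ => 1) := by
    unfold EX
    rw [Finset.mul_sum, Finset.mul_sum, ← Finset.sum_sub_distrib, ← Finset.sum_sub_distrib,
      ← Finset.sum_add_distrib]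
    exact Finset.sum_congr rfl (fun H _ => by ring)
  -- beta
  obtain ⟨hb0, hb1, hb2⟩ := hn2 n m hnn2 hl0m hlm
  have hLp : L ≤ lam n ((m + 3 : ℕ) : ℝ) := by
    rw [hL]
    unfold lam
    push_cast
    have hn3 : (0 : ℝ) < (n : ℝ) ^ 3 := by
      have : (0 : ℝ) < n := by exact_mod_cast (by omega : 0 < n)
      positivity
    gcongr
    linarith
  have hbeta : (b - be (lam n ((m + 3 : ℕ) : ℝ))) * EX rh Q ≤ EX rh xr + 2 * (eps / 10) := by
    have h1 : (b - be (lam n ((m + 3 : ℕ) : ℝ))) * EX rh Q ≤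
        EX rh (fun G => (1 + eps / 10) * xr G) := by
      rw [← EX_smul]
      refine EX_mono hrh0 (fun G hG => ?_)
      obtain ⟨hg, hm0⟩ := hrhs G hG
      obtain ⟨hGp, hGc⟩ := hsup G hm0
      have hx := abs_le.1 (hgood G hg)
      have hden : 0 < ((m + 3 : ℕ) : ℝ) * (lam n ((m + 3 : ℕ) : ℝ) - 1 / 2) := by
        have : (0 : ℝ) < ((m + 3 : ℕ) : ℝ) := by positivity
        have h3 : 0 < lam n ((m + 3 : ℕ) : ℝ) - 1 / 2 := by linarith
        positivity
      have hQx : Q G = xr G * (((m + 3 : ℕ) : ℝ) * (lam n ((m + 3 : ℕ) : ℝ) - 1 / 2) / 3) := by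
        unfold xr
        rw [hGc, div_mul_eq_mul_div, eq_div_iff (ne_of_gt hden)]
        ring
      rw [hQx]
      have hxp : 0 ≤ xr G := by linarith [hx.1]
      calc (b - be (lam n ((m + 3 : ℕ) : ℝ))) *
            (xr G * (((m + 3 : ℕ) : ℝ) * (lam n ((m + 3 : ℕ) : ℝ) - 1 / 2) / 3))
          = xr G * ((b - be (lam n ((m + 3 : ℕ) : ℝ))) *
            (((m + 3 : ℕ) : ℝ) * (lam n ((m + 3 : ℕ) : ℝ) - 1 / 2) / 3)) := by ring
        _ ≤ xr G * (1 + eps / 10) := mul_le_mul_of_nonneg_left hb2 hxp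
        _ = (1 + eps / 10) * xr G := by ring
    rw [EX_smul] at h1
    have h2 : EX rh xr ≤ (101 / 100) * EX rh (fun _ => 1) := by
      rw [← EX_smul]
      refine EX_mono hrh0 (fun G hG => ?_)
      obtain ⟨hg, hm0⟩ := hrhs G hG
      have hx := abs_le.1 (hgood G hg)
      linarith [hx.2]
    nlinarith
  have hESn := hES n m good mu hst
  refine ⟨?_, herb⟩
  unfold Gam
  rw [← hL, ← hb, hone]
  have hESn' : DD nu m = DD rh (m + 3) + EX nu (fun H => Real.log (ZZ H * rat n m))
      - EX nu (KLs good mu) := hESn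
  rw [hEXlin, hone] at hlogs
  have hmc : (((m + 3 : ℕ) : ℝ)) = (m : ℝ) + 3 := by push_cast; ring
  rw [hESn']
  have hfin1 : (eps / 10) * EX rh (fun _ => 1) ≤ eps / 10 := by nlinarith
  rw [hmc] at hbeta ⊢
  nlinarith [hKL, hlogs, hbeta, hxr, hfin1]

end Vale.Agent.P046.Sh.STEP2
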