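import Vale.Agent.P046.Sh.Start
import Vale.Agent.P046.ALL

/-! # P046, sharp constant: START, unconditional -/

namespace Vale.Agent.P046.Sh

theorem start : StmtSTART :=
  start_thm ALL.bstep ALL.bkill BREC.thm ALL.init LAW.thm ENTRST.thm ALL.psidl

end Vale.Agent.P046.Sh
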