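import Vale.Agent.P046.Sh.SB

/-!
# P046 sharp constant, module T3M: three uses of PLM
-/

namespace Vale.Agent.P046.Sh.T3M

open Finset
open Vale.Agent.P046
open Vale.Agent.P046.Sh

variable {n : ℕ}

lemma av2_av3 (F : Fin n → Fin n → Fin n → ℝ) :
    av2 (fun a z => (∑ c, F a z c) / (n : ℝ)) = av3 F := by
  unfold av2 av3
  simp only [← Finset.sum_div]
  rw [div_div, ← pow_succ']

lemma av3_swap23 (F : Fin n → Fin n → Fin n → ℝ) :
    av3 F = av3 (fun a z c => F a c z) := by
  unfold av3
  congr 1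
  apply Finset.sum_congr rfl
  intro a _
  rw [Finset.sum_comm]

lemma av3_swap13 (F : Fin n → Fin n → Fin n → ℝ) :
    av3 F = av3 (fun a z c => F c z a) := by
  unfold av3
  congr 1
  calc ∑ u, ∑ v, ∑ w, F u v w = ∑ u, ∑ w, ∑ v, F u v w := by
        apply Finset.sum_congr rfl
        intro u _
        rw [Finset.sum_comm]
    _ = ∑ w, ∑ u, ∑ v, F u v w := by rw [Finset.sum_comm]
    _ = ∑ w, ∑ v, ∑ u, F u v w := by
        apply Finset.sum_congr rfl
        intro w _
        rw [Finset.sum_comm]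

lemma av3_congr {F G : Fin n → Fin n → Fin n → ℝ} (h : ∀ a b c, F a b c = G a b c) :
    av3 F = av3 G := by
  have : F = G := by
    funext a b c
    exact h a b c
  rw [this]

lemma av3_mono {F G : Fin n → Fin n → Fin n → ℝ} (h : ∀ a b c, F a b c ≤ G a b c) :
    av3 F ≤ av3 G := by
  unfold av3
  apply div_le_div_of_nonneg_right _ (by positivity)
  exact Finset.sum_le_sum fun a _ => Finset.sum_le_sum fun b _ => Finset.sum_le_sum fun c _ =>
    h a b c

lemma od_comm (u v : Fin n) : od u v = od v u := by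
  unfold od
  by_cases h : u = v
  · rw [if_pos h, if_pos h.symm]
  · rw [if_neg h, if_neg (fun h' => h h'.symm)]

lemma od_nonneg (u v : Fin n) : 0 ≤ od u v := by
  unfold od
  split_ifs
  · exact le_rfl
  · exact zero_le_one

lemma od_le_one (u v : Fin n) : od u v ≤ 1 := by
  unfold od
  split_ifs
  · exact zero_le_one
  · exact le_rfl

lemma cd_comm (H : Finset (Finset (Fin n))) (u v : Fin n) : cd H u v = cd H v u := by
  unfold cd
  congr 1
  apply Finset.filter_congr
  intro w _
  exact and_comm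

lemma hh_comm {W : Fin n → Fin n → ℝ} (hW : WOK W) (u v : Fin n) : hh W u v = hh W v u := by
  unfold hh
  congr 1
  apply Finset.sum_congr rfl
  intro b _
  rw [hW.1 u b, hW.1 b v, mul_comm]

lemma hh_nonneg {W : Fin n → Fin n → ℝ} (hW : WOK W) (u v : Fin n) : 0 ≤ hh W u v := by
  unfold hh
  apply div_nonneg
  · exact Finset.sum_nonneg fun b _ => mul_nonneg (hW.2.1 _ _).le (hW.2.1 _ _).le
  · positivity

lemma prod_mem {x y : ℝ} (hx : 0 ≤ x ∧ x ≤ 1) (hy : 0 ≤ y ∧ y ≤ 1) :
    0 ≤ x * y ∧ x * y ≤ 1 :=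
  ⟨mul_nonneg hx.1 hy.1, mul_le_one₀ hx.2 hy.1 hy.2⟩

/-- one use of PLM, rewritten with triple averages -/
lemma use {C1 K eps rho : ℝ} {m j : ℕ} {mu : Finset (Finset (Fin n)) → ℝ}
    {W : Fin n → Fin n → ℝ} {v : ℝ} (hSTB : StmtSTB) (hn : 0 < n)
    (h0 : ∀ (KK : Finset (Finset (Fin n)) → Fin n → Fin n → ℝ) (x : ℝ),
      Hyp C1 K (eps / 3) rho n m j mu W → Stab KK → 0 ≤ x → x ≤ 1 →
      lam n ((j : ℝ) + 1) * (1 - x) ≤ 1 →
      EX (sb mu m (j + 1)) (fun H => av2 (fun a z => od a z * KK H a z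
      * Real.exp (lam n ((j : ℝ) + 1) * (1 - x) * hh W a z) * x ^ (cd H a z)))
    ≤ EX (sb mu m (j + 1)) (fun H => av2 (fun a z => od a z * KK H a z)) + eps / 3)
    (hyp : Hyp C1 K (eps / 3) rho n m j mu W) (hv0 : 0 ≤ v) (hv1 : v ≤ 1)
    (hl : lam n ((j : ℝ) + 1) * (1 - v) ≤ 1)
    (om : Fin n → Fin n → Fin n → ℝ) (hom : ∀ a c z, 0 ≤ om a c z ∧ om a c z ≤ 1)
    (i k : ℕ) (hi : i ≤ 1) (hk : k ≤ 1) (F1 F2 : Finset (Finset (Fin n)) → Fin n → Fin n → Fin n → ℝ)
    (hF1 : ∀ H a z c, F1 H a z c = od a z * (om a c z * v ^ (i * cd H a c) * v ^ (k * cd H c z))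
      * Real.exp (lam n ((j : ℝ) + 1) * (1 - v) * hh W a z) * v ^ (cd H a z))
    (hF2 : ∀ H a z c, F2 H a z c = od a z *
      (om a c z * v ^ (i * cd H a c) * v ^ (k * cd H c z))) :
    EX (sb mu m (j + 1)) (fun H => av3 (F1 H))
      ≤ EX (sb mu m (j + 1)) (fun H => av3 (F2 H)) + eps / 3 := by
  have hS := hSTB n om i k v hn hom hi hk hv0 hv1
  have h1 := h0 _ v hyp hS hv0 hv1 hl
  have e1 : (fun H => av3 (F1 H)) = (fun H => av2 (fun a z => od a z *
      ((∑ c, om a c z * v ^ (i * cd H a c) * v ^ (k * cd H c z)) / (n : ℝ))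
      * Real.exp (lam n ((j : ℝ) + 1) * (1 - v) * hh W a z) * v ^ (cd H a z))) := by
    funext H
    rw [← av2_av3]
    congr 1
    funext a z
    have : ∀ c, F1 H a z c = (om a c z * v ^ (i * cd H a c) * v ^ (k * cd H c z)) *
        (od a z * Real.exp (lam n ((j : ℝ) + 1) * (1 - v) * hh W a z) * v ^ (cd H a z)) := by
      intro c
      rw [hF1]
      ring
    simp only [this]
    rw [← Finset.sum_mul]
    ring
  have e2 : (fun H => av3 (F2 H)) = (fun H => av2 (fun a z => od a z *
      ((∑ c, om a c z * v ^ (i * cd H a c) * v ^ (k * cd H c z)) / (n : ℝ)))) := by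
    funext H
    rw [← av2_av3]
    congr 1
    funext a z
    have : ∀ c, F2 H a z c = (om a c z * v ^ (i * cd H a c) * v ^ (k * cd H c z)) * od a z := by
      intro c
      rw [hF2]
      ring
    simp only [this]
    rw [← Finset.sum_mul]
    ring
  rw [e1, e2]
  exact h1

theorem thm (hPLM : StmtPLM) (hSTB : StmtSTB) : StmtT3M := by
  intro C1 K eps hC1 hK heps
  obtain ⟨rho, hrho, n0, h0⟩ := hPLM C1 K (eps / 3) hC1 hK (by positivity)
  refine ⟨rho, hrho, n0 + 1, ?_⟩
  intro n m j mu W v hn hyp hv0 hv1 hl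
  have hnpos : 0 < n := by omega
  obtain ⟨hy1, hy2, hy3, hy4, hy5, hy6, hy7, hy8⟩ := hyp
  have hm0 : (0 : ℝ) ≤ m := by positivity
  have hem : 0 ≤ eps * m := mul_nonneg heps.le hm0
  have hyp' : Hyp C1 K (eps / 3) rho n m j mu W :=
    ⟨hy1, hy2, by linarith, by nlinarith, hy5, hy6, hy7, hy8⟩
  have hjm : j + 1 ≤ m := by
    have : (j : ℝ) + 1 ≤ m := by nlinarith
    exact_mod_cast this
  have hprb := SB.sb_prb hy5 hjm
  have hU := fun om hom i k hi hk F1 F2 hF1 hF2 =>
    use (v := v) hSTB hnpos (fun KK x => h0 n m j mu W KK x (by omega)) hyp' hv0 hv1 hl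
      om hom i k hi hk F1 F2 hF1 hF2
  have hth0 : 0 ≤ lam n ((j : ℝ) + 1) * (1 - v) := by
    apply mul_nonneg
    · unfold lam
      positivity
    · linarith
  set θ : ℝ := lam n ((j : ℝ) + 1) * (1 - v) with hθ
  have hEE : ∀ a z, Real.exp (-(θ * hh W a z)) * Real.exp (θ * hh W a z) = 1 := by
    intro a z
    rw [← Real.exp_add, neg_add_cancel, Real.exp_zero]
  have hEc : ∀ a z, Real.exp (-(θ * hh W a z)) = Real.exp (-(θ * hh W z a)) := by
    intro a z
    rw [hh_comm hy6]
  have hE01 : ∀ a z, 0 ≤ Real.exp (-(θ * hh W a z)) ∧ Real.exp (-(θ * hh W a z)) ≤ 1 := by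
    intro a z
    refine ⟨(Real.exp_pos _).le, Real.exp_le_one_iff.2 ?_⟩
    have := mul_nonneg hth0 (hh_nonneg hy6 a z)
    linarith
  have hod : ∀ a z : Fin n, 0 ≤ od a z ∧ od a z ≤ 1 := fun a z => ⟨od_nonneg a z, od_le_one a z⟩
  set E : Fin n → Fin n → ℝ := fun a z => Real.exp (-(θ * hh W a z)) with hE
  have hEE' : ∀ a z, E a z * Real.exp (θ * hh W a z) = 1 := hEE
  have hEc' : ∀ a z, E a z = E z a := hEc
  have hE01' : ∀ a z, 0 ≤ E a z ∧ E a z ≤ 1 := hE01
  -- first use
  have u1 := hU (fun a c z => od a c * od c z * E a z)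
    (fun a c z => prod_mem (prod_mem (hod _ _) (hod _ _)) (hE01' _ _)) 1 1 le_rfl le_rfl
    (fun H a b c => od a b * od b c * od a c
      * (v ^ (cd H a b) * v ^ (cd H b c) * v ^ (cd H a c)))
    (fun H a z c => od a z * od a c * od c z * (E a z * v ^ (cd H a c) * v ^ (cd H c z)))
    (by
      intro H a z c
      simp only [one_mul]
      rw [od_comm z c, cd_comm H z c]
      linear_combination (-(od a z * od a c * od c z * v ^ (cd H a c) * v ^ (cd H c z)
        * v ^ (cd H a z))) * hEE' a z)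
    (by
      intro H a z c
      simp only [one_mul]
      ring)
  -- second use
  have u2 := hU (fun a c z => od a c * od c z * (E a c * E a z))
    (fun a c z => prod_mem (prod_mem (hod _ _) (hod _ _)) (prod_mem (hE01' _ _) (hE01' _ _)))
    0 1 (by norm_num) le_rfl
    (fun H a z c => od a c * od a z * od z c * (E a c * v ^ (cd H a z) * v ^ (cd H z c)))
    (fun H a z c => od a z * od a c * od c z * (E a c * E a z * v ^ (cd H c z)))
    (by
      intro H a z c
      simp only [one_mul, zero_mul, pow_zero, mul_one]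
      rw [od_comm z c, cd_comm H z c]
      linear_combination (-(od a z * od a c * od c z * E a c * v ^ (cd H c z)
        * v ^ (cd H a z))) * hEE' a z)
    (by
      intro H a z c
      simp only [one_mul, zero_mul, pow_zero, mul_one]
      ring)
  -- third use
  have u3 := hU (fun a c z => od a c * od c z * (E a c * E c z * E a z))
    (fun a c z => prod_mem (prod_mem (hod _ _) (hod _ _))
      (prod_mem (prod_mem (hE01' _ _) (hE01' _ _)) (hE01' _ _)))
    0 0 (by norm_num) (by norm_num)
    (fun H a z c => od c z * od c a * od a z * (E c a * E c z * v ^ (cd H a z)))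
    (fun _ a z c => od a z * od a c * od c z * (E a c * E c z * E a z))
    (by
      intro H a z c
      simp only [zero_mul, pow_zero, mul_one]
      rw [od_comm c a, hEc' c a]
      linear_combination (-(od a z * od a c * od c z * E a c * E c z
        * v ^ (cd H a z))) * hEE' a z)
    (by
      intro H a z c
      simp only [zero_mul, pow_zero, mul_one]
      ring)
  have s12 : (fun H : Finset (Finset (Fin n)) => av3 (fun a z c => od a z * od a c * od c z *
      (E a z * v ^ (cd H a c) * v ^ (cd H c z)))) = (fun H => av3 (fun a z c =>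
      od a c * od a z * od z c * (E a c * v ^ (cd H a z) * v ^ (cd H z c)))) := by
    funext H
    exact av3_swap23 _
  have s23 : (fun H : Finset (Finset (Fin n)) => av3 (fun a z c => od a z * od a c * od c z *
      (E a c * E a z * v ^ (cd H c z)))) = (fun H => av3 (fun a z c =>
      od c z * od c a * od a z * (E c a * E c z * v ^ (cd H a z)))) := by
    funext H
    exact av3_swap13 _
  simp only [s12] at u1
  simp only [s23] at u2
  have hfin : EX (sb mu m (j + 1)) (fun _ => av3 (fun a z c =>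
      od a z * od a c * od c z * (E a c * E c z * E a z)))
      ≤ av3 (fun a b c => Real.exp (- θ * (hh W a b + hh W b c + hh W a c))) := by
    have e1 : EX (sb mu m (j + 1)) (fun _ => av3 (fun a z c =>
      od a z * od a c * od c z * (E a c * E c z * E a z))) = av3 (fun a z c =>
      od a z * od a c * od c z * (E a c * E c z * E a z)) * 1 := by
      rw [← hprb.2.2]
      unfold EX
      rw [Finset.mul_sum]
      apply Finset.sum_congr rfl
      intro G _
      ring
    rw [e1, mul_one]
    apply av3_mono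
    intro a z c
    have e2 : Real.exp (- θ * (hh W a z + hh W z c + hh W a c)) = E a c * E c z * E a z := by
      simp only [hE]
      rw [← Real.exp_add, ← Real.exp_add, hh_comm hy6 z c]
      congr 1
      ring
    rw [e2]
    have e3 := prod_mem (prod_mem (hod a z) (hod a c)) (hod c z)
    have e4 : 0 ≤ E a c * E c z * E a z :=
      (prod_mem (prod_mem (hE01' a c) (hE01' c z)) (hE01' a z)).1
    nlinarith [e3.1, e3.2]
  linarith

end Vale.Agent.P046.Sh.T3M
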