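import Vale.Agent.P046.Sh.CHJ

/-! # P046 Sh, module TEL: increments are nonnegative and sum up to the entropy -/

namespace Vale.Agent.P046.Sh.TEL

open Finset Vale.Agent.P046 Vale.Agent.P046.Sh

variable {n : ℕ}

/-- `DD` only depends on the values on `j`-subsets of `pairs` -/
theorem DD_congr {mu nu : Finset (Finset (Fin n)) → ℝ} {m : ℕ}
    (h : ∀ H, H ⊆ pairs n → mu H = nu H) : DD mu m = DD nu m := by
  unfold DD
  refine sum_congr rfl fun G hG => ?_
  rw [h G (mem_powersetCard.1 hG).1]

/-- `EX` only depends on the values on subsets of `pairs` -/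
theorem EX_congr {mu nu : Finset (Finset (Fin n)) → ℝ} (f : Finset (Finset (Fin n)) → ℝ)
    (h : ∀ H, H ⊆ pairs n → mu H = nu H) : EX mu f = EX nu f := by
  unfold EX
  refine sum_congr rfl fun G hG => ?_
  rw [h G (mem_powerset.1 hG)]

theorem thm (hCHJ : StmtCHJ) (hSB : StmtSB) : StmtTEL := by
  intro n m mu hmu hm
  obtain ⟨hP, hmi, hDm, hD0, -, -⟩ := hSB n m mu hmu hm
  constructor
  · intro j hj
    have h := hCHJ n j (sb mu m (j + 1)) (fun _ _ => 0) (hP (j + 1) hj) (by omega)
    have e1 : DD (mi (sb mu m (j + 1)) j) j = DD (sb mu m j) j := DD_congr (hmi j hj)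
    have e2 : EX (sb mu m (j + 1)) (fun G => (∑ e ∈ G, (0 : ℝ)) / ((j : ℝ) + 1)) = 0 := by
      unfold EX
      simp
    have e3 : EX (mi (sb mu m (j + 1)) j) (fun H => Real.log ((∑ e ∈ pairs n \ H, Real.exp 0)
        / (((pairs n).card : ℝ) - j))) = 0 := by
      unfold EX
      refine sum_eq_zero fun H hH => ?_
      by_cases h0 : mi (sb mu m (j + 1)) j H = 0
      · rw [h0, zero_mul]
      · have hs := CHJ.mi_supp (hP (j + 1) hj) H h0
        have hM : (0 : ℝ) < ((pairs n).card : ℝ) - j := by
          have : ((j + 1 : ℕ) : ℝ) ≤ ((pairs n).card : ℝ) := by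
            exact_mod_cast (show j + 1 ≤ (pairs n).card by omega)
          push_cast at this
          linarith
        have hc : (∑ e ∈ pairs n \ H, Real.exp 0) = ((pairs n).card : ℝ) - j := by
          rw [sum_const, card_sdiff_of_subset hs.1, hs.2, Real.exp_zero, nsmul_eq_mul, mul_one,
            Nat.cast_sub (by omega)]
        change mi (sb mu m (j + 1)) j H * Real.log ((∑ e ∈ pairs n \ H, Real.exp 0)
          / (((pairs n).card : ℝ) - j)) = 0
        rw [hc, div_self hM.ne', Real.log_one, mul_zero]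
    rw [e1, e2, e3] at h
    unfold kj
    linarith
  · unfold kj
    rw [sum_range_sub (fun j => DD (sb mu m j) j), hDm, hD0, sub_zero]

end Vale.Agent.P046.Sh.TEL
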