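import Vale.Agent.P046.Sh.StepDefs
import Vale.Agent.P046.CODLE
import Vale.Agent.P046.DY

/-! # P046 Sh, module XRL: `xr` changes little in one step -/

namespace Vale.Agent.P046.Sh.XRL

open Finset Vale.Agent.P046 Vale.Agent.P046.Sh

variable {n : ℕ}

theorem SS_bound {G : Finset (Finset (Fin n))} {T : Finset (Fin n)} (hG : G ⊆ pairs n)
    (hT : T ∈ tri G) : 0 ≤ SS G T ∧ SS G T ≤ 3 * n := by
  unfold SS
  constructor
  · exact sum_nonneg fun e _ => Nat.cast_nonneg _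
  · have h1 : ∀ e ∈ eds T, (codN G e : ℝ) ≤ n := by
      intro e he
      have hT' : eds T ⊆ G := by
        unfold tri at hT
        exact (mem_filter.1 hT).2
      exact_mod_cast (CODLE.thm n G e hG (hT' he)).2.1
    calc ∑ e ∈ eds T, (codN G e : ℝ) ≤ ∑ e ∈ eds T, (n : ℝ) := sum_le_sum h1
      _ = 3 * n := by
        rw [sum_const, DY.eds_card hT]
        simp

/-- the algebra -/
theorem alg {Q0 Q1 S D D' N A eps : ℝ} (hD : 0 < D) (hD' : D ≤ D') (hDD : D' - D ≤ A)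
    (hQ : Q1 = Q0 - S + 2) (hS0 : 0 ≤ S) (hS : S ≤ 3 * N) (hN : 1 ≤ N)
    (hx : |3 * Q0 / D' - 1| ≤ 1 / 100) (hbig : 15 * N + 2 * A ≤ eps * D) :
    |3 * Q1 / D - 3 * Q0 / D'| ≤ eps := by
  have hD'0 : 0 < D' := lt_of_lt_of_le hD hD'
  set x := 3 * Q0 / D' with hxdef
  have h1 : 3 * Q1 / D - x = (3 * (2 - S) + x * (D' - D)) / D := by
    have : 3 * Q0 = x * D' := by
      rw [hxdef]
      field_simp
    rw [hQ]
    field_simp
    linarith
  rw [h1, abs_div, abs_of_pos hD, div_le_iff₀ hD]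
  have h2 := abs_le.1 hx
  have h3 : x * (D' - D) ≤ 2 * A := by nlinarith
  have h4 : 0 ≤ x * (D' - D) := by
    apply mul_nonneg <;> linarith
  rw [abs_le]
  constructor <;> linarith

theorem thm (hDQ : StmtDQ) : StmtXRL := by
  intro l0 Lmax eps hl0 heps
  set e1 : ℝ := min eps (1 / 2) with he1
  have he1p : 0 < e1 := lt_min heps (by norm_num)
  set A : ℝ := 63 * (|Lmax| + 1) with hA
  have hA0 : 0 < A := by positivity
  set C : ℝ := (15 + 2 * A) / (e1 * (l0 - 1 / 2)) with hC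
  have hl : 0 < l0 - 1 / 2 := by linarith
  have hC0 : 0 < C := by positivity
  obtain ⟨n0, hn0⟩ := exists_nat_gt (8 * C ^ 2)
  refine ⟨n0 + 3, fun n m G T hn hG hT hcard hL hLm hx => ?_⟩
  obtain ⟨hQ, hcd, hsub⟩ := hDQ n G T hG hT
  have hcd' : (del G T).card = m := by omega
  have hn1 : (1 : ℝ) ≤ n := by exact_mod_cast (show 1 ≤ n by omega)
  have hn3 : (0 : ℝ) < (n : ℝ) ^ 3 := by positivity
  have hm1 : (1 : ℝ) ≤ m := by
    have : m ≠ 0 := by
      rintro rfl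
      unfold lam at hL
      norm_num at hL
      linarith
    exact_mod_cast Nat.one_le_iff_ne_zero.2 this
  have hLA : lam n m ≤ |Lmax| + 1 := by
    have := le_abs_self Lmax
    linarith
  have hm2 : 4 * (m : ℝ) ^ 2 ≤ (|Lmax| + 1) * (n : ℝ) ^ 3 := by
    unfold lam at hLA
    rwa [div_le_iff₀ hn3] at hLA
  have hm3 : (n : ℝ) ^ 3 ≤ 8 * (m : ℝ) ^ 2 := by
    unfold lam at hL
    rw [le_div_iff₀ hn3] at hL
    nlinarith
  -- m >= C n
  have hmC : C * n ≤ m := by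
    have h1 : (n0 : ℝ) ≤ n := by exact_mod_cast (show n0 ≤ n by omega)
    have h2 : 8 * C ^ 2 ≤ n := by linarith
    have h3 : (C * n) ^ 2 ≤ (m : ℝ) ^ 2 := by
      have : 8 * (C * n) ^ 2 ≤ 8 * (m : ℝ) ^ 2 := by
        calc 8 * (C * n) ^ 2 = (8 * C ^ 2) * (n : ℝ) ^ 2 := by ring
          _ ≤ n * (n : ℝ) ^ 2 := by gcongr
          _ = (n : ℝ) ^ 3 := by ring
          _ ≤ _ := hm3
      linarith
    exact le_of_sq_le_sq h3 (by positivity)
  have hDpos : 0 < (m : ℝ) * (lam n m - 1 / 2) := by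
    apply mul_pos (by linarith) (by linarith)
  have hdiff : lam n ((m : ℝ) + 3) - lam n m = (24 * m + 36) / (n : ℝ) ^ 3 := by
    unfold lam
    field_simp
    ring
  have hdiff0 : 0 ≤ lam n ((m : ℝ) + 3) - lam n m := by
    rw [hdiff]
    positivity
  have hDD' : (m : ℝ) * (lam n m - 1 / 2) ≤ ((m : ℝ) + 3) * (lam n ((m : ℝ) + 3) - 1 / 2) := by
    nlinarith
  have hDD : ((m : ℝ) + 3) * (lam n ((m : ℝ) + 3) - 1 / 2) - (m : ℝ) * (lam n m - 1 / 2) ≤ A := by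
    have h1 : (m : ℝ) * (lam n ((m : ℝ) + 3) - lam n m) ≤ 15 * (|Lmax| + 1) := by
      rw [hdiff, ← mul_div_assoc, div_le_iff₀ hn3]
      nlinarith
    have h2 : lam n ((m : ℝ) + 3) ≤ 16 * (|Lmax| + 1) := by
      unfold lam
      rw [div_le_iff₀ hn3]
      have : ((m : ℝ) + 3) ^ 2 ≤ 16 * (m : ℝ) ^ 2 := by nlinarith
      nlinarith
    have h3 : ((m : ℝ) + 3) * (lam n ((m : ℝ) + 3) - 1 / 2) - (m : ℝ) * (lam n m - 1 / 2) =
      (m : ℝ) * (lam n ((m : ℝ) + 3) - lam n m) + 3 * lam n ((m : ℝ) + 3) - 3 / 2 := by ring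
    rw [h3, hA]
    linarith
  have hbig : 15 * (n : ℝ) + 2 * A ≤ e1 * ((m : ℝ) * (lam n m - 1 / 2)) := by
    have h1 : (m : ℝ) * (l0 - 1 / 2) ≤ (m : ℝ) * (lam n m - 1 / 2) := by
      apply mul_le_mul_of_nonneg_left _ (by linarith)
      linarith
    have h2 : C * n * (l0 - 1 / 2) ≤ (m : ℝ) * (l0 - 1 / 2) :=
      mul_le_mul_of_nonneg_right hmC hl.le
    have h3 : e1 * (C * n * (l0 - 1 / 2)) = (15 + 2 * A) * n := by
      have h5 : C * (e1 * (l0 - 1 / 2)) = 15 + 2 * A := by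
        rw [hC]
        exact div_mul_cancel₀ _ (mul_pos he1p hl).ne'
      rw [← h5]
      ring
    have h4 : e1 * (C * n * (l0 - 1 / 2)) ≤ e1 * ((m : ℝ) * (lam n m - 1 / 2)) :=
      mul_le_mul_of_nonneg_left (h2.trans h1) he1p.le
    nlinarith
  have hSb := SS_bound hG hT
  have hxG : xr G = 3 * Q G / (((m : ℝ) + 3) * (lam n ((m : ℝ) + 3) - 1 / 2)) := by
    unfold xr
    rw [hcard]
    push_cast
    rfl
  have hxd : xr (del G T) = 3 * Q (del G T) / ((m : ℝ) * (lam n m - 1 / 2)) := by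
    unfold xr
    rw [hcd']
  rw [hxG] at hx
  have hmain := alg hDpos hDD' hDD hQ hSb.1 hSb.2 hn1 hx hbig
  constructor
  · rw [hxG, hxd]
    exact hmain.trans (min_le_left _ _)
  · have h1 := abs_le.1 hx
    have h2 := abs_le.1 (hmain.trans (min_le_right _ _))
    have h3 : 0 < 3 * Q (del G T) / ((m : ℝ) * (lam n m - 1 / 2)) := by linarith
    have h4 := (div_pos_iff_of_pos_right hDpos).1 h3
    linarith

end Vale.Agent.P046.Sh.XRL
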