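import Vale.Agent.P046.ALL
import Vale.Agent.P046.Sh.CHJ
import Vale.Agent.P046.Sh.SB
import Vale.Agent.P046.Sh.CELL
import Vale.Agent.P046.Sh.REG
import Vale.Agent.P046.Sh.SAMP
import Vale.Agent.P046.Sh.LRS
import Vale.Agent.P046.Sh.PRD
import Vale.Agent.P046.Sh.IDD
import Vale.Agent.P046.Sh.STB
import Vale.Agent.P046.Sh.MAC1
import Vale.Agent.P046.Sh.MAC2
import Vale.Agent.P046.Sh.GAIN
import Vale.Agent.P046.Sh.TEL
import Vale.Agent.P046.Sh.EDG
import Vale.Agent.P046.Sh.DERI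
import Vale.Agent.P046.Sh.PLM
import Vale.Agent.P046.Sh.T3M
import Vale.Agent.P046.Sh.S1
import Vale.Agent.P046.Sh.S2
import Vale.Agent.P046.Sh.ST
import Vale.Agent.P046.Sh.ST2
import Vale.Agent.P046.Sh.SEQ
import Vale.Agent.P046.Sh.StartAll
import Vale.Agent.P046.Sh.STARTG
import Vale.Agent.P046.Sh.DET
import Vale.Agent.P046.Sh.BETA
import Vale.Agent.P046.Sh.XRL
import Vale.Agent.P046.Sh.STEP2
import Vale.Agent.P046.Sh.DYN
import Vale.Agent.P046.Sh.End

/-!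
# P046, sharp constant: assembly of all modules
-/

namespace Vale.Agent.P046.Sh.ALL

open Vale.Agent.P046 Vale.Agent.P046.Sh

theorem tel : StmtTEL := TEL.thm CHJ.thm SB.thm
theorem edg : StmtEDG := EDG.thm CHJ.thm SB.thm
theorem deri : StmtDERI := DERI.thm IDD.thm SB.thm edg SAMP.thm LRS.thm PRD.thm
theorem plm : StmtPLM := PLM.thm deri
theorem t3m : StmtT3M := T3M.thm plm STB.thm
theorem s1 : StmtS1 := S1.thm CHJ.thm SB.thm tel plm PRD.thm
theorem s2 : StmtS2 := S2.thm tel SB.thm t3m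
theorem st : StmtST := ST.thm CELL.thm REG.thm s1 s2 MAC1.thm MAC2.thm GAIN.thm
theorem step2 : StmtSTEP2 := STEP2.thm ENTSTEP.thm ENTDV.thm PUSH.thm DQ.thm DELADD.thm
  (DET.thm CNADD.thm) BETA.thm (XRL.thm DQ.thm)
theorem st2 : StmtST2 := ST2.thm st ENTRST.thm
theorem startg : StmtSTARTG := STARTG.thm Vale.Agent.P046.Sh.start LAW.thm
theorem ctrl : StmtCTRL := DYN.thm step2 st2 SEQ.thm startg LAW.thm

end Vale.Agent.P046.Sh.ALL
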