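import Vale.Agent.P046.Sh.DERI3

/-! # P046 sharp, module DERI: choice of the parameters -/

namespace Vale.Agent.P046.Sh.DERI

open Finset

variable {n : ℕ}

theorem LR_mono {H : Finset (Finset (Fin n))} {W : Fin n → Fin n → ℝ} {r r' : ℝ}
    (h : LR r H W) (hr : r ≤ r') : LR r' H W := by
  intro S T
  have h1 := h S T
  have h2 : r * (n : ℝ) ^ 2 ≤ r' * (n : ℝ) ^ 2 :=
    mul_le_mul_of_nonneg_right hr (by positivity)
  linarith

theorem card_pairs (n : ℕ) : ((pairs n).card : ℝ) = (n : ℝ) * ((n : ℝ) - 1) / 2 := by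
  unfold pairs
  rw [card_powersetCard, card_univ, Fintype.card_fin, Nat.cast_choose_two]

theorem rpow_three_half (n : ℕ) : (n : ℝ) ^ ((3 : ℝ) / 2) = (Real.sqrt n) ^ 3 := by
  rw [Real.sqrt_eq_rpow, ← Real.rpow_natCast, ← Real.rpow_mul (Nat.cast_nonneg n)]
  norm_num

/-- the exponentially small probability -/
theorem small_prob {K r kap s : ℝ} {m n : ℕ} (hK : 0 < K) (hr : 0 < r) (hkap : 0 < kap)
    (hs1 : 1 ≤ s) (hn : (n : ℝ) = s ^ 2) (hm1 : s ^ 3 / 4 ≤ m) (hm2 : (m : ℝ) ≤ K * s ^ 3)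
    (hs2 : 8 * (Real.log 4 + 2) / r ^ 2 ≤ s) (hs3 : (K + 1) / kap ≤ s) :
    ((m : ℝ) + 1) * 2 * 4 ^ n * Real.exp (-(r ^ 2 * m / 2)) ≤ kap := by
  have hs0 : 0 < s := by linarith
  have h4 : (4 : ℝ) ^ n = Real.exp (Real.log 4 * s ^ 2) := by
    rw [← hn, ← Real.rpow_natCast, Real.rpow_def_of_pos (by norm_num)]
  have h1 : (4 : ℝ) ^ n * Real.exp (-(r ^ 2 * m / 2)) ≤ Real.exp (-(2 * s ^ 2)) := by
    rw [h4, ← Real.exp_add]
    apply Real.exp_le_exp.2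
    have h2 : 8 * (Real.log 4 + 2) ≤ s * r ^ 2 := by
      rwa [div_le_iff₀ (by positivity)] at hs2
    have h3 : r ^ 2 * (s ^ 3 / 4) ≤ r ^ 2 * m := mul_le_mul_of_nonneg_left hm1 (by positivity)
    have h5 : 8 * (Real.log 4 + 2) * s ^ 2 ≤ s * r ^ 2 * s ^ 2 :=
      mul_le_mul_of_nonneg_right h2 (by positivity)
    nlinarith
  have h6 : Real.exp (-(2 * s ^ 2)) ≤ 1 / (2 * s ^ 4) := by
    rw [Real.exp_neg, one_div]
    apply inv_anti₀ (by positivity)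
    have h7 := Real.quadratic_le_exp_of_nonneg (show 0 ≤ 2 * s ^ 2 by positivity)
    nlinarith [sq_nonneg s]
  have h8 : (m : ℝ) + 1 ≤ (K + 1) * s ^ 3 := by
    have : 1 ≤ s ^ 3 := one_le_pow₀ hs1
    nlinarith
  have h9 : (K + 1) ≤ s * kap := by rwa [div_le_iff₀ hkap] at hs3
  calc ((m : ℝ) + 1) * 2 * 4 ^ n * Real.exp (-(r ^ 2 * m / 2))
      = ((m : ℝ) + 1) * 2 * (4 ^ n * Real.exp (-(r ^ 2 * m / 2))) := by ring
    _ ≤ ((K + 1) * s ^ 3) * 2 * (1 / (2 * s ^ 4)) := by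
        apply mul_le_mul _ (h1.trans h6) (by positivity) (by positivity)
        linarith
    _ = (K + 1) / s := by field_simp
    _ ≤ kap := by
        rw [div_le_iff₀ hs0]
        linarith

/-- the last numerical step -/
theorem last_num {L rho1 B db C1 rg t Z eps T1 T3 kap : ℝ} (hB : 0 < B)
    (hL0 : 0 ≤ L) (hLZ : L * (31 * B) ≤ Z) (hZ : 0 < Z) (heps : 0 < eps) (hC1 : 0 < C1)
    (ht : t = 16 * Z * C1 / eps) (hk1 : kap ≤ eps / (32 * Z))
    (hk2 : kap ≤ t * eps / (16 * Z * Real.exp t))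
    (hrho0 : 0 ≤ rho1) (hrho : rho1 ≤ kap) (hdb0 : 0 ≤ db) (hdb : db ≤ kap) (hrg0 : 0 ≤ rg)
    (hrg : rg ≤ kap) (hT1 : T1 ≤ eps / 8) (hT3 : T3 ≤ eps / 8) :
    -eps ≤ -(T1 + L * ((11 / 2) * rho1 * B + 31 * B * db
      + (11 / 2) * B * ((C1 + rg * Real.exp t + db * t) / t)) + T3) := by
  have ht0 : 0 < t := by rw [ht]; positivity
  have hE : 0 < Real.exp t := Real.exp_pos t
  have h1 : C1 / t = eps / (16 * Z) := by
    rw [ht]; field_simp
  have h2 : rg * Real.exp t / t ≤ eps / (16 * Z) := by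
    rw [div_le_iff₀ ht0]
    have h3 : rg * Real.exp t ≤ (t * eps / (16 * Z * Real.exp t)) * Real.exp t :=
      mul_le_mul_of_nonneg_right (hrg.trans hk2) hE.le
    have h4 : (t * eps / (16 * Z * Real.exp t)) * Real.exp t = eps / (16 * Z) * t := by
      field_simp
    linarith
  have h5 : (C1 + rg * Real.exp t + db * t) / t = C1 / t + rg * Real.exp t / t + db := by
    field_simp
  have hg : (C1 + rg * Real.exp t + db * t) / t ≤ eps / (16 * Z) + eps / (16 * Z)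
      + eps / (32 * Z) := by
    rw [h5, h1]
    have := hdb.trans hk1
    linarith
  have hg0 : 0 ≤ (C1 + rg * Real.exp t + db * t) / t := by positivity
  set γ := (C1 + rg * Real.exp t + db * t) / t with hγ
  have h6 : L * ((11 / 2) * rho1 * B + 31 * B * db + (11 / 2) * B * γ)
      ≤ Z * (rho1 + db + γ) := by
    have h7 : L * ((11 / 2) * rho1 * B + 31 * B * db + (11 / 2) * B * γ)
        ≤ L * (31 * B) * (rho1 + db + γ) := by
      have : (11 / 2) * rho1 * B + 31 * B * db + (11 / 2) * B * γ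
          ≤ (31 * B) * (rho1 + db + γ) := by
        have e1 : 0 ≤ rho1 * B := by positivity
        have e2 : 0 ≤ B * γ := by positivity
        nlinarith
      calc L * ((11 / 2) * rho1 * B + 31 * B * db + (11 / 2) * B * γ)
          ≤ L * ((31 * B) * (rho1 + db + γ)) := mul_le_mul_of_nonneg_left this hL0
        _ = L * (31 * B) * (rho1 + db + γ) := by ring
    exact h7.trans (mul_le_mul_of_nonneg_right hLZ (by positivity))
  have h8 : Z * (rho1 + db + γ) ≤ Z * (eps / (32 * Z) + eps / (32 * Z)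
      + (eps / (16 * Z) + eps / (16 * Z) + eps / (32 * Z))) := by
    apply mul_le_mul_of_nonneg_left _ hZ.le
    have e3 := hrho.trans hk1
    have e4 := hdb.trans hk1
    linarith
  have h9 : Z * (eps / (32 * Z) + eps / (32 * Z)
      + (eps / (16 * Z) + eps / (16 * Z) + eps / (32 * Z))) = 7 / 32 * eps := by
    field_simp
    ring
  linarith

theorem pairs_num {K s : ℝ} {n : ℕ} (hns : (n : ℝ) = s ^ 2) (hs8 : 8 ≤ s)
    (hsK : 8 * K ≤ s) : K * s ^ 3 + s ^ 4 / 4 ≤ ((pairs n).card : ℝ) := by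
  have hs0 : 0 < s := by linarith
  have hKs : K * s ^ 3 ≤ s ^ 4 / 8 := by
    have h : 8 * K * s ^ 3 ≤ s * s ^ 3 := mul_le_mul_of_nonneg_right hsK (by positivity)
    have e : s * s ^ 3 = s ^ 4 := by ring
    rw [e] at h
    linarith
  have hs24 : s ^ 2 / 2 ≤ s ^ 4 / 8 := by
    have h64 : 64 ≤ s ^ 2 := by nlinarith
    have h : 4 * s ^ 2 ≤ s ^ 2 * s ^ 2 := mul_le_mul_of_nonneg_right (by linarith) (by positivity)
    have e : s ^ 2 * s ^ 2 = s ^ 4 := by ring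
    rw [e] at h
    linarith
  have hN : s ^ 4 / 2 - s ^ 2 / 2 = ((pairs n).card : ℝ) := by
    rw [card_pairs, hns]; ring
  rw [← hN]
  linarith

theorem D0_num {A K s m nn : ℝ} (hns : nn = s ^ 2) (hs0 : 0 < s) (hA : 0 < A)
    (hm : m ≤ K * s ^ 3) : 2 * A * m / nn ≤ 2 * A * K * s := by
  rw [div_le_iff₀ (by rw [hns]; positivity), hns]
  have h := mul_le_mul_of_nonneg_left hm (show 0 ≤ 2 * A by positivity)
  have e : 2 * A * K * s * s ^ 2 = 2 * A * (K * s ^ 3) := by ring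
  rw [e]
  exact h

theorem L_num {K s j1 : ℝ} {n : ℕ} (hns : (n : ℝ) = s ^ 2) (hs0 : 0 < s) (hj0 : 0 ≤ j1)
    (hj : j1 ≤ K * s ^ 3) : lam n j1 ≤ 4 * K ^ 2 := by
  unfold lam
  rw [hns, div_le_iff₀ (by positivity)]
  have h : j1 ^ 2 ≤ (K * s ^ 3) ^ 2 := pow_le_pow_left₀ hj0 hj 2
  have e : 4 * K ^ 2 * (s ^ 2) ^ 3 = 4 * (K * s ^ 3) ^ 2 := by ring
  rw [e]
  linarith

theorem T1_num {K B eps s j1 nn : ℝ} (hns : nn = s ^ 2) (hs1 : 1 ≤ s) (hB : 0 < B)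
    (heps : 0 < eps) (hj : j1 ≤ K * s ^ 3)
    (h992 : 992 * K * B / eps ≤ s) : (4 * j1 / nn ^ 3) * (31 * B) ≤ eps / 8 := by
  have hs0 : 0 < s := by linarith
  rw [div_le_iff₀ heps] at h992
  rw [hns, div_mul_eq_mul_div, div_le_iff₀ (by positivity)]
  have e1 : 4 * j1 * (31 * B) ≤ 4 * (K * s ^ 3) * (31 * B) := by
    apply mul_le_mul_of_nonneg_right _ (by positivity)
    linarith
  have e2 : 992 * K * B * s ^ 3 ≤ s * eps * s ^ 3 :=
    mul_le_mul_of_nonneg_right h992 (by positivity)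
  have e3 : s ^ 4 ≤ s ^ 6 := pow_le_pow_right₀ hs1 (by norm_num)
  have e4 : eps * s ^ 4 ≤ eps * s ^ 6 := mul_le_mul_of_nonneg_left e3 heps.le
  have e5 : 4 * (K * s ^ 3) * (31 * B) = 992 * K * B * s ^ 3 / 8 := by ring
  have e6 : s * eps * s ^ 3 = eps * s ^ 4 := by ring
  have e7 : eps / 8 * (s ^ 2) ^ 3 = eps * s ^ 6 / 8 := by ring
  rw [e7]
  linarith

theorem T3_num {K A B eps s j1 D0 nn : ℝ} (hns : nn = s ^ 2) (hs1 : 1 ≤ s) (hB : 0 < B)
    (hA : 0 < A) (hK : 0 < K) (heps : 0 < eps) (hj0 : 0 ≤ j1) (hj : j1 ≤ K * s ^ 3)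
    (hD0 : 0 < D0) (hD : D0 ≤ 2 * A * K * s)
    (h32 : 32 * A * K ^ 2 * B * (2 * A * K + 4) / eps ≤ s) :
    2 * j1 * (D0 * (D0 + 4) * B) / nn ^ 3 ≤ eps / 8 := by
  have hs0 : 0 < s := by linarith
  rw [div_le_iff₀ heps] at h32
  rw [hns, div_le_iff₀ (by positivity)]
  have e1 : D0 * (D0 + 4) ≤ (2 * A * K * s) * (2 * A * K * s + 4 * s) := by
    apply mul_le_mul hD _ (by positivity) (by positivity)
    linarith
  have e2 : 2 * j1 * (D0 * (D0 + 4) * B)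
      ≤ 2 * (K * s ^ 3) * ((2 * A * K * s) * (2 * A * K * s + 4 * s) * B) := by
    apply mul_le_mul _ _ (by positivity) (by positivity)
    · linarith
    · exact mul_le_mul_of_nonneg_right e1 hB.le
  have e3 : 2 * (K * s ^ 3) * ((2 * A * K * s) * (2 * A * K * s + 4 * s) * B)
      = (32 * A * K ^ 2 * B * (2 * A * K + 4)) * s ^ 5 / 8 := by ring
  have e4 : (32 * A * K ^ 2 * B * (2 * A * K + 4)) * s ^ 5 ≤ (s * eps) * s ^ 5 :=
    mul_le_mul_of_nonneg_right h32 (by positivity)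
  have e5 : eps / 8 * (s ^ 2) ^ 3 = (s * eps) * s ^ 5 / 8 := by ring
  rw [e5]
  linarith

theorem rg_num {kap A m j D0 nn N : ℝ} (hn0 : 0 < nn) (hkap : 0 < kap) (hA : 0 < A)
    (hm : 0 < m) (hj : 0 < j) (hjm : j ≤ m) (hD0 : D0 = 2 * A * m / nn)
    (hN : nn ^ 2 / 4 ≤ N - j) :
    nn * (kap / 2 * nn ^ 2 + (2 * j / D0) * (nn * (11 / 2))) / (nn * 11)
      ≤ (kap / 2 + 2 / A) * (N - j) := by
  have hD00 : 0 < D0 := by rw [hD0]; positivity
  have hAj : 2 * j / D0 ≤ nn / A := by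
    rw [div_le_div_iff₀ hD00 hA, hD0]
    have e : nn * (2 * A * m / nn) = 2 * A * m := by field_simp
    rw [e]
    have h := mul_le_mul_of_nonneg_left hjm (show 0 ≤ 2 * A by positivity)
    linarith
  have h1 : nn * (kap / 2 * nn ^ 2 + (2 * j / D0) * (nn * (11 / 2))) / (nn * 11)
      = (kap / 2 * nn ^ 2 + (2 * j / D0) * (nn * (11 / 2))) / 11 := by
    rw [mul_div_mul_left _ _ hn0.ne']
  rw [h1]
  have h2 : (2 * j / D0) * (nn * (11 / 2)) ≤ (nn / A) * (nn * (11 / 2)) :=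
    mul_le_mul_of_nonneg_right hAj (by positivity)
  have h4 : (kap / 2 + 2 / A) * (nn ^ 2 / 4) ≤ (kap / 2 + 2 / A) * (N - j) :=
    mul_le_mul_of_nonneg_left hN (by positivity)
  refine le_trans ?_ h4
  have h5 : (nn / A) * (nn * (11 / 2)) = (11 / 2) * (nn ^ 2 / A) := by ring
  have h6 : (kap / 2 + 2 / A) * (nn ^ 2 / 4) = kap * nn ^ 2 / 8
      + (1 / 2) * (nn ^ 2 / A) := by ring
  have h7 : 0 ≤ kap * nn ^ 2 := by positivity
  rw [h6]
  linarith

theorem b_num {L x h B : ℝ} (hB : B = Real.exp 31) (hL0 : 0 ≤ L) (hx1 : x ≤ 1)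
    (hLx : L * (1 - x) ≤ 1) (h0 : 0 ≤ h) (h31 : h ≤ 31) :
    0 ≤ Real.exp (L * (1 - x) * h) ∧ Real.exp (L * (1 - x) * h) ≤ B := by
  refine ⟨(Real.exp_pos _).le, ?_⟩
  rw [hB]
  apply Real.exp_le_exp.2
  have h3 : 0 ≤ L * (1 - x) := mul_nonneg hL0 (by linarith)
  nlinarith

theorem reg_num {r kap eps m j : ℝ} (hr : r = kap * eps / 2) (hj : 0 < j) (hkap : 0 < kap)
    (h : eps * m ≤ j) : kap / 4 + r * m / (2 * j) ≤ kap / 2 := by
  have h1 : r * m / (2 * j) ≤ kap / 4 := by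
    rw [div_le_iff₀ (by positivity), hr]
    have h2 := mul_le_mul_of_nonneg_left h hkap.le
    nlinarith
  linarith

/-- the statement for one `n`, all parameters fixed -/
theorem one (hI : StmtIDD) (hSB : StmtSB) (hE : StmtEDG) (hSA : StmtSAMP) (hLRS : StmtLRS)
    (hP : StmtPRD) {C1 K eps B Z t kap A r S : ℝ} (hC1 : 0 < C1) (hK : 0 < K)
    (heps : 0 < eps) (hB : B = Real.exp 31) (hZ : Z = (4 * K ^ 2 + 1) * (31 * B))
    (ht : t = 16 * Z * C1 / eps) (hkap0 : 0 < kap) (hk1 : kap ≤ eps / (32 * Z))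
    (hk2 : kap ≤ t * eps / (16 * Z * Real.exp t)) (hA : A = 4 / kap)
    (hr : r = kap * eps / 2) (hS8 : 8 ≤ S) (hSK : 8 * K ≤ S) (hS1 : 992 * K * B / eps ≤ S)
    (hS2 : 32 * A * K ^ 2 * B * (2 * A * K + 4) / eps ≤ S)
    (hS3 : 8 * (Real.log 4 + 2) / r ^ 2 ≤ S) (hS4 : (K + 1) / kap ≤ S)
    {n m j : ℕ} {mu : Finset (Finset (Fin n)) → ℝ} {W : Fin n → Fin n → ℝ}
    {KK : Finset (Finset (Fin n)) → Fin n → Fin n → ℝ} {x : ℝ} (hnS : S ^ 2 ≤ (n : ℝ))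
    (hyp : Hyp C1 K eps (kap / 4) n m j mu W) (hStab : Stab KK) (hx0 : 0 ≤ x) (hx1 : x ≤ 1)
    (hLx : lam n ((j : ℝ) + 1) * (1 - x) ≤ 1) :
    - eps ≤ EX (sb mu m (j + 1)) (fun H => av2 (fun a z => od a z * KK H a z
      * Real.exp (lam n ((j : ℝ) + 1) * (1 - x) * hh W a z)
      * ((cd H a z : ℝ) * x ^ (cd H a z - 1)
          - lam n ((j : ℝ) + 1) * hh W a z * x ^ (cd H a z)))) := by
  classical
  obtain ⟨hm1, hm2, hj1, hj2, hmu, hW, hLRG, hkj⟩ := hyp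
  have hB0 : 0 < B := by rw [hB]; exact Real.exp_pos _
  have hZ0 : 0 < Z := by rw [hZ]; positivity
  have ht0 : 0 < t := by rw [ht]; positivity
  have hA0 : 0 < A := by rw [hA]; positivity
  have hr0 : 0 < r := by rw [hr]; positivity
  obtain ⟨s, hs⟩ : ∃ s : ℝ, s = Real.sqrt n := ⟨_, rfl⟩
  have hsS : S ≤ s := by rw [hs]; exact Real.le_sqrt_of_sq_le hnS
  have hs1 : 1 ≤ s := by linarith
  have hs0 : 0 < s := by linarith
  have hns : (n : ℝ) = s ^ 2 := by rw [hs]; exact (Real.sq_sqrt (Nat.cast_nonneg n)).symm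
  have hn0' : (0 : ℝ) < n := by rw [hns]; positivity
  have hn0 : 0 < n := by exact_mod_cast hn0'
  rw [rpow_three_half, ← hs] at hm1 hm2
  have hm0 : (0 : ℝ) < m := lt_of_lt_of_le (by positivity) hm1
  have hj0' : (0 : ℝ) < j := lt_of_lt_of_le (by positivity) hj1
  have hj0 : 0 < j := by exact_mod_cast hj0'
  have hem : 0 < eps * m := by positivity
  have hjm1 : (j : ℝ) + 1 ≤ m := by linarith
  have hjm : j < m := by
    have h : (j : ℝ) < m := by linarith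
    exact_mod_cast h
  have hNm := pairs_num hns (hS8.trans hsS) (hSK.trans hsS)
  have hs4 : 0 < s ^ 4 / 4 := by positivity
  have hmN : m ≤ (pairs n).card := by
    have h : (m : ℝ) ≤ ((pairs n).card : ℝ) := by linarith
    exact_mod_cast h
  obtain ⟨D0, hD0⟩ : ∃ D0 : ℝ, D0 = 2 * A * m / n := ⟨_, rfl⟩
  have hD00 : 0 < D0 := by rw [hD0]; positivity
  have hD0s : D0 ≤ 2 * A * K * s := by rw [hD0]; exact D0_num hns hs0 hA0 hm2
  have hL0 : 0 ≤ lam n ((j : ℝ) + 1) := by unfold lam; positivity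
  have hj2' : (j : ℝ) + 1 ≤ K * s ^ 3 := hjm1.trans hm2
  have hLK := L_num hns hs0 (by positivity) hj2'
  have hLZ : lam n ((j : ℝ) + 1) * (31 * B) ≤ Z := by
    rw [hZ]
    exact mul_le_mul_of_nonneg_right (by linarith) (by positivity)
  have hb : ∀ a z, 0 ≤ Real.exp (lam n ((j : ℝ) + 1) * (1 - x) * hh W a z) ∧
      Real.exp (lam n ((j : ℝ) + 1) * (1 - x) * hh W a z) ≤ B := fun a z =>
    b_num hB hL0 hx1 hLx (hh_nonneg hW a z) (hh_le hW a z)
  have hrgk : kap / 2 + 2 / A ≤ kap := by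
    rw [hA]
    have h : 2 / (4 / kap) = kap / 2 := by field_simp; norm_num
    linarith
  have c3 : (n : ℝ) * (kap / 2 * (n : ℝ) ^ 2 + (2 * j / D0) * (n * (11 / 2))) / (n * 11)
      ≤ (kap / 2 + 2 / A) * (((pairs n).card : ℝ) - j) := by
    apply rg_num hn0' hkap0 hA0 hm0 hj0' (by linarith) hD0
    have e : (n : ℝ) ^ 2 / 4 = s ^ 4 / 4 := by rw [hns]; ring
    rw [e]
    linarith
  have c4 : ∀ G, mu G ≠ 0 → ∀ H ∈ G.powersetCard j, Close r G H →
      LR (kap / 2) H W ∧ LR (kap / 2) (G \ H) W := by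
    intro G hG H hH hC
    obtain ⟨hGp, hGc⟩ := hmu.2.1 G hG
    rw [mem_powersetCard] at hH
    have h := hLRS n G H W (kap / 4) r hGp hH.1 (by rw [hH.2]; exact hj0)
      (by rw [hH.2, hGc]; exact hjm) hn0 hr0.le (hLRG G hG) hC
    rw [hH.2, hGc] at h
    exact ⟨LR_mono h.1 (reg_num hr hj0' hkap0 hj1),
      LR_mono h.2 (reg_num hr (by linarith) hkap0 (by linarith))⟩
  have c5 : ∀ G, mu G ≠ 0 → ∑ H ∈ G.powersetCard j,
      (by classical exact if Close r G H then (0 : ℝ) else 1) ≤ kap * (m.choose j : ℝ) := by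
    intro G hG
    obtain ⟨hGp, hGc⟩ := hmu.2.1 G hG
    have h := hSA n j G r hGp (by rw [hGc]; omega) (by rw [hGc]; exact hjm.le) hr0
    rw [hGc] at h
    have h1 := small_prob (m := m) (n := n) hK hr0 hkap0 hs1 hns hm1 hm2 (hS3.trans hsS)
      (hS4.trans hsS)
    have h2 : ((m : ℝ) + 1) * 2 * 4 ^ n * Real.exp (-(r ^ 2 * m / 2)) * (m.choose j : ℝ)
        ≤ kap * (m.choose j : ℝ) := mul_le_mul_of_nonneg_right h1 (by positivity)
    exact h.trans h2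
  have hcore := core hI hSB hE hP hn0 hmu hmN hj0 hjm hStab hb hB0 hx0 hx1 hW
    (rho := kap / 2) (r := r) (by positivity) hD00 (t := t) (rg := kap / 2 + 2 / A) (db := kap)
    (C1 := C1) ht0 (by positivity) hkap0.le hkj c3 c4 c5
  refine le_trans ?_ hcore
  exact last_num hB0 hL0 hLZ hZ0 heps hC1 ht hk1 hk2 (by positivity) (by linarith)
    hkap0.le (le_refl _) (by positivity) hrgk
    (T1_num hns hs1 hB0 heps hj2' (hS1.trans hsS))
    (T3_num hns hs1 hB0 hA0 hK heps (by positivity) hj2' hD00 hD0s (hS2.trans hsS))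

theorem thm (hI : StmtIDD) (hSB : StmtSB) (hE : StmtEDG) (hSA : StmtSAMP) (hLRS : StmtLRS)
    (hP : StmtPRD) : StmtDERI := by
  intro C1 K eps hC1 hK heps
  obtain ⟨B, hB⟩ : ∃ B : ℝ, B = Real.exp 31 := ⟨_, rfl⟩
  have hB0 : 0 < B := by rw [hB]; exact Real.exp_pos _
  obtain ⟨Z, hZ⟩ : ∃ Z : ℝ, Z = (4 * K ^ 2 + 1) * (31 * B) := ⟨_, rfl⟩
  have hZ0 : 0 < Z := by rw [hZ]; positivity
  obtain ⟨t, ht⟩ : ∃ t : ℝ, t = 16 * Z * C1 / eps := ⟨_, rfl⟩
  have ht0 : 0 < t := by rw [ht]; positivity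
  obtain ⟨kap, hkap0, hk1, hk2⟩ : ∃ kap : ℝ, 0 < kap ∧ kap ≤ eps / (32 * Z) ∧
      kap ≤ t * eps / (16 * Z * Real.exp t) :=
    ⟨min (eps / (32 * Z)) (t * eps / (16 * Z * Real.exp t)),
      lt_min (by positivity) (by positivity), min_le_left _ _, min_le_right _ _⟩
  obtain ⟨A, hA⟩ : ∃ A : ℝ, A = 4 / kap := ⟨_, rfl⟩
  have hA0 : 0 < A := by rw [hA]; positivity
  obtain ⟨r, hr⟩ : ∃ r : ℝ, r = kap * eps / 2 := ⟨_, rfl⟩
  have hr0 : 0 < r := by rw [hr]; positivity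
  refine ⟨kap / 4, by positivity, ?_⟩
  have hlog4 : 0 ≤ Real.log 4 := Real.log_nonneg (by norm_num)
  have p1 : 0 ≤ 992 * K * B / eps := by positivity
  have p2 : 0 ≤ 32 * A * K ^ 2 * B * (2 * A * K + 4) / eps := by positivity
  have p3 : 0 ≤ 8 * (Real.log 4 + 2) / r ^ 2 := by positivity
  have p4 : 0 ≤ (K + 1) / kap := by positivity
  obtain ⟨S, hS⟩ : ∃ S : ℝ, S = 8 + 8 * K + 992 * K * B / eps
    + 32 * A * K ^ 2 * B * (2 * A * K + 4) / eps
    + 8 * (Real.log 4 + 2) / r ^ 2 + (K + 1) / kap := ⟨_, rfl⟩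
  refine ⟨⌈S ^ 2⌉₊, ?_⟩
  intro n m j mu W KK x hn hyp hStab hx0 hx1 hLx
  have hnS : S ^ 2 ≤ (n : ℝ) := (Nat.le_ceil _).trans (by exact_mod_cast hn)
  exact one hI hSB hE hSA hLRS hP hC1 hK heps hB hZ ht hkap0 hk1 hk2 hA hr
    (by rw [hS]; linarith) (by rw [hS]; linarith) (by rw [hS]; linarith)
    (by rw [hS]; linarith) (by rw [hS]; linarith) (by rw [hS]; linarith)
    hnS hyp hStab hx0 hx1 hLx

end Vale.Agent.P046.Sh.DERI
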