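import Vale.Agent.P046.Sh.Defs

/-! # P046 sharp, module DERI: the main assembly of the pair level -/

namespace Vale.Agent.P046.Sh.DERI

open Finset

variable {n : ℕ}

theorem ex_mono {mu f g : Finset (Finset (Fin n)) → ℝ} (h0 : ∀ G, 0 ≤ mu G)
    (h : ∀ G, mu G ≠ 0 → f G ≤ g G) : EX mu f ≤ EX mu g := by
  unfold EX
  apply sum_le_sum
  intro G _
  by_cases hG : mu G = 0
  · simp [hG]
  · exact mul_le_mul_of_nonneg_left (h G hG) (h0 G)

theorem ex_congr {mu f g : Finset (Finset (Fin n)) → ℝ}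
    (h : ∀ G, mu G ≠ 0 → f G = g G) : EX mu f = EX mu g := by
  unfold EX
  apply sum_congr rfl
  intro G _
  by_cases hG : mu G = 0
  · simp [hG]
  · rw [h G hG]

theorem ex_lin (mu f g : Finset (Finset (Fin n)) → ℝ) (a b : ℝ) :
    EX mu (fun G => a * f G + b * g G) = a * EX mu f + b * EX mu g := by
  unfold EX
  rw [mul_sum, mul_sum, ← sum_add_distrib]
  apply sum_congr rfl
  intro G _
  ring

theorem ex_smul (mu f : Finset (Finset (Fin n)) → ℝ) (a : ℝ) :
    EX mu (fun G => a * f G) = a * EX mu f := by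
  unfold EX
  rw [mul_sum]
  apply sum_congr rfl
  intro G _
  ring

theorem ex_const {mu : Finset (Finset (Fin n)) → ℝ} (h1 : EX mu (fun _ => 1) = 1) (a : ℝ) :
    EX mu (fun _ => a) = a := by
  have h := ex_smul mu (fun _ => 1) a
  simp only [mul_one] at h
  rw [h, h1, mul_one]

/-- sum over the ordered pairs with underlying set `e` -/
noncomputable def se (e : Finset (Fin n)) (F : Fin n → Fin n → ℝ) : ℝ :=
  ∑ a, ∑ c, if ({a, c} : Finset (Fin n)) = e then F a c else 0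

theorem sum_se (H : Finset (Finset (Fin n))) (F : Finset (Fin n) → Fin n → Fin n → ℝ) :
    ∑ e ∈ H, se e (F e) = ∑ a, ∑ c, ad H a c * F {a, c} a c := by
  unfold se
  rw [sum_comm]
  apply sum_congr rfl
  intro a _
  rw [sum_comm]
  apply sum_congr rfl
  intro c _
  rw [Finset.sum_ite_eq]
  unfold ad
  by_cases h : ({a, c} : Finset (Fin n)) ∈ H
  · simp [h]
  · simp [h]

theorem se_mono {e : Finset (Fin n)} {F F' : Fin n → Fin n → ℝ} (h : ∀ a c, F a c ≤ F' a c) :
    se e F ≤ se e F' := by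
  unfold se
  apply sum_le_sum
  intro a _
  apply sum_le_sum
  intro c _
  split_ifs
  · exact h a c
  · exact le_refl _

theorem se_nonneg {e : Finset (Fin n)} {F : Fin n → Fin n → ℝ} (h : ∀ a c, 0 ≤ F a c) :
    0 ≤ se e F := by
  unfold se
  apply sum_nonneg
  intro a _
  apply sum_nonneg
  intro c _
  split_ifs
  · exact h a c
  · exact le_refl _

theorem se_sub (e : Finset (Fin n)) (F F' : Fin n → Fin n → ℝ) :
    se e (fun a c => F a c - F' a c) = se e F - se e F' := by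
  unfold se
  rw [← sum_sub_distrib]
  apply sum_congr rfl
  intro a _
  rw [← sum_sub_distrib]
  apply sum_congr rfl
  intro c _
  split_ifs
  · ring
  · ring

theorem pair_eq {p q a c : Fin n} (hpq : p ≠ q) :
    ({a, c} : Finset (Fin n)) = {p, q} ↔ (a = p ∧ c = q) ∨ (a = q ∧ c = p) := by
  constructor
  · intro h
    have ha : a ∈ ({p, q} : Finset (Fin n)) := by rw [← h]; simp
    have hc : c ∈ ({p, q} : Finset (Fin n)) := by rw [← h]; simp
    have hp : p ∈ ({a, c} : Finset (Fin n)) := by rw [h]; simp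
    have hq : q ∈ ({a, c} : Finset (Fin n)) := by rw [h]; simp
    simp only [mem_insert, mem_singleton] at ha hc hp hq
    rcases ha with ha | ha
    · left
      refine ⟨ha, ?_⟩
      rcases hq with hq | hq
      · exact absurd (ha.symm.trans hq.symm) hpq
      · exact hq.symm
    · right
      refine ⟨ha, ?_⟩
      rcases hp with hp | hp
      · exact absurd (hp.trans ha) hpq
      · exact hp.symm
  · rintro (⟨h1, h2⟩ | ⟨h1, h2⟩)
    · rw [h1, h2]
    · rw [h1, h2, pair_comm]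

theorem se_pair {p q : Fin n} (hpq : p ≠ q) (F : Fin n → Fin n → ℝ) :
    se {p, q} F = F p q + F q p := by
  have h1 : ∀ a : Fin n, (∑ c, if ({a, c} : Finset (Fin n)) = {p, q} then F a c else 0)
      = (if a = p then F p q else 0) + (if a = q then F q p else 0) := by
    intro a
    by_cases hap : a = p
    · subst hap
      rw [if_pos rfl, if_neg hpq, add_zero]
      rw [sum_eq_single q]
      · rw [if_pos ((pair_eq hpq).2 (Or.inl ⟨rfl, rfl⟩))]
      · intro c _ hc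
        rw [if_neg]
        intro h
        rcases (pair_eq hpq).1 h with h | h
        · exact hc h.2
        · exact hpq h.1
      · intro h
        exact absurd (mem_univ q) h
    · by_cases haq : a = q
      · subst haq
        rw [if_neg hap, if_pos rfl, zero_add]
        rw [sum_eq_single p]
        · rw [if_pos ((pair_eq hpq).2 (Or.inr ⟨rfl, rfl⟩))]
        · intro c _ hc
          rw [if_neg]
          intro h
          rcases (pair_eq hpq).1 h with h | h
          · exact hap h.1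
          · exact hc h.2
        · intro h
          exact absurd (mem_univ p) h
      · rw [if_neg hap, if_neg haq, add_zero]
        apply sum_eq_zero
        intro c _
        rw [if_neg]
        intro h
        rcases (pair_eq hpq).1 h with h | h
        · exact hap h.1
        · exact haq h.1
  unfold se
  rw [sum_congr rfl (fun a _ => h1 a), sum_add_distrib]
  simp

theorem se_le {e : Finset (Fin n)} (he : e ∈ pairs n) {F : Fin n → Fin n → ℝ} {M : ℝ}
    (h : ∀ a c, F a c ≤ M) : se e F ≤ 2 * M := by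
  unfold pairs at he
  rw [mem_powersetCard, card_eq_two] at he
  obtain ⟨_, p, q, hpq, rfl⟩ := he
  rw [se_pair hpq]
  linarith [h p q, h q p]

theorem ad_nonneg (H : Finset (Finset (Fin n))) (a c : Fin n) : 0 ≤ ad H a c := by
  unfold ad
  split_ifs
  · norm_num
  · norm_num

theorem ad_le_one (H : Finset (Finset (Fin n))) (a c : Fin n) : ad H a c ≤ 1 := by
  unfold ad
  split_ifs
  · norm_num
  · norm_num

theorem sum_se_le (H : Finset (Finset (Fin n))) (F : Fin n → Fin n → ℝ)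
    (h : ∀ a c, 0 ≤ F a c) : ∑ e ∈ H, se e F ≤ ∑ a, ∑ c, F a c := by
  have h1 := sum_se H (fun _ => F)
  rw [h1]
  apply sum_le_sum
  intro a _
  apply sum_le_sum
  intro c _
  have h2 := ad_le_one H a c
  have h3 := h a c
  nlinarith [ad_nonneg H a c]

theorem od_nonneg (a z : Fin n) : 0 ≤ od a z := by
  unfold od; split_ifs <;> norm_num

theorem od_le_one (a z : Fin n) : od a z ≤ 1 := by
  unfold od; split_ifs <;> norm_num

theorem hh_nonneg {W : Fin n → Fin n → ℝ} (hW : WOK W) (a z : Fin n) : 0 ≤ hh W a z := by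
  unfold hh
  apply div_nonneg _ (Nat.cast_nonneg n)
  apply sum_nonneg
  intro b _
  exact (mul_pos (hW.2.1 a b) (hW.2.1 b z)).le

theorem hh_le {W : Fin n → Fin n → ℝ} (hW : WOK W) (a z : Fin n) : hh W a z ≤ 31 := by
  unfold hh
  have hn : 0 < n := a.pos
  have hn' : (0 : ℝ) < n := by exact_mod_cast hn
  rw [div_le_iff₀ hn']
  calc ∑ b, W a b * W b z ≤ ∑ _b : Fin n, (31 : ℝ) := by
        apply sum_le_sum
        intro b _
        have h1 := hW.2.1 a b
        have h2 := hW.2.2 a b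
        have h3 := hW.2.1 b z
        have h4 := hW.2.2 b z
        nlinarith
    _ = 31 * n := by
        simp [Finset.card_univ, mul_comm]

/-- the kernel `od KK b x^cd` -/
noncomputable def Kx (KK : Finset (Finset (Fin n)) → Fin n → Fin n → ℝ)
    (b : Fin n → Fin n → ℝ) (x : ℝ) (H : Finset (Finset (Fin n))) (a z : Fin n) : ℝ :=
  od a z * KK H a z * b a z * x ^ (cd H a z)

/-- the contribution of one ordered edge -/
noncomputable def Ph (KK : Finset (Finset (Fin n)) → Fin n → Fin n → ℝ)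
    (b : Fin n → Fin n → ℝ) (x D0 : ℝ) (H : Finset (Finset (Fin n))) (a c : Fin n) : ℝ :=
  if (deg H c : ℝ) ≤ D0 then ∑ z, ad H c z * Kx KK b x H a z else 0

/-- its main term -/
noncomputable def Mo (KK : Finset (Finset (Fin n)) → Fin n → Fin n → ℝ)
    (b : Fin n → Fin n → ℝ) (x : ℝ) (W : Fin n → Fin n → ℝ) (p : ℝ)
    (H : Finset (Finset (Fin n))) (a c : Fin n) : ℝ :=
  p * ∑ z, W c z * Kx KK b x H a z

/-- the defect -/
noncomputable def gt (KK : Finset (Finset (Fin n)) → Fin n → Fin n → ℝ)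
    (b : Fin n → Fin n → ℝ) (x D0 : ℝ) (W : Fin n → Fin n → ℝ) (p : ℝ)
    (H : Finset (Finset (Fin n))) (a c : Fin n) : ℝ :=
  max 0 (Mo KK b x W p H a c - Ph KK b x D0 H a c)

section kern

variable {KK : Finset (Finset (Fin n)) → Fin n → Fin n → ℝ} {b : Fin n → Fin n → ℝ}
  {x B : ℝ}

theorem Kx_nonneg (hS : Stab KK) (hb : ∀ a z, 0 ≤ b a z ∧ b a z ≤ B) (hx0 : 0 ≤ x)
    (H : Finset (Finset (Fin n))) (a z : Fin n) : 0 ≤ Kx KK b x H a z := by
  unfold Kx
  have h1 := od_nonneg a z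
  have h2 := (hS.1 H a z).1
  have h3 := (hb a z).1
  positivity

theorem Kx_le (hS : Stab KK) (hb : ∀ a z, 0 ≤ b a z ∧ b a z ≤ B) (hx0 : 0 ≤ x) (hx1 : x ≤ 1)
    (H : Finset (Finset (Fin n))) (a z : Fin n) : Kx KK b x H a z ≤ B := by
  unfold Kx
  have h1 := od_nonneg a z
  have h1' := od_le_one a z
  have h2 := (hS.1 H a z).1
  have h2' := (hS.1 H a z).2
  have h3 := (hb a z).1
  have h3' := (hb a z).2
  have h4 : x ^ (cd H a z) ≤ 1 := pow_le_one₀ hx0 hx1
  have h4' : 0 ≤ x ^ (cd H a z) := pow_nonneg hx0 _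
  have h5 : od a z * KK H a z ≤ 1 := mul_le_one₀ h1' h2 h2'
  have h5' : 0 ≤ od a z * KK H a z := mul_nonneg h1 h2
  have h6 : od a z * KK H a z * b a z ≤ B := by nlinarith
  have h6' : 0 ≤ od a z * KK H a z * b a z := mul_nonneg h5' h3
  nlinarith

theorem cd_mono {H H' : Finset (Finset (Fin n))} (h : H' ⊆ H) (a z : Fin n) :
    cd H' a z ≤ cd H a z := by
  unfold cd
  apply card_le_card
  intro w hw
  simp only [mem_filter, mem_univ, true_and] at hw ⊢
  exact ⟨h hw.1, h hw.2⟩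

theorem Kx_anti (hS : Stab KK) (hb : ∀ a z, 0 ≤ b a z ∧ b a z ≤ B) (hx0 : 0 ≤ x)
    (hx1 : x ≤ 1) {H H' : Finset (Finset (Fin n))} (h : H' ⊆ H) (a z : Fin n) :
    Kx KK b x H a z ≤ Kx KK b x H' a z := by
  unfold Kx
  have h1 := od_nonneg a z
  have h2 := (hS.1 H a z).1
  have h2' := hS.2.1 H H' a z h
  have h3 := (hb a z).1
  have h4 : x ^ (cd H a z) ≤ x ^ (cd H' a z) := pow_le_pow_of_le_one hx0 hx1 (cd_mono h a z)
  have h4' : 0 ≤ x ^ (cd H a z) := pow_nonneg hx0 _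
  have h5 : od a z * KK H a z ≤ od a z * KK H' a z := mul_le_mul_of_nonneg_left h2' h1
  have h6 : od a z * KK H a z * b a z ≤ od a z * KK H' a z * b a z :=
    mul_le_mul_of_nonneg_right h5 h3
  have h7 : 0 ≤ od a z * KK H' a z * b a z :=
    mul_nonneg (mul_nonneg h1 (h2.trans h2')) h3
  exact mul_le_mul h6 h4 h4' h7

theorem Mo_nonneg (hS : Stab KK) (hb : ∀ a z, 0 ≤ b a z ∧ b a z ≤ B) (hx0 : 0 ≤ x)
    {W : Fin n → Fin n → ℝ} (hW : WOK W) {p : ℝ} (hp : 0 ≤ p)
    (H : Finset (Finset (Fin n))) (a c : Fin n) : 0 ≤ Mo KK b x W p H a c := by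
  unfold Mo
  apply mul_nonneg hp
  apply sum_nonneg
  intro z _
  exact mul_nonneg (hW.2.1 c z).le (Kx_nonneg hS hb hx0 H a z)

theorem Mo_le (hS : Stab KK) (hb : ∀ a z, 0 ≤ b a z ∧ b a z ≤ B) (hx0 : 0 ≤ x) (hx1 : x ≤ 1)
    {W : Fin n → Fin n → ℝ} (hW : WOK W) {p : ℝ} (hp : 0 ≤ p)
    (H : Finset (Finset (Fin n))) (a c : Fin n) :
    Mo KK b x W p H a c ≤ p * n * (11 / 2) * B := by
  unfold Mo
  have h : ∑ z, W c z * Kx KK b x H a z ≤ ∑ _z : Fin n, (11 / 2) * B := by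
    apply sum_le_sum
    intro z _
    have h1 := hW.2.1 c z
    have h2 := hW.2.2 c z
    have h3 := Kx_nonneg hS hb hx0 H a z
    have h4 := Kx_le hS hb hx0 hx1 H a z
    nlinarith
  have h' : ∑ _z : Fin n, (11 / 2) * B = (n : ℝ) * ((11 / 2) * B) := by
    simp [Finset.card_univ]
  rw [h'] at h
  calc p * ∑ z, W c z * Kx KK b x H a z ≤ p * ((n : ℝ) * ((11 / 2) * B)) :=
        mul_le_mul_of_nonneg_left h hp
    _ = p * n * (11 / 2) * B := by ring

theorem Ph_nonneg (hS : Stab KK) (hb : ∀ a z, 0 ≤ b a z ∧ b a z ≤ B) (hx0 : 0 ≤ x)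
    (D0 : ℝ) (H : Finset (Finset (Fin n))) (a c : Fin n) : 0 ≤ Ph KK b x D0 H a c := by
  unfold Ph
  split_ifs
  · apply sum_nonneg
    intro z _
    exact mul_nonneg (ad_nonneg H c z) (Kx_nonneg hS hb hx0 H a z)
  · exact le_refl _

theorem gt_nonneg (D0 : ℝ) (W : Fin n → Fin n → ℝ) (p : ℝ)
    (H : Finset (Finset (Fin n))) (a c : Fin n) : 0 ≤ gt KK b x D0 W p H a c :=
  le_max_left _ _

theorem gt_le (hS : Stab KK) (hb : ∀ a z, 0 ≤ b a z ∧ b a z ≤ B) (hx0 : 0 ≤ x) (hx1 : x ≤ 1)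
    {W : Fin n → Fin n → ℝ} (hW : WOK W) {p : ℝ} (hp : 0 ≤ p) (D0 : ℝ)
    (H : Finset (Finset (Fin n))) (a c : Fin n) :
    gt KK b x D0 W p H a c ≤ p * n * (11 / 2) * B := by
  unfold gt
  apply max_le
  · exact (Mo_nonneg hS hb hx0 hW hp H a c).trans (Mo_le hS hb hx0 hx1 hW hp H a c)
  · linarith [Mo_le hS hb hx0 hx1 hW hp H a c, Ph_nonneg hS hb hx0 D0 H a c]

theorem Ph_ge (D0 : ℝ) (W : Fin n → Fin n → ℝ) (p : ℝ)
    (H : Finset (Finset (Fin n))) (a c : Fin n) :
    Mo KK b x W p H a c - gt KK b x D0 W p H a c ≤ Ph KK b x D0 H a c := by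
  unfold gt
  linarith [le_max_right 0 (Mo KK b x W p H a c - Ph KK b x D0 H a c)]

theorem first_ge (hI : StmtIDD) (hn : 0 < n) {H : Finset (Finset (Fin n))} (hH : H ⊆ pairs n)
    (hS : Stab KK) (hb : ∀ a z, 0 ≤ b a z ∧ b a z ≤ B) (hx0 : 0 ≤ x) (hx1 : x ≤ 1)
    {D0 : ℝ} (hD : 0 ≤ D0) :
    ∑ e ∈ H, se e (Ph KK b x D0 (H.erase e)) - 2 * H.card * (D0 * (D0 + 4) * B / n)
      ≤ ∑ a, ∑ z, od a z * KK H a z * b a z * ((cd H a z : ℝ) * x ^ (cd H a z - 1)) := by
  have h := hI n H KK b B x D0 hn hH hS hb hx0 hx1 hD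
  rw [sum_se H (fun e => Ph KK b x D0 (H.erase e))]
  exact h

theorem av2_hK (hn : 0 < n) (W K : Fin n → Fin n → ℝ) :
    ∑ a, ∑ b, W a b * (∑ z, W b z * K a z)
      = (n : ℝ) ^ 3 * av2 (fun a z => hh W a z * K a z) := by
  have hn' : (n : ℝ) ≠ 0 := by exact_mod_cast hn.ne'
  have h1 : ∀ a : Fin n, ∑ b, W a b * (∑ z, W b z * K a z)
      = ∑ z, (n : ℝ) * (hh W a z * K a z) := by
    intro a
    have h2 : ∀ b : Fin n, W a b * (∑ z, W b z * K a z) = ∑ z, W a b * W b z * K a z := by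
      intro b
      rw [mul_sum]
      apply sum_congr rfl
      intro z _
      ring
    rw [sum_congr rfl (fun b _ => h2 b), sum_comm]
    apply sum_congr rfl
    intro z _
    unfold hh
    rw [← sum_mul]
    field_simp
  rw [sum_congr rfl (fun a _ => h1 a)]
  unfold av2
  rw [sum_congr rfl (fun a _ => (mul_sum _ _ _).symm), ← mul_sum]
  field_simp

theorem av2_hK_le (hn : 0 < n) (hS : Stab KK) (hb : ∀ a z, 0 ≤ b a z ∧ b a z ≤ B)
    (hx0 : 0 ≤ x) (hx1 : x ≤ 1) {W : Fin n → Fin n → ℝ} (hW : WOK W)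
    (H : Finset (Finset (Fin n))) :
    av2 (fun a z => hh W a z * Kx KK b x H a z) ≤ 31 * B := by
  have hn' : (0 : ℝ) < n := by exact_mod_cast hn
  unfold av2
  rw [div_le_iff₀ (by positivity)]
  calc ∑ a, ∑ z, hh W a z * Kx KK b x H a z ≤ ∑ _a : Fin n, ∑ _z : Fin n, 31 * B := by
        apply sum_le_sum
        intro a _
        apply sum_le_sum
        intro z _
        have h1 := hh_nonneg hW a z
        have h2 := hh_le hW a z
        have h3 := Kx_nonneg hS hb hx0 H a z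
        have h4 := Kx_le hS hb hx0 hx1 H a z
        nlinarith
    _ = 31 * B * (n : ℝ) ^ 2 := by
        simp [Finset.card_univ]
        ring

theorem av2_hK_nonneg (hS : Stab KK) (hb : ∀ a z, 0 ≤ b a z ∧ b a z ≤ B)
    (hx0 : 0 ≤ x) {W : Fin n → Fin n → ℝ} (hW : WOK W)
    (H : Finset (Finset (Fin n))) :
    0 ≤ av2 (fun a z => hh W a z * Kx KK b x H a z) := by
  unfold av2
  apply div_nonneg _ (by positivity)
  apply sum_nonneg
  intro a _
  apply sum_nonneg
  intro z _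
  exact mul_nonneg (hh_nonneg hW a z) (Kx_nonneg hS hb hx0 H a z)

theorem av2_hK_anti (hS : Stab KK) (hb : ∀ a z, 0 ≤ b a z ∧ b a z ≤ B)
    (hx0 : 0 ≤ x) (hx1 : x ≤ 1) {W : Fin n → Fin n → ℝ} (hW : WOK W)
    {H H' : Finset (Finset (Fin n))} (h : H' ⊆ H) :
    av2 (fun a z => hh W a z * Kx KK b x H a z)
      ≤ av2 (fun a z => hh W a z * Kx KK b x H' a z) := by
  unfold av2
  apply div_le_div_of_nonneg_right _ (by positivity)
  apply sum_le_sum
  intro a _
  apply sum_le_sum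
  intro z _
  exact mul_le_mul_of_nonneg_left (Kx_anti hS hb hx0 hx1 h a z) (hh_nonneg hW a z)

theorem pp_nonneg (n j : ℕ) : 0 ≤ pp n (j : ℝ) := by
  unfold pp
  positivity

/-- main term for one pair `(G, H)` -/
theorem main_ge (hP : StmtPRD) (hn : 0 < n) {G H : Finset (Finset (Fin n))}
    (hG : G ⊆ pairs n) (hHG : H ⊆ G) (hlt : H.card < G.card)
    (hS : Stab KK) (hb : ∀ a z, 0 ≤ b a z ∧ b a z ≤ B) (hB : 0 ≤ B)
    (hx0 : 0 ≤ x) (hx1 : x ≤ 1) {W : Fin n → Fin n → ℝ} (hW : WOK W) {rho : ℝ}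
    (hrho : 0 ≤ rho) (hLR : LR rho (G \ H) W) :
    2 * pp n (H.card : ℝ) * n
        * (av2 (fun a z => hh W a z * Kx KK b x H a z) - rho * (11 / 2) * B)
      ≤ (∑ e ∈ G \ H, se e (Mo KK b x W (pp n (H.card : ℝ)) H)) / ((G.card : ℝ) - H.card) := by
  have hn' : (0 : ℝ) < n := by exact_mod_cast hn
  have hcard : ((G \ H).card : ℝ) = (G.card : ℝ) - H.card := by
    rw [card_sdiff_of_subset hHG, Nat.cast_sub hlt.le]
  have hpos : (0 : ℝ) < (G.card : ℝ) - H.card := by
    have : (H.card : ℝ) < G.card := by exact_mod_cast hlt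
    linarith
  have hGH : 0 < (G \ H).card := by
    rw [card_sdiff_of_subset hHG]; omega
  have hq : pp n ((G \ H).card : ℝ) = 2 * ((G.card : ℝ) - H.card) / (n : ℝ) ^ 2 := by
    unfold pp; rw [hcard]
  have h1 := (hP n (G \ H) W rho hn (sdiff_subset.trans hG) hGH hrho hW hLR).1
    (Kx KK b x H) B hB (fun a z => ⟨Kx_nonneg hS hb hx0 H a z, Kx_le hS hb hx0 hx1 H a z⟩)
  set q := pp n ((G \ H).card : ℝ) with hqdef
  have hqpos : 0 < q := by rw [hq]; positivity
  have h2 : ∑ a, ∑ c, (ad (G \ H) a c / q - W a c) * (∑ z, W c z * Kx KK b x H a z)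
      = (∑ a, ∑ c, ad (G \ H) a c * (∑ z, W c z * Kx KK b x H a z)) / q
        - (n : ℝ) ^ 3 * av2 (fun a z => hh W a z * Kx KK b x H a z) := by
    rw [← av2_hK hn W (Kx KK b x H), sum_div, ← sum_sub_distrib]
    apply sum_congr rfl
    intro a _
    rw [sum_div, ← sum_sub_distrib]
    apply sum_congr rfl
    intro c _
    ring
  rw [h2] at h1
  have h3 : ∑ e ∈ G \ H, se e (Mo KK b x W (pp n (H.card : ℝ)) H)
      = pp n (H.card : ℝ)
        * ∑ a, ∑ c, ad (G \ H) a c * (∑ z, W c z * Kx KK b x H a z) := by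
    rw [sum_se (G \ H) (fun _ => Mo KK b x W (pp n (H.card : ℝ)) H), mul_sum]
    apply sum_congr rfl
    intro a _
    rw [mul_sum]
    apply sum_congr rfl
    intro c _
    unfold Mo
    ring
  rw [h3, le_div_iff₀ hpos]
  set S1 := ∑ a, ∑ c, ad (G \ H) a c * (∑ z, W c z * Kx KK b x H a z) with hS1
  set A := av2 (fun a z => hh W a z * Kx KK b x H a z) with hA
  have h4 : q * ((n : ℝ) ^ 3 * A - rho * (11 / 2) * B * (n : ℝ) ^ 3) ≤ S1 := by
    have h5 : (n : ℝ) ^ 3 * A - rho * (11 / 2) * B * (n : ℝ) ^ 3 ≤ S1 / q := by linarith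
    rw [le_div_iff₀ hqpos] at h5
    linarith
  have h6 := mul_le_mul_of_nonneg_left h4 (pp_nonneg n H.card)
  refine le_trans (le_of_eq ?_) h6
  rw [hq]
  field_simp

theorem main_ge' (hP : StmtPRD) (hn : 0 < n) {G H : Finset (Finset (Fin n))}
    (hG : G ⊆ pairs n) (hHG : H ⊆ G) (hlt : H.card < G.card)
    (hS : Stab KK) (hb : ∀ a z, 0 ≤ b a z ∧ b a z ≤ B) (hB : 0 ≤ B)
    (hx0 : 0 ≤ x) (hx1 : x ≤ 1) {W : Fin n → Fin n → ℝ} (hW : WOK W) {rho : ℝ}
    (hrho : 0 ≤ rho) (P : Prop) [Decidable P] (hLR : P → LR rho (G \ H) W) :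
    2 * pp n (H.card : ℝ) * n
        * (av2 (fun a z => hh W a z * Kx KK b x H a z) - rho * (11 / 2) * B)
      - 2 * pp n (H.card : ℝ) * n * (31 * B) * (if P then (0 : ℝ) else 1)
      ≤ (∑ e ∈ G \ H, se e (Mo KK b x W (pp n (H.card : ℝ)) H)) / ((G.card : ℝ) - H.card) := by
  by_cases hp : P
  · rw [if_pos hp, mul_zero, sub_zero]
    exact main_ge hP hn hG hHG hlt hS hb hB hx0 hx1 hW hrho (hLR hp)
  · rw [if_neg hp, mul_one]
    have hn' : (0 : ℝ) < n := by exact_mod_cast hn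
    have hpos : (0 : ℝ) < (G.card : ℝ) - H.card := by
      have : (H.card : ℝ) < G.card := by exact_mod_cast hlt
      linarith
    have h1 : 0 ≤ (∑ e ∈ G \ H, se e (Mo KK b x W (pp n (H.card : ℝ)) H))
        / ((G.card : ℝ) - H.card) := by
      apply div_nonneg _ hpos.le
      apply sum_nonneg
      intro e _
      exact se_nonneg (fun a c => Mo_nonneg hS hb hx0 hW (pp_nonneg n H.card) H a c)
    have h2 := av2_hK_le hn hS hb hx0 hx1 hW H
    have h3 := pp_nonneg n H.card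
    have h4 : 0 ≤ rho * (11 / 2) * B := by positivity
    have h5 : 0 ≤ 2 * pp n (H.card : ℝ) * n := by positivity
    nlinarith

end kern

theorem sum_deg {H : Finset (Finset (Fin n))} (hH : H ⊆ pairs n) :
    ∑ v : Fin n, (deg H v : ℝ) = 2 * H.card := by
  have h1 : ∑ v : Fin n, deg H v = ∑ e ∈ H, e.card := by
    unfold deg
    simp only [card_filter]
    rw [sum_comm]
    apply sum_congr rfl
    intro e _
    rw [← card_filter]
    congr 1
    ext v
    simp
  have h2 : ∑ e ∈ H, e.card = 2 * H.card := by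
    rw [sum_congr rfl (fun e he => (mem_powersetCard.1 (hH he)).2)]
    simp [mul_comm]
  have h3 : ∑ v : Fin n, deg H v = 2 * H.card := h1.trans h2
  exact_mod_cast h3

theorem high_deg {H : Finset (Finset (Fin n))} (hH : H ⊆ pairs n) {D0 : ℝ} (hD : 0 < D0) :
    ∑ c : Fin n, (if (deg H c : ℝ) ≤ D0 then (0 : ℝ) else 1) ≤ 2 * H.card / D0 := by
  rw [le_div_iff₀ hD, ← sum_deg hH, sum_mul]
  apply sum_le_sum
  intro c _
  by_cases h : (deg H c : ℝ) ≤ D0
  · rw [if_pos h]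
    simp
  · rw [if_neg h]
    push Not at h
    linarith

section kern2

variable {KK : Finset (Finset (Fin n)) → Fin n → Fin n → ℝ} {b : Fin n → Fin n → ℝ}
  {x B : ℝ}

theorem sum_gt_le (hP : StmtPRD) (hn : 0 < n) {H : Finset (Finset (Fin n))}
    (hH : H ⊆ pairs n) (hj : 0 < H.card)
    (hS : Stab KK) (hb : ∀ a z, 0 ≤ b a z ∧ b a z ≤ B) (hB : 0 ≤ B)
    (hx0 : 0 ≤ x) (hx1 : x ≤ 1) {W : Fin n → Fin n → ℝ} (hW : WOK W) {rho : ℝ}
    (hrho : 0 ≤ rho) (hLR : LR rho H W) {D0 : ℝ} (hD : 0 < D0) :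
    ∑ a, ∑ c, gt KK b x D0 W (pp n (H.card : ℝ)) H a c ≤
      n * (rho * pp n (H.card : ℝ) * B * (n : ℝ) ^ 2
        + (2 * H.card / D0) * (pp n (H.card : ℝ) * n * (11 / 2) * B)) := by
  set p := pp n (H.card : ℝ) with hp
  have hp0 : 0 ≤ p := pp_nonneg n H.card
  have h1 := (hP n H W rho hn hH hj hrho hW hLR).2.1
    (Kx KK b x H) B hB (fun a z => ⟨Kx_nonneg hS hb hx0 H a z, Kx_le hS hb hx0 hx1 H a z⟩)
  have hM : 0 ≤ p * n * (11 / 2) * B := by positivity
  have h2 : ∀ a : Fin n, ∑ c, gt KK b x D0 W p H a c ≤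
      rho * p * B * (n : ℝ) ^ 2 + (2 * H.card / D0) * (p * n * (11 / 2) * B) := by
    intro a
    have h3 : ∀ c : Fin n, gt KK b x D0 W p H a c ≤
        max 0 (p * (∑ z, W c z * Kx KK b x H a z) - ∑ z, ad H c z * Kx KK b x H a z)
        + (if (deg H c : ℝ) ≤ D0 then (0 : ℝ) else 1) * (p * n * (11 / 2) * B) := by
      intro c
      by_cases hdeg : (deg H c : ℝ) ≤ D0
      · rw [if_pos hdeg, zero_mul, add_zero]
        unfold gt Mo Ph
        rw [if_pos hdeg]
      · rw [if_neg hdeg, one_mul]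
        have h4 := gt_le hS hb hx0 hx1 hW hp0 D0 H a c
        have h5 := le_max_left 0
          (p * (∑ z, W c z * Kx KK b x H a z) - ∑ z, ad H c z * Kx KK b x H a z)
        linarith
    calc ∑ c, gt KK b x D0 W p H a c ≤ ∑ c, (max 0 (p * (∑ z, W c z * Kx KK b x H a z)
            - ∑ z, ad H c z * Kx KK b x H a z)
          + (if (deg H c : ℝ) ≤ D0 then (0 : ℝ) else 1) * (p * n * (11 / 2) * B)) :=
          sum_le_sum (fun c _ => h3 c)
      _ = ∑ c, max 0 (p * (∑ z, W c z * Kx KK b x H a z)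
            - ∑ z, ad H c z * Kx KK b x H a z)
          + (∑ c : Fin n, (if (deg H c : ℝ) ≤ D0 then (0 : ℝ) else 1))
            * (p * n * (11 / 2) * B) := by
          rw [sum_add_distrib, sum_mul]
      _ ≤ rho * p * B * (n : ℝ) ^ 2 + (2 * H.card / D0) * (p * n * (11 / 2) * B) :=
          add_le_add (h1 a) (mul_le_mul_of_nonneg_right (high_deg hH hD) hM)
  calc ∑ a, ∑ c, gt KK b x D0 W p H a c ≤ ∑ _a : Fin n, (rho * p * B * (n : ℝ) ^ 2
        + (2 * H.card / D0) * (p * n * (11 / 2) * B)) := sum_le_sum (fun a _ => h2 a)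
    _ = n * (rho * p * B * (n : ℝ) ^ 2 + (2 * H.card / D0) * (p * n * (11 / 2) * B)) := by
        rw [sum_const, card_univ, Fintype.card_fin, nsmul_eq_mul]

end kern2

end Vale.Agent.P046.Sh.DERI
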