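import Vale.Agent.P046.Sh.DERI1

/-! # P046 sharp, module DERI: expectations -/

namespace Vale.Agent.P046.Sh.DERI

open Finset

variable {n : ℕ}

theorem ex_anti (hSB : StmtSB) {m j : ℕ} {mu : Finset (Finset (Fin n)) → ℝ} (hmu : Prb mu m)
    (hm : m ≤ (pairs n).card) (hj : j < m) (F : Finset (Finset (Fin n)) → ℝ)
    (hF : ∀ H H' : Finset (Finset (Fin n)), H' ⊆ H → F H ≤ F H') :
    EX (sb mu m (j + 1)) F ≤ EX (sb mu m j) F := by
  obtain ⟨h1, _, _, _, h5, h6⟩ := hSB n m mu hmu hm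
  have hP := h1 (j + 1) hj
  have hm0 : (0 : ℝ) < (m : ℝ) - j := by
    have : (j : ℝ) < m := by exact_mod_cast hj
    linarith
  calc EX (sb mu m (j + 1)) F
      ≤ EX (sb mu m (j + 1)) (fun G => (∑ e ∈ G, F (G.erase e)) / ((j : ℝ) + 1)) := by
        apply ex_mono hP.1
        intro G hG
        have hc := (hP.2.1 G hG).2
        rw [le_div_iff₀ (by positivity)]
        calc F G * ((j : ℝ) + 1) = ∑ _e ∈ G, F G := by
              rw [sum_const, hc, nsmul_eq_mul]
              push_cast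
              ring
          _ ≤ ∑ e ∈ G, F (G.erase e) := by
              apply sum_le_sum
              intro e _
              exact hF G (G.erase e) (erase_subset e G)
    _ = EX mu (fun G => (∑ H ∈ G.powersetCard j,
        (∑ _e ∈ G \ H, F H) / ((m : ℝ) - j)) / (m.choose j : ℝ)) :=
        h6 j hj (fun H _ => F H)
    _ = EX mu (fun G => (∑ H ∈ G.powersetCard j, F H) / (m.choose j : ℝ)) := by
        apply ex_congr
        intro G hG
        have hc := (hmu.2.1 G hG).2
        congr 1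
        apply sum_congr rfl
        intro H hH
        rw [mem_powersetCard] at hH
        rw [sum_const, nsmul_eq_mul, card_sdiff_of_subset hH.1, hc, hH.2,
          Nat.cast_sub hj.le]
        field_simp
    _ = EX (sb mu m j) F := (h5 j hj.le F).symm

/-- bound of the probability that the random subset is not close to `G` -/
theorem ex_bad (hSB : StmtSB) {m j : ℕ} {mu : Finset (Finset (Fin n)) → ℝ} (hmu : Prb mu m)
    (hm : m ≤ (pairs n).card) (hj : j ≤ m) (ind : Finset (Finset (Fin n)) → ℝ)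
    (db : ℝ) (nc : Finset (Finset (Fin n)) → Finset (Finset (Fin n)) → ℝ)
    (hind : ∀ G, mu G ≠ 0 → ∀ H ∈ G.powersetCard j, ind H ≤ nc G H)
    (hnc : ∀ G, mu G ≠ 0 → ∑ H ∈ G.powersetCard j, nc G H ≤ db * (m.choose j : ℝ)) :
    EX (sb mu m j) ind ≤ db := by
  obtain ⟨_, _, _, _, h5, _⟩ := hSB n m mu hmu hm
  rw [h5 j hj ind]
  have hC : (0 : ℝ) < (m.choose j : ℝ) := by exact_mod_cast Nat.choose_pos hj
  calc EX mu (fun G => (∑ H ∈ G.powersetCard j, ind H) / (m.choose j : ℝ))
      ≤ EX mu (fun _ => db) := by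
        apply ex_mono hmu.1
        intro G hG
        rw [div_le_iff₀ hC]
        exact (sum_le_sum (hind G hG)).trans (hnc G hG)
    _ = db := ex_const hmu.2.2 db

section kern

variable {KK : Finset (Finset (Fin n)) → Fin n → Fin n → ℝ} {b : Fin n → Fin n → ℝ}
  {x B : ℝ}

theorem ex_main (hSB : StmtSB) (hP : StmtPRD) (hn : 0 < n) {m j : ℕ}
    {mu : Finset (Finset (Fin n)) → ℝ} (hmu : Prb mu m)
    (hm : m ≤ (pairs n).card) (hj : j < m)
    (hS : Stab KK) (hb : ∀ a z, 0 ≤ b a z ∧ b a z ≤ B) (hB : 0 ≤ B)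
    (hx0 : 0 ≤ x) (hx1 : x ≤ 1) {W : Fin n → Fin n → ℝ} (hW : WOK W) {rho : ℝ}
    (hrho : 0 ≤ rho) (db : ℝ)
    (P : Finset (Finset (Fin n)) → Finset (Finset (Fin n)) → Prop)
    [∀ G H, Decidable (P G H)]
    (hLR : ∀ G, mu G ≠ 0 → ∀ H ∈ G.powersetCard j, P G H → LR rho (G \ H) W)
    (hnc : ∀ G, mu G ≠ 0 → ∑ H ∈ G.powersetCard j, (if P G H then (0 : ℝ) else 1)
      ≤ db * (m.choose j : ℝ)) :
    2 * pp n (j : ℝ) * n
        * (EX (sb mu m j) (fun H => av2 (fun a z => hh W a z * Kx KK b x H a z))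
          - rho * (11 / 2) * B)
      - 2 * pp n (j : ℝ) * n * (31 * B) * db
      ≤ EX (sb mu m (j + 1)) (fun G =>
          (∑ e ∈ G, se e (Mo KK b x W (pp n (j : ℝ)) (G.erase e))) / ((j : ℝ) + 1)) := by
  obtain ⟨_, _, _, _, h5, h6⟩ := hSB n m mu hmu hm
  have hC : (0 : ℝ) < (m.choose j : ℝ) := by exact_mod_cast Nat.choose_pos hj.le
  have hm0 : (0 : ℝ) < (m : ℝ) - j := by
    have : (j : ℝ) < m := by exact_mod_cast hj
    linarith
  rw [h6 j hj (fun H e => se e (Mo KK b x W (pp n (j : ℝ)) H)), h5 j hj.le]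
  set c1 := 2 * pp n (j : ℝ) * n with hc1
  have hc1' : 0 ≤ c1 := by
    have := pp_nonneg n j
    positivity
  have key : EX mu (fun G => c1 * ((∑ H ∈ G.powersetCard j,
        av2 (fun a z => hh W a z * Kx KK b x H a z)) / (m.choose j : ℝ))
        + (-(c1 * (rho * (11 / 2) * B)) - c1 * (31 * B) * db) * 1)
      ≤ EX mu (fun G => (∑ H ∈ G.powersetCard j,
        (∑ e ∈ G \ H, se e (Mo KK b x W (pp n (j : ℝ)) H)) / ((m : ℝ) - j))
          / (m.choose j : ℝ)) := by
    apply ex_mono hmu.1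
    intro G hG
    obtain ⟨hGp, hGc⟩ := hmu.2.1 G hG
    rw [le_div_iff₀ hC]
    have hcardp : ((G.powersetCard j).card : ℝ) = (m.choose j : ℝ) := by
      rw [card_powersetCard, hGc]
    have hsum : ∀ H ∈ G.powersetCard j,
        c1 * (av2 (fun a z => hh W a z * Kx KK b x H a z) - rho * (11 / 2) * B)
        - c1 * (31 * B) * (if P G H then (0 : ℝ) else 1)
        ≤ (∑ e ∈ G \ H, se e (Mo KK b x W (pp n (j : ℝ)) H)) / ((m : ℝ) - j) := by
      intro H hH
      have hH' := mem_powersetCard.1 hH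
      have h := main_ge' hP hn hGp hH'.1 (by rw [hH'.2, hGc]; exact hj) hS hb hB hx0 hx1 hW
        hrho (P G H) (hLR G hG H hH)
      rw [hH'.2, hGc] at h
      exact h
    have h7 := sum_le_sum hsum
    refine le_trans ?_ h7
    rw [sum_sub_distrib, ← mul_sum, ← mul_sum, sum_sub_distrib, sum_const, nsmul_eq_mul,
      hcardp]
    have h8 := mul_le_mul_of_nonneg_left (hnc G hG)
      (show 0 ≤ c1 * (31 * B) by positivity)
    have h9 : (c1 * ((∑ H ∈ G.powersetCard j,
        av2 (fun a z => hh W a z * Kx KK b x H a z)) / (m.choose j : ℝ))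
        + (-(c1 * (rho * (11 / 2) * B)) - c1 * (31 * B) * db) * 1) * (m.choose j : ℝ)
        = c1 * (∑ H ∈ G.powersetCard j, av2 (fun a z => hh W a z * Kx KK b x H a z))
          - c1 * ((m.choose j : ℝ) * (rho * (11 / 2) * B))
          - c1 * (31 * B) * (db * (m.choose j : ℝ)) := by
      field_simp
      ring
    rw [h9]
    linarith
  refine le_trans (le_of_eq ?_) key
  rw [ex_lin mu (fun G => (∑ H ∈ G.powersetCard j,
        av2 (fun a z => hh W a z * Kx KK b x H a z)) / (m.choose j : ℝ)) (fun _ => 1) c1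
        (-(c1 * (rho * (11 / 2) * B)) - c1 * (31 * B) * db), hmu.2.2]
  ring

/-- the edge error -/
theorem ex_edge (hSB : StmtSB) (hE : StmtEDG) (hP : StmtPRD) (hn : 0 < n) {m j : ℕ}
    {mu : Finset (Finset (Fin n)) → ℝ} (hmu : Prb mu m)
    (hm : m ≤ (pairs n).card) (hj0 : 0 < j) (hj : j < m)
    (hS : Stab KK) (hb : ∀ a z, 0 ≤ b a z ∧ b a z ≤ B) (hB : 0 < B)
    (hx0 : 0 ≤ x) (hx1 : x ≤ 1) {W : Fin n → Fin n → ℝ} (hW : WOK W) {rho : ℝ}
    (hrho : 0 ≤ rho) {D0 : ℝ} (hD : 0 < D0) {t rg db : ℝ} (ht : 0 < t) (hrg : 0 ≤ rg)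
    (hrg2 : (n : ℝ) * (rho * (n : ℝ) ^ 2 + (2 * j / D0) * (n * (11 / 2))) / (n * 11)
      ≤ rg * (((pairs n).card : ℝ) - j))
    (hdb : EX (sb mu m j) (fun H => by classical exact if ¬ LR rho H W then 1 else 0) ≤ db) :
    EX (sb mu m (j + 1)) (fun G => (∑ e ∈ G,
        se e (gt KK b x D0 W (pp n (j : ℝ)) (G.erase e))) / ((j : ℝ) + 1))
      ≤ (pp n (j : ℝ) * n * 11 * B) * ((kj mu m j + rg * Real.exp t + db * t) / t) := by
  classical
  have hn' : (0 : ℝ) < n := by exact_mod_cast hn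
  have hj0' : (0 : ℝ) < j := by exact_mod_cast hj0
  set p := pp n (j : ℝ) with hp
  have hp0 : 0 < p := by
    rw [hp]; unfold pp; positivity
  have hM : 0 < p * n * 11 * B := by positivity
  set g : Finset (Finset (Fin n)) → Finset (Fin n) → ℝ := fun H e =>
    if e ∈ pairs n then se e (gt KK b x D0 W p H) / (p * n * 11 * B) else 0 with hg
  have hg01 : ∀ H e, 0 ≤ g H e ∧ g H e ≤ 1 := by
    intro H e
    rw [hg]
    dsimp only
    by_cases he : e ∈ pairs n
    · rw [if_pos he]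
      constructor
      · exact div_nonneg (se_nonneg (fun a c => gt_nonneg D0 W p H a c)) hM.le
      · rw [div_le_one hM]
        have h := se_le he (fun a c => gt_le hS hb hx0 hx1 hW hp0.le D0 H a c)
        linarith
    · rw [if_neg he]
      norm_num
  have h1 := hE n m j mu g (fun H => ¬ LR rho H W) t rg db hmu hm hj ht hrg hg01 ?_ (by convert hdb)
  · have h2 : EX (sb mu m (j + 1)) (fun G => (∑ e ∈ G,
        se e (gt KK b x D0 W p (G.erase e))) / ((j : ℝ) + 1))
        = (p * n * 11 * B) * EX (sb mu m (j + 1))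
          (fun G => (∑ e ∈ G, g (G.erase e) e) / ((j : ℝ) + 1)) := by
      rw [← ex_smul]
      apply ex_congr
      intro G hG
      obtain ⟨hs1, _, _, _, _, _⟩ := hSB n m mu hmu hm
      have hGp := ((hs1 (j + 1) hj).2.1 G hG).1
      rw [← mul_div_assoc, mul_sum]
      congr 1
      apply sum_congr rfl
      intro e he
      rw [hg]
      dsimp only
      rw [if_pos (hGp he)]
      field_simp
    rw [h2]
    exact mul_le_mul_of_nonneg_left h1 hM.le
  · intro H hH hHc hbad
    have hbad' : LR rho H W := not_not.1 hbad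
    have h3 := sum_gt_le hP hn hH (by rw [hHc]; exact hj0) hS hb hB.le hx0 hx1 hW hrho
      hbad' hD
    rw [hHc, ← hp] at h3
    have h4 : ∑ e ∈ pairs n \ H, g H e
        ≤ (∑ a, ∑ c, gt KK b x D0 W p H a c) / (p * n * 11 * B) := by
      rw [le_div_iff₀ hM, sum_mul]
      calc ∑ e ∈ pairs n \ H, g H e * (p * n * 11 * B)
          = ∑ e ∈ pairs n \ H, se e (gt KK b x D0 W p H) := by
            apply sum_congr rfl
            intro e he
            rw [hg]
            dsimp only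
            rw [if_pos (mem_sdiff.1 he).1]
            field_simp
        _ ≤ ∑ a, ∑ c, gt KK b x D0 W p H a c :=
            sum_se_le _ _ (fun a c => gt_nonneg D0 W p H a c)
    refine h4.trans (le_trans ?_ hrg2)
    rw [div_le_div_iff₀ hM (by positivity)]
    have h5 : (n : ℝ) * (rho * p * B * (n : ℝ) ^ 2 + (2 * j / D0) * (p * n * (11 / 2) * B))
        * (n * 11) = (n : ℝ) * (rho * (n : ℝ) ^ 2 + (2 * j / D0) * (n * (11 / 2)))
          * (p * n * 11 * B) := by ring
    rw [← h5]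
    exact mul_le_mul_of_nonneg_right h3 (by positivity)

end kern

end Vale.Agent.P046.Sh.DERI
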