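import Vale.Agent.P046.Sh.DERI2

/-! # P046 sharp, module DERI: the finite inequality -/

namespace Vale.Agent.P046.Sh.DERI

open Finset

variable {n : ℕ}

theorem av2_split (KK : Finset (Finset (Fin n)) → Fin n → Fin n → ℝ)
    (b : Fin n → Fin n → ℝ) (x L : ℝ) (W : Fin n → Fin n → ℝ)
    (H : Finset (Finset (Fin n))) :
    av2 (fun a z => od a z * KK H a z * b a z
      * ((cd H a z : ℝ) * x ^ (cd H a z - 1) - L * hh W a z * x ^ (cd H a z)))
    = (1 / (n : ℝ) ^ 2)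
        * (∑ a, ∑ z, od a z * KK H a z * b a z * ((cd H a z : ℝ) * x ^ (cd H a z - 1)))
      + (-L) * av2 (fun a z => hh W a z * Kx KK b x H a z) := by
  have h1 : ∑ a, ∑ z, od a z * KK H a z * b a z
      * ((cd H a z : ℝ) * x ^ (cd H a z - 1) - L * hh W a z * x ^ (cd H a z))
      = (∑ a, ∑ z, od a z * KK H a z * b a z * ((cd H a z : ℝ) * x ^ (cd H a z - 1)))
        + (-L) * ∑ a, ∑ z, hh W a z * (od a z * KK H a z * b a z * x ^ (cd H a z)) := by
    rw [mul_sum, ← sum_add_distrib]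
    apply sum_congr rfl
    intro a _
    rw [mul_sum, ← sum_add_distrib]
    apply sum_congr rfl
    intro z _
    ring
  unfold av2 Kx
  rw [h1]
  ring

theorem core (hI : StmtIDD) (hSB : StmtSB) (hE : StmtEDG) (hP : StmtPRD) (hn : 0 < n)
    {m j : ℕ} {mu : Finset (Finset (Fin n)) → ℝ} (hmu : Prb mu m)
    (hm : m ≤ (pairs n).card) (hj0 : 0 < j) (hj : j < m)
    {KK : Finset (Finset (Fin n)) → Fin n → Fin n → ℝ} {b : Fin n → Fin n → ℝ} {x B : ℝ}
    (hS : Stab KK) (hb : ∀ a z, 0 ≤ b a z ∧ b a z ≤ B) (hB : 0 < B)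
    (hx0 : 0 ≤ x) (hx1 : x ≤ 1) {W : Fin n → Fin n → ℝ} (hW : WOK W) {rho r : ℝ}
    (hrho : 0 ≤ rho) {D0 : ℝ} (hD : 0 < D0) {t rg db C1 : ℝ} (ht : 0 < t) (hrg : 0 ≤ rg)
    (hdb0 : 0 ≤ db)
    (hC1 : kj mu m j ≤ C1)
    (hrg2 : (n : ℝ) * (rho * (n : ℝ) ^ 2 + (2 * j / D0) * (n * (11 / 2))) / (n * 11)
      ≤ rg * (((pairs n).card : ℝ) - j))
    (hLR : ∀ G, mu G ≠ 0 → ∀ H ∈ G.powersetCard j, Close r G H →
      LR rho H W ∧ LR rho (G \ H) W)
    (hnc : ∀ G, mu G ≠ 0 → ∑ H ∈ G.powersetCard j,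
      (by classical exact if Close r G H then (0 : ℝ) else 1) ≤ db * (m.choose j : ℝ)) :
    -((4 * ((j : ℝ) + 1) / (n : ℝ) ^ 3) * (31 * B)
      + lam n ((j : ℝ) + 1) * ((11 / 2) * rho * B + 31 * B * db
          + (11 / 2) * B * ((C1 + rg * Real.exp t + db * t) / t))
      + 2 * ((j : ℝ) + 1) * (D0 * (D0 + 4) * B) / (n : ℝ) ^ 3)
    ≤ EX (sb mu m (j + 1)) (fun H => av2 (fun a z => od a z * KK H a z * b a z
      * ((cd H a z : ℝ) * x ^ (cd H a z - 1)
        - lam n ((j : ℝ) + 1) * hh W a z * x ^ (cd H a z)))) := by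
  classical
  have hn' : (0 : ℝ) < n := by exact_mod_cast hn
  obtain ⟨h1, _, _, _, h5, h6⟩ := hSB n m mu hmu hm
  have hPj := h1 (j + 1) hj
  set L := lam n ((j : ℝ) + 1) with hL
  set p := pp n (j : ℝ) with hp
  -- the four estimates
  have eM := ex_main hSB hP hn hmu hm hj hS hb hB.le hx0 hx1 hW hrho db
    (fun G H => Close r G H) (fun G hG H hH hc => (hLR G hG H hH hc).2)
    (fun G hG => by
      refine le_trans (le_of_eq ?_) (hnc G hG)
      apply sum_congr rfl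
      intro H _
      congr)
  have eBad : EX (sb mu m j) (fun H => if ¬ LR rho H W then 1 else 0) ≤ db := by
    apply ex_bad hSB hmu hm hj.le _ db
      (fun G H => if Close r G H then (0 : ℝ) else 1)
    · intro G hG H hH
      by_cases hc : Close r G H
      · rw [if_pos hc, if_neg (not_not.2 (hLR G hG H hH hc).1)]
      · rw [if_neg hc]
        split_ifs
        · norm_num
        · norm_num
    · intro G hG
      refine le_trans (le_of_eq ?_) (hnc G hG)
      apply sum_congr rfl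
      intro H _
      congr
  have eE := ex_edge hSB hE hP hn hmu hm hj0 hj hS hb hB hx0 hx1 hW hrho hD ht hrg hrg2
    (by convert eBad)
  have eA := ex_anti hSB hmu hm hj
    (fun H => av2 (fun a z => hh W a z * Kx KK b x H a z))
    (fun H H' h => av2_hK_anti hS hb hx0 hx1 hW h)
  rw [← hp] at eM eE
  set Aj := EX (sb mu m j) (fun H => av2 (fun a z => hh W a z * Kx KK b x H a z)) with hAj
  set A := EX (sb mu m (j + 1)) (fun H => av2 (fun a z => hh W a z * Kx KK b x H a z)) with hA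
  set Mv := EX (sb mu m (j + 1)) (fun G =>
      (∑ e ∈ G, se e (Mo KK b x W p (G.erase e))) / ((j : ℝ) + 1)) with hMv
  set Gv := EX (sb mu m (j + 1)) (fun G =>
      (∑ e ∈ G, se e (gt KK b x D0 W p (G.erase e))) / ((j : ℝ) + 1)) with hGv
  have hA0 : 0 ≤ A := by
    have h := ex_mono (mu := sb mu m (j + 1)) (f := fun _ => (0 : ℝ))
      (g := fun H => av2 (fun a z => hh W a z * Kx KK b x H a z)) hPj.1
      (fun G _ => av2_hK_nonneg hS hb hx0 hW G)
    rw [ex_const hPj.2.2 0] at h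
    exact h
  have hA1 : A ≤ 31 * B := by
    have h := ex_mono (mu := sb mu m (j + 1))
      (f := fun H => av2 (fun a z => hh W a z * Kx KK b x H a z))
      (g := fun _ => 31 * B) hPj.1
      (fun G _ => av2_hK_le hn hS hb hx0 hx1 hW G)
    rw [ex_const hPj.2.2 (31 * B)] at h
    exact h
  -- combine
  have hj1 : (0 : ℝ) < (j : ℝ) + 1 := by positivity
  have key : EX (sb mu m (j + 1)) (fun G =>
        (((j : ℝ) + 1) / (n : ℝ) ^ 2) * (((∑ e ∈ G, se e (Mo KK b x W p (G.erase e)))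
            / ((j : ℝ) + 1))
          - ((∑ e ∈ G, se e (gt KK b x D0 W p (G.erase e))) / ((j : ℝ) + 1)))
        + (-(2 * ((j : ℝ) + 1) * (D0 * (D0 + 4) * B) / (n : ℝ) ^ 3)
          + (-L) * av2 (fun a z => hh W a z * Kx KK b x G a z)))
      ≤ EX (sb mu m (j + 1)) (fun H => av2 (fun a z => od a z * KK H a z * b a z
      * ((cd H a z : ℝ) * x ^ (cd H a z - 1) - L * hh W a z * x ^ (cd H a z)))) := by
    apply ex_mono hPj.1
    intro G hG
    obtain ⟨hGp, hGc⟩ := hPj.2.1 G hG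
    rw [av2_split KK b x L W G, ← add_assoc]
    apply add_le_add_left
    have hf := first_ge hI hn hGp hS hb hx0 hx1 hD.le
    have hMG : ∑ e ∈ G, se e (Mo KK b x W p (G.erase e))
        - ∑ e ∈ G, se e (gt KK b x D0 W p (G.erase e))
        ≤ ∑ e ∈ G, se e (Ph KK b x D0 (G.erase e)) := by
      rw [← sum_sub_distrib]
      apply sum_le_sum
      intro e _
      rw [← se_sub]
      exact se_mono (fun a c => Ph_ge D0 W p (G.erase e) a c)
    have hcc : (G.card : ℝ) = (j : ℝ) + 1 := by rw [hGc]; push_cast; ring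
    rw [hcc] at hf
    have h8 : (((j : ℝ) + 1) / (n : ℝ) ^ 2) * (((∑ e ∈ G, se e (Mo KK b x W p (G.erase e)))
            / ((j : ℝ) + 1))
          - ((∑ e ∈ G, se e (gt KK b x D0 W p (G.erase e))) / ((j : ℝ) + 1)))
        + -(2 * ((j : ℝ) + 1) * (D0 * (D0 + 4) * B) / (n : ℝ) ^ 3)
        = (1 / (n : ℝ) ^ 2) * ((∑ e ∈ G, se e (Mo KK b x W p (G.erase e))
          - ∑ e ∈ G, se e (gt KK b x D0 W p (G.erase e)))
          - 2 * ((j : ℝ) + 1) * (D0 * (D0 + 4) * B / n)) := by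
      field_simp
      ring
    rw [h8]
    apply mul_le_mul_of_nonneg_left _ (by positivity)
    linarith
  refine le_trans ?_ key
  have e1 : EX (sb mu m (j + 1)) (fun G =>
        (((j : ℝ) + 1) / (n : ℝ) ^ 2) * (((∑ e ∈ G, se e (Mo KK b x W p (G.erase e)))
            / ((j : ℝ) + 1))
          - ((∑ e ∈ G, se e (gt KK b x D0 W p (G.erase e))) / ((j : ℝ) + 1)))
        + (-(2 * ((j : ℝ) + 1) * (D0 * (D0 + 4) * B) / (n : ℝ) ^ 3)
          + (-L) * av2 (fun a z => hh W a z * Kx KK b x G a z)))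
      = (((j : ℝ) + 1) / (n : ℝ) ^ 2) * (Mv - Gv)
        + (-(2 * ((j : ℝ) + 1) * (D0 * (D0 + 4) * B) / (n : ℝ) ^ 3) + (-L) * A) := by
    have t1 := ex_lin (sb mu m (j + 1)) (fun G =>
        (((j : ℝ) + 1) / (n : ℝ) ^ 2) * (((∑ e ∈ G, se e (Mo KK b x W p (G.erase e)))
            / ((j : ℝ) + 1))
          - ((∑ e ∈ G, se e (gt KK b x D0 W p (G.erase e))) / ((j : ℝ) + 1))))
        (fun G => -(2 * ((j : ℝ) + 1) * (D0 * (D0 + 4) * B) / (n : ℝ) ^ 3)
          + (-L) * av2 (fun a z => hh W a z * Kx KK b x G a z)) 1 1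
    have t2 := ex_lin (sb mu m (j + 1)) (fun G =>
        (∑ e ∈ G, se e (Mo KK b x W p (G.erase e))) / ((j : ℝ) + 1))
        (fun G => (∑ e ∈ G, se e (gt KK b x D0 W p (G.erase e))) / ((j : ℝ) + 1)) 
        (((j : ℝ) + 1) / (n : ℝ) ^ 2) (-(((j : ℝ) + 1) / (n : ℝ) ^ 2))
    have t3 := ex_lin (sb mu m (j + 1)) (fun _ => (1 : ℝ))
        (fun G => av2 (fun a z => hh W a z * Kx KK b x G a z))
        (-(2 * ((j : ℝ) + 1) * (D0 * (D0 + 4) * B) / (n : ℝ) ^ 3)) (-L)
    rw [hPj.2.2] at t3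
    simp only [mul_one, one_mul] at t1 t3
    rw [t1, t3]
    have t4 : EX (sb mu m (j + 1)) (fun G =>
        (((j : ℝ) + 1) / (n : ℝ) ^ 2) * (((∑ e ∈ G, se e (Mo KK b x W p (G.erase e)))
            / ((j : ℝ) + 1))
          - ((∑ e ∈ G, se e (gt KK b x D0 W p (G.erase e))) / ((j : ℝ) + 1))))
        = (((j : ℝ) + 1) / (n : ℝ) ^ 2) * (Mv - Gv) := by
      rw [hMv, hGv]
      have t5 : ∀ u v : ℝ, (((j : ℝ) + 1) / (n : ℝ) ^ 2) * (u - v)
          = (((j : ℝ) + 1) / (n : ℝ) ^ 2) * u + (-(((j : ℝ) + 1) / (n : ℝ) ^ 2)) * v := by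
        intro u v; ring
      simp only [t5]
      exact t2
    rw [t4]
  rw [e1]
  -- numbers
  set γ := (C1 + rg * Real.exp t + db * t) / t with hγ
  have hγ2 : (kj mu m j + rg * Real.exp t + db * t) / t ≤ γ := by
    rw [hγ]
    apply div_le_div_of_nonneg_right _ ht.le
    linarith
  have hp0 : 0 ≤ p := pp_nonneg n j
  have eE' : Gv ≤ (p * n * 11 * B) * γ :=
    eE.trans (mul_le_mul_of_nonneg_left hγ2 (by positivity))
  have hc : 0 ≤ ((j : ℝ) + 1) / (n : ℝ) ^ 2 := by positivity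
  have hMG : 2 * p * n * (A - rho * (11 / 2) * B) - 2 * p * n * (31 * B) * db
      - (p * n * 11 * B) * γ ≤ Mv - Gv := by
    have h2 : 2 * p * n * (A - rho * (11 / 2) * B) ≤ 2 * p * n * (Aj - rho * (11 / 2) * B) :=
      mul_le_mul_of_nonneg_left (by linarith) (by positivity)
    linarith
  have h9 := mul_le_mul_of_nonneg_left hMG hc
  have hL' : L = 4 * ((j : ℝ) + 1) ^ 2 / (n : ℝ) ^ 3 := rfl
  have hp' : p = 2 * (j : ℝ) / (n : ℝ) ^ 2 := rfl
  have hγ0 : 0 ≤ γ ∨ γ < 0 := le_or_gt 0 γ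
  set L1 := 4 * (j : ℝ) * ((j : ℝ) + 1) / (n : ℝ) ^ 3 with hL1
  have h10 : ((j : ℝ) + 1) / (n : ℝ) ^ 2 * (2 * p * n * (A - rho * (11 / 2) * B)
      - 2 * p * n * (31 * B) * db - (p * n * 11 * B) * γ)
      = L1 * (A - rho * (11 / 2) * B - 31 * B * db - (11 / 2) * B * γ) := by
    rw [hp', hL1]
    field_simp
    ring
  rw [h10] at h9
  have hLL : L - L1 = 4 * ((j : ℝ) + 1) / (n : ℝ) ^ 3 := by
    rw [hL', hL1]
    field_simp
    ring
  have hL10 : 0 ≤ L1 := by rw [hL1]; positivity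
  have hL0 : L1 ≤ L := by
    have : 0 ≤ 4 * ((j : ℝ) + 1) / (n : ℝ) ^ 3 := by positivity
    linarith
  have hC10 : 0 ≤ kj mu m j ∨ True := Or.inr trivial
  have hγpos : 0 ≤ (p * n * 11 * B) * γ := by
    refine le_trans ?_ eE'
    have h := ex_mono (mu := sb mu m (j + 1)) (f := fun _ => (0 : ℝ))
      (g := fun G => (∑ e ∈ G, se e (gt KK b x D0 W p (G.erase e))) / ((j : ℝ) + 1)) hPj.1
      (fun G _ => by
        apply div_nonneg _ hj1.le
        apply sum_nonneg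
        intro e _
        exact se_nonneg (fun a c => gt_nonneg D0 W p (G.erase e) a c))
    rw [ex_const hPj.2.2 0] at h
    exact h
  have hpp : 0 < p * n * 11 * B := by
    have hj0' : (0 : ℝ) < j := by exact_mod_cast hj0
    rw [hp']
    positivity
  have hγn : 0 ≤ γ := by
    by_contra hneg
    push Not at hneg
    have := mul_neg_of_pos_of_neg hpp hneg
    linarith
  have hX : 0 ≤ (11 / 2) * rho * B + 31 * B * db + (11 / 2) * B * γ := by positivity
  have h11 : L1 * ((11 / 2) * rho * B + 31 * B * db + (11 / 2) * B * γ)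
      ≤ L * ((11 / 2) * rho * B + 31 * B * db + (11 / 2) * B * γ) :=
    mul_le_mul_of_nonneg_right hL0 hX
  have h12 : (L - L1) * A ≤ (L - L1) * (31 * B) :=
    mul_le_mul_of_nonneg_left hA1 (by linarith)
  rw [hLL] at h12
  have h13 : L1 * (A - rho * (11 / 2) * B - 31 * B * db - (11 / 2) * B * γ)
      = L * A - (L - L1) * A
        - L1 * ((11 / 2) * rho * B + 31 * B * db + (11 / 2) * B * γ) := by ring
  rw [hLL] at h13
  linarith

end Vale.Agent.P046.Sh.DERI
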