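import Vale.Agent.P046.S2

/-!
# P046, sharp constant: definitions and the static theorem `StmtST`

`L = lam n m = 4 m^2 / n^3`, `theta = th L = 1 - 1/(2L)`, `beta = be L = - log theta`.
Plan: notes/P046_ST_helper20.md
-/

namespace Vale.Agent.P046.Sh

open Finset

variable {n : ℕ}

/-- weight of the reference measure -/
noncomputable def th (L : ℝ) : ℝ := 1 - 1 / (2 * L)

/-- `beta = - log theta` -/
noncomputable def be (L : ℝ) : ℝ := - Real.log (th L)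

/-- the functional `Gam = D(mu|U) + beta E Q - (m/6) mass` -/
noncomputable def Gam (mu : Finset (Finset (Fin n)) → ℝ) (m : ℕ) : ℝ :=
  DD mu m + be (lam n m) * EX mu Q - ((m : ℝ) / 6) * EX mu (fun _ => 1)

/-- `x = Q / (m (L - 1/2) / 3)` -/
noncomputable def xr (G : Finset (Finset (Fin n))) : ℝ :=
  3 * Q G / ((G.card : ℝ) * (lam n G.card - 1 / 2))

/-- average over the 3-sets of the product of `theta^codegree` over the three pairs -/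
noncomputable def t3 (G : Finset (Finset (Fin n))) : ℝ :=
  (∑ T ∈ (univ : Finset (Fin n)).powersetCard 3, ∏ e ∈ eds T, (th (lam n G.card)) ^ (cn G e))
    / ((n.choose 3 : ℕ) : ℝ)

/-- `log (t3 + n^{-1/2})` -/
noncomputable def lt3 (G : Finset (Finset (Fin n))) : ℝ := Real.log (t3 G + 1 / Real.sqrt n)

/-- `mu` is a probability weight vector on graphs with `m` edges -/
def Prb (mu : Finset (Finset (Fin n)) → ℝ) (m : ℕ) : Prop :=
  (∀ G, 0 ≤ mu G) ∧ (∀ G, mu G ≠ 0 → G ⊆ pairs n ∧ G.card = m) ∧ EX mu (fun _ => 1) = 1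

/-- MAIN STATIC THEOREM.  (i) irregular or far graphs cost a linear amount of `Gam`;
(ii) on regular graphs the error of one step is controlled by `Gam`. -/
def StmtST : Prop := ∀ l0 : ℝ, 1 / 2 < l0 → ∃ c1 eps0 C2 : ℝ, 0 < c1 ∧ 0 < eps0 ∧ 0 < C2 ∧
  ∀ Lmax eps : ℝ, l0 ≤ Lmax → 0 < eps → ∃ n0 : ℕ, ∀ n : ℕ, n0 ≤ n →
  ∃ irr : Finset (Finset (Fin n)) → ℝ, ∀ m : ℕ, l0 ≤ lam n m → lam n m ≤ Lmax →
  ∀ mu : Finset (Finset (Fin n)) → ℝ, Prb mu m →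
    (c1 * m * EX mu (fun G => by
        classical exact if eps0 < irr G ∨ 1 / 100 < |xr G - 1| then 1 else 0)
      - eps * m ≤ Gam mu m) ∧
    ((∀ G, mu G ≠ 0 → irr G ≤ eps0 ∧ |xr G - 1| ≤ 1 / 100) →
      EX mu (fun G => lt3 G + 3 / 2 + (xr G - 1) ^ 2) ≤
        (if 10 ≤ lam n m then 29 / 10 else C2) * (Gam mu m / m) + eps)

/-! ### matrices -/

/-- adjacency -/
noncomputable def ad (G : Finset (Finset (Fin n))) (u v : Fin n) : ℝ := by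
  classical exact if ({u, v} : Finset (Fin n)) ∈ G then 1 else 0

/-- number of common neighbours (for `u = v`: the degree) -/
def cd (G : Finset (Finset (Fin n))) (u v : Fin n) : ℕ :=
  ((univ : Finset (Fin n)).filter (fun w => ({u, w} : Finset (Fin n)) ∈ G ∧
    ({v, w} : Finset (Fin n)) ∈ G)).card

/-- off-diagonal indicator -/
def od (u v : Fin n) : ℝ := if u = v then 0 else 1

/-- average over ordered pairs -/
noncomputable def av2 (f : Fin n → Fin n → ℝ) : ℝ := (∑ u, ∑ v, f u v) / (n : ℝ) ^ 2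

/-- average over ordered triples -/
noncomputable def av3 (f : Fin n → Fin n → Fin n → ℝ) : ℝ :=
  (∑ u, ∑ v, ∑ w, f u v w) / (n : ℝ) ^ 3

/-- edge density `2 j / n^2` -/
noncomputable def pp (n : ℕ) (j : ℝ) : ℝ := 2 * j / (n : ℝ) ^ 2

/-- admissible weight matrix: symmetric, positive, at most `11/2` -/
def WOK (W : Fin n → Fin n → ℝ) : Prop :=
  (∀ u v, W u v = W v u) ∧ (∀ u v, 0 < W u v) ∧ (∀ u v, W u v ≤ 11 / 2)

/-- one-sided (lower) cut regularity: `A / p ≥ W - rho` in the cut sense -/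
def LR (rho : ℝ) (H : Finset (Finset (Fin n))) (W : Fin n → Fin n → ℝ) : Prop :=
  ∀ S T : Finset (Fin n),
    - (rho * (n : ℝ) ^ 2) ≤ ∑ u ∈ S, ∑ v ∈ T, (ad H u v / pp n H.card - W u v)

/-- `J(G, W) = <A/p, log W> - mean W + 1` -/
noncomputable def JW (G : Finset (Finset (Fin n))) (W : Fin n → Fin n → ℝ) : ℝ :=
  (∑ u, ∑ v, ad G u v * Real.log (W u v)) / (2 * (G.card : ℝ)) - av2 W + 1

/-- cost of the macro structure `W` -/
noncomputable def cost (W : Fin n → Fin n → ℝ) : ℝ :=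
  av2 (fun u v => W u v * Real.log (W u v) - W u v + 1)
    + Real.log (11 / 2) * (1 - av2 W)

/-- `(W ∘ W)(a, z)` -/
noncomputable def hh (W : Fin n → Fin n → ℝ) (a z : Fin n) : ℝ := (∑ b, W a b * W b z) / n

/-- triangle density of `W` -/
noncomputable def tW (W : Fin n → Fin n → ℝ) : ℝ :=
  av3 (fun a b c => W a b * W b c * W a c)

/-- `R(W)` -/
noncomputable def RW (W : Fin n → Fin n → ℝ) : ℝ :=
  Real.log (av3 (fun a b c => Real.exp (-(hh W a b + hh W b c + hh W a c - 3) / 2)))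

/-! ### exposing edges in random order -/

/-- law of `G` minus a uniformly random edge -/
noncomputable def mi (nu : Finset (Finset (Fin n)) → ℝ) (j : ℕ) (H : Finset (Finset (Fin n))) :
    ℝ := (∑ e ∈ pairs n \ H, nu (insert e H)) / ((j : ℝ) + 1)

/-- law of a uniformly random `j`-subset of `G`, `G` with law `mu` on `m`-edge graphs -/
noncomputable def sb (mu : Finset (Finset (Fin n)) → ℝ) (m j : ℕ)
    (H : Finset (Finset (Fin n))) : ℝ := by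
  classical exact if H.card = j then
    (∑ G ∈ (pairs n).powersetCard m, if H ⊆ G then mu G else 0) / (m.choose j : ℝ) else 0

/-- entropy increment of the edge number `j+1` -/
noncomputable def kj (mu : Finset (Finset (Fin n)) → ℝ) (m j : ℕ) : ℝ :=
  DD (sb mu m (j + 1)) (j + 1) - DD (sb mu m j) j

/-- module CHJ: one-edge chain rule and Donsker-Varadhan -/
def StmtCHJ : Prop := ∀ (n j : ℕ) (nu : Finset (Finset (Fin n)) → ℝ)
    (psi : Finset (Finset (Fin n)) → Finset (Fin n) → ℝ), Prb nu (j + 1) →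
    j + 1 ≤ (pairs n).card →
  EX nu (fun G => (∑ e ∈ G, psi (G.erase e) e) / ((j : ℝ) + 1))
    - EX (mi nu j) (fun H => Real.log ((∑ e ∈ pairs n \ H, Real.exp (psi H e))
        / (((pairs n).card : ℝ) - j)))
    ≤ DD nu (j + 1) - DD (mi nu j) j

/-- module SB: facts on the laws `sb` -/
def StmtSB : Prop := ∀ (n m : ℕ) (mu : Finset (Finset (Fin n)) → ℝ), Prb mu m →
  m ≤ (pairs n).card →
  (∀ j, j ≤ m → Prb (sb mu m j) j) ∧
  (∀ j, j < m → ∀ H, H ⊆ pairs n → mi (sb mu m (j + 1)) j H = sb mu m j H) ∧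
  DD (sb mu m m) m = DD mu m ∧ DD (sb mu m 0) 0 = 0 ∧
  (∀ j, j ≤ m → ∀ F : Finset (Finset (Fin n)) → ℝ,
    EX (sb mu m j) F = EX mu (fun G => (∑ H ∈ G.powersetCard j, F H) / (m.choose j : ℝ))) ∧
  (∀ j, j < m → ∀ psi : Finset (Finset (Fin n)) → Finset (Fin n) → ℝ,
    EX (sb mu m (j + 1)) (fun G => (∑ e ∈ G, psi (G.erase e) e) / ((j : ℝ) + 1)) =
    EX mu (fun G => (∑ H ∈ G.powersetCard j,
      (∑ e ∈ G \ H, psi H e) / ((m : ℝ) - j)) / (m.choose j : ℝ)))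

/-- module TEL (needs CHJ, SB): increments are nonnegative and sum up to the entropy -/
def StmtTEL : Prop := ∀ (n m : ℕ) (mu : Finset (Finset (Fin n)) → ℝ), Prb mu m →
  m ≤ (pairs n).card →
  (∀ j, j < m → 0 ≤ kj mu m j) ∧ ∑ j ∈ range m, kj mu m j = DD mu m

/-- module EDG (needs CHJ, SB): transfer from pairs to edges -/
def StmtEDG : Prop := ∀ (n m j : ℕ) (mu : Finset (Finset (Fin n)) → ℝ)
    (g : Finset (Finset (Fin n)) → Finset (Fin n) → ℝ)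
    (bad : Finset (Finset (Fin n)) → Prop) (t rho db : ℝ), Prb mu m →
    m ≤ (pairs n).card → j < m → 0 < t → 0 ≤ rho →
    (∀ H e, 0 ≤ g H e ∧ g H e ≤ 1) →
    (∀ H, H ⊆ pairs n → H.card = j → ¬ bad H →
      ∑ e ∈ pairs n \ H, g H e ≤ rho * (((pairs n).card : ℝ) - j)) →
    EX (sb mu m j) (fun H => by classical exact if bad H then 1 else 0) ≤ db →
  EX (sb mu m (j + 1)) (fun G => (∑ e ∈ G, g (G.erase e) e) / ((j : ℝ) + 1))
    ≤ (kj mu m j + rho * Real.exp t + db * t) / t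

/-- module CELL: splitting into finitely many cells -/
def StmtCELL : Prop := ∀ (n m : ℕ) (mu : Finset (Finset (Fin n)) → ℝ) (ι : Type)
    (I : Finset ι) (f : Finset (Finset (Fin n)) → ι), Prb mu m → I.Nonempty →
    (∀ G, mu G ≠ 0 → f G ∈ I) →
  ∃ (p : ι → ℝ) (nu : ι → Finset (Finset (Fin n)) → ℝ),
    (∀ i, 0 ≤ p i) ∧ (∑ i ∈ I, p i = 1) ∧
    (∀ i ∈ I, 0 < p i → Prb (nu i) m ∧ (∀ G, nu i G ≠ 0 → mu G ≠ 0 ∧ f G = i)) ∧
    (∀ F : Finset (Finset (Fin n)) → ℝ, EX mu F = ∑ i ∈ I, p i * EX (nu i) F) ∧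
    (∀ i, p i = 0 → ∀ G, nu i G = 0) ∧
    ∑ i ∈ I, p i * DD (nu i) m - Real.log I.card ≤ DD mu m

/-! ### regularity -/

/-- module REG: per-graph one-sided regularity -/
def StmtREG : Prop := ∀ rho : ℝ, 0 < rho → ∃ C : ℝ, ∀ n : ℕ, 1 ≤ n →
  ∃ Net : Finset (Fin n → Fin n → ℝ), ((Net.card : ℝ) ≤ Real.exp (C * n)) ∧
    (∀ W ∈ Net, WOK W) ∧
    ∀ G : Finset (Finset (Fin n)), G ⊆ pairs n → G.Nonempty →
      ∃ W ∈ Net, LR rho G W ∧ cost W - rho ≤ JW G W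

/-- cut closeness of `H` (a `j`-subset) to `(j/m) G` -/
def Close (r : ℝ) (G H : Finset (Finset (Fin n))) : Prop :=
  ∀ S T : Finset (Fin n), |∑ u ∈ S, ∑ v ∈ T, ad H u v
    - ((H.card : ℝ) / G.card) * ∑ u ∈ S, ∑ v ∈ T, ad G u v| ≤ r * G.card

/-- module SAMP: Hoeffding for random subsets, union over all `S, T` -/
def StmtSAMP : Prop := ∀ (n j : ℕ) (G : Finset (Finset (Fin n))) (r : ℝ),
    G ⊆ pairs n → 1 ≤ G.card → j ≤ G.card → 0 < r →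
  (∑ H ∈ G.powersetCard j, (by classical exact if Close r G H then (0 : ℝ) else 1)) ≤
    ((G.card : ℝ) + 1) * 2 * 4 ^ n * Real.exp (- (r ^ 2 * G.card / 2)) * (G.card.choose j : ℝ)

/-- module LRS: regularity of subsets -/
def StmtLRS : Prop := ∀ (n : ℕ) (G H : Finset (Finset (Fin n))) (W : Fin n → Fin n → ℝ)
    (rho r : ℝ), G ⊆ pairs n → H ⊆ G → 0 < H.card → H.card < G.card → 0 < n → 0 ≤ r →
    LR rho G W → Close r G H →
  LR (rho + r * G.card / (2 * H.card)) H W ∧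
  LR (rho + r * G.card / (2 * ((G.card : ℝ) - H.card))) (G \ H) W

/-- module PRD: regularity against product functions -/
def StmtPRD : Prop := ∀ (n : ℕ) (H : Finset (Finset (Fin n))) (W : Fin n → Fin n → ℝ)
    (rho : ℝ), 0 < n → H ⊆ pairs n → 0 < H.card → 0 ≤ rho → WOK W → LR rho H W →
  (∀ (K : Fin n → Fin n → ℝ) (B : ℝ), 0 ≤ B → (∀ a z, 0 ≤ K a z ∧ K a z ≤ B) →
    - (rho * (11 / 2) * B * (n : ℝ) ^ 3) ≤
      ∑ a, ∑ b, (ad H a b / pp n H.card - W a b) * (∑ z, W b z * K a z)) ∧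
  (∀ (K : Fin n → Fin n → ℝ) (B : ℝ), 0 ≤ B → (∀ a z, 0 ≤ K a z ∧ K a z ≤ B) → ∀ a,
    ∑ b, max 0 (pp n H.card * (∑ z, W b z * K a z) - ∑ z, ad H b z * K a z)
      ≤ rho * pp n H.card * B * (n : ℝ) ^ 2) ∧
  tW W - rho * (11 / 2) ^ 2 ≤ (∑ u, ∑ v, ad H u v * hh W u v) / (2 * (H.card : ℝ))

/-! ### the pair level -/

/-- functionals that are monotone and stable under removal of one edge -/
def Stab (KK : Finset (Finset (Fin n)) → Fin n → Fin n → ℝ) : Prop :=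
  (∀ H a z, 0 ≤ KK H a z ∧ KK H a z ≤ 1) ∧
  (∀ H H' a z, H' ⊆ H → KK H a z ≤ KK H' a z) ∧
  (∀ H a b z, H ⊆ pairs n → ({a, b} : Finset (Fin n)) ∈ H → z ≠ a → z ≠ b →
    KK (H.erase {a, b}) a z - KK H a z ≤ ((deg H b : ℝ) + 3) / n)

/-- module IDD: derivative in `x` as a sum over edges (deterministic) -/
def StmtIDD : Prop := ∀ (n : ℕ) (H : Finset (Finset (Fin n)))
    (KK : Finset (Finset (Fin n)) → Fin n → Fin n → ℝ) (b : Fin n → Fin n → ℝ)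
    (B x D0 : ℝ), 0 < n → H ⊆ pairs n → Stab KK → (∀ a z, 0 ≤ b a z ∧ b a z ≤ B) →
    0 ≤ x → x ≤ 1 → 0 ≤ D0 →
  (∑ a, ∑ c, ad H a c * (if (deg (H.erase {a, c}) c : ℝ) ≤ D0 then
      ∑ z, ad (H.erase {a, c}) c z * (od a z * KK (H.erase {a, c}) a z * b a z
        * x ^ (cd (H.erase {a, c}) a z)) else 0))
    - 2 * H.card * (D0 * (D0 + 4) * B / n)
    ≤ ∑ a, ∑ z, od a z * KK H a z * b a z * ((cd H a z : ℝ) * x ^ (cd H a z - 1))

/-- common hypotheses of the pair level modules (level `j + 1`) -/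
def Hyp (C1 K eps rho : ℝ) (n m j : ℕ) (mu : Finset (Finset (Fin n)) → ℝ)
    (W : Fin n → Fin n → ℝ) : Prop :=
  (n : ℝ) ^ ((3 : ℝ) / 2) / 4 ≤ m ∧ (m : ℝ) ≤ K * (n : ℝ) ^ ((3 : ℝ) / 2) ∧
  eps * m ≤ j ∧ (j : ℝ) + 1 ≤ (1 - eps) * m ∧ Prb mu m ∧ WOK W ∧
  (∀ G, mu G ≠ 0 → LR rho G W) ∧ kj mu m j ≤ C1

/-- module DERI (needs IDD, SB, EDG, SAMP, LRS, PRD) -/
def StmtDERI : Prop := ∀ C1 K eps : ℝ, 0 < C1 → 0 < K → 0 < eps → ∃ rho : ℝ, 0 < rho ∧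
  ∃ n0 : ℕ, ∀ (n m j : ℕ) (mu : Finset (Finset (Fin n)) → ℝ) (W : Fin n → Fin n → ℝ)
    (KK : Finset (Finset (Fin n)) → Fin n → Fin n → ℝ) (x : ℝ), n0 ≤ n →
    Hyp C1 K eps rho n m j mu W → Stab KK → 0 ≤ x → x ≤ 1 →
    lam n ((j : ℝ) + 1) * (1 - x) ≤ 1 →
  - eps ≤ EX (sb mu m (j + 1)) (fun H => av2 (fun a z => od a z * KK H a z
      * Real.exp (lam n ((j : ℝ) + 1) * (1 - x) * hh W a z)
      * ((cd H a z : ℝ) * x ^ (cd H a z - 1)
          - lam n ((j : ℝ) + 1) * hh W a z * x ^ (cd H a z))))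

/-- module PLM (needs DERI): integrate over `x` -/
def StmtPLM : Prop := ∀ C1 K eps : ℝ, 0 < C1 → 0 < K → 0 < eps → ∃ rho : ℝ, 0 < rho ∧
  ∃ n0 : ℕ, ∀ (n m j : ℕ) (mu : Finset (Finset (Fin n)) → ℝ) (W : Fin n → Fin n → ℝ)
    (KK : Finset (Finset (Fin n)) → Fin n → Fin n → ℝ) (x : ℝ), n0 ≤ n →
    Hyp C1 K eps rho n m j mu W → Stab KK → 0 ≤ x → x ≤ 1 →
    lam n ((j : ℝ) + 1) * (1 - x) ≤ 1 →
  EX (sb mu m (j + 1)) (fun H => av2 (fun a z => od a z * KK H a z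
      * Real.exp (lam n ((j : ℝ) + 1) * (1 - x) * hh W a z) * x ^ (cd H a z)))
    ≤ EX (sb mu m (j + 1)) (fun H => av2 (fun a z => od a z * KK H a z)) + eps

/-- module STB: the functionals used for triples -/
def StmtSTB : Prop := ∀ (n : ℕ) (om : Fin n → Fin n → Fin n → ℝ) (i k : ℕ) (v : ℝ),
    0 < n → (∀ a c z, 0 ≤ om a c z ∧ om a c z ≤ 1) → i ≤ 1 → k ≤ 1 → 0 ≤ v → v ≤ 1 →
  Stab (fun (H : Finset (Finset (Fin n))) a z =>
    (∑ c, om a c z * v ^ (i * cd H a c) * v ^ (k * cd H c z)) / n)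

/-- module T3M (needs PLM, STB) -/
def StmtT3M : Prop := ∀ C1 K eps : ℝ, 0 < C1 → 0 < K → 0 < eps → ∃ rho : ℝ, 0 < rho ∧
  ∃ n0 : ℕ, ∀ (n m j : ℕ) (mu : Finset (Finset (Fin n)) → ℝ) (W : Fin n → Fin n → ℝ)
    (v : ℝ), n0 ≤ n → Hyp C1 K eps rho n m j mu W → 0 ≤ v → v ≤ 1 →
    lam n ((j : ℝ) + 1) * (1 - v) ≤ 1 →
  EX (sb mu m (j + 1)) (fun H => av3 (fun a b c => od a b * od b c * od a c
      * (v ^ (cd H a b) * v ^ (cd H b c) * v ^ (cd H a c))))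
    ≤ av3 (fun a b c => Real.exp (- (lam n ((j : ℝ) + 1) * (1 - v))
        * (hh W a b + hh W b c + hh W a c))) + eps

/-! ### the two halves of the static theorem, for one cell -/

/-- module S1 (needs CHJ, SB, TEL, PLM, PRD) -/
def StmtS1 : Prop := ∀ C0 K eps : ℝ, 0 < C0 → 0 < K → 0 < eps → ∃ rho : ℝ, 0 < rho ∧
  ∃ n0 : ℕ, ∀ (n m : ℕ) (mu : Finset (Finset (Fin n)) → ℝ) (W : Fin n → Fin n → ℝ)
    (v : ℝ), n0 ≤ n → (n : ℝ) ^ ((3 : ℝ) / 2) / 4 ≤ m →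
    (m : ℝ) ≤ K * (n : ℝ) ^ ((3 : ℝ) / 2) → Prb mu m → WOK W →
    (∀ G, mu G ≠ 0 → LR rho G W) → DD mu m ≤ C0 * m → 0 < v → v ≤ 1 →
    lam n m * (1 - v) ≤ 1 →
  m * EX mu (fun G => JW G W) + (lam n m * (1 - v)) * (m / 3) * tW W - eps * m
    ≤ DD mu m - Real.log v * EX mu Q

/-- module S2 (needs TEL, SB, T3M) -/
def StmtS2 : Prop := ∀ C0 K eps : ℝ, 0 < C0 → 0 < K → 0 < eps → ∃ rho : ℝ, 0 < rho ∧
  ∃ n0 : ℕ, ∀ (n m : ℕ) (mu : Finset (Finset (Fin n)) → ℝ) (W : Fin n → Fin n → ℝ),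
    n0 ≤ n → (n : ℝ) ^ ((3 : ℝ) / 2) / 4 ≤ m →
    (m : ℝ) ≤ K * (n : ℝ) ^ ((3 : ℝ) / 2) → Prb mu m → WOK W →
    (∀ G, mu G ≠ 0 → LR rho G W) → DD mu m ≤ C0 * m → 1 / 2 < lam n m →
  EX mu (fun G => lt3 G) + 3 / 2 ≤ RW W + eps

/-! ### inequalities for matrices and numbers -/

/-- module MAC1 -/
def StmtMAC1 : Prop := ∀ (n : ℕ) (W : Fin n → Fin n → ℝ) (rho : ℝ), 0 < n → WOK W →
    0 ≤ rho → rho ≤ 1 / 100 → av2 W ≤ 1 + rho →
  (1 - tW W) / 6 ≤ (4 / 5) * cost W + rho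

/-- module MAC2 -/
def StmtMAC2 : Prop := ∃ eps0 rho0 : ℝ, 0 < eps0 ∧ 0 < rho0 ∧ rho0 ≤ 1 / 100 ∧
  ∀ (n : ℕ) (W : Fin n → Fin n → ℝ) (rho : ℝ), 0 < n → WOK W → 0 ≤ rho → rho ≤ rho0 →
    av2 W ≤ 1 + rho → cost W ≤ eps0 →
  RW W + 2 * (tW W - 1) ^ 2 ≤ (14 / 5) * (cost W - (1 - tW W) / 6) + 10 * rho ∧
    |tW W - 1| ≤ 1 / 1000

/-- module GAIN: one real variable -/
def StmtGAIN : Prop := ∀ l0 : ℝ, 1 / 2 < l0 → ∃ c1 C2 : ℝ, 0 < c1 ∧ 29 / 10 ≤ C2 ∧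
  ∀ (L t x del : ℝ), l0 ≤ L → |t - 1| ≤ 1 / 1000 → 0 ≤ x → 0 < del → del ≤ 1 / 1000 →
  ∃ k : ℤ, |(k : ℝ) * (del / (4 * L))| ≤ 1 / (4 * L) ∧
    (|x - 1| ≤ 1 / 100 → 2 * (x - t) ^ 2 ≤ (if 10 ≤ L then 29 / 10 else C2)
      * ((L * th L / 3) * (((k : ℝ) * (del / (4 * L))) * x
          - (Real.exp ((k : ℝ) * (del / (4 * L))) - 1) * t)) + C2 * del) ∧
    (1 / 100 < |x - 1| → c1 ≤ (L * th L / 3) * (((k : ℝ) * (del / (4 * L))) * x
          - (Real.exp ((k : ℝ) * (del / (4 * L))) - 1) * t))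

/-! module ST: `StmtCELL → StmtREG → StmtS1 → StmtS2 → StmtMAC1 → StmtMAC2 → StmtGAIN → StmtST` -/

end Vale.Agent.P046.Sh
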