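import Vale.Agent.P046.Defs

/-!
# P046, sharp constant: target of the dynamic part (`StmtCTRL`)

`kc = 1 / (2 sqrt 2)`.  `(pairs n).card - 3 * j` is the number of edges after `j` steps.
-/

namespace Vale.Agent.P046.Sh

open Finset

/-- the critical constant `1 / (2 sqrt 2)` -/
noncomputable def kc : ℝ := 1 / (2 * Real.sqrt 2)

/-- Output of the dynamic analysis.  With killing sets `good`: at a time `i` at which there are
between `kc n^(3/2)` and `(kc + d) n^(3/2)` edges, the killed mass, weighted by the number of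
edges at the time of killing, is at most `d n^(3/2)`, and (up to mass `d`) the surviving graphs
have at most `C0 d n^(3/2)` triangles. -/
def StmtCTRL : Prop := ∃ C0 : ℝ, 0 < C0 ∧ ∀ d : ℝ, 0 < d → d ≤ 1 → ∃ n0 : ℕ, ∀ n : ℕ, n0 ≤ n →
  ∃ good : ℕ → Finset (Finset (Fin n)) → Prop, (∀ i G, good i G → 0 < Q G) ∧
  ∃ i : ℕ, kc * (n : ℝ) ^ ((3 : ℝ) / 2) ≤ ((pairs n).card : ℝ) - 3 * i ∧
    ((pairs n).card : ℝ) - 3 * i ≤ (kc + d) * (n : ℝ) ^ ((3 : ℝ) / 2) ∧
    ∑ j ∈ range i, (((pairs n).card : ℝ) - 3 * j) *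
      EX (law n good j) (fun G => by classical exact if good j G then 0 else 1)
      ≤ d * (n : ℝ) ^ ((3 : ℝ) / 2) ∧
    EX (law n good i) (fun G => by
      classical exact if C0 * d * (n : ℝ) ^ ((3 : ℝ) / 2) < Q G then 1 else 0) ≤ d

end Vale.Agent.P046.Sh
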