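import Vale.Agent.P046.S3
import Vale.Agent.P046.Fin

/-!
# P046, sharp constant: what is known at a large fixed scale (`StmtSTART`)

`K` corresponds to `m = K n^(3/2) / 2 .. K n^(3/2)` edges.
-/

namespace Vale.Agent.P046.Sh

open Finset

/-- START: refined output of the bulk analysis at a fixed large scale `K`. -/
def StmtSTART : Prop := ∃ C K1 : ℝ, 0 < C ∧ 2 ≤ K1 ∧ ∀ K : ℝ, K1 ≤ K → ∃ n0 : ℕ, ∀ n : ℕ, n0 ≤ n →
  ∃ good : ℕ → Finset (Finset (Fin n)) → Prop, (∀ i G, good i G → 0 < Q G) ∧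
  ∀ i : ℕ, K * (n : ℝ) ^ ((3 : ℝ) / 2) / 2 ≤ ((pairs n).card : ℝ) - 3 * i →
    ((pairs n).card : ℝ) - 3 * i ≤ K * (n : ℝ) ^ ((3 : ℝ) / 2) →
    dead n good i ≤ C * K ^ (-(5 : ℝ) / 4) ∧
    ∑ j ∈ range i, (((pairs n).card : ℝ) - 3 * j) *
      EX (law n good j) (fun G => by classical exact if good j G then 0 else 1)
      ≤ C * K ^ (-(1 : ℝ) / 4) * (n : ℝ) ^ ((3 : ℝ) / 2) ∧
    DD (law n good i) ((pairs n).card - 3 * i) ≤ C / K * (n : ℝ) ^ ((3 : ℝ) / 2) ∧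
    EX (law n good i) (fun G => |yy G - lam n G.card|) ≤ C

end Vale.Agent.P046.Sh
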