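import Vale.Agent.P046.Sh.Defs
import Vale.Agent.P046.Sh.EndDefs
import Vale.Agent.P046.Sh.StartDefs

/-!
# P046, sharp constant: dynamic part (statements)

Final assembly: `StmtST → StmtSTART → ... → StmtCTRL` (`Sh/EndDefs.lean`).
Notation: `m = G.card`, `L = lam n m`, `theta = th L`, `beta = be L`,
`Qbar = m (L - 1/2) / 3`, `xr G = Q G / Qbar`.
-/

namespace Vale.Agent.P046.Sh

open Finset

variable {n : ℕ}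

/-- error of one step -/
noncomputable def er (G : Finset (Finset (Fin n))) : ℝ := lt3 G + 3 / 2 + (xr G - 1) ^ 2

/-- weight vector of mass at most `1` on graphs with `m` edges -/
def Sub (mu : Finset (Finset (Fin n)) → ℝ) (m : ℕ) : Prop :=
  (∀ G, 0 ≤ mu G) ∧ (∀ G, mu G ≠ 0 → G ⊆ pairs n ∧ G.card = m) ∧ EX mu (fun _ => 1) ≤ 1

/-- growth rate -/
noncomputable def ra (C2 : ℝ) (L : ℝ) : ℝ := if 10 ≤ L then 29 / 10 else C2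

/-- module STEP2 (from ENTSTEP, ENTDV, CNADD, DELADD) -/
def StmtSTEP2 : Prop := ∀ l0 Lmax eps : ℝ, 1 / 2 < l0 → 0 < eps → ∃ n0 : ℕ,
  ∀ (n m : ℕ) (good : Finset (Finset (Fin n)) → Prop) (mu : Finset (Finset (Fin n)) → ℝ),
    n0 ≤ n → l0 ≤ lam n m → lam n m ≤ Lmax → StepHyp n m good mu → EX mu (fun _ => 1) ≤ 1 →
    (∀ G, good G → |xr G - 1| ≤ 1 / 100) →
  Gam (push good mu) m ≤ Gam (rst good mu) (m + 3) + EX (push good mu) er + eps ∧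
  (∀ H, push good mu H ≠ 0 → er H ≤ 3)

/-- module ST2 (from `StmtST`, `StmtENTRST`): the static theorem for sub-probabilities -/
def StmtST2 : Prop := ∀ l0 : ℝ, 1 / 2 < l0 → ∃ c1 C2 : ℝ, 0 < c1 ∧ 0 < C2 ∧
  ∀ Lmax eps : ℝ, l0 ≤ Lmax → 0 < eps → ∃ n0 : ℕ, ∀ n : ℕ, n0 ≤ n →
  ∃ reg : Finset (Finset (Fin n)) → Prop, (∀ G, reg G → |xr G - 1| ≤ 1 / 100) ∧
  ∀ m : ℕ, l0 ≤ lam n m → lam n m ≤ Lmax →
  ∀ mu : Finset (Finset (Fin n)) → ℝ, Sub mu m →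
    Gam (rst reg mu) m ≤ Gam mu m
      - c1 * m * EX mu (fun G => by classical exact if reg G then 0 else 1) + 1 / (n : ℝ) ^ 2 ∧
    EX (rst reg mu) er ≤ ra C2 (lam n m) * ((Gam (rst reg mu) m + 1) / m) + eps ∧
    - (eps * m) - 1 ≤ Gam (rst reg mu) m

/-- module SEQ: real sequences.  `g i` = functional after killing at step `i`,
`q i` = mass killed at step `i`, `M - 3 i` edges -/
def StmtSEQ : Prop := ∀ (c1 C2 l0 : ℝ), 0 < c1 → 0 < C2 → 1 / 2 < l0 → ∃ C' : ℝ, 0 < C' ∧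
  ∀ K eps : ℝ, 4 ≤ K → 0 < eps → eps ≤ 1 → ∃ n0 : ℕ,
  ∀ (n M i0 i1 : ℕ) (g q : ℕ → ℝ) (G0 : ℝ), n0 ≤ n → i0 ≤ i1 → 0 ≤ G0 →
    3 * i1 ≤ M → l0 ≤ lam n ((M : ℝ) - 3 * i1) →
    (M : ℝ) - 3 * i0 ≤ K * (n : ℝ) ^ ((3 : ℝ) / 2) →
    (∀ i, 0 ≤ q i) → g i0 ≤ G0 → - (eps * ((M : ℝ) - 3 * i1)) - 1 ≤ g i1 →
    (∀ i, i0 ≤ i → i < i1 → g (i + 1) ≤ g i
      + ra C2 (lam n ((M : ℝ) - 3 * (i + 1))) * ((g (i + 1) + 1) / ((M : ℝ) - 3 * (i + 1)))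
      + eps - c1 * ((M : ℝ) - 3 * (i + 1)) * q (i + 1)) →
  ∑ j ∈ Ioc i0 i1, ((M : ℝ) - 3 * j) * q j ≤
    C' * K ^ ((29 : ℝ) / 30) * (G0 + eps * K * (n : ℝ) ^ ((3 : ℝ) / 2))

/-- module STARTG (from `StmtSTART`, `StmtLAW`, `StmtENTRST`) -/
def StmtSTARTG : Prop := ∃ C K1 : ℝ, 0 < C ∧ 4 ≤ K1 ∧ ∀ K : ℝ, K1 ≤ K → ∃ n0 : ℕ, ∀ n : ℕ,
  n0 ≤ n →
  ∃ good : ℕ → Finset (Finset (Fin n)) → Prop, (∀ i G, good i G → 0 < Q G) ∧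
  ∀ i : ℕ, K * (n : ℝ) ^ ((3 : ℝ) / 2) / 2 ≤ ((pairs n).card : ℝ) - 3 * i →
    ((pairs n).card : ℝ) - 3 * i ≤ K * (n : ℝ) ^ ((3 : ℝ) / 2) →
    ∑ j ∈ range i, (((pairs n).card : ℝ) - 3 * j) *
      EX (law n good j) (fun G => by classical exact if good j G then 0 else 1)
      ≤ C * K ^ (-(1 : ℝ) / 4) * (n : ℝ) ^ ((3 : ℝ) / 2) ∧
    Gam (law n good i) ((pairs n).card - 3 * i) ≤ C / K * (n : ℝ) ^ ((3 : ℝ) / 2)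

/-! module DYN: `StmtSTEP2 → StmtST2 → StmtSEQ → StmtSTARTG → StmtLAW → StmtENTRST → StmtCTRL` -/

end Vale.Agent.P046.Sh
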