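import Vale.Agent.P046.Sh.Defs

/-! scalar inequalities for MAC1, MAC2 -/

namespace Vale.Agent.P046.Sh.MACa

open Finset Vale.Agent.P046 Vale.Agent.P046.Sh

lemma log_lb {x : ℝ} (hx : 1 ≤ x) : 2 * (x - 1) / (x + 1) ≤ Real.log x := by
  have h0 : 0 ≤ (x - 1) / (x + 1) := by
    apply div_nonneg <;> linarith
  have h1 : (x - 1) / (x + 1) < 1 := by
    rw [div_lt_one (by linarith)]; linarith
  have h := Real.sum_range_le_log_div h0 h1 1
  simp at h
  have e : (1 + (x - 1) / (x + 1)) / (1 - (x - 1) / (x + 1)) = x := by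
    have : x + 1 ≠ 0 := by linarith
    field_simp
    ring
  rw [e] at h
  have e2 : 2 * (x - 1) / (x + 1) = 2 * ((x - 1) / (x + 1)) := by ring
  rw [e2]; linarith

lemma log_ub {x : ℝ} (hx : 1 ≤ x) : Real.log x ≤ (x - 1 / x) / 2 := by
  have h : 0 ≤ Real.log x := Real.log_nonneg hx
  have h1 := Real.self_le_sinh_iff.mpr h
  rw [Real.sinh_log (by linarith)] at h1
  simpa [one_div] using h1

lemma log55_lb : (1.702 : ℝ) ≤ Real.log (11 / 2) := by
  have h1 : Real.log (11 / 2) = 2 * Real.log 2 + Real.log (11 / 8) := by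
    have : (11 / 2 : ℝ) = 2 * 2 * (11 / 8) := by norm_num
    rw [this, Real.log_mul (by norm_num) (by norm_num), Real.log_mul (by norm_num) (by norm_num)]
    ring
  have h2 := log_lb (x := 11 / 8) (by norm_num)
  have h3 := Real.log_two_gt_d9
  norm_num at h2
  rw [h1]; norm_num at h3 ⊢; linarith

lemma log55_ub : Real.log (11 / 2) ≤ 1.72 := by
  have h1 : Real.log (11 / 2) = 2 * Real.log 2 + Real.log (11 / 8) := by
    have : (11 / 2 : ℝ) = 2 * 2 * (11 / 8) := by norm_num
    rw [this, Real.log_mul (by norm_num) (by norm_num), Real.log_mul (by norm_num) (by norm_num)]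
    ring
  have h2 := log_ub (x := 11 / 8) (by norm_num)
  have h3 := Real.log_two_lt_d9
  norm_num at h2
  rw [h1]; norm_num at h3 ⊢; linarith

lemma log_ge_of {w a : ℝ} (ha : 0 < a) (hw : a ≤ w) :
    Real.log a + 2 * (w - a) / (w + a) ≤ Real.log w := by
  have h := log_lb (x := w / a) (by rw [le_div_iff₀ ha]; linarith)
  rw [Real.log_div (by linarith) (by linarith)] at h
  have e : 2 * (w / a - 1) / (w / a + 1) = 2 * (w - a) / (w + a) := by
    have : w + a ≠ 0 := by linarith
    have : w / a + 1 ≠ 0 := by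
      have : 0 < w / a := by apply div_pos <;> linarith
      linarith
    field_simp
  rw [e] at h
  linarith

/-- the entropy function dominates `6/25 (w-1)^2` on `(0, 11/2]` -/
lemma ent_lb {w : ℝ} (h0 : 0 < w) (h1 : w ≤ 11 / 2) :
    6 / 25 * (w - 1) ^ 2 ≤ w * Real.log w - w + 1 := by
  have hl2 := Real.log_two_gt_d9
  norm_num at hl2
  rcases le_total w 1 with hw | hw
  · have hx : 1 ≤ 1 / w := by rw [le_div_iff₀ h0]; linarith
    have h := log_ub hx
    rw [one_div_one_div, one_div, Real.log_inv] at h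
    have e : w * (w⁻¹) = 1 := by field_simp
    have h' : w * (-Real.log w) ≤ w * ((w⁻¹ - w) / 2) := mul_le_mul_of_nonneg_left h h0.le
    have e' : w * ((w⁻¹ - w) / 2) = (1 - w ^ 2) / 2 := by
      rw [show w * ((w⁻¹ - w) / 2) = (w * w⁻¹ - w ^ 2) / 2 by ring, e]
    rw [e'] at h'
    nlinarith
  · have key : ∀ l : ℝ, l ≤ Real.log w → 6 / 25 * (w - 1) ^ 2 ≤ w * l - w + 1 →
        6 / 25 * (w - 1) ^ 2 ≤ w * Real.log w - w + 1 := by
      intro l hl h
      have := mul_le_mul_of_nonneg_left hl h0.le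
      linarith
    rcases le_total w 2 with hw2 | hw2
    · apply key _ (log_lb hw)
      have hp : 0 < w + 1 := by linarith
      have e : w * (2 * (w - 1) / (w + 1)) - w + 1 = (w - 1) ^ 2 / (w + 1) := by
        field_simp; ring
      rw [e, le_div_iff₀ hp]
      nlinarith [sq_nonneg (w - 1)]
    · rcases le_total w 4 with hw4 | hw4
      · have hh : (0.693 : ℝ) + 2 * (w - 2) / (w + 2) ≤ Real.log w := by
          have := log_ge_of (a := 2) (by norm_num) hw2
          linarith
        apply key _ hh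
        have hp : 0 < w + 2 := by linarith
        have e : w * (0.693 + 2 * (w - 2) / (w + 2)) - w + 1
            = ((0.693 * w - w + 1) * (w + 2) + 2 * w * (w - 2)) / (w + 2) := by
          field_simp; ring
        rw [e, le_div_iff₀ hp]
        have a1 : 0 ≤ w - 2 := by linarith
        have a2 : 0 ≤ 4 - w := by linarith
        nlinarith [mul_nonneg a1 a2, mul_nonneg (mul_nonneg a1 a2) a1, mul_nonneg (mul_nonneg a1 a2) a2]
      · have hl4 : Real.log 4 = 2 * Real.log 2 := by
          rw [show (4 : ℝ) = 2 ^ 2 by norm_num, Real.log_pow]; norm_num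
        have hh : (1.386294 : ℝ) + 2 * (w - 4) / (w + 4) ≤ Real.log w := by
          have := log_ge_of (a := 4) (by norm_num) hw4
          rw [hl4] at this
          linarith
        apply key _ hh
        have hp : 0 < w + 4 := by linarith
        have e : w * (1.386294 + 2 * (w - 4) / (w + 4)) - w + 1
            = ((1.386294 * w - w + 1) * (w + 4) + 2 * w * (w - 4)) / (w + 4) := by
          field_simp; ring
        rw [e, le_div_iff₀ hp]
        have a1 : 0 ≤ w - 4 := by linarith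
        have a2 : 0 ≤ 11 / 2 - w := by linarith
        nlinarith [mul_nonneg a1 a2, mul_nonneg (mul_nonneg a1 a2) a1, mul_nonneg (mul_nonneg a1 a2) a2]

/-- upper bound of the exponential on `(-∞, 3/2]` -/
lemma exp_ub {s : ℝ} (hs : s ≤ 3 / 2) : Real.exp s ≤ 1 + s + 9 / 10 * s ^ 2 := by
  rcases le_total s 0 with h | h
  · -- e^s ≤ 1 + s + s^2/2
    have h1 : Real.exp s ≤ 1 + s + s ^ 2 / 2 := by
      have hx := Real.quadratic_le_exp_of_nonneg (x := -s) (by linarith)
      -- 1 + (-s) + s^2/2 ≤ exp(-s)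
      have hp : 0 < Real.exp (-s) := Real.exp_pos _
      have e : Real.exp s = 1 / Real.exp (-s) := by rw [Real.exp_neg]; simp
      rw [e, div_le_iff₀ hp]
      have hq : 0 ≤ 1 + s + s ^ 2 / 2 := by nlinarith [sq_nonneg (1 + s)]
      have := mul_le_mul_of_nonneg_left hx hq
      nlinarith [sq_nonneg (s ^ 2)]
    nlinarith [sq_nonneg s]
  · have hy0 : 0 ≤ s / 2 := by linarith
    have hy1 : s / 2 ≤ 3 / 4 := by linarith
    have h4 := Real.exp_bound' (x := s / 2) hy0 (by linarith) (n := 4) (by norm_num)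
    simp [Finset.sum_range_succ, Nat.factorial] at h4
    have e : Real.exp s = (Real.exp (s / 2)) ^ 2 := by
      rw [← Real.exp_nat_mul]; congr 1; push_cast; ring
    rw [e]
    set y := s / 2 with hy
    have hs2 : s = 2 * y := by rw [hy]; ring
    have hpos : 0 ≤ Real.exp y := (Real.exp_pos y).le
    have h5 : Real.exp y ≤ 1 + y + y ^ 2 / 2 + y ^ 3 / 6 + 5 / 96 * y ^ 4 := by
      norm_num at h4
      linarith
    have h6 : (Real.exp y) ^ 2 ≤ (1 + y + y ^ 2 / 2 + y ^ 3 / 6 + 5 / 96 * y ^ 4) ^ 2 :=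
      pow_le_pow_left₀ hpos h5 2
    refine h6.trans ?_
    rw [hs2]
    -- (P(y))^2 <= 1 + 2y + 3.6 y^2
    have hy3 : y ^ 3 ≤ 3 / 4 * y ^ 2 := by nlinarith [sq_nonneg y]
    have hy4 : y ^ 4 ≤ 9 / 16 * y ^ 2 := by nlinarith [sq_nonneg y, mul_nonneg (sq_nonneg y) hy0]
    have hq : 1 + y + y ^ 2 / 2 + y ^ 3 / 6 + 5 / 96 * y ^ 4 ≤ 1 + y + (1 / 2 + 1 / 8 + 15 / 512) * y ^ 2 := by
      nlinarith
    have hq0 : 0 ≤ 1 + y + y ^ 2 / 2 + y ^ 3 / 6 + 5 / 96 * y ^ 4 := by positivity
    refine (pow_le_pow_left₀ hq0 hq 2).trans ?_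
    nlinarith [sq_nonneg y, mul_nonneg (sq_nonneg y) hy0, mul_nonneg (sq_nonneg y) (sub_nonneg.mpr hy1), mul_nonneg (mul_nonneg (sq_nonneg y) hy0) (sub_nonneg.mpr hy1)]

end Vale.Agent.P046.Sh.MACa
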