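import Vale.Agent.P046.Sh.MACa

/-! matrix identities for MAC1, MAC2 -/

namespace Vale.Agent.P046.Sh.MACb

open Finset Vale.Agent.P046 Vale.Agent.P046.Sh

variable {n : ℕ}

lemma av2_add (f g : Fin n → Fin n → ℝ) :
    av2 (fun u v => f u v + g u v) = av2 f + av2 g := by
  simp only [av2, sum_add_distrib, add_div]

lemma av2_mul (c : ℝ) (f : Fin n → Fin n → ℝ) :
    av2 (fun u v => c * f u v) = c * av2 f := by
  simp only [av2, ← mul_sum, mul_div_assoc]

lemma av2_const (hn : 0 < n) (c : ℝ) : av2 (fun (_ _ : Fin n) => c) = c := by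
  have : (n : ℝ) ≠ 0 := by positivity
  simp only [av2, sum_const, card_univ, Fintype.card_fin, nsmul_eq_mul]
  field_simp

lemma av2_mono {f g : Fin n → Fin n → ℝ} (h : ∀ u v, f u v ≤ g u v) : av2 f ≤ av2 g := by
  unfold av2
  apply div_le_div_of_nonneg_right _ (by positivity)
  exact sum_le_sum fun u _ => sum_le_sum fun v _ => h u v

lemma av2_nonneg {f : Fin n → Fin n → ℝ} (h : ∀ u v, 0 ≤ f u v) : 0 ≤ av2 f := by
  unfold av2
  apply div_nonneg _ (by positivity)
  exact sum_nonneg fun u _ => sum_nonneg fun v _ => h u v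

lemma av3_add (f g : Fin n → Fin n → Fin n → ℝ) :
    av3 (fun a b c => f a b c + g a b c) = av3 f + av3 g := by
  simp only [av3, sum_add_distrib, add_div]

lemma av3_mul (k : ℝ) (f : Fin n → Fin n → Fin n → ℝ) :
    av3 (fun a b c => k * f a b c) = k * av3 f := by
  simp only [av3, ← mul_sum, mul_div_assoc]

lemma av3_const (hn : 0 < n) (c : ℝ) : av3 (fun (_ _ _ : Fin n) => c) = c := by
  have : (n : ℝ) ≠ 0 := by positivity
  simp only [av3, sum_const, card_univ, Fintype.card_fin, nsmul_eq_mul]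
  field_simp

lemma av3_mono {f g : Fin n → Fin n → Fin n → ℝ} (h : ∀ a b c, f a b c ≤ g a b c) :
    av3 f ≤ av3 g := by
  unfold av3
  apply div_le_div_of_nonneg_right _ (by positivity)
  exact sum_le_sum fun u _ => sum_le_sum fun v _ => sum_le_sum fun w _ => h u v w

lemma av3_nonneg {f : Fin n → Fin n → Fin n → ℝ} (h : ∀ a b c, 0 ≤ f a b c) : 0 ≤ av3 f := by
  unfold av3
  apply div_nonneg _ (by positivity)
  exact sum_nonneg fun u _ => sum_nonneg fun v _ => sum_nonneg fun w _ => h u v w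

lemma av3_12 (hn : 0 < n) (f : Fin n → Fin n → ℝ) : av3 (fun a b _ => f a b) = av2 f := by
  have : (n : ℝ) ≠ 0 := by positivity
  simp only [av3, av2, sum_const, card_univ, Fintype.card_fin, nsmul_eq_mul, ← mul_sum]
  field_simp

lemma av3_swap23 (f : Fin n → Fin n → Fin n → ℝ) :
    av3 (fun a b c => f a c b) = av3 f := by
  unfold av3
  congr 1
  exact sum_congr rfl fun a _ => sum_comm

lemma av3_swap12 (f : Fin n → Fin n → Fin n → ℝ) :
    av3 (fun a b c => f b a c) = av3 f := by
  unfold av3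
  congr 1
  exact sum_comm

lemma av3_13 (hn : 0 < n) (f : Fin n → Fin n → ℝ) : av3 (fun a _ c => f a c) = av2 f := by
  rw [← av3_12 hn f]
  exact av3_swap23 (fun a b _ => f a b)

lemma av3_23 (hn : 0 < n) (f : Fin n → Fin n → ℝ) : av3 (fun _ b c => f b c) = av2 f := by
  rw [← av3_13 hn f]
  exact av3_swap12 (fun a _ c => f a c)

/-- row average -/
noncomputable def rw1 (D : Fin n → Fin n → ℝ) (a : Fin n) : ℝ := (∑ b, D a b) / n

/-- variance-like quantity -/
noncomputable def VV (D : Fin n → Fin n → ℝ) : ℝ := (∑ b, rw1 D b ^ 2) / n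

/-- average over points -/
noncomputable def av1 (f : Fin n → ℝ) : ℝ := (∑ a, f a) / n

lemma av2_left (hn : 0 < n) (f : Fin n → ℝ) : av2 (fun a _ => f a) = av1 f := by
  have : (n : ℝ) ≠ 0 := by positivity
  simp only [av2, av1, sum_const, card_univ, Fintype.card_fin, nsmul_eq_mul, ← mul_sum]
  field_simp

lemma av2_swap (f : Fin n → Fin n → ℝ) : av2 (fun a b => f b a) = av2 f := by
  unfold av2; congr 1; exact sum_comm

lemma av2_right (hn : 0 < n) (f : Fin n → ℝ) : av2 (fun _ b => f b) = av1 f := by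
  rw [← av2_left hn f]; exact av2_swap (fun a _ => f a)

lemma av1_rw (D : Fin n → Fin n → ℝ) : av1 (rw1 D) = av2 D := by
  simp only [av1, rw1, av2, ← sum_div]
  rw [div_div]; congr 1; ring

lemma av2_prod (f g : Fin n → ℝ) : av2 (fun a b => f a * g b) = av1 f * av1 g := by
  simp only [av2, av1]
  rw [div_mul_div_comm, sum_mul_sum]
  congr 1
  ring

lemma av2_mul_left (hn : 0 < n) (f : Fin n → ℝ) (D : Fin n → Fin n → ℝ) :
    av2 (fun a b => f a * D a b) = av1 (fun a => f a * rw1 D a) := by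
  have : (n : ℝ) ≠ 0 := by positivity
  simp only [av2, av1, rw1, ← mul_sum]
  rw [sum_div, sum_div]
  refine sum_congr rfl fun a _ => ?_
  field_simp

/-- the composition `(D ∘ D)(a, z)` -/
noncomputable def comp2 (D : Fin n → Fin n → ℝ) (a z : Fin n) : ℝ := (∑ b, D a b * D b z) / n

lemma av3_path (hn : 0 < n) (D : Fin n → Fin n → ℝ) (hs : ∀ u v, D u v = D v u) :
    av3 (fun a b c => D a b * D b c) = VV D := by
  have h0 : (n : ℝ) ≠ 0 := by positivity
  unfold av3 VV rw1
  rw [sum_comm]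
  rw [sum_div, sum_div]
  refine sum_congr rfl fun b _ => ?_
  have : ∑ a, ∑ c, D a b * D b c = (∑ c, D b c) ^ 2 := by
    rw [sq, sum_mul_sum]
    refine sum_congr rfl fun a _ => sum_congr rfl fun c _ => ?_
    rw [hs a b]
  rw [this]
  field_simp

lemma av2_comp (hn : 0 < n) (D : Fin n → Fin n → ℝ) (hs : ∀ u v, D u v = D v u) :
    av2 (comp2 D) = VV D := by
  have h0 : (n : ℝ) ≠ 0 := by positivity
  rw [← av3_path hn D hs]
  unfold av2 comp2 av3
  have : ∀ a : Fin n, ∑ v, (∑ b, D a b * D b v) / (n : ℝ) = (∑ b, ∑ v, D a b * D b v) / n := by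
    intro a
    rw [← sum_div, sum_comm]
  simp_rw [this]
  rw [← sum_div]
  field_simp

lemma av3_tri_comp (hn : 0 < n) (D : Fin n → Fin n → ℝ) :
    av3 (fun a b c => D a b * D b c * D a c) = av2 (fun a c => comp2 D a c * D a c) := by
  have h0 : (n : ℝ) ≠ 0 := by positivity
  unfold av2 comp2 av3
  have : ∀ a : Fin n, ∑ c, (∑ b, D a b * D b c) / (n : ℝ) * D a c
      = (∑ b, ∑ c, D a b * D b c * D a c) / n := by
    intro a
    rw [sum_comm, sum_div]
    refine sum_congr rfl fun c _ => ?_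
    rw [div_mul_eq_mul_div, sum_mul]
  simp_rw [this]
  rw [← sum_div]
  field_simp

/-- Cauchy-Schwarz for `av2` -/
lemma av2_cs (f g : Fin n → Fin n → ℝ) :
    av2 (fun a b => f a b * g a b) ^ 2 ≤ av2 (fun a b => f a b ^ 2) * av2 (fun a b => g a b ^ 2) := by
  unfold av2
  rw [div_pow, div_mul_div_comm]
  have h := Finset.sum_mul_sq_le_sq_mul_sq (univ : Finset (Fin n × Fin n))
    (fun p => f p.1 p.2) (fun p => g p.1 p.2)
  rw [Fintype.sum_prod_type, Fintype.sum_prod_type, Fintype.sum_prod_type] at h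
  rw [← sq]
  exact div_le_div_of_nonneg_right h (by positivity)

lemma comp_norm (hn : 0 < n) (D : Fin n → Fin n → ℝ) :
    av2 (fun a z => comp2 D a z ^ 2) ≤ av2 (fun a b => D a b ^ 2) ^ 2 := by
  have h0 : (n : ℝ) ≠ 0 := by positivity
  have h1 : ∀ a z, comp2 D a z ^ 2 ≤ av1 (fun b => D a b ^ 2) * av1 (fun b => D b z ^ 2) := by
    intro a z
    unfold comp2 av1
    rw [div_pow, div_mul_div_comm, ← sq]
    exact div_le_div_of_nonneg_right
      (Finset.sum_mul_sq_le_sq_mul_sq univ (fun b => D a b) (fun b => D b z)) (by positivity)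
  refine (av2_mono h1).trans ?_
  rw [av2_prod (fun a => av1 (fun b => D a b ^ 2)) (fun z => av1 (fun b => D b z ^ 2))]
  have e1 : av1 (fun a => av1 (fun b => D a b ^ 2)) = av2 (fun a b => D a b ^ 2) := by
    simp only [av1, av2, ← sum_div]
    rw [div_div]; congr 1; ring
  have e2 : av1 (fun z => av1 (fun b => D b z ^ 2)) = av2 (fun a b => D a b ^ 2) := by
    simp only [av1, av2, ← sum_div]
    rw [div_div, sum_comm]; congr 1; ring
  rw [e1, e2, sq]

/-- `t(D)^2 ≤ N^3` -/
lemma tri_sq (hn : 0 < n) (D : Fin n → Fin n → ℝ) :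
    av3 (fun a b c => D a b * D b c * D a c) ^ 2 ≤ av2 (fun a b => D a b ^ 2) ^ 3 := by
  rw [av3_tri_comp hn]
  refine (av2_cs _ _).trans ?_
  have h1 := comp_norm hn D
  have h2 : 0 ≤ av2 (fun a b => D a b ^ 2) := av2_nonneg fun _ _ => sq_nonneg _
  calc _ ≤ av2 (fun a b => D a b ^ 2) ^ 2 * av2 (fun a b => D a b ^ 2) :=
        mul_le_mul_of_nonneg_right h1 h2
    _ = _ := by ring

/-- expansion of the triangle density -/
lemma tW_expand (hn : 0 < n) (W : Fin n → Fin n → ℝ) (hs : ∀ u v, W u v = W v u) :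
    tW W = 1 + 3 * av2 (fun u v => W u v - 1) + 3 * VV (fun u v => W u v - 1)
      + av3 (fun a b c => (W a b - 1) * (W b c - 1) * (W a c - 1)) := by
  set D : Fin n → Fin n → ℝ := fun u v => W u v - 1 with hD
  have hDs : ∀ u v, D u v = D v u := by intro u v; simp only [hD]; rw [hs]
  have e : tW W = av3 (fun a b c => (1 + D a b + D b c + D a c + D a b * D b c
      + D b c * D a c + D a b * D a c) + D a b * D b c * D a c) := by
    unfold tW
    congr 1; funext a b c
    simp only [hD]; ring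
  rw [e, av3_add, av3_add, av3_add, av3_add, av3_add, av3_add, av3_add, av3_const hn, av3_12 hn D,
    av3_23 hn D, av3_13 hn D, av3_path hn D hDs]
  have p2 : av3 (fun a b c => D b c * D a c) = VV D := by
    rw [← av3_path hn D hDs, ← av3_swap23 (fun a b c => D a b * D b c)]
    congr 1; funext a b c; rw [hDs c b]; ring
  have p3 : av3 (fun a b c => D a b * D a c) = VV D := by
    rw [← av3_path hn D hDs, ← av3_swap12 (fun a b c => D a b * D b c)]
    congr 1; funext a b c; rw [hDs b a]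
  rw [p2, p3]
  ring

lemma VV_le (hn : 0 < n) (D : Fin n → Fin n → ℝ) (hs : ∀ u v, D u v = D v u) :
    VV D ≤ (av2 (fun a b => D a b ^ 2) + av2 D ^ 2) / 2 := by
  set e := av2 D with he
  have h := av2_nonneg (f := fun a b => (D a b - rw1 D a - rw1 D b + e) ^ 2)
    (fun _ _ => sq_nonneg _)
  have V1 : av1 (fun a => rw1 D a * rw1 D a) = VV D := by
    unfold av1 VV; congr 1; exact sum_congr rfl fun a _ => by ring
  have ex : (fun a b => (D a b - rw1 D a - rw1 D b + e) ^ 2)
      = fun a b => D a b ^ 2 + ((-2) * (rw1 D a * D a b) + ((-2) * (rw1 D b * D a b)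
        + (2 * e * D a b + (rw1 D a * rw1 D a + (rw1 D b * rw1 D b
        + (2 * (rw1 D a * rw1 D b) + ((-2 * e) * rw1 D a + ((-2 * e) * rw1 D b + e ^ 2)))))))) := by
    funext a b; ring
  rw [ex, av2_add, av2_add, av2_add, av2_add, av2_add, av2_add, av2_add, av2_add, av2_add,
    av2_mul, av2_mul, av2_mul, av2_mul, av2_mul, av2_mul, av2_const hn, av2_left hn (rw1 D), av2_right hn (rw1 D),
    av2_left hn (fun a => rw1 D a * rw1 D a), av2_right hn (fun a => rw1 D a * rw1 D a),
    av2_prod, av2_mul_left hn, V1, av1_rw] at h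
  have q : av2 (fun a b => rw1 D b * D a b) = VV D := by
    rw [← av2_swap]
    rw [show (fun a b => rw1 D a * D b a) = (fun a b => rw1 D a * D a b) by
      funext a b; rw [hs b a]]
    rw [av2_mul_left hn, V1]
  rw [q, ← he] at h
  linarith

lemma VV_nonneg (D : Fin n → Fin n → ℝ) : 0 ≤ VV D := by
  unfold VV
  apply div_nonneg _ (by positivity)
  exact sum_nonneg fun u _ => sq_nonneg _

/-- lower bound for the cost -/
lemma cost_lb (hn : 0 < n) (W : Fin n → Fin n → ℝ) (hW : WOK W) :
    6 / 25 * av2 (fun u v => (W u v - 1) ^ 2) - Real.log (11 / 2) * av2 (fun u v => W u v - 1)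
      ≤ cost W := by
  unfold cost
  have h1 : av2 (fun u v => W u v - 1) = av2 W - 1 := by
    have : (fun u v => W u v - 1) = fun u v => W u v + (-1 : ℝ) := by funext u v; ring
    rw [this, av2_add, av2_const hn]; ring
  have h2 : 6 / 25 * av2 (fun u v => (W u v - 1) ^ 2)
      ≤ av2 (fun u v => W u v * Real.log (W u v) - W u v + 1) := by
    rw [← av2_mul]
    exact av2_mono fun u v => MACa.ent_lb (hW.2.1 u v) (hW.2.2 u v)
  rw [h1]
  linarith

lemma tW_nonneg (W : Fin n → Fin n → ℝ) (hW : WOK W) : 0 ≤ tW W :=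
  av3_nonneg fun a b c => by
    have := (hW.2.1 a b).le
    have := (hW.2.1 b c).le
    have := (hW.2.1 a c).le
    positivity

end Vale.Agent.P046.Sh.MACb
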