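import Vale.Agent.P046.Sh.StartDefs
import Vale.Agent.P046.BULK
import Vale.Agent.P046.BREC

/-! # P046, sharp constant: START -/

namespace Vale.Agent.P046.Sh

open Finset Vale.Agent.P046.BULK Vale.Agent.P046.BREC

/-- the potential in `BREC` -/
theorem brec2 (c C : ℝ) (hc : 0 < c) (hC : 0 ≤ C) (n M k : ℕ) (a q : ℕ → ℝ) (hn : 1 ≤ n)
    (hn3 : (n : ℝ) ^ 3 ≤ ((M : ℝ) - 3 * k) ^ 2) (hk100 : 100 ≤ (M : ℝ) - 3 * k)
    (hMn : (M : ℝ) ≤ (n : ℝ) ^ 2) (hqa : ∀ i, i ≤ k → 0 ≤ q i ∧ -1 ≤ a i)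
    (hrec : ∀ i, i < k → a (i + 1) ≤ (1 - (3 / ((M : ℝ) - 3 * i)) * (68 / 100)) *
      (a i - c * lam n ((M : ℝ) - 3 * i) * q i + 1 / (n : ℝ) ^ 2)
      + (3 / ((M : ℝ) - 3 * i)) * C) :
    a k ≤ (C + 1) / (68 / 100) + (((M : ℝ) - 3 * k) / M) ^ ((67 : ℝ) / 100) * max (a 0) 0 := by
  have hnr : (1 : ℝ) ≤ n := by exact_mod_cast hn
  have hmk : ∀ i, i ≤ k → 100 ≤ (M : ℝ) - 3 * i := by
    intro i hi
    have : (i : ℝ) ≤ k := by exact_mod_cast hi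
    linarith
  have hmn : ∀ i : ℕ, (M : ℝ) - 3 * i ≤ (n : ℝ) ^ 2 := by
    intro i
    have : (0 : ℝ) ≤ i := Nat.cast_nonneg _
    linarith
  have hρpos : ∀ i, i ≤ k → 0 < (1 - (3 / ((M : ℝ) - 3 * i)) * (68 / 100)) := by
    intro i hi
    have : 3 / ((M : ℝ) - 3 * i) ≤ 3 / 100 :=
      div_le_div_of_nonneg_left (by norm_num) (by norm_num) (hmk i hi)
    linarith
  have hWpos : ∀ i, i ≤ k → 0 < ∏ l ∈ range i, (1 - (3 / ((M : ℝ) - 3 * l)) * (68 / 100)) := by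
    intro i hi
    refine Finset.prod_pos (fun l hl => hρpos l ?_)
    rw [mem_range] at hl
    omega
  have hLk : 0 < lam n ((M : ℝ) - 3 * k) := by
    have := hmk k le_rfl
    unfold lam
    have h0 : 0 < (M : ℝ) - 3 * k := by linarith
    positivity
  have habs := absrec k c ((C + 1) / (68 / 100)) a q (fun i => lam n ((M : ℝ) - 3 * i))
    (fun i => ∏ l ∈ range i, (1 - (3 / ((M : ℝ) - 3 * l)) * (68 / 100)))
    (fun i => (1 - (3 / ((M : ℝ) - 3 * i)) * (68 / 100))) hc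
    (fun i hi => hρpos i hi.le) (by simp) (fun i => Finset.prod_range_succ _ _) hWpos
    (fun i hi => (hqa i hi).1)
    (fun i hi => step n _ _ _ _ C c _ hnr (hmk i hi.le) (hmn i) rfl _ (hrec i hi))
    (fun i hi => by
      have h1 := lamstep n ((M : ℝ) - 3 * i) hn (hmk i hi.le)
      have h2 : (M : ℝ) - 3 * ((i + 1 : ℕ) : ℝ) = ((M : ℝ) - 3 * i) - 3 := by
        push_cast
        ring
      rw [h2]
      exact h1)
  have hq : 0 ≤ ∑ j ∈ range k, q j := by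
    refine sum_nonneg fun j hj => (hqa j ?_).1
    rw [mem_range] at hj; omega
  have h1 : 0 ≤ c * lam n ((M : ℝ) - 3 * k) * ∑ j ∈ range k, q j := by positivity
  have hW := hWpos k le_rfl
  have hWY := Wbound M k hk100 k le_rfl
  set W := ∏ l ∈ range k, (1 - (3 / ((M : ℝ) - 3 * l)) * (68 / 100)) with hWdef
  have hC2 : 0 ≤ (C + 1) / (68 / 100) := by positivity
  have h2 : W * (a 0 - (C + 1) / (68 / 100)) ≤
      (((M : ℝ) - 3 * k) / M) ^ ((67 : ℝ) / 100) * max (a 0) 0 := by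
    have e1 : W * (a 0 - (C + 1) / (68 / 100)) ≤ W * max (a 0) 0 := by
      apply mul_le_mul_of_nonneg_left _ hW.le
      have := le_max_left (a 0) 0
      linarith
    exact e1.trans (mul_le_mul_of_nonneg_right hWY (le_max_right _ _))
  linarith

/-- package of constants -/
structure PK (cB e1 ea p p1 L0 C1 c L0' C2 : ℝ) (n1 n2 n3 : ℕ) : Prop where
  he1' : e1 ≤ 1 / 50
  hc : 0 < c
  hC1 : 0 ≤ C1
  hp : 0 < p
  hp' : p ≤ 1 / 10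
  hpp1 : p ≤ p1
  hstep : ∀ (n m : ℕ) (mu : Finset (Finset (Fin n)) → ℝ), n1 ≤ n →
      StepHyp n m (goodB e1 ea) mu →
      EX mu (fun _ => 1) ≤ 1 → L0 ≤ lam n m → ((m : ℝ) + 3) ≤ p1 * (n : ℝ) ^ 2 →
      Mh cB (push (goodB e1 ea) mu) m ≤
        (1 - (3 / ((m : ℝ) + 3)) * (68 / 100)) * Mh cB (rst (goodB e1 ea) mu) (m + 3)
          + (3 / ((m : ℝ) + 3)) * C1
  hkill : ∀ (n m : ℕ) (mu : Finset (Finset (Fin n)) → ℝ), n2 ≤ n → (∀ G, 0 ≤ mu G) →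
      (∀ G, mu G ≠ 0 → G ⊆ pairs n ∧ G.card = m) → EX mu (fun _ => 1) ≤ 1 → L0' ≤ lam n m →
      m ≤ (pairs n).card →
      Mh cB (rst (goodB e1 ea) mu) m ≤ Mh cB mu m
        - c * lam n m * EX mu (fun G => by classical exact if goodB e1 ea G then 0 else 1)
        + 1 / (n : ℝ) ^ 2 ∧ -1 ≤ Mh cB (rst (goodB e1 ea) mu) m
  hinit : ∀ (n i : ℕ), n3 ≤ n →
      p / 2 * (n : ℝ) ^ 2 ≤ ((pairs n).card : ℝ) - 3 * i →
      ((pairs n).card : ℝ) - 3 * i ≤ p * (n : ℝ) ^ 2 →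
      Mh cB (law n (fun _ => goodD) i) ((pairs n).card - 3 * i)
          ≤ C2 * (n : ℝ) ^ ((1 : ℝ) / 3) * Real.log n
        ∧ 1 - EX (law n (fun _ => goodD) i) (fun _ => 1) ≤ C2 / n

section
variable {cB e1 ea p p1 L0 C1 c L0' C2 : ℝ} {n1 n2 n3 : ℕ}

/-- everything needed for the real recursion -/
theorem pre (P : PK cB e1 ea p p1 L0 C1 c L0' C2 n1 n2 n3) (hLAW : StmtLAW) {n i0 k : ℕ}
    (hn1 : n1 ≤ n) (hn2 : n2 ≤ n) (hn100 : 100 ≤ n)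
    (hM1 : ((pairs n).card : ℝ) - 3 * i0 ≤ p * (n : ℝ) ^ 2)
    (hk3 : 3 * k ≤ (pairs n).card - 3 * i0) (hM3 : 3 * i0 ≤ (pairs n).card)
    (hM100 : 100 ≤ (((pairs n).card - 3 * i0 : ℕ) : ℝ) - 3 * k)
    (hlam : ∀ x : ℝ, (((pairs n).card - 3 * i0 : ℕ) : ℝ) - 3 * k ≤ x → |L0| + |L0'| ≤ lam n x) :
    (∀ i, i ≤ k → 0 ≤ bb n (gd n i0 e1 ea) (i0 + i) ∧
      -1 ≤ Mh cB (law n (gd n i0 e1 ea) (i0 + i)) ((pairs n).card - 3 * i0 - 3 * i)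
      + 1 / (n : ℝ) ^ 2) ∧
    (∀ i, i < k →
      Mh cB (law n (gd n i0 e1 ea) (i0 + (i + 1))) ((pairs n).card - 3 * i0 - 3 * (i + 1))
      + 1 / (n : ℝ) ^ 2 ≤ (1 - (3 / ((((pairs n).card - 3 * i0 : ℕ) : ℝ) - 3 * i)) * (68 / 100)) *
      ((Mh cB (law n (gd n i0 e1 ea) (i0 + i)) ((pairs n).card - 3 * i0 - 3 * i)
      + 1 / (n : ℝ) ^ 2) - c * lam n ((((pairs n).card - 3 * i0 : ℕ) : ℝ) - 3 * i) *
        bb n (gd n i0 e1 ea) (i0 + i) + 1 / (n : ℝ) ^ 2)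
      + (3 / ((((pairs n).card - 3 * i0 : ℕ) : ℝ) - 3 * i)) * (C1 + 1)) := by
  have hnR : (100 : ℝ) ≤ n := by exact_mod_cast hn100
  have hn0 : (0 : ℝ) < n := by linarith
  have hgQ : ∀ i G, gd n i0 e1 ea i G → 0 < Q G := fun i G h => (gd_spec P.he1' i G h).1
  have hb0 : ∀ j, 0 ≤ bb n (gd n i0 e1 ea) j := (dead_eq hLAW n (gd n i0 e1 ea) hgQ 0).2
  have hkillj := fun (j : ℕ) (hj : j ≤ k) => kill_j (k := k) hLAW P.he1' P.hkill hn2 hM3 hk3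
    (fun x hx => by
      have := hlam x hx
      have h3 := le_abs_self L0'
      have h4 := abs_nonneg L0
      linarith) hj
  have hstepj := fun (j : ℕ) (hj : j < k) => step_j (k := k) hLAW P.he1' P.hpp1 P.hstep hn1 hM3
    hM1 hk3
    (fun x hx => by
      have := hlam x hx
      have h3 := le_abs_self L0
      have h4 := abs_nonneg L0'
      linarith) hj
  have hn2'' : 1 / (n : ℝ) ^ 2 ≤ 1 := by
    rw [div_le_one (by positivity)]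
    nlinarith
  constructor
  · intro i hi
    refine ⟨hb0 _, ?_⟩
    obtain ⟨h1, h2⟩ := hkillj i hi
    have h3 : 0 ≤ c * lam n ((((pairs n).card - 3 * i0 : ℕ) : ℝ) - 3 * i) *
        bb n (gd n i0 e1 ea) (i0 + i) := by
      apply mul_nonneg _ (hb0 _)
      apply mul_nonneg P.hc.le
      unfold lam
      positivity
    linarith
  · intro i hi
    obtain ⟨h1, h2⟩ := hkillj i hi.le
    have h5 := hstepj i hi
    have hi1 : (i : ℝ) + 1 ≤ k := by exact_mod_cast hi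
    exact rec_alg _ _ _ _ _ _ _ (by linarith) hn2'' h1 h5

/-- the starting value -/
theorem a0bd (P : PK cB e1 ea p p1 L0 C1 c L0' C2 n1 n2 n3) {n i0 : ℕ}
    (hn3 : n3 ≤ n) (hn100 : 100 ≤ n)
    (hM1 : ((pairs n).card : ℝ) - 3 * i0 ≤ p * (n : ℝ) ^ 2)
    (hM2 : p / 2 * (n : ℝ) ^ 2 ≤ ((pairs n).card : ℝ) - 3 * i0) :
    Mh cB (law n (gd n i0 e1 ea) (i0 + 0)) ((pairs n).card - 3 * i0 - 3 * 0)
      + 1 / (n : ℝ) ^ 2 ≤ |C2| * (n : ℝ) ^ ((1 : ℝ) / 3) * Real.log n + 1 := by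
  have hnR : (100 : ℝ) ≤ n := by exact_mod_cast hn100
  have hn0 : (0 : ℝ) < n := by linarith
  have hn2'' : 1 / (n : ℝ) ^ 2 ≤ 1 := by
    rw [div_le_one (by positivity)]
    nlinarith
  obtain ⟨hin1, hin2⟩ := P.hinit n i0 hn3 hM2 hM1
  have hlaw0 : law n (gd n i0 e1 ea) i0 = law n (fun _ => goodD) i0 := law_eq i0 le_rfl
  rw [add_zero, hlaw0, mul_zero, Nat.sub_zero]
  have h1 : C2 * (n : ℝ) ^ ((1 : ℝ) / 3) * Real.log n ≤
      |C2| * (n : ℝ) ^ ((1 : ℝ) / 3) * Real.log n := by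
    apply mul_le_mul_of_nonneg_right _ (Real.log_nonneg (by linarith))
    exact mul_le_mul_of_nonneg_right (le_abs_self _) (by positivity)
  linarith

/-- sum of the killed masses -/
theorem partA (P : PK cB e1 ea p p1 L0 C1 c L0' C2 n1 n2 n3) (hLAW : StmtLAW) {C' : ℝ}
    (hrec : ∀ (n M k : ℕ) (a q : ℕ → ℝ), 1 ≤ n → (n : ℝ) ^ 3 ≤ ((M : ℝ) - 3 * k) ^ 2 →
      100 ≤ (M : ℝ) - 3 * k → (M : ℝ) ≤ (n : ℝ) ^ 2 → (∀ i, i ≤ k → 0 ≤ q i ∧ -1 ≤ a i) →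
      (∀ i, i < k → a (i + 1) ≤ (1 - (3 / ((M : ℝ) - 3 * i)) * (68 / 100)) *
      (a i - c * lam n ((M : ℝ) - 3 * i) * q i + 1 / (n : ℝ) ^ 2)
      + (3 / ((M : ℝ) - 3 * i)) * (C1 + 1)) →
      ∑ i ∈ range k, q i ≤ C' / lam n ((M : ℝ) - 3 * k)
        * (1 + (((M : ℝ) - 3 * k) / M) ^ ((67 : ℝ) / 100) * max (a 0) 0))
    {n i0 k : ℕ} {κ : ℝ}
    (hn1 : n1 ≤ n) (hn2 : n2 ≤ n) (hn3 : n3 ≤ n) (hn100 : 100 ≤ n)
    (hM1 : ((pairs n).card : ℝ) - 3 * i0 ≤ p * (n : ℝ) ^ 2)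
    (hM2 : p / 2 * (n : ℝ) ^ 2 ≤ ((pairs n).card : ℝ) - 3 * i0) (hM3 : 3 * i0 ≤ (pairs n).card)
    (hκ : κ = 2 * (((pairs n).card : ℝ) - 3 * (i0 + k : ℕ)) / (n : ℝ) ^ ((3 : ℝ) / 2))
    (hk : |L0| + |L0'| + 2 ≤ κ) :
    ∑ j ∈ range k, bb n (gd n i0 e1 ea) (i0 + j) ≤
      |C'| * (1 + (600 * |C2| + 1) * p ^ (-(67 : ℝ) / 100)) * κ ^ (-(5 : ℝ) / 4) := by
  have hnR : (100 : ℝ) ≤ n := by exact_mod_cast hn100
  have hn0 : (0 : ℝ) < n := by linarith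
  have hL1 : 0 ≤ |L0| + |L0'| := by positivity
  obtain ⟨hMR, hmk, hmk0, hn32, hcube, hk3, hlamk, hlam⟩ := geo hn100 hM3 hκ hL1 hk
  obtain ⟨hqa, hrecj⟩ := pre P hLAW hn1 hn2 hn100 hM1 hk3 hM3 (by linarith) hlam
  have hk0 : (0 : ℝ) ≤ k := Nat.cast_nonneg _
  have hM0 : (0 : ℝ) < (((pairs n).card - 3 * i0 : ℕ) : ℝ) := by linarith
  have hr0 : 0 ≤ ((((pairs n).card - 3 * i0 : ℕ) : ℝ) - 3 * k) /
      (((pairs n).card - 3 * i0 : ℕ) : ℝ) := div_nonneg (by linarith) hM0.le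
  have hratio := ratio_bd hnR P.hp (show 0 < κ by linarith) hM0 (by rw [hMR]; exact hM2) hmk
  have ha0 := a0bd P hn3 hn100 hM1 hM2
  have hfin := hrec n ((pairs n).card - 3 * i0) k
    (fun j => Mh cB (law n (gd n i0 e1 ea) (i0 + j)) ((pairs n).card - 3 * i0 - 3 * j)
      + 1 / (n : ℝ) ^ 2)
    (fun j => bb n (gd n i0 e1 ea) (i0 + j)) (by omega) hcube (by linarith)
    (by rw [hMR]; have := P.hp'; nlinarith) hqa hrecj
  rw [hlamk] at hfin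
  have hnum := num2 |C'| |C2| p κ _ _ n (by omega) (by linarith) P.hp
    (abs_nonneg _) (abs_nonneg _) hr0 hratio ha0
  refine le_trans hfin (le_trans ?_ hnum)
  apply mul_le_mul_of_nonneg_right
  · exact div_le_div_of_nonneg_right (le_abs_self _) (by positivity)
  · have h1 : 0 ≤ max (Mh cB (law n (gd n i0 e1 ea) (i0 + 0)) ((pairs n).card - 3 * i0 - 3 * 0)
      + 1 / (n : ℝ) ^ 2) 0 := le_max_right _ _
    have h2 := Real.rpow_nonneg hr0 ((67 : ℝ) / 100)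
    have h3 := mul_nonneg h2 h1
    linarith

/-- the potential -/
theorem partB (P : PK cB e1 ea p p1 L0 C1 c L0' C2 n1 n2 n3) (hLAW : StmtLAW)
    {n i0 k : ℕ} {κ : ℝ}
    (hn1 : n1 ≤ n) (hn2 : n2 ≤ n) (hn3 : n3 ≤ n) (hn100 : 100 ≤ n)
    (hM1 : ((pairs n).card : ℝ) - 3 * i0 ≤ p * (n : ℝ) ^ 2)
    (hM2 : p / 2 * (n : ℝ) ^ 2 ≤ ((pairs n).card : ℝ) - 3 * i0) (hM3 : 3 * i0 ≤ (pairs n).card)
    (hκ : κ = 2 * (((pairs n).card : ℝ) - 3 * (i0 + k : ℕ)) / (n : ℝ) ^ ((3 : ℝ) / 2))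
    (hk : |L0| + |L0'| + 2 ≤ κ) :
    Mh cB (law n (gd n i0 e1 ea) (i0 + k)) ((pairs n).card - 3 * i0 - 3 * k) ≤
      (C1 + 1 + 1) / (68 / 100) + (κ / (p * Real.sqrt n)) ^ ((67 : ℝ) / 100) *
        (|C2| * (n : ℝ) ^ ((1 : ℝ) / 3) * Real.log n + 1) := by
  have hnR : (100 : ℝ) ≤ n := by exact_mod_cast hn100
  have hn0 : (0 : ℝ) < n := by linarith
  have hL1 : 0 ≤ |L0| + |L0'| := by positivity
  obtain ⟨hMR, hmk, hmk0, hn32, hcube, hk3, hlamk, hlam⟩ := geo hn100 hM3 hκ hL1 hk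
  obtain ⟨hqa, hrecj⟩ := pre P hLAW hn1 hn2 hn100 hM1 hk3 hM3 (by linarith) hlam
  have hk0 : (0 : ℝ) ≤ k := Nat.cast_nonneg _
  have hM0 : (0 : ℝ) < (((pairs n).card - 3 * i0 : ℕ) : ℝ) := by linarith
  have hr0 : 0 ≤ ((((pairs n).card - 3 * i0 : ℕ) : ℝ) - 3 * k) /
      (((pairs n).card - 3 * i0 : ℕ) : ℝ) := div_nonneg (by linarith) hM0.le
  have hratio := ratio_bd hnR P.hp (show 0 < κ by linarith) hM0 (by rw [hMR]; exact hM2) hmk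
  have ha0 := a0bd P hn3 hn100 hM1 hM2
  have hfin := brec2 c (C1 + 1) P.hc (by linarith [P.hC1]) n ((pairs n).card - 3 * i0) k
    (fun j => Mh cB (law n (gd n i0 e1 ea) (i0 + j)) ((pairs n).card - 3 * i0 - 3 * j)
      + 1 / (n : ℝ) ^ 2)
    (fun j => bb n (gd n i0 e1 ea) (i0 + j)) (by omega) hcube (by linarith)
    (by rw [hMR]; have := P.hp'; nlinarith) hqa hrecj
  have hn2p : 0 ≤ 1 / (n : ℝ) ^ 2 := by positivity
  have hlogn : 0 ≤ Real.log n := Real.log_nonneg (by linarith)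
  have hX : 0 ≤ |C2| * (n : ℝ) ^ ((1 : ℝ) / 3) * Real.log n + 1 := by positivity
  have h6 : max (Mh cB (law n (gd n i0 e1 ea) (i0 + 0)) ((pairs n).card - 3 * i0 - 3 * 0)
      + 1 / (n : ℝ) ^ 2) 0 ≤ |C2| * (n : ℝ) ^ ((1 : ℝ) / 3) * Real.log n + 1 :=
    max_le ha0 hX
  have h7 : (((((pairs n).card - 3 * i0 : ℕ) : ℝ) - 3 * k) /
      (((pairs n).card - 3 * i0 : ℕ) : ℝ)) ^ ((67 : ℝ) / 100) ≤
      (κ / (p * Real.sqrt n)) ^ ((67 : ℝ) / 100) :=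
    Real.rpow_le_rpow hr0 hratio (by norm_num)
  have h8 : 0 ≤ (κ / (p * Real.sqrt n)) ^ ((67 : ℝ) / 100) := (Real.rpow_nonneg hr0 _).trans h7
  have h9 := mul_le_mul h7 h6 (le_max_right _ _) h8
  linarith

end

/-- the main estimate after the start of the bulk, with the potential -/
theorem after2 (hBSTEP : StmtBSTEP) (hBKILL : StmtBKILL) (hBREC : StmtBREC) (hINIT : StmtINIT)
    (hLAW : StmtLAW) :
    ∃ (cB e1 ea p D C2 L1 A : ℝ) (n0 : ℕ), 0 ≤ cB ∧ e1 ≤ 1 / 50 ∧ 0 < p ∧ p ≤ 1 / 10 ∧ 0 ≤ D ∧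
      0 ≤ C2 ∧ 0 ≤ L1 ∧ 0 ≤ A ∧ ∀ (n i0 : ℕ), n0 ≤ n → 100 ≤ n →
      ((pairs n).card : ℝ) - 3 * i0 ≤ p * (n : ℝ) ^ 2 →
      p / 2 * (n : ℝ) ^ 2 ≤ ((pairs n).card : ℝ) - 3 * i0 → 3 * i0 ≤ (pairs n).card →
      dead n (gd n i0 e1 ea) i0 ≤ C2 / n ∧
      ∀ (k : ℕ) (κ : ℝ),
        κ = 2 * (((pairs n).card : ℝ) - 3 * (i0 + k : ℕ)) / (n : ℝ) ^ ((3 : ℝ) / 2) →
        L1 + 2 ≤ κ →
        ∑ j ∈ range k, bb n (gd n i0 e1 ea) (i0 + j) ≤ D * κ ^ (-(5 : ℝ) / 4) ∧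
        Mh cB (law n (gd n i0 e1 ea) (i0 + k)) ((pairs n).card - 3 * i0 - 3 * k) ≤
          A + (κ / (p * Real.sqrt n)) ^ ((67 : ℝ) / 100) *
            (C2 * (n : ℝ) ^ ((1 : ℝ) / 3) * Real.log n + 1) := by
  classical
  obtain ⟨cB, e1, ea, p1, L0, C1, n1, hcB, he1, he1', hea, hp1, hL0, hC1, hstep⟩ := hBSTEP
  obtain ⟨c, L0', n2, hc, hkill⟩ := hBKILL cB e1 ea hcB he1 he1' hea
  obtain ⟨C', hrec⟩ := hBREC c (C1 + 1) hc (by linarith)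
  obtain ⟨C2, n3, hinit⟩ := hINIT cB (min p1 (1 / 10)) hcB (lt_min hp1 (by norm_num))
    (min_le_right _ _)
  have hpp1 : min p1 (1 / 10) ≤ p1 := min_le_left _ _
  have hp : 0 < min p1 (1 / 10) := lt_min hp1 (by norm_num)
  have hp' : min p1 (1 / 10) ≤ 1 / 10 := min_le_right _ _
  generalize min p1 (1 / 10) = p at hpp1 hp hp' hinit
  have P : PK cB e1 ea p p1 L0 C1 c L0' C2 n1 n2 n3 :=
    ⟨he1', hc, hC1, hp, hp', hpp1, hstep, hkill, hinit⟩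
  refine ⟨cB, e1, ea, p, |C'| * (1 + (600 * |C2| + 1) * p ^ (-(67 : ℝ) / 100)), |C2|,
    |L0| + |L0'|, (C1 + 1 + 1) / (68 / 100),
    max (max n1 n2) n3, hcB, he1', hp, hp', by positivity, abs_nonneg _, by positivity,
    by positivity, ?_⟩
  intro n i0 hn hn100 hM1 hM2 hM3
  have hn1 : n1 ≤ n := le_trans (le_trans (le_max_left _ _) (le_max_left _ _)) hn
  have hn2 : n2 ≤ n := le_trans (le_trans (le_max_right _ _) (le_max_left _ _)) hn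
  have hn3 : n3 ≤ n := le_trans (le_max_right _ _) hn
  refine ⟨?_, fun k κ hκ hk => ⟨?_, ?_⟩⟩
  · have hlaw0 : law n (gd n i0 e1 ea) i0 = law n (fun _ => goodD) i0 := law_eq i0 le_rfl
    unfold dead
    rw [hlaw0]
    refine le_trans (hinit n i0 hn3 hM2 hM1).2 ?_
    apply div_le_div_of_nonneg_right (le_abs_self _) (by positivity)
  · exact partA P hLAW hrec hn1 hn2 hn3 hn100 hM1 hM2 hM3 hκ hk
  · exact partB P hLAW hn1 hn2 hn3 hn100 hM1 hM2 hM3 hκ hk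

/-- the extra term is small -/
theorem extra (p C2 K : ℝ) (hp : 0 < p) (hC2 : 0 ≤ C2) (hK : 0 < K) :
    ∃ n0 : ℕ, ∀ n : ℕ, n0 ≤ n → ∀ κ : ℝ, 0 ≤ κ → κ ≤ 2 * K →
      (κ / (p * Real.sqrt n)) ^ ((67 : ℝ) / 100) *
            (C2 * (n : ℝ) ^ ((1 : ℝ) / 3) * Real.log n + 1) ≤ 1 := by
  set B : ℝ := (2 * K / p) ^ ((67 : ℝ) / 100) * (1200 * C2 + 1) with hB
  have hB0 : 0 < B := by positivity
  have ht : Filter.Tendsto (fun n : ℕ => (n : ℝ) ^ (-(1 / 1200 : ℝ))) Filter.atTop (nhds 0) :=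
    (tendsto_rpow_neg_atTop (by norm_num)).comp tendsto_natCast_atTop_atTop
  have hev : ∀ᶠ n : ℕ in Filter.atTop, (n : ℝ) ^ (-(1 / 1200 : ℝ)) < 1 / B :=
    ht.eventually (gt_mem_nhds (by positivity))
  obtain ⟨n0, hn0⟩ := Filter.eventually_atTop.mp hev
  refine ⟨max n0 1, fun n hn κ hκ0 hκ => ?_⟩
  have h1 := hn0 n (le_trans (le_max_left _ _) hn)
  have hn1 : 1 ≤ n := le_trans (le_max_right _ _) hn
  have hn' : (1 : ℝ) ≤ n := by exact_mod_cast hn1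
  have hnp : (0 : ℝ) < n := by linarith
  have hs0 : 0 < Real.sqrt n := Real.sqrt_pos.mpr hnp
  have hlog : Real.log n ≤ 1200 * (n : ℝ) ^ ((1 : ℝ) / 1200) := by
    have := Real.log_le_rpow_div hnp.le (show (0 : ℝ) < 1 / 1200 by norm_num)
    linarith
  have hA : C2 * (n : ℝ) ^ ((1 : ℝ) / 3) * Real.log n + 1 ≤
      (1200 * C2 + 1) * (n : ℝ) ^ ((401 : ℝ) / 1200) := by
    have h1 : (1 : ℝ) ≤ (n : ℝ) ^ ((401 : ℝ) / 1200) := Real.one_le_rpow hn' (by norm_num)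
    have h2 : (n : ℝ) ^ ((1 : ℝ) / 3) * Real.log n ≤ 1200 * (n : ℝ) ^ ((401 : ℝ) / 1200) := by
      calc (n : ℝ) ^ ((1 : ℝ) / 3) * Real.log n
          ≤ (n : ℝ) ^ ((1 : ℝ) / 3) * (1200 * (n : ℝ) ^ ((1 : ℝ) / 1200)) :=
            mul_le_mul_of_nonneg_left hlog (by positivity)
        _ = 1200 * ((n : ℝ) ^ ((1 : ℝ) / 3) * (n : ℝ) ^ ((1 : ℝ) / 1200)) := by ring
        _ = 1200 * (n : ℝ) ^ ((401 : ℝ) / 1200) := by
            rw [← Real.rpow_add hnp]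
            norm_num
    have h4 : C2 * (n : ℝ) ^ ((1 : ℝ) / 3) * Real.log n ≤
        C2 * (1200 * (n : ℝ) ^ ((401 : ℝ) / 1200)) := by
      rw [mul_assoc]
      exact mul_le_mul_of_nonneg_left h2 hC2
    nlinarith
  have hA0 : 0 ≤ C2 * (n : ℝ) ^ ((1 : ℝ) / 3) * Real.log n + 1 := by
    have : 0 ≤ Real.log n := Real.log_nonneg hn'
    positivity
  have hR : (κ / (p * Real.sqrt n)) ^ ((67 : ℝ) / 100) ≤
      (2 * K / p) ^ ((67 : ℝ) / 100) * (n : ℝ) ^ (-(67 : ℝ) / 200) := by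
    have h2 : κ / (p * Real.sqrt n) ≤ (2 * K / p) / Real.sqrt n := by
      rw [div_div]
      exact div_le_div_of_nonneg_right hκ (by positivity)
    have h3 : (κ / (p * Real.sqrt n)) ^ ((67 : ℝ) / 100) ≤
        ((2 * K / p) / Real.sqrt n) ^ ((67 : ℝ) / 100) :=
      Real.rpow_le_rpow (by positivity) h2 (by norm_num)
    have h4 : ((2 * K / p) / Real.sqrt n) ^ ((67 : ℝ) / 100) =
        (2 * K / p) ^ ((67 : ℝ) / 100) * (n : ℝ) ^ (-(67 : ℝ) / 200) := by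
      rw [Real.div_rpow (by positivity) hs0.le, div_eq_mul_inv, ← Real.rpow_neg hs0.le,
        Real.sqrt_eq_rpow, ← Real.rpow_mul hnp.le]
      norm_num
    linarith
  calc (κ / (p * Real.sqrt n)) ^ ((67 : ℝ) / 100) *
        (C2 * (n : ℝ) ^ ((1 : ℝ) / 3) * Real.log n + 1)
      ≤ ((2 * K / p) ^ ((67 : ℝ) / 100) * (n : ℝ) ^ (-(67 : ℝ) / 200)) *
        ((1200 * C2 + 1) * (n : ℝ) ^ ((401 : ℝ) / 1200)) :=
        mul_le_mul hR hA hA0 (by positivity)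
    _ = B * ((n : ℝ) ^ (-(67 : ℝ) / 200) * (n : ℝ) ^ ((401 : ℝ) / 1200)) := by rw [hB]; ring
    _ = B * (n : ℝ) ^ (-(1 / 1200 : ℝ)) := by
        rw [← Real.rpow_add hnp]
        norm_num
    _ ≤ B * (1 / B) := mul_le_mul_of_nonneg_left h1.le hB0.le
    _ = 1 := by field_simp

/-- Abel summation -/
theorem abel (M : ℝ) (b : ℕ → ℝ) (i : ℕ) :
    ∑ j ∈ range i, (M - 3 * j) * b j =
      (M - 3 * i) * (∑ j ∈ range i, b j) + 3 * ∑ j ∈ range i, ∑ l ∈ range (j + 1), b l := by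
  induction i with
  | zero => simp
  | succ k ih =>
    rw [sum_range_succ, ih, sum_range_succ (fun j => ∑ l ∈ range (j + 1), b l), sum_range_succ b]
    push_cast
    ring

/-- one telescoping step -/
theorem tel1 (x s : ℝ) (hx : 0 < x) (hs : 0 ≤ s) (hsx : s ≤ x) :
    s / 8 * x ^ (-(5 : ℝ) / 4) ≤ x ^ (-(1 : ℝ) / 4) - (x + s) ^ (-(1 : ℝ) / 4) := by
  set u : ℝ := s / x with hu
  have hu0 : 0 ≤ u := by positivity
  have hu1 : u ≤ 1 := by rw [hu, div_le_one hx]; exact hsx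
  have hxs : x + s = x * (1 + u) := by rw [hu]; field_simp
  have h1 : (x + s) ^ (-(1 : ℝ) / 4) = x ^ (-(1 : ℝ) / 4) * (1 + u) ^ (-(1 : ℝ) / 4) := by
    rw [hxs, Real.mul_rpow hx.le (by linarith)]
  have h2 : x ^ (-(5 : ℝ) / 4) = x ^ (-(1 : ℝ) / 4) * x⁻¹ := by
    rw [← Real.rpow_neg_one, ← Real.rpow_add hx]
    norm_num
  have h3 : (1 + u) ^ (-(1 : ℝ) / 4) ≤ 1 - u / 8 := by
    have h4 : 1 ≤ (1 - u / 8) ^ 4 * (1 + u) := by
      have h5 : 1 - u / 2 ≤ (1 - u / 8) ^ 4 := by nlinarith [sq_nonneg u, sq_nonneg (u ^ 2), mul_nonneg hu0 (sq_nonneg u)]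
      nlinarith
    have h6 : (1 + u)⁻¹ ≤ (1 - u / 8) ^ 4 := by
      rw [inv_le_iff_one_le_mul₀ (by linarith)]
      exact h4
    have h7 : (1 + u) ^ (-(1 : ℝ) / 4) = ((1 + u)⁻¹) ^ ((1 : ℝ) / 4) := by
      rw [Real.inv_rpow (by linarith), ← Real.rpow_neg (by linarith)]
      norm_num
    rw [h7]
    calc ((1 + u)⁻¹) ^ ((1 : ℝ) / 4) ≤ ((1 - u / 8) ^ 4) ^ ((1 : ℝ) / 4) :=
          Real.rpow_le_rpow (by positivity) h6 (by norm_num)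
      _ = 1 - u / 8 := by
          rw [← Real.rpow_natCast, ← Real.rpow_mul (by linarith)]
          norm_num
  have h8 : 0 < x ^ (-(1 : ℝ) / 4) := Real.rpow_pos_of_pos hx _
  have h9 := mul_le_mul_of_nonneg_left h3 h8.le
  have h10 : s / 8 * x ^ (-(5 : ℝ) / 4) = x ^ (-(1 : ℝ) / 4) * (u / 8) := by
    rw [h2, hu]; field_simp
  rw [h1, h10]
  linarith

/-- the telescoped sum -/
theorem tel2 (M N : ℝ) (hN : 0 < N) (i : ℕ) (h : 6 / N ≤ 2 * (M - 3 * i) / N) :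
    3 * ∑ j ∈ range i, (2 * (M - 3 * (j + 1 : ℕ)) / N) ^ (-(5 : ℝ) / 4) ≤
      4 * N * (2 * (M - 3 * i) / N) ^ (-(1 : ℝ) / 4) := by
  induction i with
  | zero =>
    simp only [range_zero, sum_empty, mul_zero]
    have : 0 ≤ 2 * (M - 3 * ((0 : ℕ) : ℝ)) / N := le_trans (by positivity) h
    have := Real.rpow_nonneg this (-(1 : ℝ) / 4)
    positivity
  | succ k ih =>
    have hs : 0 < 6 / N := by positivity
    have hx0 : 0 < 2 * (M - 3 * (k + 1 : ℕ)) / N := lt_of_lt_of_le hs h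
    have hxk : 2 * (M - 3 * (k : ℝ)) / N = 2 * (M - 3 * (k + 1 : ℕ)) / N + 6 / N := by
      push_cast
      field_simp
      ring
    have ih' := ih (by rw [hxk]; linarith)
    rw [sum_range_succ, mul_add]
    have h1 := tel1 (2 * (M - 3 * (k + 1 : ℕ)) / N) (6 / N) hx0 hs.le h
    rw [← hxk] at h1
    have h2 := mul_le_mul_of_nonneg_left h1 (show (0 : ℝ) ≤ 4 * N by positivity)
    have h3 : 4 * N * (6 / N / 8 * (2 * (M - 3 * (k + 1 : ℕ)) / N) ^ (-(5 : ℝ) / 4)) =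
        3 * (2 * (M - 3 * (k + 1 : ℕ)) / N) ^ (-(5 : ℝ) / 4) := by
      field_simp
      ring
    rw [h3] at h2
    linarith

/-- the bound on the dead mass at all scales -/
theorem deadbd {e1 ea D C2 L1 : ℝ} {n i0 : ℕ} (hLAW : StmtLAW) (he1 : e1 ≤ 1 / 50) (hD : 0 ≤ D)
    (hC2 : 0 ≤ C2) (hn : 1 ≤ n)
    (hd0 : dead n (gd n i0 e1 ea) i0 ≤ C2 / n)
    (hk : ∀ (k : ℕ) (κ : ℝ),
        κ = 2 * (((pairs n).card : ℝ) - 3 * (i0 + k : ℕ)) / (n : ℝ) ^ ((3 : ℝ) / 2) →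
        L1 + 2 ≤ κ → ∑ j ∈ range k, bb n (gd n i0 e1 ea) (i0 + j) ≤ D * κ ^ (-(5 : ℝ) / 4))
    (hL1 : 0 ≤ L1) (i : ℕ)
    (hκ : L1 + 2 ≤ 2 * (((pairs n).card : ℝ) - 3 * i) / (n : ℝ) ^ ((3 : ℝ) / 2)) :
    dead n (gd n i0 e1 ea) i ≤
      (D + C2) * (2 * (((pairs n).card : ℝ) - 3 * i) / (n : ℝ) ^ ((3 : ℝ) / 2)) ^ (-(5 : ℝ) / 4) := by
  have hnR : (1 : ℝ) ≤ n := by exact_mod_cast hn
  have hnpos : (0 : ℝ) < n := by linarith
  have hgQ : ∀ i G, gd n i0 e1 ea i G → 0 < Q G := fun i G h => (gd_spec he1 i G h).1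
  obtain ⟨κ, hκd⟩ : ∃ κ : ℝ,
    κ = 2 * (((pairs n).card : ℝ) - 3 * i) / (n : ℝ) ^ ((3 : ℝ) / 2) := ⟨_, rfl⟩
  rw [← hκd] at hκ ⊢
  have hn32 : 0 < (n : ℝ) ^ ((3 : ℝ) / 2) := Real.rpow_pos_of_pos hnpos _
  have hκ0 : 0 < κ := by linarith
  have hκn : κ ≤ Real.sqrt n := by
    rw [hκd, div_le_iff₀ hn32, Real.sqrt_eq_rpow, ← Real.rpow_add hnpos, pairs_card]
    have h2 : (n : ℝ) ^ ((1 : ℝ) / 2 + (3 : ℝ) / 2) = (n : ℝ) ^ 2 := by
      rw [← Real.rpow_natCast]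
      norm_num
    rw [h2]
    have : (0 : ℝ) ≤ i := Nat.cast_nonneg _
    nlinarith
  have hnum1 := num1 C2 κ n (by omega) hκ0 hκn hC2
  have hκp : 0 < κ ^ (-(5 : ℝ) / 4) := Real.rpow_pos_of_pos hκ0 _
  have hde := fun j => (dead_eq hLAW n (gd n i0 e1 ea) hgQ j).1
  have hb0 := (dead_eq hLAW n (gd n i0 e1 ea) hgQ 0).2
  have hkey : dead n (gd n i0 e1 ea) i ≤ C2 / n + D * κ ^ (-(5 : ℝ) / 4) := by
    rcases le_or_gt i i0 with h | h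
    · have h1 : dead n (gd n i0 e1 ea) i ≤ dead n (gd n i0 e1 ea) i0 := by
        rw [hde i, hde i0]
        exact sum_le_sum_of_subset_of_nonneg (range_mono h) (fun j _ _ => hb0 j)
      have h2 : 0 ≤ D * κ ^ (-(5 : ℝ) / 4) := mul_nonneg hD hκp.le
      linarith
    · obtain ⟨k, rfl⟩ : ∃ k, i = i0 + k := ⟨i - i0, by omega⟩
      have h1 := hk k κ hκd hκ
      rw [hde (i0 + k), sum_range_add, ← hde i0]
      linarith
  have : (D + C2) * κ ^ (-(5 : ℝ) / 4) =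
      D * κ ^ (-(5 : ℝ) / 4) + C2 * κ ^ (-(5 : ℝ) / 4) := by ring
  rw [this]
  linarith

/-- the weighted killed sum -/
theorem wsum {n : ℕ} (good : ℕ → Finset (Finset (Fin n)) → Prop) (hLAW : StmtLAW)
    (hgQ : ∀ i G, good i G → 0 < Q G) {D' L K : ℝ} (hD' : 0 ≤ D') (hn : 6 ≤ n)
    (hL : 2 ≤ L) (hK : L ≤ K) (i : ℕ)
    (hd : ∀ i : ℕ, L ≤ 2 * (((pairs n).card : ℝ) - 3 * i) / (n : ℝ) ^ ((3 : ℝ) / 2) →
      dead n good i ≤
      D' * (2 * (((pairs n).card : ℝ) - 3 * i) / (n : ℝ) ^ ((3 : ℝ) / 2)) ^ (-(5 : ℝ) / 4))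
    (hi : K ≤ 2 * (((pairs n).card : ℝ) - 3 * i) / (n : ℝ) ^ ((3 : ℝ) / 2)) :
    dead n good i ≤ D' * K ^ (-(5 : ℝ) / 4) ∧
    ∑ j ∈ range i, (((pairs n).card : ℝ) - 3 * j) * bb n good j ≤
      5 * D' * K ^ (-(1 : ℝ) / 4) * (n : ℝ) ^ ((3 : ℝ) / 2) := by
  have hnR : (6 : ℝ) ≤ n := by exact_mod_cast hn
  have hnpos : (0 : ℝ) < n := by linarith
  have hde := fun j => (dead_eq hLAW n good hgQ j).1
  have hb0 := (dead_eq hLAW n good hgQ 0).2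
  have hn32 : 0 < (n : ℝ) ^ ((3 : ℝ) / 2) := Real.rpow_pos_of_pos hnpos _
  have hn32' : 6 ≤ (n : ℝ) ^ ((3 : ℝ) / 2) := by
    calc (6 : ℝ) ≤ n := hnR
      _ = (n : ℝ) ^ (1 : ℝ) := (Real.rpow_one _).symm
      _ ≤ (n : ℝ) ^ ((3 : ℝ) / 2) := Real.rpow_le_rpow_of_exponent_le (by linarith) (by norm_num)
  obtain ⟨N, hN⟩ : ∃ N : ℝ, N = (n : ℝ) ^ ((3 : ℝ) / 2) := ⟨_, rfl⟩
  rw [← hN] at hd hi hn32 hn32' ⊢
  obtain ⟨M, hM⟩ : ∃ M : ℝ, M = ((pairs n).card : ℝ) := ⟨_, rfl⟩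
  rw [← hM] at hd hi ⊢
  have hK0 : 0 < K := by linarith
  set κ : ℝ := 2 * (M - 3 * i) / N with hκ
  have hκ0 : 0 < κ := by linarith
  have hm : M - 3 * i = κ * N / 2 := by rw [hκ]; field_simp
  have h54 : κ ^ (-(5 : ℝ) / 4) ≤ K ^ (-(5 : ℝ) / 4) :=
    Real.rpow_le_rpow_of_nonpos hK0 hi (by norm_num)
  have h14 : κ ^ (-(1 : ℝ) / 4) ≤ K ^ (-(1 : ℝ) / 4) :=
    Real.rpow_le_rpow_of_nonpos hK0 hi (by norm_num)
  refine ⟨(hd i (by linarith)).trans (mul_le_mul_of_nonneg_left h54 hD'), ?_⟩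
  rw [abel M (bb n good) i]
  have h1 : (M - 3 * i) * (∑ j ∈ range i, bb n good j) ≤
      D' * N / 2 * κ ^ (-(1 : ℝ) / 4) := by
    rw [← hde i, hm]
    have h2 := mul_le_mul_of_nonneg_left (hd i (by linarith)) (show 0 ≤ κ * N / 2 by positivity)
    have h3 : κ * κ ^ (-(5 : ℝ) / 4) = κ ^ (-(1 : ℝ) / 4) := by
      nth_rw 1 [← Real.rpow_one κ]
      rw [← Real.rpow_add hκ0]
      norm_num
    calc κ * N / 2 * dead n good i ≤ κ * N / 2 * (D' * κ ^ (-(5 : ℝ) / 4)) := h2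
      _ = D' * N / 2 * (κ * κ ^ (-(5 : ℝ) / 4)) := by ring
      _ = _ := by rw [h3]
  have h2 : 3 * ∑ j ∈ range i, ∑ l ∈ range (j + 1), bb n good l ≤
      4 * D' * N * κ ^ (-(1 : ℝ) / 4) := by
    have h3 : ∀ j ∈ range i, ∑ l ∈ range (j + 1), bb n good l ≤
        D' * (2 * (M - 3 * (j + 1 : ℕ)) / N) ^ (-(5 : ℝ) / 4) := by
      intro j hj
      rw [mem_range] at hj
      rw [← hde (j + 1)]
      apply hd
      have h4 : ((j + 1 : ℕ) : ℝ) ≤ i := by exact_mod_cast hj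
      have h5 : κ ≤ 2 * (M - 3 * (j + 1 : ℕ)) / N := by
        rw [hκ]
        apply div_le_div_of_nonneg_right _ hn32.le
        linarith
      linarith
    have h4 := sum_le_sum h3
    rw [← mul_sum] at h4
    have h5 := tel2 M N hn32 i (by
      rw [← hκ]
      have : 6 / N ≤ 1 := by rw [div_le_one hn32]; exact hn32'
      linarith)
    rw [← hκ] at h5
    have h6 := mul_le_mul_of_nonneg_left h5 hD'
    have h7 := mul_le_mul_of_nonneg_left h4 (show (0 : ℝ) ≤ 3 by norm_num)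
    calc 3 * ∑ j ∈ range i, ∑ l ∈ range (j + 1), bb n good l
        ≤ 3 * (D' * ∑ j ∈ range i, (2 * (M - 3 * (j + 1 : ℕ)) / N) ^ (-(5 : ℝ) / 4)) := h7
      _ = D' * (3 * ∑ j ∈ range i, (2 * (M - 3 * (j + 1 : ℕ)) / N) ^ (-(5 : ℝ) / 4)) := by ring
      _ ≤ _ := h6
      _ = _ := by ring
  have h3 : D' * N * κ ^ (-(1 : ℝ) / 4) ≤ D' * N * K ^ (-(1 : ℝ) / 4) :=
    mul_le_mul_of_nonneg_left h14 (by positivity)
  have h4 : 0 ≤ D' * N * K ^ (-(1 : ℝ) / 4) := by positivity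
  have e1 : D' * N / 2 * κ ^ (-(1 : ℝ) / 4) = (D' * N * κ ^ (-(1 : ℝ) / 4)) / 2 := by ring
  have e2 : 4 * D' * N * κ ^ (-(1 : ℝ) / 4) = 4 * (D' * N * κ ^ (-(1 : ℝ) / 4)) := by ring
  have e3 : 5 * D' * K ^ (-(1 : ℝ) / 4) * N = 5 * (D' * N * K ^ (-(1 : ℝ) / 4)) := by ring
  rw [e3]
  rw [e1] at h1
  rw [e2] at h2
  linarith

/-- consequences of a bound for the potential -/
theorem potbd (hENT : StmtENTRST) (hPS : StmtPSIDL) {cB A K : ℝ} (hcB : 0 ≤ cB) (hA : 0 ≤ A)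
    (hK : 1 ≤ K) {n m : ℕ} (hn : 1 ≤ n) (mu : Finset (Finset (Fin n)) → ℝ) (hmu : ∀ G, 0 ≤ mu G)
    (hsup : ∀ G, mu G ≠ 0 → G ⊆ pairs n ∧ G.card = m) (hmass : EX mu (fun _ => 1) ≤ 1)
    (hm : m ≤ (pairs n).card) (hmK : K * (n : ℝ) ^ ((3 : ℝ) / 2) / 2 ≤ (m : ℝ))
    (hMh : Mh cB mu m ≤ A) :
    DD mu m ≤ 3 * A / K * (n : ℝ) ^ ((3 : ℝ) / 2) ∧
      EX mu (fun G => |yy G - lam n G.card|) ≤ 20 * (A + 1) + 1 := by
  have hnR : (1 : ℝ) ≤ n := by exact_mod_cast hn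
  have hnpos : (0 : ℝ) < n := by linarith
  have hn32 : 0 < (n : ℝ) ^ ((3 : ℝ) / 2) := Real.rpow_pos_of_pos hnpos _
  have hsq : ((n : ℝ) ^ ((3 : ℝ) / 2)) ^ 2 = (n : ℝ) ^ 3 := by
    rw [← Real.rpow_natCast, ← Real.rpow_mul hnpos.le, ← Real.rpow_natCast]
    norm_num
  have hmp : (0 : ℝ) < m := lt_of_lt_of_le (by positivity) hmK
  have hmN : 0 < m := by exact_mod_cast hmp
  have hn3 : (0 : ℝ) < (n : ℝ) ^ 3 := by positivity
  have hEnt := hENT n m mu mu (fun _ => True) hmu (fun G => le_rfl) hsup hmass hm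
  obtain ⟨-, -, hDDlow, -⟩ := hEnt
  have hm3 : (m : ℝ) / (n : ℝ) ^ 3 ≤ 1 := by
    rw [div_le_one hn3]
    have h1 : (m : ℝ) ≤ ((pairs n).card : ℝ) := by exact_mod_cast hm
    rw [pairs_card] at h1
    nlinarith [mul_nonneg hnpos.le (sub_nonneg.mpr hnR), mul_nonneg (sq_nonneg (n : ℝ)) (sub_nonneg.mpr hnR)]
  have hm30 : 0 < (m : ℝ) / (n : ℝ) ^ 3 := by positivity
  -- support facts
  have hfac : ∀ G, mu G ≠ 0 → 0 ≤ NN cB G ∧ |yy G - lam n G.card| ≤ 20 * NN cB G + 1 := by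
    intro G hG
    obtain ⟨h1, h2⟩ := hsup G hG
    obtain ⟨p1, p2, p3, p4, p5, p6⟩ := hPS n G (by omega) h1 (by omega)
    have h3 : 0 ≤ cB * Bd G := mul_nonneg hcB p6
    have hl : 0 < lam n G.card := by
      unfold lam
      rw [h2]
      positivity
    have h4 : |yy G - lam n G.card| = lam n G.card * |dl G| := by
      have : yy G - lam n G.card = lam n G.card * dl G := by
        unfold dl
        field_simp
      rw [this, abs_mul, abs_of_pos hl]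
    constructor
    · unfold NN
      linarith
    · rw [h4]
      unfold NN
      linarith
  have hNN0 : 0 ≤ EX mu (NN cB) := by
    unfold EX
    refine sum_nonneg fun G _ => ?_
    rcases eq_or_ne (mu G) 0 with h | h
    · rw [h, zero_mul]
    · exact mul_nonneg (hmu G) (hfac G h).1
  have hY : EX mu (fun G => |yy G - lam n G.card|) ≤ 20 * EX mu (NN cB) + EX mu (fun _ => 1) := by
    unfold EX
    rw [mul_sum, ← sum_add_distrib]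
    refine sum_le_sum fun G _ => ?_
    rcases eq_or_ne (mu G) 0 with h | h
    · rw [h]; simp
    · have h1 := mul_le_mul_of_nonneg_left (hfac G h).2 (hmu G)
      calc mu G * |yy G - lam n G.card| ≤ mu G * (20 * NN cB G + 1) := h1
        _ = 20 * (mu G * NN cB G) + mu G * 1 := by ring
  unfold Mh at hMh
  constructor
  · have h1 : (393 / 500) * ((m : ℝ) / (n : ℝ) ^ 3) * DD mu m ≤ A := by linarith
    have h2 : DD mu m ≤ A / ((393 / 500) * ((m : ℝ) / (n : ℝ) ^ 3)) := by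
      rw [le_div_iff₀ (by positivity)]
      linarith
    refine h2.trans ?_
    rw [div_le_iff₀ (by positivity)]
    have h3 : K * (n : ℝ) ^ ((3 : ℝ) / 2) / 2 / (n : ℝ) ^ 3 ≤ (m : ℝ) / (n : ℝ) ^ 3 :=
      div_le_div_of_nonneg_right hmK hn3.le
    have h4 : K * (n : ℝ) ^ ((3 : ℝ) / 2) / 2 / (n : ℝ) ^ 3 = K / 2 / (n : ℝ) ^ ((3 : ℝ) / 2) := by
      rw [← hsq]
      field_simp
    rw [h4] at h3
    have h5 : 0 ≤ 3 * A / K * (n : ℝ) ^ ((3 : ℝ) / 2) := by positivity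
    have h6 := mul_le_mul_of_nonneg_left h3 h5
    have h7 : 3 * A / K * (n : ℝ) ^ ((3 : ℝ) / 2) * (K / 2 / (n : ℝ) ^ ((3 : ℝ) / 2)) = 3 / 2 * A := by
      field_simp
    rw [h7] at h6
    have h8 : 3 * A / K * (n : ℝ) ^ ((3 : ℝ) / 2) * (393 / 500 * ((m : ℝ) / (n : ℝ) ^ 3)) =
      393 / 500 * (3 * A / K * (n : ℝ) ^ ((3 : ℝ) / 2) * ((m : ℝ) / (n : ℝ) ^ 3)) := by ring
    rw [h8]
    linarith
  · have h1 : -1 ≤ (393 / 500) * ((m : ℝ) / (n : ℝ) ^ 3) * DD mu m := by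
      have h2 : 0 ≤ (393 / 500) * ((m : ℝ) / (n : ℝ) ^ 3) := by positivity
      have h3 : (393 / 500) * ((m : ℝ) / (n : ℝ) ^ 3) ≤ 1 := by linarith
      nlinarith
    linarith

/-- START from the modules of the bulk -/
theorem start_thm (hBSTEP : StmtBSTEP) (hBKILL : StmtBKILL) (hBREC : StmtBREC) (hINIT : StmtINIT)
    (hLAW : StmtLAW) (hENT : StmtENTRST) (hPS : StmtPSIDL) : StmtSTART := by
  classical
  obtain ⟨cB, e1, ea, p, D, C2, L1, A, n0, hcB, he1, hp, hp', hD, hC2, hL1, hA, hmain⟩ :=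
    after2 hBSTEP hBKILL hBREC hINIT hLAW
  refine ⟨6 * (D + C2) + 23 * (A + 1) + 100, L1 + 2, by positivity, by linarith, ?_⟩
  intro K hK
  have hK2 : 2 ≤ K := by linarith
  obtain ⟨n1, hn1⟩ := extra p C2 K hp hC2 (by linarith)
  refine ⟨max (max n0 n1) (max 100 (max ⌈6 / p⌉₊ (⌈(4 * K / p) ^ 2⌉₊ + 1))), ?_⟩
  intro n hn
  have hna := le_trans (le_max_left _ _) hn
  have hnb := le_trans (le_max_right _ _) hn
  have hn0 : n0 ≤ n := le_trans (le_max_left _ _) hna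
  have hn1' : n1 ≤ n := le_trans (le_max_right _ _) hna
  have hn100 : 100 ≤ n := le_trans (le_max_left _ _) hnb
  have hn2 := le_trans (le_max_right _ _) hnb
  have hn6 : 6 / p ≤ (n : ℝ) := le_trans (Nat.le_ceil _)
    (by exact_mod_cast le_trans (le_max_left _ _) hn2)
  have hnK : (4 * K / p) ^ 2 + 1 ≤ (n : ℝ) := by
    have h1 : ⌈(4 * K / p) ^ 2⌉₊ + 1 ≤ n := le_trans (le_max_right _ _) hn2
    have h2 : ((⌈(4 * K / p) ^ 2⌉₊ + 1 : ℕ) : ℝ) ≤ n := by exact_mod_cast h1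
    have h3 := Nat.le_ceil ((4 * K / p) ^ 2)
    push_cast at h2
    linarith
  have hnR : (100 : ℝ) ≤ n := by exact_mod_cast hn100
  have hnpos : (0 : ℝ) < n := by linarith
  obtain ⟨i0, hM1, hM2, hM3⟩ := start p hp hp' n (by omega) (by
    rw [div_le_iff₀ hp] at hn6
    nlinarith)
  obtain ⟨hd0, hk⟩ := hmain n i0 hn0 hn100 hM1 hM2 hM3
  have hgQ : ∀ i G, gd n i0 e1 ea i G → 0 < Q G := fun i G h => (gd_spec he1 i G h).1
  have hdead := deadbd hLAW he1 hD hC2 (by omega) hd0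
    (fun k κ h1 h2 => (hk k κ h1 h2).1) hL1
  refine ⟨gd n i0 e1 ea, hgQ, ?_⟩
  intro i hi1 hi2
  have hn32 : 0 < (n : ℝ) ^ ((3 : ℝ) / 2) := Real.rpow_pos_of_pos hnpos _
  obtain ⟨κ, hκ⟩ : ∃ κ : ℝ,
    κ = 2 * (((pairs n).card : ℝ) - 3 * i) / (n : ℝ) ^ ((3 : ℝ) / 2) := ⟨_, rfl⟩
  have hκK : K ≤ κ := by
    rw [hκ, le_div_iff₀ hn32]
    linarith
  have hκ2K : κ ≤ 2 * K := by
    rw [hκ, div_le_iff₀ hn32]
    linarith
  obtain ⟨hw1, hw2⟩ := wsum (gd n i0 e1 ea) hLAW hgQ (show 0 ≤ D + C2 by linarith) (by omega)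
    (show 2 ≤ L1 + 2 by linarith) hK i (fun j hj => hdead j hj) (by rw [← hκ]; exact hκK)
  -- i0 ≤ i
  have hsq : Real.sqrt n * Real.sqrt n = n := Real.mul_self_sqrt hnpos.le
  have hs4 : 4 * K / p < Real.sqrt n := by
    apply Real.lt_sqrt_of_sq_lt
    linarith
  have hi0 : i0 ≤ i := by
    by_contra hcon
    push Not at hcon
    have h1 : (i : ℝ) ≤ i0 := by exact_mod_cast hcon.le
    have h2 : (n : ℝ) ^ ((3 : ℝ) / 2) * Real.sqrt n = (n : ℝ) ^ 2 := by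
      rw [Real.sqrt_eq_rpow, ← Real.rpow_add hnpos, ← Real.rpow_natCast]
      norm_num
    rw [div_lt_iff₀ hp] at hs4
    have h3 := mul_lt_mul_of_pos_left hs4 hn32
    have h4 : (n : ℝ) ^ ((3 : ℝ) / 2) * (Real.sqrt n * p) = (n : ℝ) ^ 2 * p := by
      rw [← mul_assoc, h2]
    rw [h4] at h3
    have h5 : 0 ≤ K * (n : ℝ) ^ ((3 : ℝ) / 2) := by positivity
    linarith
  obtain ⟨k, rfl⟩ : ∃ k, i = i0 + k := ⟨i - i0, by omega⟩
  obtain ⟨hk1, hk2⟩ := hk k κ hκ (by linarith)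
  have hex := hn1 n hn1' κ (by linarith) hκ2K
  have hl := hLAW n (gd n i0 e1 ea) hgQ (i0 + k)
  have hKn : 0 < K * (n : ℝ) ^ ((3 : ℝ) / 2) / 2 := by positivity
  have h3i : 3 * (i0 + k) ≤ (pairs n).card := by
    have h1 : (3 : ℝ) * ((i0 + k : ℕ) : ℝ) ≤ ((pairs n).card : ℝ) := by linarith
    exact_mod_cast h1
  have hcast : (((pairs n).card - 3 * (i0 + k) : ℕ) : ℝ) =
      ((pairs n).card : ℝ) - 3 * ((i0 + k : ℕ) : ℝ) := by
    rw [Nat.cast_sub h3i]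
    push_cast
    ring
  have hmm : (pairs n).card - 3 * i0 - 3 * k = (pairs n).card - 3 * (i0 + k) := by omega
  rw [hmm] at hk2
  obtain ⟨hp1, hp2⟩ := potbd hENT hPS hcB (show 0 ≤ A + 1 by linarith) (show 1 ≤ K by linarith)
    (show 1 ≤ n by omega) (law n (gd n i0 e1 ea) (i0 + k)) hl.1
    (m := (pairs n).card - 3 * (i0 + k))
    (by
      intro G hG
      obtain ⟨h1, h2⟩ := hl.2.1 G hG
      exact ⟨h1, by omega⟩)
    (EX_le_one hLAW n (gd n i0 e1 ea) hgQ _) (by omega) (by rw [hcast]; exact hi1) (by linarith)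
  have hK54 : 0 < K ^ (-(5 : ℝ) / 4) := Real.rpow_pos_of_pos (by linarith) _
  have hK14 : 0 < K ^ (-(1 : ℝ) / 4) := Real.rpow_pos_of_pos (by linarith) _
  refine ⟨?_, ?_, ?_, ?_⟩
  · refine hw1.trans (mul_le_mul_of_nonneg_right ?_ hK54.le)
    linarith
  · refine le_trans (le_of_eq ?_) (hw2.trans (mul_le_mul_of_nonneg_right
      (mul_le_mul_of_nonneg_right ?_ hK14.le) hn32.le))
    · rfl
    · linarith
  · refine hp1.trans (mul_le_mul_of_nonneg_right ?_ hn32.le)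
    apply div_le_div_of_nonneg_right _ (by linarith)
    linarith
  · refine hp2.trans ?_
    linarith

end Vale.Agent.P046.Sh
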