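import Vale.Agent.P046.Sh.DynDefs
import Vale.Agent.P046.S3

/-!
# P046, sharp constant: three pieces of the module STEP2 (helper16)

`m` edges, `L = lam n m`, `b = be L`.  Proofs: notes/P046_dyn_helper16.md (DET, BETA, XRL).
-/

namespace Vale.Agent.P046.Sh

open Finset

/-- module DET (from `StmtCNADD`): the partition function of one reverse step -/
def StmtDET : Prop := ∀ l0 Lmax eps : ℝ, 1 / 2 < l0 → 0 < eps →
  ∃ n0 : ℕ, ∀ (n : ℕ) (H : Finset (Finset (Fin n))), n0 ≤ n → H ⊆ pairs n →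
  l0 ≤ lam n H.card → lam n H.card ≤ Lmax → |xr H - 1| ≤ 1 / 50 →
  0 < ∑ T ∈ anti H, Real.exp (- (be (lam n H.card) * (Q (add H T) - Q H))) / Q (add H T) →
  Real.log (rat n H.card *
      ∑ T ∈ anti H, Real.exp (- (be (lam n H.card) * (Q (add H T) - Q H))) / Q (add H T))
    ≤ - Real.log (xr H) + lt3 H + eps

/-- module BETA: real analysis of `be` -/
def StmtBETA : Prop := ∀ l0 Lmax eps : ℝ, 1 / 2 < l0 → 0 < eps →
  ∃ n0 : ℕ, ∀ n m : ℕ, n0 ≤ n → l0 ≤ lam n m → lam n m ≤ Lmax →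
  0 < be (lam n m) ∧ be (lam n (m + 3 : ℕ)) ≤ be (lam n m) ∧
  (be (lam n m) - be (lam n (m + 3 : ℕ)))
    * (((m + 3 : ℕ) : ℝ) * (lam n (m + 3 : ℕ) - 1 / 2) / 3) ≤ 1 + eps

/-- module XRL (from `StmtDQ`): `xr` changes little in one step -/
def StmtXRL : Prop := ∀ l0 Lmax eps : ℝ, 1 / 2 < l0 → 0 < eps →
  ∃ n0 : ℕ, ∀ (n m : ℕ) (G : Finset (Finset (Fin n))) (T : Finset (Fin n)), n0 ≤ n →
  G ⊆ pairs n → T ∈ tri G → G.card = m + 3 → l0 ≤ lam n m →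
  lam n m ≤ Lmax → |xr G - 1| ≤ 1 / 100 →
  |xr (del G T) - xr G| ≤ eps ∧ 0 < Q (del G T)

end Vale.Agent.P046.Sh
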